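import Vale.Agent.P029.HT

/-!
The algebra `A K` (enveloping algebra of the sphere braid Lie algebra on five strands) in dihedral
generators `f 0 = t12, f 1 = t123, f 2 = t23, f 3 = t234, f 4 = t34`, the linear pentagon `Pent`,
the group pentagon `DP`, and families of elements satisfying the `t4` / five strand relations.
-/

namespace Vale.Agent.P029

attribute [local instance 100] LieRing.ofAssociativeRing

section
variable {R : Type} [CommRing R] {B B' : Type} [Ring B] [Algebra R B] [Ring B'] [Algebra R B']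

structure Rel {B : Type} [Ring B] (f : Fin 5 → B) : Prop where
  c01 : Commute (f 0) (f 1)
  c12 : Commute (f 1) (f 2)
  c23 : Commute (f 2) (f 3)
  c34 : Commute (f 3) (f 4)
  c40 : Commute (f 4) (f 0)
  cx : Commute (f 1 - f 0 - f 2) (f 3 - f 2 - f 4)

noncomputable def h1 (f : Fin 5 → B) : T R (Fin 2) →ₐ[R] B := ev ![f 0, f 2]
noncomputable def h2 (f : Fin 5 → B) : T R (Fin 2) →ₐ[R] B := ev ![f 0, f 3 - f 4]
noncomputable def h3 (f : Fin 5 → B) : T R (Fin 2) →ₐ[R] B := ev ![f 1 - f 0, f 4]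
noncomputable def h4 (f : Fin 5 → B) : T R (Fin 2) →ₐ[R] B := ev ![f 2, f 4]
noncomputable def h5 (f : Fin 5 → B) : T R (Fin 2) →ₐ[R] B := ev ![f 1 - f 2, f 3 - f 2]

/-- the linear pentagon expression -/
noncomputable def pent (f : Fin 5 → B) : T R (Fin 2) →ₗ[R] B :=
  (h2 f).toLinearMap + (h3 f).toLinearMap - (h4 f).toLinearMap - (h5 f).toLinearMap -
    (h1 f).toLinearMap

lemma pent_apply (f : Fin 5 → B) (u : T R (Fin 2)) :
    pent f u = h2 f u + h3 f u - h4 f u - h5 f u - h1 f u := rfl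

lemma Rel.map {F : Type} [FunLike F B B'] [RingHomClass F B B'] {f : Fin 5 → B} (h : Rel f)
    (φ : F) : Rel fun i => φ (f i) :=
  ⟨h.c01.map φ, h.c12.map φ, h.c23.map φ, h.c34.map φ, h.c40.map φ, by
    simpa only [map_sub] using h.cx.map φ⟩

lemma Rel.smul {f : Fin 5 → B} (h : Rel f) (c : R) : Rel fun i => c • f i :=
  ⟨(h.c01.smul_left c).smul_right c, (h.c12.smul_left c).smul_right c,
    (h.c23.smul_left c).smul_right c, (h.c34.smul_left c).smul_right c,
    (h.c40.smul_left c).smul_right c, by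
    simpa only [smul_sub] using (h.cx.smul_left c).smul_right c⟩

lemma map_h1 (φ : B →ₐ[R] B') (f : Fin 5 → B) (u : T R (Fin 2)) :
    φ (h1 f u) = h1 (fun i => φ (f i)) u := by simp [h1, map_ev2]
lemma map_h2 (φ : B →ₐ[R] B') (f : Fin 5 → B) (u : T R (Fin 2)) :
    φ (h2 f u) = h2 (fun i => φ (f i)) u := by simp [h2, map_ev2]
lemma map_h3 (φ : B →ₐ[R] B') (f : Fin 5 → B) (u : T R (Fin 2)) :
    φ (h3 f u) = h3 (fun i => φ (f i)) u := by simp [h3, map_ev2]
lemma map_h4 (φ : B →ₐ[R] B') (f : Fin 5 → B) (u : T R (Fin 2)) :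
    φ (h4 f u) = h4 (fun i => φ (f i)) u := by simp [h4, map_ev2]
lemma map_h5 (φ : B →ₐ[R] B') (f : Fin 5 → B) (u : T R (Fin 2)) :
    φ (h5 f u) = h5 (fun i => φ (f i)) u := by simp [h5, map_ev2]

lemma map_pent (φ : B →ₐ[R] B') (f : Fin 5 → B) (u : T R (Fin 2)) :
    φ (pent f u) = pent (fun i => φ (f i)) u := by
  simp only [pent_apply, map_sub, map_add, map_h1, map_h2, map_h3, map_h4, map_h5]

/-- solutions of the linear pentagon equation -/
def Pent (R : Type) [CommRing R] : Submodule R (T R (Fin 2)) where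
  carrier := {u | ∀ (B : Type) [Ring B] [Algebra R B] (f : Fin 5 → B), Rel f → pent f u = 0}
  zero_mem' := by intro B _ _ f _; simp
  add_mem' := by intro a b ha hb B _ _ f h; simp [ha B f h, hb B f h]
  smul_mem' := by intro c a ha B _ _ f h; simp [ha B f h]

lemma Rel.pent {u : T R (Fin 2)} (hu : u ∈ Pent R) {f : Fin 5 → B} (h : Rel f) : pent f u = 0 :=
  hu B f h

inductive AR (R : Type) [CommRing R] : T R (Fin 5) → T R (Fin 5) → Prop
  | c01 : AR R (lt 0 * lt 1) (lt 1 * lt 0)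
  | c12 : AR R (lt 1 * lt 2) (lt 2 * lt 1)
  | c23 : AR R (lt 2 * lt 3) (lt 3 * lt 2)
  | c34 : AR R (lt 3 * lt 4) (lt 4 * lt 3)
  | c40 : AR R (lt 4 * lt 0) (lt 0 * lt 4)
  | cx : AR R ((lt 1 - lt 0 - lt 2) * (lt 3 - lt 2 - lt 4)) ((lt 3 - lt 2 - lt 4) * (lt 1 - lt 0 - lt 2))

abbrev A (R : Type) [CommRing R] : Type := RingQuot (AR R)

noncomputable def mkA (R : Type) [CommRing R] : T R (Fin 5) →ₐ[R] A R := RingQuot.mkAlgHom R (AR R)

noncomputable def ag (R : Type) [CommRing R] (i : Fin 5) : A R := mkA R (lt i)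

lemma mkA_surjective : Function.Surjective (mkA R) := RingQuot.mkAlgHom_surjective R _

lemma mkA_eq (u : T R (Fin 5)) : mkA R u = ev (ag R) u := by
  have := map_ev (mkA R) lt u
  rwa [ev_lt_id] at this

lemma rel_ag : Rel (ag R) := by
  have key : ∀ {a b : T R (Fin 5)}, AR R (a * b) (b * a) → Commute (mkA R a) (mkA R b) := by
    intro a b h
    have := RingQuot.mkAlgHom_rel R h
    rw [map_mul, map_mul] at this
    exact this
  refine ⟨key .c01, key .c12, key .c23, key .c34, key .c40, ?_⟩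
  have := key .cx
  rw [map_sub, map_sub, map_sub, map_sub] at this
  exact this

noncomputable def liftA {f : Fin 5 → B} (h : Rel f) : A R →ₐ[R] B :=
  RingQuot.liftAlgHom R ⟨ev f, by
    intro a b hab
    cases hab <;> simp only [map_mul, map_sub, ev_lt]
    exacts [h.c01.eq, h.c12.eq, h.c23.eq, h.c34.eq, h.c40.eq, h.cx.eq]⟩

lemma liftA_mk {f : Fin 5 → B} (h : Rel f) (u : T R (Fin 5)) : liftA h (mkA R u) = ev f u :=
  RingQuot.liftAlgHom_mkAlgHom_apply _ _ _ _

@[simp] lemma liftA_ag {f : Fin 5 → B} (h : Rel f) (i : Fin 5) : liftA h (ag R i) = f i := by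
  rw [ag, liftA_mk, ev_lt]

lemma mem_Pent_iff {u : T R (Fin 2)} : u ∈ Pent R ↔ pent (ag R) u = 0 := by
  refine ⟨fun h => rel_ag.pent h, fun h B _ _ f hf => ?_⟩
  have := map_pent (liftA (R := R) hf) (ag R) u
  simp only [liftA_ag] at this
  rw [← this, h, map_zero]

/-- the degree filtration of `A R` -/
noncomputable def JA (R : Type) [CommRing R] (k : ℕ) : Submodule R (A R) :=
  (Fil R one k).map (mkA R).toLinearMap

lemma isFil_JA : IsFil (JA R) := (isFil_Fil one).map _ mkA_surjective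

lemma ag_mem_JA (i : Fin 5) : ag R i ∈ JA R 1 := ⟨lt i, lt_mem_Fil one i, rfl⟩

/-- the group pentagon equation modulo degree `n + 1` -/
def DP (n : ℕ) (Φ : T R (Fin 2)) : Prop :=
  h2 (ag R) Φ * h3 (ag R) Φ - h4 (ag R) Φ * h5 (ag R) Φ * h1 (ag R) Φ ∈ JA R (n + 1)

end

section
variable {B : Type} [Ring B]

/-- the relations of `t4` -/
structure T4F (t12 t13 t14 t23 t24 t34 : B) : Prop where
  d1 : Commute t12 t34
  d2 : Commute t13 t24
  d3 : Commute t14 t23
  a12 : Commute t12 (t13 + t23)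
  a13 : Commute t13 (t12 + t23)
  a23 : Commute t23 (t12 + t13)
  b12 : Commute t12 (t14 + t24)
  b14 : Commute t14 (t12 + t24)
  b24 : Commute t24 (t12 + t14)
  c13 : Commute t13 (t14 + t34)
  c14 : Commute t14 (t13 + t34)
  c34 : Commute t34 (t13 + t14)
  e23 : Commute t23 (t24 + t34)
  e24 : Commute t24 (t23 + t34)
  e34 : Commute t34 (t23 + t24)

/-- the relations of the sphere braid Lie algebra on five strands (labels `0..4`) -/
structure P5 (x : Fin 5 → Fin 5 → B) : Prop where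
  symm : ∀ i j, x i j = x j i
  comm : ∀ i j k l, [i, j, k, l].Nodup → Commute (x i j) (x k l)
  tri : ∀ i j k l m, [i, j, k, l, m].Nodup → x i j + x i k + x j k = x l m

/-- the five strand family attached to dihedral generators -/
def xm (f : Fin 5 → B) : Fin 5 → Fin 5 → B :=
  ![![0, f 0, f 1 - f 0 - f 2, f 2 - f 3 - f 1, f 3],
    ![f 0, 0, f 2, f 3 - f 2 - f 4, f 4 - f 0 - f 3],
    ![f 1 - f 0 - f 2, f 2, 0, f 4, f 0 - f 4 - f 1],
    ![f 2 - f 3 - f 1, f 3 - f 2 - f 4, f 4, 0, f 1],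
    ![f 3, f 4 - f 0 - f 3, f 0 - f 4 - f 1, f 1, 0]]

end

end Vale.Agent.P029
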