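import Vale.Agent.P029.HT

/-!
Saturation of the free Lie algebra in the free associative algebra (replaces PBW).

Plan for `sat`: fix `p`, `n`. Prove `P m : ∀ X wt, locally finite → (∀ i, m ≤ wt i) → statement` by
decreasing induction on `m` from `n + 1` (there `Hom_eq_bot`) down to `1`. Step (`1 ≤ m`): inner
induction on `{i | wt i = m}.ncard`; if `0` use `P (m+1)`. Otherwise pick `x` with `wt x = m`,
`X' = {y // y ≠ x} × ℕ`, `wt' = lzw wt x` (locally finite since `m ≥ 1`, one letter of weight `m`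
less). `lazard` + `Hom_map` give `ℓ = c • of x + lift (lzf of x) ℓ'` with `ℓ' ∈ Hom (of) wt' n`.
J-trick: `ρ = ev P : T R X →ₐ Module.End R (T R X')` with `P x = der ((y,k) ↦ lt (y,k+1))` and
`P y = mulLeft (lt (y,0))`. Then `ρ (io (lift (lzf of x) b)) = mulLeft (io b)` for all `b` (both are
Lie homs; on generators `⁅D, mulLeft a⁆ = mulLeft (D a)`), and `ρ (lt x) 1 = 0`. So
`io ℓ' = ρ (io ℓ) 1` is divisible by `p` (`dvd_cf_iff`), the induction hypothesis gives
`ℓ' = p • ℓ''`, and then `p ∣ c` by taking the coefficient of the word `[x]`.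
`sat_all`: decompose with `exists_sum_Hom`, and use `pr_sum`, `cf_pr`, `HT_le_Hg`.
-/

namespace Vale.Agent.P029

attribute [local instance 100] LieRing.ofAssociativeRing

variable {R : Type} [CommRing R] {X : Type} {wt : X → ℕ}

lemma dvd_cf_iff (p : R) (u : T R X) : (∀ w, p ∣ cf w u) ↔ ∃ v, u = p • v := by
  constructor
  · intro h
    choose c hc using h
    refine ⟨∑ w ∈ supp u, c w • wd w, ?_⟩
    rw [Finset.smul_sum]
    conv_lhs => rw [eq_sum_wd u]
    exact Finset.sum_congr rfl fun w _ => by rw [hc w, smul_smul]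
  · rintro ⟨v, rfl⟩ w
    exact ⟨cf w v, by simp⟩

/-- the saturation statement for one alphabet -/
def SatS (p : R) (wt : X → ℕ) (n : ℕ) : Prop :=
  ∀ ℓ ∈ Hom R (FreeLieAlgebra.of R) wt n, (∃ v, io ℓ = p • v) →
    ∃ ℓ' ∈ Hom R (FreeLieAlgebra.of R) wt n, ℓ = p • ℓ'

/-- the shift derivation on the new alphabet -/
noncomputable def satD (R : Type) [CommRing R] (x : X) :
    Module.End R (T R ({y // y ≠ x} × ℕ)) :=
  der fun j => lt (j.1, j.2 + 1)

open Classical in
/-- the operators of the representation -/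
noncomputable def satP (R : Type) [CommRing R] (x i : X) :
    Module.End R (T R ({y // y ≠ x} × ℕ)) :=
  if h : i = x then satD R x else Algebra.lmul R _ (lt (⟨i, h⟩, 0))

lemma satP_self (x : X) : satP R x x = satD R x := by simp [satP]

lemma satP_ne (x : X) (y : {y // y ≠ x}) : satP R x y.1 = Algebra.lmul R _ (lt (y, 0)) := by
  simp [satP, y.2]

lemma sat_map_lie {B B' : Type} [Ring B] [Algebra R B] [Ring B'] [Algebra R B'] (φ : B →ₐ[R] B')
    (a b : B) : φ ⁅a, b⁆ = ⁅φ a, φ b⁆ := by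
  simp only [Ring.lie_def, map_sub, map_mul]

lemma satD_lie (x : X) (a : T R ({y // y ≠ x} × ℕ)) :
    ⁅satD R x, Algebra.lmul R _ a⁆ = Algebra.lmul R _ (satD R x a) := by
  refine LinearMap.ext fun m => ?_
  simp [Ring.lie_def, satD, der_mul]

lemma sat_lzf_succ {g : Type} [LieRing g] (f : X → g) (x : X) (y : {y // y ≠ x}) (k : ℕ) :
    lzf f x (y, k + 1) = ⁅f x, lzf f x (y, k)⁆ := by
  simp only [lzf, Function.iterate_succ_apply']

lemma sat_gen (x : X) (y : {y // y ≠ x}) (k : ℕ) :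
    ev (satP R x) (io (lzf (FreeLieAlgebra.of R) x (y, k))) = Algebra.lmul R _ (lt (y, k)) := by
  induction k with
  | zero =>
    change ev (satP R x) (io (FreeLieAlgebra.of R y.1)) = _
    rw [io_of, ev_lt, satP_ne]
  | succ k ih =>
    rw [sat_lzf_succ, LieHom.map_lie, sat_map_lie, ih, io_of, ev_lt, satP_self, satD_lie, satD, der_lt]

lemma sat_rho (x : X) (b : FreeLieAlgebra R ({y // y ≠ x} × ℕ)) :
    ev (satP R x) (io (FreeLieAlgebra.lift R (lzf (FreeLieAlgebra.of R) x) b)) =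
      Algebra.lmul R _ (io b) := by
  refine free_ind (p := fun b => ev (satP R x)
    (io (FreeLieAlgebra.lift R (lzf (FreeLieAlgebra.of R) x) b)) = Algebra.lmul R _ (io b))
    ?_ ?_ ?_ ?_ ?_ b
  · rintro ⟨y, k⟩
    rw [FreeLieAlgebra.lift_of_apply, sat_gen, io_of]
  · intro a b ha hb
    rw [LieHom.map_lie, LieHom.map_lie, sat_map_lie, ha, hb, LieHom.map_lie, sat_map_lie]
  · simp only [map_zero]
  · intro a b ha hb
    simp only [map_add, ha, hb]
  · intro c a ha
    simp only [map_smul, ha]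

lemma sat_lzf_mem {g : Type} [LieRing g] [LieAlgebra R g] (f : X → g) (wt : X → ℕ) (x : X)
    (j : {y // y ≠ x} × ℕ) : lzf f x j ∈ Hom R f wt (lzw wt x j) := by
  obtain ⟨y, k⟩ := j
  induction k with
  | zero => simpa [lzw, lzf] using of_mem_Hom f wt y.1
  | succ k ih =>
    rw [sat_lzf_succ]
    have := lie_mem_Hom (of_mem_Hom (R := R) f wt x) ih
    have e : lzw wt x (y, k + 1) = wt x + lzw wt x (y, k) := by simp only [lzw]; ring
    rwa [e]

lemma sat_elim {p : R} {n : ℕ} (x : X) (ih : SatS p (lzw wt x) n) : SatS p wt n := by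
  rintro ℓ hℓ ⟨v, hv⟩
  obtain ⟨c, hc, hmem⟩ := lazard x hℓ
  set φ := FreeLieAlgebra.lift R (lzf (FreeLieAlgebra.of R) x) with hφ
  have hmap := Hom_map (f := FreeLieAlgebra.of R) (wt := lzw wt x) φ n
  simp only [hφ, FreeLieAlgebra.lift_of_apply] at hmap
  rw [← hφ] at hmap
  have hmem' := hmem
  rw [show lzf (FreeLieAlgebra.of R) x = fun i => lzf (FreeLieAlgebra.of R) x i from rfl,
    ← hmap] at hmem'
  obtain ⟨b, hb, e⟩ := hmem'
  have e' : ℓ = c • FreeLieAlgebra.of R x + φ b := by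
    rw [show φ b = ℓ - c • FreeLieAlgebra.of R x from e]; abel
  have h1 : io b = p • ev (satP R x) v 1 := by
    have h2 := congrArg (fun u => ev (satP R x) u 1) hv
    simp only [e', map_add, map_smul, io_of, ev_lt, satP_self, hφ, sat_rho, LinearMap.add_apply,
      LinearMap.smul_apply, satD, der_one, smul_zero, zero_add] at h2
    simpa using h2
  obtain ⟨b', hb', rfl⟩ := ih b hb ⟨_, h1⟩
  have hφb : φ b' ∈ Hom R (FreeLieAlgebra.of R) wt n := by
    refine Hom_mono (sat_lzf_mem (FreeLieAlgebra.of R) wt x) n ?_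
    rw [show lzf (FreeLieAlgebra.of R) x = fun i => lzf (FreeLieAlgebra.of R) x i from rfl,
      ← hmap]
    exact ⟨b', hb', rfl⟩
  by_cases hx : wt x = n
  · have h3 := congrArg (cf [x]) hv
    rw [e'] at h3
    simp only [map_add, map_smul, io_of, lt, cf_wd_self, smul_eq_mul, mul_one] at h3
    refine ⟨(cf [x] v - cf [x] (io (φ b'))) • FreeLieAlgebra.of R x + φ b', ?_, ?_⟩
    · exact add_mem (Submodule.smul_mem _ _ (hx ▸ of_mem_Hom _ wt x)) hφb
    · rw [e', smul_add, smul_smul, mul_sub, ← h3, add_sub_cancel_right, map_smul]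
  · exact ⟨φ b', hφb, by rw [e', hc hx, zero_smul, zero_add, map_smul]⟩

lemma sat_lzw_finite (x : X) (hx : 0 < wt x) (hfin : ∀ k, {i | wt i = k}.Finite) (k : ℕ) :
    {j | lzw wt x j = k}.Finite := by
  have h1 : {i | wt i ≤ k}.Finite := by
    refine ((Set.finite_le_nat k).biUnion fun a _ => hfin a).subset fun i hi => ?_
    simp only [Set.mem_iUnion]
    exact ⟨wt i, hi, rfl⟩
  have h2 : (Subtype.val ⁻¹' {i | wt i ≤ k} : Set {y // y ≠ x}).Finite :=
    h1.preimage Subtype.val_injective.injOn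
  refine (h2.prod (Set.finite_le_nat k)).subset fun j hj => ?_
  have hj' : wt j.1 + j.2 * wt x = k := hj
  refine ⟨?_, ?_⟩
  · change wt j.1 ≤ k
    omega
  · change j.2 ≤ k
    nlinarith

lemma sat_lzw_ncard {m : ℕ} (x : X) (hx : wt x = m) (hm : 0 < m) (hle : ∀ i, m ≤ wt i)
    (hfin : {i | wt i = m}.Finite) :
    {j | lzw wt x j = m}.ncard + 1 = {i | wt i = m}.ncard := by
  have h0 : ∀ j : {y // y ≠ x} × ℕ, lzw wt x j = m → j.2 = 0 := by
    intro j hj
    have hj' : wt j.1 + j.2 * wt x = m := hj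
    have := hle j.1
    by_contra hne
    have : 1 ≤ j.2 := Nat.one_le_iff_ne_zero.2 hne
    nlinarith
  have himg : (fun j : {y // y ≠ x} × ℕ => j.1.1) '' {j | lzw wt x j = m} =
      {i | wt i = m} \ {x} := by
    ext i
    constructor
    · rintro ⟨j, hj, rfl⟩
      refine ⟨?_, j.1.2⟩
      have hj' : wt j.1 + j.2 * wt x = m := hj
      rw [h0 j hj] at hj'
      simpa using hj'
    · rintro ⟨hi, hne⟩
      exact ⟨(⟨i, hne⟩, 0), by simpa [lzw] using hi, rfl⟩
  rw [← Set.ncard_sdiff_singleton_add_one (show x ∈ {i | wt i = m} from hx) hfin, ← himg,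
    Set.InjOn.ncard_image]
  rintro ⟨y, k⟩ hj ⟨y', k'⟩ hj' e
  have e1 : k = 0 := h0 _ hj
  have e2 : k' = 0 := h0 _ hj'
  have e3 : y = y' := Subtype.ext e
  rw [e1, e2, e3]

lemma sat_main (p : R) (n d : ℕ) : ∀ m, m + d = n + 1 → 0 < m → ∀ (X : Type) (wt : X → ℕ),
    (∀ k, {i | wt i = k}.Finite) → (∀ i, m ≤ wt i) → SatS p wt n := by
  induction d with
  | zero =>
    intro m hm _ X wt _ hle ℓ hℓ _
    rw [Hom_eq_bot fun i => by have := hle i; omega] at hℓ
    exact ⟨0, zero_mem _, by rw [smul_zero]; exact hℓ⟩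
  | succ d ih =>
    intro m hm hm0
    suffices H : ∀ (N : ℕ) (X : Type) (wt : X → ℕ), (∀ k, {i | wt i = k}.Finite) →
        (∀ i, m ≤ wt i) → {i | wt i = m}.ncard = N → SatS p wt n from
      fun X wt hfin hle => H _ X wt hfin hle rfl
    intro N
    induction N with
    | zero =>
      intro X wt hfin hle h0
      rw [Set.ncard_eq_zero (hfin m)] at h0
      refine ih (m + 1) (by omega) (by omega) X wt hfin fun i => ?_
      have h1 : wt i ≠ m := fun e => (h0 ▸ e : i ∈ (∅ : Set X))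
      have := hle i
      omega
    | succ N ihN =>
      intro X wt hfin hle hN
      obtain ⟨x, hx⟩ : {i | wt i = m}.Nonempty := Set.nonempty_of_ncard_ne_zero (by omega)
      have hx' : wt x = m := hx
      refine sat_elim x (ihN _ _ (sat_lzw_finite x (by omega) hfin) (fun j => ?_) ?_)
      · have := hle j.1
        simp only [lzw]
        omega
      · have := sat_lzw_ncard x hx' hm0 hle (hfin m)
        omega

theorem sat (p : R) (hpos : ∀ i, 0 < wt i) (hfin : ∀ k, {i | wt i = k}.Finite) {n : ℕ}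
    {ℓ : FreeLieAlgebra R X} (hℓ : ℓ ∈ Hom R (FreeLieAlgebra.of R) wt n)
    (h : ∀ w, p ∣ cf w (io ℓ)) : ∃ ℓ' ∈ Hom R (FreeLieAlgebra.of R) wt n, ℓ = p • ℓ' :=
  sat_main p n n 1 (by omega) one_pos X wt hfin hpos ℓ hℓ ((dvd_cf_iff p _).1 h)

theorem sat_all (p : R) (hpos : ∀ i, 0 < wt i) (hfin : ∀ k, {i | wt i = k}.Finite)
    {ℓ : FreeLieAlgebra R X} (h : ∀ w, p ∣ cf w (io ℓ)) : ∃ ℓ', ℓ = p • ℓ' := by
  obtain ⟨N, b, hb, rfl⟩ := exists_sum_Hom wt ℓ
  have hg : ∀ k, io (b k) ∈ Hg R wt k := fun k =>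
    HT_le_Hg k (by rw [HT_eq_map]; exact ⟨b k, hb k, rfl⟩)
  have key : ∀ k, ∃ b', k < N → b k = p • b' := by
    intro k
    by_cases hk : k < N
    · have h1 := pr_sum (N := N) (n := k) hg
      rw [if_pos hk, ← map_sum] at h1
      obtain ⟨b', -, e⟩ := sat p hpos hfin (hb k) (fun w => by
        rw [← h1, cf_pr]
        split_ifs
        · exact h w
        · exact dvd_zero p)
      exact ⟨b', fun _ => e⟩
    · exact ⟨0, fun h => absurd h hk⟩
  choose b' hb' using key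
  refine ⟨∑ k ∈ Finset.range N, b' k, ?_⟩
  rw [Finset.smul_sum]
  exact Finset.sum_congr rfl fun k hk => hb' k (Finset.mem_range.1 hk)

theorem io_injective (hpos : ∀ i, 0 < wt i) (hfin : ∀ k, {i | wt i = k}.Finite) :
    Function.Injective (io : FreeLieAlgebra R X → T R X) := by
  intro a b hab
  obtain ⟨c, hc⟩ := sat_all (0 : R) hpos hfin (ℓ := a - b) (fun w => by
    rw [map_sub, hab, sub_self, map_zero])
  rw [zero_smul] at hc
  exact sub_eq_zero.1 hc

theorem io_injective_fin [Finite X] : Function.Injective (io : FreeLieAlgebra R X → T R X) :=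
  io_injective (wt := one) (fun _ => one_pos) fun _ => Set.toFinite _

lemma sat_two (hpos : ∀ i, 0 < wt i) (hfin : ∀ k, {i | wt i = k}.Finite) {n : ℕ} {ℓ : T R X}
    (hℓ : ℓ ∈ HT R wt n) (h : ∀ w, (2 : R) ∣ cf w ℓ) : ∃ ℓ' ∈ HT R wt n, ℓ = ℓ' + ℓ' := by
  rw [HT_eq_map] at hℓ ⊢
  obtain ⟨b, hb, rfl⟩ := hℓ
  obtain ⟨b', hb', e⟩ := sat (2 : R) hpos hfin hb h
  refine ⟨_, ⟨b', hb', rfl⟩, ?_⟩
  rw [e, two_smul, map_add]

lemma sat_two_all (hpos : ∀ i, 0 < wt i) (hfin : ∀ k, {i | wt i = k}.Finite)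
    {b : FreeLieAlgebra R X} (h : ∀ w, (2 : R) ∣ cf w (io b)) : ∃ b', b = b' + b' := by
  obtain ⟨b', e⟩ := sat_all (2 : R) hpos hfin h
  exact ⟨b', by rw [e, two_smul]⟩

theorem sat2 (hpos : ∀ i, 0 < wt i) (hfin : ∀ k, {i | wt i = k}.Finite) {n : ℕ} {ℓ : T ℤ X}
    (hℓ : ℓ ∈ HT ℤ wt n) (h : ∀ w, (2 : ℤ) ∣ cf w ℓ) : ∃ ℓ' ∈ HT ℤ wt n, ℓ = ℓ' + ℓ' :=
  sat_two hpos hfin hℓ h

theorem sat2_all (hpos : ∀ i, 0 < wt i) (hfin : ∀ k, {i | wt i = k}.Finite)
    {b : FreeLieAlgebra ℤ X} (h : ∀ w, (2 : ℤ) ∣ cf w (io b)) : ∃ b', b = b' + b' :=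
  sat_two_all hpos hfin h

end Vale.Agent.P029
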