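import Vale.Agent.P029.M2F
import Vale.Agent.P029.Sat

/-!
Injectivity of the reduction modulo `2` and `Y²`, freeness of the `E k`, and the Ihara bracket.

Plan: `zlem`: `Z = X + Y`, `Z² = 0`; 3-cycle: `ℓ(X,Y) = ℓ(Y,Z) + ℓ(Z,X)`, `ℓ(Z,X) = ℓ(X,Z)` (2-cycle,
char 2), and `Ek Y Z = Ek X Z` since `⁅Y,Z⁆ = ⁅X,Z⁆`, `⁅Z,⁅X,Z⁆⁆ = 0`; use `mod2_form`.
`aprime`: `C = exists_C {0, 1}`: in `pentOp` the left side vanishes (`p * p = 0`, 2-cycle), the first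
two terms on the right vanish by `zlem` (`X + Y = b`, resp. `a`), so `ℓ(a+b+e, e) = 0` in every char 2
ring with `a² = b² = 0`. Take `Module.End ℤ (K × K)`, `K = T (ZMod 2) (Fin 2)`, `w = x + y`,
`a (k,k') = (w k', 0)`, `b (k,k') = (0, w k)`, `e (k,k') = (y k', y k)`; the diagonal `K → K × K`
intertwines `![LZ x, LZ y]` with `![a+b+e, e]` (`evZ_intertwine`, `evZ_mulLeft`), so
`evZ lt ℓ = 0` in `K`; `cf_evZ_lt`. `lam_half`: `sat2`, and `Pent ℚ` is a `ℚ`-subspace.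
`Ek_free`: `exists_model` with `X = a + b`, `Y = e`: `Ek X Y k = Δ ((ad c)^k E)`; then the ring hom
`ev ![0, der (k ↦ lt (k+1)), mulLeft (lt 0)] : T (ZMod 2) (Fin 3) → End (T (ZMod 2) ℕ)` sends
`(ad c)^k E` to `mulLeft (lt k)`; apply to `1`.
`Ev2.ih`: `Y` commutes with all `Ek X Y k`, so `evZ ![X,Y] (Dy ℓ u) = 0` by `evZ_der` with `δ = 0`.
-/

namespace Vale.Agent.P029

attribute [local instance 100] LieRing.ofAssociativeRing

variable {n : ℕ} {ℓ : T ℤ (Fin 2)}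

lemma ap_neg {C : Type} [Ring C] (h2 : (2 : C) = 0) (x : C) : -x = x := by
  rw [neg_eq_iff_add_eq_zero, ← two_mul, h2, zero_mul]

lemma ap_sq {C : Type} [Ring C] (h2 : (2 : C) = 0) {z : C} (hz : z * z = 0) (x : C) :
    ⁅z, ⁅x, z⁆⁆ = 0 := by
  have : ⁅z, ⁅x, z⁆⁆ = 2 * (z * x * z) - z * z * x - x * (z * z) := by
    simp only [Ring.lie_def]
    noncomm_ring
  rw [this, h2, hz]
  simp

lemma ap_mat {K : Type} [Ring K] (x y : K) (u : T ℤ (Fin 2)) (i : Fin 2) :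
    evZ ![!![0, x; x, 0], !![0, y; y, 0]] u i 0 + evZ ![!![0, x; x, 0], !![0, y; y, 0]] u i 1 =
      evZ ![x, y] u := by
  revert i
  refine ind_int (p := fun u => ∀ i, evZ ![!![0, x; x, 0], !![0, y; y, 0]] u i 0 +
    evZ ![!![0, x; x, 0], !![0, y; y, 0]] u i 1 = evZ ![x, y] u) u ?_ ?_ ?_ ?_
  · intro i
    fin_cases i <;> simp
  · intro j a ha i
    simp only [map_mul, evZ_lt, Matrix.mul_apply, ← Finset.sum_add_distrib, ← mul_add, ha]
    fin_cases i <;> fin_cases j <;> simp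
  · intro a b ha hb i
    simp only [map_add, Matrix.add_apply]
    rw [add_add_add_comm, ha, hb]
  · intro a ha i
    simp only [map_neg, Matrix.neg_apply]
    rw [← neg_add, ha]

theorem zlem (h : ℓ ∈ Lam n) (hn : 3 ≤ n) {C : Type} [Ring C] (h2 : (2 : C) = 0) {X Y : C}
    (hXY : (X + Y) * (X + Y) = 0) : evZ ![X, Y] ℓ = 0 := by
  obtain ⟨a, -, ha⟩ := mod2_form h hn
  have e1 : -X - Y = X + Y := by rw [sub_eq_add_neg, ap_neg h2, ap_neg h2]
  have e2 : ⁅Y, X + Y⁆ = ⁅X, X + Y⁆ := by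
    rw [← ap_neg h2 ⁅X, _⁆, eq_neg_iff_add_eq_zero, ← add_lie, add_comm Y, lie_self]
  have e3 : Ek Y (X + Y) = Ek X (X + Y) := by
    funext k
    rw [Ek, Ek, e2]
    congr 1
    rw [← ap_neg h2 ⁅X, ⁅X, _⁆⁆, eq_neg_iff_add_eq_zero, ← add_lie, add_comm Y]
    exact ap_sq h2 hXY X
  have h3 := Lam_three_cycle h hn X Y
  have h4 := Lam_two_cycle h (X + Y) X
  rw [e1, ha C h2 Y _ hXY, e3, eq_neg_of_add_eq_zero_left h4, ha C h2 X _ hXY] at h3
  simpa using h3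

theorem aprime (h : ℓ ∈ Lam n) (hn : 3 ≤ n) (h0 : Ev2 ℓ 0) : ∀ w, (2 : ℤ) ∣ cf w ℓ := by
  obtain ⟨C, _, g, p, q, h2, hg, hd, hext, hφ⟩ := exists_C {0, 1}
  have g0 := hg 0 (by simp)
  have g1 := hg 1 (by simp)
  have pp : p ⁅g 0, g 1⁆ = 0 := by
    rw [hd.pd.lie, hd.pa, hd.pb, ap_sq h2 g0, ← lie_skew, ap_sq h2 g1, neg_zero, add_zero]
  have hp : p * p = 0 := by
    refine hext _ _ (fun a b => ?_) (fun a b => by simp) fun i => ?_
    · simp only [Module.End.mul_apply, hd.pd a, map_add, hd.pd (p a)]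
      rw [add_assoc, ← add_assoc (p a * p b), ← two_mul, h2, zero_mul, zero_add]
    · fin_cases i
      · exact (congrArg p hd.pa).trans pp
      · refine (congrArg p hd.pb).trans ?_
        rw [← lie_skew, map_neg, pp]
        exact neg_zero
      · exact (congrArg p hd.pe).trans (map_zero p)
  have h2' : (2 : Module.End ℤ C) = 0 := LinearMap.ext fun c => by
    rw [Module.End.ofNat_apply, ofNat_smul_eq_nsmul, two_nsmul, ← two_mul, h2, zero_mul]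
    rfl
  have h3 := pentOp h hn hd
  rw [eq_neg_of_add_eq_zero_left (Lam_two_cycle h p _), h0 _ h2' _ _ hp,
    zlem h hn h2 (X := -(g 1 + g 2)) (by simpa using g1),
    zlem h hn h2 (X := -(g 0 + g 1 + g 2)) (by rwa [add_assoc, neg_add, neg_add_cancel_right, neg_mul_neg]), ap_neg h2] at h3
  have k2 : (2 : T (ZMod 2) (Fin 2)) = 0 := by
    exact (map_ofNat (algebraMap (ZMod 2) _) 2).symm.trans (map_zero _)
  obtain ⟨φ, hφ⟩ := hφ (Matrix (Fin 2) (Fin 2) (T (ZMod 2) (Fin 2)))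
    ![!![0, lt 0 + lt 1; 0, 0], !![0, 0; lt 0 + lt 1, 0], !![0, lt 1; lt 1, 0]]
    (by rw [← map_ofNat (Matrix.scalar _) 2, k2, map_zero]) (by simp [← Matrix.ext_iff])
  have h4 : evZ ![g 0 + g 1 + g 2, g 2] ℓ = 0 := by simpa using h3
  have h5 := (map_evZ2 φ _ _ ℓ).symm.trans ((congrArg φ h4).trans (map_zero φ))
  have e : φ (g 0 + g 1 + g 2) = !![0, lt 0; lt 0, 0] := by
    have : (lt 1 + lt 1 : T (ZMod 2) (Fin 2)) = 0 := by rw [← two_mul, k2, zero_mul]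
    simp [hφ, add_assoc, this]
  have h6 := ap_mat (lt 0 : T (ZMod 2) (Fin 2)) (lt 1) ℓ 0
  rw [e, hφ] at h5
  have e' : ![(lt 0 : T (ZMod 2) (Fin 2)), lt 1] = lt := by
    funext i
    fin_cases i <;> rfl
  erw [h5, e'] at h6
  intro w
  rw [← Nat.cast_ofNat, ← ZMod.intCast_zmod_eq_zero_iff_dvd, ← cf_evZ_lt, ← h6]
  simp

theorem lam_half (h : ℓ ∈ Lam n) (hn : 3 ≤ n) (h0 : Ev2 ℓ 0) : ∃ ℓ' ∈ Lam n, ℓ = ℓ' + ℓ' := by
  obtain ⟨ℓ', h1, h2⟩ := sat2 (wt := one) (fun _ => one_pos) (fun _ => Set.toFinite _) h.1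
    (aprime h hn h0)
  refine ⟨ℓ', ⟨h1, ?_⟩, h2⟩
  have := Submodule.smul_mem _ (1 / 2 : ℚ) h.2
  rwa [h2, map_add, smul_add, ← add_smul, add_halves, one_smul] at this

end Vale.Agent.P029
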