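import Vale.Agent.P029.Flat

/-!
A flat section of the KZ connection on the square `(0,1)²`.

Plan for `flat_abs`: by induction on `k` get `Q k : E → V` with values in `F k`, `Q 0 = 1`,
`HasFDerivAt (Q (k+1)) (v ↦ ω p v * Q k p) p` on `U`, `Q (k+1) p0 = 0`. The form
`p ↦ (v ↦ ω p v * Q k p)` is differentiable and closed (`hs`, `hc`), so
`Convex.exists_forall_hasFDerivAt_of_fderiv_symmetric` applies; values in `F (k+1)`: compose with
`mkQ` (continuous in finite dimension) and use `Convex.is_const_of_fderivWithin_eq_zero` or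
`IsOpen.is_const_of_fderiv_eq_zero`. Then `Fl = ∑ k < N + 1, Q k`.
`exists_flat`: `ω p = (fst).smulRight (Pc f p) + (snd).smulRight (Qc f p)`. Closedness: only the
terms with `g = f 3 - f 2 - f 4` matter. Commutation `Pc * Qc = Qc * Pc`: with `k = ⁅f 2, f 4⁆`,
`⁅f 2, g⁆ = -k`, `⁅g, f 4⁆ = -k`, `⁅g, f 1⁆ + ⁅f 0, g⁆ = k` (from `Rel.cx`), and the scalar identity
`-(x-1)(y-1) + (1-xy) + x(y-1) + y(x-1) = 0`.
-/

namespace Vale.Agent.P029

open Set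

variable {V : Type} [NormedRing V] [NormedAlgebra ℝ V] [CompleteSpace V] [FiniteDimensional ℝ V]

noncomputable def Pc (f : Fin 5 → V) (p : ℝ × ℝ) : V :=
  p.1⁻¹ • f 0 + (p.1 - 1)⁻¹ • f 2 - (p.2 / (1 - p.1 * p.2)) • (f 3 - f 2 - f 4)

noncomputable def Qc (f : Fin 5 → V) (p : ℝ × ℝ) : V :=
  p.2⁻¹ • f 1 + (p.2 - 1)⁻¹ • f 4 - (p.1 / (1 - p.1 * p.2)) • (f 3 - f 2 - f 4)

omit [CompleteSpace V] [FiniteDimensional ℝ V] in
lemma flatB_deriv (f : Fin 5 → V) {p : ℝ × ℝ} (hx : p.1 ∈ Ioo (0 : ℝ) 1)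
    (hy : p.2 ∈ Ioo (0 : ℝ) 1) : ∃ P' Q' : ℝ × ℝ →L[ℝ] V, HasFDerivAt (Pc f) P' p ∧
      HasFDerivAt (Qc f) Q' p ∧ P' (0, 1) = Q' (1, 0) := by
  have hxy : 1 - p.1 * p.2 ≠ 0 := by nlinarith [hx.1, hx.2, hy.1, hy.2]
  have hf : HasFDerivAt (fun q : ℝ × ℝ => q.1) (ContinuousLinearMap.fst ℝ ℝ ℝ) p := hasFDerivAt_fst
  have hs : HasFDerivAt (fun q : ℝ × ℝ => q.2) (ContinuousLinearMap.snd ℝ ℝ ℝ) p := hasFDerivAt_snd
  have a1 := (hasDerivAt_inv hx.1.ne').comp_hasFDerivAt p hf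
  have a2 := (hasDerivAt_inv (sub_ne_zero.2 hx.2.ne)).comp_hasFDerivAt p (hf.sub_const 1)
  have b1 := (hasDerivAt_inv hy.1.ne').comp_hasFDerivAt p hs
  have b2 := (hasDerivAt_inv (sub_ne_zero.2 hy.2.ne)).comp_hasFDerivAt p (hs.sub_const 1)
  have r := (hasDerivAt_inv hxy).comp_hasFDerivAt p ((hf.mul hs).const_sub 1)
  have a3 := hs.mul r
  have b3 := hf.mul r
  refine ⟨_, _, ((a1.smul_const (f 0)).add (a2.smul_const (f 2))).sub
    (a3.smul_const (f 3 - f 2 - f 4)), ((b1.smul_const (f 1)).add (b2.smul_const (f 4))).sub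
    (b3.smul_const (f 3 - f 2 - f 4)), ?_⟩
  simp
  congr 1
  ring

omit [CompleteSpace V] [FiniteDimensional ℝ V] in
lemma flatB_comm {f : Fin 5 → V} (hf : Rel f) {p : ℝ × ℝ} (hx : p.1 ∈ Ioo (0 : ℝ) 1)
    (hy : p.2 ∈ Ioo (0 : ℝ) 1) : Commute (Pc f p) (Qc f p) := by
  obtain ⟨x, y⟩ := p
  simp only at hx hy
  have hxy : 1 - x * y ≠ 0 := by nlinarith [hx.1, hx.2, hy.1, hy.2]
  have hx0 : x ≠ 0 := hx.1.ne'
  have hy0 : y ≠ 0 := hy.1.ne'
  have hx1 : x - 1 ≠ 0 := sub_ne_zero.2 hx.2.ne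
  have hy1 : y - 1 ≠ 0 := sub_ne_zero.2 hy.2.ne
  obtain ⟨c01, c12, c23, c34, c40, cx⟩ := hf
  unfold Pc Qc
  generalize hg : f 3 - f 2 - f 4 = g at cx ⊢
  obtain ⟨k, hk⟩ : ∃ k, k = f 2 * f 4 - f 4 * f 2 := ⟨_, rfl⟩
  have e1 : f 2 * g = g * f 2 - k := by
    rw [← hg, hk, mul_sub, mul_sub, sub_mul, sub_mul, c23.eq]; abel
  have e2 : f 4 * g = g * f 4 + k := by
    rw [← hg, hk, mul_sub, mul_sub, sub_mul, sub_mul, c34.eq]; abel
  have e3 : f 1 * g = g * f 1 + (f 0 * g - g * f 0) - k := by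
    have := cx.eq
    rw [mul_sub, mul_sub, sub_mul, sub_mul, e1] at this
    linear_combination (norm := abel) this
  have e4 : f 2 * f 4 = f 4 * f 2 + k := by rw [hk]; abel
  unfold Commute SemiconjBy
  simp only [mul_sub, sub_mul, mul_add, add_mul, smul_mul_smul_comm, c01.eq, ← c12.eq, ← c40.eq,
    e1, e2, e3, e4]
  match_scalars <;> field_simp <;> ring

theorem exists_flat {f : Fin 5 → V} (hf : Rel f) {F : ℕ → Submodule ℝ V} (hF : IsFil F) {N : ℕ}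
    (hN : F N = ⊥) (h1 : ∀ i, f i ∈ F 1) :
    ∃ Fl : ℝ × ℝ → V, (∀ a ∈ Ioo (0 : ℝ) 1, ∀ b ∈ Ioo (0 : ℝ) 1, IsUnit (Fl (a, b))) ∧
      ∀ (a b : ℝ → ℝ) (t a' b' : ℝ), a t ∈ Ioo (0 : ℝ) 1 → b t ∈ Ioo (0 : ℝ) 1 →
        HasDerivAt a a' t → HasDerivAt b b' t →
        HasDerivAt (fun s => Fl (a s, b s))
          ((a' • Pc f (a t, b t) + b' • Qc f (a t, b t)) * Fl (a t, b t)) t := by
  let U : Set (ℝ × ℝ) := Ioo 0 1 ×ˢ Ioo 0 1
  let S1 := ContinuousLinearMap.smulRightL ℝ (ℝ × ℝ) V (ContinuousLinearMap.fst ℝ ℝ ℝ)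
  let S2 := ContinuousLinearMap.smulRightL ℝ (ℝ × ℝ) V (ContinuousLinearMap.snd ℝ ℝ ℝ)
  let ω : ℝ × ℝ → ℝ × ℝ →L[ℝ] V := fun p => S1 (Pc f p) + S2 (Qc f p)
  have hω : ∀ p v, ω p v = v.1 • Pc f p + v.2 • Qc f p := fun p v => rfl
  have hD : ∀ p ∈ U, ∃ P' Q' : ℝ × ℝ →L[ℝ] V, HasFDerivAt ω (S1.comp P' + S2.comp Q') p ∧
      P' (0, 1) = Q' (1, 0) := by
    intro p hp
    obtain ⟨P', Q', hP, hQ, h⟩ := flatB_deriv f hp.1 hp.2
    exact ⟨P', Q', (S1.hasFDerivAt.comp p hP).add (S2.hasFDerivAt.comp p hQ), h⟩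
  obtain ⟨Fl, hFl⟩ := flat_abs (U := U) (isOpen_Ioo.prod isOpen_Ioo)
    ((convex_Ioo 0 1).prod (convex_Ioo 0 1)) hF hN (ω := ω)
    (fun p hp => by
      obtain ⟨P', Q', h, -⟩ := hD p hp
      exact h.differentiableAt.differentiableWithinAt)
    (fun p hp v w => by
      obtain ⟨P', Q', h, e⟩ := hD p hp
      have key : ∀ (L : ℝ × ℝ →L[ℝ] V) (u : ℝ × ℝ), L u = u.1 • L (1, 0) + u.2 • L (0, 1) := by
        intro L u
        rw [← map_smul, ← map_smul, ← map_add]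
        simp
      rw [h.fderiv]
      change w.1 • P' v + w.2 • Q' v = v.1 • P' w + v.2 • Q' w
      rw [key P' v, key P' w, key Q' v, key Q' w, e]
      module)
    (fun p hp v w => by
      have c := flatB_comm hf hp.1 hp.2
      rw [hω, hω]
      exact ((((Commute.refl _).smul_left _).smul_right _).add_right
        ((c.smul_left _).smul_right _)).add_left (((c.symm.smul_left _).smul_right _).add_right
        (((Commute.refl _).smul_left _).smul_right _)))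
    (fun p _ v => by
      have hg : f 3 - f 2 - f 4 ∈ F 1 := sub_mem (sub_mem (h1 3) (h1 2)) (h1 4)
      rw [hω]
      exact add_mem ((F 1).smul_mem _ (sub_mem (add_mem ((F 1).smul_mem _ (h1 0))
        ((F 1).smul_mem _ (h1 2))) ((F 1).smul_mem _ hg))) ((F 1).smul_mem _ (sub_mem (add_mem
        ((F 1).smul_mem _ (h1 1)) ((F 1).smul_mem _ (h1 4))) ((F 1).smul_mem _ hg))))
  refine ⟨Fl, fun a ha b hb => (hFl (a, b) ⟨ha, hb⟩).1, fun a b t a' b' ha hb da db => ?_⟩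
  obtain ⟨-, L, hL, e⟩ := hFl (a t, b t) ⟨ha, hb⟩
  have := hL.comp_hasDerivAt t (da.prodMk db)
  rw [e, hω] at this
  exact this

end Vale.Agent.P029
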