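import Vale.Agent.P029.Edge
import Vale.Agent.P029.FlatB

/-!
The pentagon equation for KZ associators.

Plan: `Fl` from `exists_flat`. Five arcs (`z` the parameter): `c0 = (z, ε)`,
`c1 = ((1-ε)/(1-εz), z)`, `c2 = (1-εz, (1-ε)/(1-εz))`, `c3 = ((1-z)/(1-εz), 1-εz)`,
`c4 = (ε, (1-z)/(1-εz))`. Along `ci`, `Yi ε z = Fl (ci ε z)` satisfies the equation of `edge` with
`A = f i`, `D = f (i+1)`, `B = f (i+2)`, `C = f (i+3) - f (i+2) - f (i+4)` (indices mod 5; check by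
`match_scalars` and `field_simp`). End points: `ci ε (1+ε)⁻¹ = c(i+1) ε ε`. With
`Ki ε = pw (-D) ε * pw (-B) ε * Yi ε (1+ε)⁻¹ * inverse (Yi ε ε) * pw A ε * pw D ε → Φ i` the product
`K4 * K3 * K2 * K1 * K0 = 1` telescopes for `ε ∈ (0,1)` (adjacent `f` commute: `commute_pw`).
-/

namespace Vale.Agent.P029

open Set

variable {V : Type} [NormedRing V] [NormedAlgebra ℝ V] [CompleteSpace V] [FiniteDimensional ℝ V]

noncomputable def arA (ε z : ℝ) : ℝ := (1 - ε) / (1 - ε * z)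
noncomputable def arB (ε z : ℝ) : ℝ := 1 - ε * z
noncomputable def arG (ε z : ℝ) : ℝ := (1 - z) / (1 - ε * z)

section
variable {ε z : ℝ}

theorem ar_den (hε : ε ∈ Ioo (0 : ℝ) 1) (hz : z ∈ Ioo (0 : ℝ) 1) : 0 < 1 - ε * z := by
  nlinarith [hε.1, hε.2, hz.1, hz.2]

theorem arA_mem (hε : ε ∈ Ioo (0 : ℝ) 1) (hz : z ∈ Ioo (0 : ℝ) 1) : arA ε z ∈ Ioo (0 : ℝ) 1 := by
  have h := ar_den hε hz
  refine ⟨div_pos (by linarith [hε.2]) h, (div_lt_one h).2 ?_⟩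
  nlinarith [hε.1, hz.2]

theorem arB_mem (hε : ε ∈ Ioo (0 : ℝ) 1) (hz : z ∈ Ioo (0 : ℝ) 1) : arB ε z ∈ Ioo (0 : ℝ) 1 := by
  refine ⟨ar_den hε hz, ?_⟩
  have := mul_pos hε.1 hz.1
  unfold arB
  linarith

theorem arG_mem (hε : ε ∈ Ioo (0 : ℝ) 1) (hz : z ∈ Ioo (0 : ℝ) 1) : arG ε z ∈ Ioo (0 : ℝ) 1 := by
  have h := ar_den hε hz
  refine ⟨div_pos (by linarith [hz.2]) h, (div_lt_one h).2 ?_⟩
  nlinarith [hε.2, hz.1]

theorem arB_deriv (ε z : ℝ) : HasDerivAt (arB ε) (-ε) z := by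
  have h := ((hasDerivAt_id z).const_mul ε).const_sub 1
  rw [mul_one] at h
  exact h

theorem arA_deriv (hε : ε ∈ Ioo (0 : ℝ) 1) (hz : z ∈ Ioo (0 : ℝ) 1) :
    HasDerivAt (arA ε) ((1 - ε) * ε / (1 - ε * z) ^ 2) z := by
  have h := (hasDerivAt_const z (1 - ε)).div (arB_deriv ε z) (ar_den hε hz).ne'
  refine HasDerivAt.congr_deriv h ?_
  unfold arB
  ring

theorem arG_deriv (hε : ε ∈ Ioo (0 : ℝ) 1) (hz : z ∈ Ioo (0 : ℝ) 1) :
    HasDerivAt (arG ε) ((ε - 1) / (1 - ε * z) ^ 2) z := by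
  have h := ((hasDerivAt_id z).const_sub 1).div (arB_deriv ε z) (ar_den hε hz).ne'
  refine HasDerivAt.congr_deriv h ?_
  unfold arB
  simp only [id]
  ring

theorem ar_b_mem (hε : ε ∈ Ioo (0 : ℝ) 1) : (1 + ε)⁻¹ ∈ Ioo (0 : ℝ) 1 :=
  ⟨inv_pos.2 (by linarith [hε.1]), inv_lt_one_of_one_lt₀ (by linarith [hε.1])⟩

theorem arA_ee (hε : ε ∈ Ioo (0 : ℝ) 1) : arA ε ε = (1 + ε)⁻¹ := by
  have h := (ar_den hε hε).ne'
  have h1 : 1 + ε ≠ 0 := by linarith [hε.1]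
  unfold arA
  rw [div_eq_iff h]
  field_simp
  ring

theorem arG_ee (hε : ε ∈ Ioo (0 : ℝ) 1) : arG ε ε = (1 + ε)⁻¹ := arA_ee hε

theorem arB_b (hε : ε ∈ Ioo (0 : ℝ) 1) : arB ε (1 + ε)⁻¹ = (1 + ε)⁻¹ := by
  have h1 : 1 + ε ≠ 0 := by linarith [hε.1]
  unfold arB
  field_simp
  ring

theorem arA_b (hε : ε ∈ Ioo (0 : ℝ) 1) : arA ε (1 + ε)⁻¹ = arB ε ε := by
  have h := arB_b hε
  unfold arB at h
  unfold arA arB
  rw [h, div_inv_eq_mul]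
  ring

theorem arG_b (hε : ε ∈ Ioo (0 : ℝ) 1) : arG ε (1 + ε)⁻¹ = ε := by
  have h := arB_b hε
  have h1 : 1 + ε ≠ 0 := by linarith [hε.1]
  unfold arB at h
  unfold arG
  rw [h, div_inv_eq_mul]
  field_simp
  ring

omit [CompleteSpace V] [FiniteDimensional ℝ V]

theorem ar_form0 (f : Fin 5 → V) :
    (1 : ℝ) • Pc f (z, ε) + (0 : ℝ) • Qc f (z, ε) =
      z⁻¹ • f 0 + (z - 1)⁻¹ • f 2 - (ε / (1 - ε * z)) • (f 3 - f 2 - f 4) := by
  simp only [Pc, one_smul, zero_smul, add_zero, mul_comm z ε]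

theorem ar_form1 (f : Fin 5 → V) (hε : ε ∈ Ioo (0 : ℝ) 1) (hz : z ∈ Ioo (0 : ℝ) 1) :
    ((1 - ε) * ε / (1 - ε * z) ^ 2) • Pc f (arA ε z, z) + (1 : ℝ) • Qc f (arA ε z, z) =
      z⁻¹ • f 1 + (z - 1)⁻¹ • f 3 - (ε / (1 - ε * z)) • (f 4 - f 3 - f 0) := by
  have h := (ar_den hε hz).ne'
  have h1 := hε.1.ne'
  have h2 : 1 - ε ≠ 0 := by linarith [hε.2]
  have h3 := hz.1.ne'
  have h4 : z - 1 ≠ 0 := by linarith [hz.2]
  have h5 : 1 - z ≠ 0 := by linarith [hz.2]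
  have e1 : arA ε z - 1 = ε * (z - 1) / (1 - ε * z) := by unfold arA; field_simp; ring
  have e2 : 1 - arA ε z * z = (1 - z) / (1 - ε * z) := by unfold arA; field_simp; ring
  simp only [Pc, Qc, e1, e2]
  unfold arA
  match_scalars <;> field_simp <;> ring

theorem ar_form2 (f : Fin 5 → V) (hε : ε ∈ Ioo (0 : ℝ) 1) (hz : z ∈ Ioo (0 : ℝ) 1) :
    (-ε) • Pc f (arB ε z, arA ε z) +
        ((1 - ε) * ε / (1 - ε * z) ^ 2) • Qc f (arB ε z, arA ε z) =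
      z⁻¹ • f 2 + (z - 1)⁻¹ • f 4 - (ε / (1 - ε * z)) • (f 0 - f 4 - f 1) := by
  have h := (ar_den hε hz).ne'
  have h1 := hε.1.ne'
  have h2 : 1 - ε ≠ 0 := by linarith [hε.2]
  have h3 := hz.1.ne'
  have h4 : z - 1 ≠ 0 := by linarith [hz.2]
  have h5 : 1 - z ≠ 0 := by linarith [hz.2]
  have e1 : arA ε z - 1 = ε * (z - 1) / (1 - ε * z) := by unfold arA; field_simp; ring
  have e2 : 1 - arB ε z * arA ε z = ε := by unfold arA arB; field_simp; ring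
  have e3 : arB ε z - 1 = -(ε * z) := by unfold arB; ring
  simp only [Pc, Qc, e1, e2, e3]
  unfold arA arB
  match_scalars <;> field_simp <;> ring

theorem ar_form3 (f : Fin 5 → V) (hε : ε ∈ Ioo (0 : ℝ) 1) (hz : z ∈ Ioo (0 : ℝ) 1) :
    ((ε - 1) / (1 - ε * z) ^ 2) • Pc f (arG ε z, arB ε z) + (-ε) • Qc f (arG ε z, arB ε z) =
      z⁻¹ • f 3 + (z - 1)⁻¹ • f 0 - (ε / (1 - ε * z)) • (f 1 - f 0 - f 2) := by
  have h := (ar_den hε hz).ne'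
  have h' : 1 - z * ε ≠ 0 := by rwa [mul_comm]
  have h1 := hε.1.ne'
  have h2 : ε - 1 ≠ 0 := by linarith [hε.2]
  have h3 := hz.1.ne'
  have h4 : z - 1 ≠ 0 := by linarith [hz.2]
  have h5 : 1 - z ≠ 0 := by linarith [hz.2]
  have e1 : arG ε z - 1 = z * (ε - 1) / (1 - ε * z) := by unfold arG; field_simp; ring
  have e2 : 1 - arG ε z * arB ε z = z := by unfold arG arB; field_simp; ring
  have e3 : arB ε z - 1 = -(ε * z) := by unfold arB; ring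
  simp only [Pc, Qc, e1, e2, e3]
  unfold arG arB
  match_scalars <;> field_simp <;> ring

theorem ar_form4 (f : Fin 5 → V) (hε : ε ∈ Ioo (0 : ℝ) 1) (hz : z ∈ Ioo (0 : ℝ) 1) :
    (0 : ℝ) • Pc f (ε, arG ε z) + ((ε - 1) / (1 - ε * z) ^ 2) • Qc f (ε, arG ε z) =
      z⁻¹ • f 4 + (z - 1)⁻¹ • f 1 - (ε / (1 - ε * z)) • (f 2 - f 1 - f 3) := by
  have h := (ar_den hε hz).ne'
  have h' : 1 - z * ε ≠ 0 := by rwa [mul_comm]
  have h1 := hε.1.ne'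
  have h2 : ε - 1 ≠ 0 := by linarith [hε.2]
  have h2' : 1 - ε ≠ 0 := by linarith [hε.2]
  have h3 := hz.1.ne'
  have h4 : z - 1 ≠ 0 := by linarith [hz.2]
  have h5 : 1 - z ≠ 0 := by linarith [hz.2]
  have e1 : arG ε z - 1 = z * (ε - 1) / (1 - ε * z) := by unfold arG; field_simp; ring
  have e2 : 1 - ε * arG ε z = (1 - ε) / (1 - ε * z) := by unfold arG; field_simp; ring
  simp only [Qc, e1, e2, zero_smul, zero_add]
  unfold arG
  match_scalars <;> field_simp <;> ring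

end

/-- the regularised end point value -/
noncomputable def arW (A D U : V) (ε : ℝ) : V := pw (-A) ε * pw (-D) ε * U

/-- the inverse of the regularised end point value -/
noncomputable def arV (A D U : V) (ε : ℝ) : V := Ring.inverse U * pw A ε * pw D ε

omit [FiniteDimensional ℝ V] in
theorem ar_comm {A D : V} (h : Commute A D) (ε : ℝ) : pw A ε * pw D ε = pw D ε * pw A ε :=
  (commute_pw (commute_pw h.symm ε).symm ε).eq

omit [FiniteDimensional ℝ V] in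
theorem arV_W {A D U : V} (h : Commute A D) (hU : IsUnit U) (ε : ℝ) :
    arV A D U ε * arW A D U ε = 1 := by
  unfold arV arW
  have e : pw A ε * pw D ε * (pw (-A) ε * pw (-D) ε) = 1 := by
    rw [ar_comm h, mul_assoc, ← mul_assoc (pw A ε), pw_mul_neg, one_mul, pw_mul_neg]
  calc Ring.inverse U * pw A ε * pw D ε * (pw (-A) ε * pw (-D) ε * U)
      = Ring.inverse U * (pw A ε * pw D ε * (pw (-A) ε * pw (-D) ε)) * U := by
        simp only [mul_assoc]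
    _ = 1 := by rw [e, mul_one, Ring.inverse_mul_cancel _ hU]

omit [FiniteDimensional ℝ V] in
theorem arW_V {A D U : V} (h : Commute A D) (hU : IsUnit U) (ε : ℝ) :
    arW A D U ε * arV A D U ε = 1 := by
  unfold arV arW
  have e : pw (-A) ε * pw (-D) ε * (pw A ε * pw D ε) = 1 := by
    rw [ar_comm h, mul_assoc, ← mul_assoc (pw (-D) ε), pw_neg_mul, one_mul, pw_neg_mul]
  calc pw (-A) ε * pw (-D) ε * U * (Ring.inverse U * pw A ε * pw D ε)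
      = pw (-A) ε * pw (-D) ε * (U * Ring.inverse U) * (pw A ε * pw D ε) := by
        simp only [mul_assoc]
    _ = 1 := by rw [Ring.mul_inverse_cancel _ hU, mul_one, e]

omit [FiniteDimensional ℝ V] in
theorem ar_edge {A B D C Φ : V} (hA : IsNilpotent A) (hB : IsNilpotent B) (hD : IsNilpotent D)
    (h : IsAssoc A B Φ) (hDΦ : Commute D Φ) {Y : ℝ → ℝ → V}
    (hY : ∀ ε ∈ Ioo (0 : ℝ) 1, ∀ z ∈ Ioo (0 : ℝ) 1, HasDerivAt (Y ε)
      ((z⁻¹ • A + (z - 1)⁻¹ • B - (ε / (1 - ε * z)) • C) * Y ε z) z)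
    (hu : ∀ ε ∈ Ioo (0 : ℝ) 1, ∀ z ∈ Ioo (0 : ℝ) 1, IsUnit (Y ε z)) {U U' : ℝ → V}
    (hU : ∀ ε ∈ Ioo (0 : ℝ) 1, Y ε ε = U ε) (hU' : ∀ ε ∈ Ioo (0 : ℝ) 1, Y ε (1 + ε)⁻¹ = U' ε) :
    Filter.Tendsto (fun ε => arW D B (U' ε) ε * arV A D (U ε) ε) (nhdsWithin 0 (Ioi 0))
      (nhds Φ) := by
  refine (edge hA hB hD h hDΦ hY hu).congr' ?_
  filter_upwards [Ioo_mem_nhdsGT (show (0 : ℝ) < 1 by norm_num)] with ε hε
  rw [hU ε hε, hU' ε hε]
  simp only [arW, arV, mul_assoc]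

theorem penta_prod {f : Fin 5 → V} (hf : Rel f) {F : ℕ → Submodule ℝ V} (hF : IsFil F) {N : ℕ}
    (hN : F N = ⊥) (h1 : ∀ i, f i ∈ F 1) {Φ0 Φ1 Φ2 Φ3 Φ4 : V}
    (a0 : IsAssoc (f 0) (f 2) Φ0) (a1 : IsAssoc (f 1) (f 3) Φ1) (a2 : IsAssoc (f 2) (f 4) Φ2)
    (a3 : IsAssoc (f 3) (f 0) Φ3) (a4 : IsAssoc (f 4) (f 1) Φ4)
    (c0 : Commute (f 1) Φ0) (c1 : Commute (f 2) Φ1) (c2 : Commute (f 3) Φ2)
    (c3 : Commute (f 4) Φ3) (c4 : Commute (f 0) Φ4) : Φ4 * Φ3 * Φ2 * Φ1 * Φ0 = 1 := by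
  obtain ⟨Fl, hu, hd⟩ := exists_flat hf hF hN h1
  have hn : ∀ i, IsNilpotent (f i) := fun i => hF.isNilpotent hN (h1 i)
  have t0 := ar_edge (hn 0) (hn 2) (hn 1) a0 c0 (C := f 3 - f 2 - f 4) (Y := fun ε z => Fl (z, ε))
    (fun ε hε z hz => by
      have h := hd (fun s => s) (fun _ => ε) z 1 0 hz hε (hasDerivAt_id z) (hasDerivAt_const z ε)
      rwa [ar_form0] at h)
    (fun ε hε z hz => hu _ hz _ hε) (U := fun ε => Fl (ε, ε)) (U' := fun ε => Fl ((1 + ε)⁻¹, ε))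
    (fun _ _ => rfl) (fun _ _ => rfl)
  have t1 := ar_edge (hn 1) (hn 3) (hn 2) a1 c1 (C := f 4 - f 3 - f 0)
    (Y := fun ε z => Fl (arA ε z, z))
    (fun ε hε z hz => by
      have h := hd (arA ε) (fun s => s) z _ 1 (arA_mem hε hz) hz (arA_deriv hε hz) (hasDerivAt_id z)
      rwa [ar_form1 f hε hz] at h)
    (fun ε hε z hz => hu _ (arA_mem hε hz) _ hz) (U := fun ε => Fl ((1 + ε)⁻¹, ε))
    (U' := fun ε => Fl (arB ε ε, (1 + ε)⁻¹))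
    (fun ε hε => by rw [arA_ee hε]) (fun ε hε => by rw [arA_b hε])
  have t2 := ar_edge (hn 2) (hn 4) (hn 3) a2 c2 (C := f 0 - f 4 - f 1)
    (Y := fun ε z => Fl (arB ε z, arA ε z))
    (fun ε hε z hz => by
      have h := hd (arB ε) (arA ε) z _ _ (arB_mem hε hz) (arA_mem hε hz) (arB_deriv ε z)
        (arA_deriv hε hz)
      rwa [ar_form2 f hε hz] at h)
    (fun ε hε z hz => hu _ (arB_mem hε hz) _ (arA_mem hε hz))
    (U := fun ε => Fl (arB ε ε, (1 + ε)⁻¹)) (U' := fun ε => Fl ((1 + ε)⁻¹, arB ε ε))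
    (fun ε hε => by rw [arA_ee hε]) (fun ε hε => by rw [arA_b hε, arB_b hε])
  have t3 := ar_edge (hn 3) (hn 0) (hn 4) a3 c3 (C := f 1 - f 0 - f 2)
    (Y := fun ε z => Fl (arG ε z, arB ε z))
    (fun ε hε z hz => by
      have h := hd (arG ε) (arB ε) z _ _ (arG_mem hε hz) (arB_mem hε hz) (arG_deriv hε hz)
        (arB_deriv ε z)
      rwa [ar_form3 f hε hz] at h)
    (fun ε hε z hz => hu _ (arG_mem hε hz) _ (arB_mem hε hz))
    (U := fun ε => Fl ((1 + ε)⁻¹, arB ε ε)) (U' := fun ε => Fl (ε, (1 + ε)⁻¹))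
    (fun ε hε => by rw [arG_ee hε]) (fun ε hε => by rw [arG_b hε, arB_b hε])
  have t4 := ar_edge (hn 4) (hn 1) (hn 0) a4 c4 (C := f 2 - f 1 - f 3)
    (Y := fun ε z => Fl (ε, arG ε z))
    (fun ε hε z hz => by
      have h := hd (fun _ => ε) (arG ε) z 0 _ hε (arG_mem hε hz) (hasDerivAt_const z ε)
        (arG_deriv hε hz)
      rwa [ar_form4 f hε hz] at h)
    (fun ε hε z hz => hu _ hε _ (arG_mem hε hz))
    (U := fun ε => Fl (ε, (1 + ε)⁻¹)) (U' := fun ε => Fl (ε, ε))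
    (fun ε hε => by rw [arG_ee hε]) (fun ε hε => by rw [arG_b hε])
  have t := (((t4.mul t3).mul t2).mul t1).mul t0
  refine tendsto_nhds_unique t (tendsto_const_nhds.congr' ?_)
  filter_upwards [Ioo_mem_nhdsGT (show (0 : ℝ) < 1 by norm_num)] with ε hε
  have hb := ar_b_mem hε
  have hB := arB_mem hε hε
  have e0 := arW_V hf.c01 (hu _ hε _ hε) ε
  have e1 := arV_W hf.c12 (hu _ hb _ hε) ε
  have e2 := arV_W hf.c23 (hu _ hB _ hb) ε
  have e3 := arV_W hf.c34 (hu _ hb _ hB) ε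
  have e4 := arV_W hf.c40 (hu _ hε _ hb) ε
  have key : ∀ W0 W1 W2 W3 W4 V0 V1 V2 V3 V4 : V, W0 * V0 = 1 → V1 * W1 = 1 → V2 * W2 = 1 →
      V3 * W3 = 1 → V4 * W4 = 1 →
      1 = W0 * V4 * (W4 * V3) * (W3 * V2) * (W2 * V1) * (W1 * V0) := by
    intro W0 W1 W2 W3 W4 V0 V1 V2 V3 V4 k0 k1 k2 k3 k4
    calc (1 : V) = W0 * (V4 * W4) * (V3 * W3) * (V2 * W2) * (V1 * W1) * V0 := by
          rw [k1, k2, k3, k4, mul_one, mul_one, mul_one, mul_one, k0]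
      _ = _ := by simp only [mul_assoc]
  exact key _ _ _ _ _ _ _ _ _ _ e0 e1 e2 e3 e4

end Vale.Agent.P029
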