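import Vale.Agent.P029.Pw

/-!
Uniqueness, naturality, shift invariance and inversion of associators.

Plan: `const_quot`: `z ↦ Ring.inverse (G z) * G' z` has derivative zero
(`hasFDerivAt_ringInverse`), so it is constant on the interval (`IsOpen.is_const_of_deriv_eq_zero` /
`constant_of_has_deriv_right_zero` / `Convex.is_const_of_fderivWithin_eq_zero`).
`IsCan.unique`: `G' = G * c`, so `pw (-A) z * G' z = (pw (-A) z * G z) * c`, let `z → 0+`.
`exists_assoc`: `z ↦ G1 (1 - z)` solves the same equation as `G0`.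
`IsCan.shift`: `z ↦ pw a z * pw b (1 - z) * G z` (`pw_near_one` for the asymptotics).
-/

namespace Vale.Agent.P029

open Set

variable {V V' : Type} [NormedRing V] [NormedAlgebra ℝ V] [CompleteSpace V] [NormedRing V']
  [NormedAlgebra ℝ V'] [CompleteSpace V']

theorem const_quot {M G G' : ℝ → V} (hG : ∀ z ∈ Ioo (0 : ℝ) 1, HasDerivAt G (M z * G z) z)
    (hG' : ∀ z ∈ Ioo (0 : ℝ) 1, HasDerivAt G' (M z * G' z) z)
    (hu : ∀ z ∈ Ioo (0 : ℝ) 1, IsUnit (G z)) : ∃ c, ∀ z ∈ Ioo (0 : ℝ) 1, G' z = G z * c := by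
  have key : ∀ z ∈ Ioo (0 : ℝ) 1, HasDerivAt (fun z => Ring.inverse (G z) * G' z) 0 z := by
    intro z hz
    obtain ⟨u, hu⟩ := hu z hz
    have h1 := hasFDerivAt_ringInverse (𝕜 := ℝ) u
    rw [hu] at h1
    have h2 := (h1.comp_hasDerivAt z (hG z hz)).mul (hG' z hz)
    refine h2.congr_deriv ?_
    simp [← hu, mul_assoc]
  obtain ⟨c, hc⟩ := isOpen_Ioo.exists_is_const_of_deriv_eq_zero (𝕜 := ℝ) isPreconnected_Ioo
    (fun z hz => (key z hz).differentiableAt.differentiableWithinAt) fun z hz => (key z hz).deriv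
  exact ⟨c, fun z hz => by rw [← hc z hz, Ring.mul_inverse_cancel_left _ _ (hu z hz)]⟩

omit [CompleteSpace V] in
theorem assoc_lim {A B : V} {G : ℝ → V} (h : IsCan A B G) :
    Filter.Tendsto (fun z => pw (-A) z * G z) (nhdsWithin 0 (Ioi 0)) (nhds 1) := by
  obtain ⟨C, hC⟩ := h.asym
  rw [tendsto_iff_norm_sub_tendsto_zero]
  refine squeeze_zero' (Filter.Eventually.of_forall fun _ => norm_nonneg _)
    (Filter.mem_of_superset (Ioc_mem_nhdsGT (show (0 : ℝ) < 1 / 2 by norm_num)) hC) ?_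
  have h1 : Continuous fun z : ℝ => C * √z := by fun_prop
  simpa using (h1.tendsto 0).mono_left nhdsWithin_le_nhds

theorem IsCan.unique {A B : V} {G G' : ℝ → V} (h : IsCan A B G) (h' : IsCan A B G') :
    ∀ z ∈ Ioo (0 : ℝ) 1, G z = G' z := by
  obtain ⟨c, hc⟩ := const_quot h.deriv h'.deriv h.unit
  have h1 := (assoc_lim h).mul_const c
  have h2 : (1 : V) * c = 1 := tendsto_nhds_unique (h1.congr' (Filter.mem_of_superset
    (Ioo_mem_nhdsGT zero_lt_one) fun z hz => by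
      change _ = pw (-A) z * G' z
      rw [hc z hz, mul_assoc])) (assoc_lim h')
  intro z hz
  rw [hc z hz, ← one_mul c, h2, mul_one]

theorem IsCan.map (φ : V →ₐ[ℝ] V') (hφ : Continuous φ) {A B : V} {G : ℝ → V} (h : IsCan A B G) :
    IsCan (φ A) (φ B) fun z => φ (G z) := by
  let L : V →L[ℝ] V' := ⟨φ.toLinearMap, hφ⟩
  refine ⟨fun z hz => ?_, fun z hz => (h.unit z hz).map φ, ?_⟩
  · have h1 := L.hasFDerivAt.comp_hasDerivAt z (h.deriv z hz)
    refine h1.congr_deriv ?_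
    change φ _ = _
    rw [map_mul, map_add, map_smul, map_smul]
  · obtain ⟨C, hC⟩ := h.asym
    refine ⟨‖L‖ * C, fun z hz => ?_⟩
    rw [← map_neg, ← map_pw φ hφ, ← map_mul, ← map_one φ, ← map_sub, mul_assoc]
    exact (L.le_opNorm _).trans (mul_le_mul_of_nonneg_left (hC z hz) (norm_nonneg _))

omit [CompleteSpace V] in
theorem assoc_rev {G : ℝ → V} {g : V} {z : ℝ} (h : HasDerivAt G g (1 - z)) :
    HasDerivAt (fun z => G (1 - z)) (-g) z := by
  exact (h.scomp z ((hasDerivAt_id z).const_sub 1)).congr_deriv (by simp)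

theorem IsCan.shift {A B a b : V} {G : ℝ → V} (h : IsCan A B G) (h1 : Commute a A)
    (h2 : Commute a B) (h3 : Commute b A) (h4 : Commute b B) (h5 : Commute a b) :
    IsCan (A + a) (B + b) fun z => pw a z * pw b (1 - z) * G z := by
  refine ⟨fun z hz => ?_, fun z hz => ((isUnit_pw _ _).mul (isUnit_pw _ _)).mul (h.unit z hz), ?_⟩
  · have e1 := ((hasDerivAt_pw a hz.1).mul
      (assoc_rev (hasDerivAt_pw b (sub_pos.2 hz.2)))).mul (h.deriv z hz)
    refine e1.congr_deriv (Eq.symm ?_)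
    have c1 : Commute (z⁻¹ • A + (z - 1)⁻¹ • B) (pw a z * pw b (1 - z)) :=
      (commute_pw ((h1.smul_right _).add_right (h2.smul_right _)).symm z).mul_right
        (commute_pw ((h3.smul_right _).add_right (h4.smul_right _)).symm _)
    have c2 : Commute ((1 - z)⁻¹ • b) (pw a z) := commute_pw (h5.smul_right _).symm z
    have e2 : z⁻¹ • (A + a) + (z - 1)⁻¹ • (B + b) =
        (z⁻¹ • A + (z - 1)⁻¹ • B) + z⁻¹ • a - (1 - z)⁻¹ • b := by
      rw [← neg_sub 1 z, inv_neg]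
      module
    rw [e2, Pi.mul_apply, ← mul_assoc (pw a z * _), ← c1.eq, mul_neg, ← mul_assoc (pw a z), ← c2.eq]
    noncomm_ring
  · obtain ⟨C, hC⟩ := h.asym
    obtain ⟨D, hD0, hD⟩ := pw_near_one b
    refine ⟨D * C + D + C, fun z hz => ?_⟩
    have e1 : pw (-(A + a)) z * (pw a z * pw b (1 - z) * G z) - 1 =
        (pw b (1 - z) - 1) * (pw (-A) z * G z - 1) + (pw b (1 - z) - 1) + (pw (-A) z * G z - 1) := by
      have c1 : Commute (pw (-A) z) (pw b (1 - z)) := commute_pw (commute_pw h3.neg_right z).symm _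
      rw [neg_add, pw_add h1.symm.neg_left.neg_right, mul_assoc (pw a z), mul_assoc,
        ← mul_assoc (pw (-a) z), pw_neg_mul, one_mul, ← mul_assoc, c1.eq]
      noncomm_ring
    have e2 := hD (1 - z) ⟨by linarith [hz.2], by linarith [hz.1]⟩
    rw [sub_sub_cancel_left, abs_neg, abs_of_pos hz.1] at e2
    have e3 := hC z hz
    have e4 : z ≤ √z := Real.le_sqrt_of_sq_le (by nlinarith [hz.1, hz.2])
    have e5 : D * z ≤ D * √z := mul_le_mul_of_nonneg_left e4 hD0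
    have e6 : D * z ≤ D := mul_le_of_le_one_right hD0 (by linarith [hz.2])
    have e7 := (norm_mul_le (pw b (1 - z) - 1) (pw (-A) z * G z - 1)).trans
      (mul_le_mul (e2.trans e6) e3 (norm_nonneg _) hD0)
    rw [e1]
    refine norm_add₃_le.trans ?_
    linarith

theorem exists_assoc {A B : V} {G0 G1 : ℝ → V} (h0 : IsCan A B G0) (h1 : IsCan B A G1) :
    ∃ Φ, IsAssoc A B Φ := by
  have hm : ∀ z ∈ Ioo (0 : ℝ) 1, 1 - z ∈ Ioo (0 : ℝ) 1 := fun z hz =>
    ⟨sub_pos.2 hz.2, sub_lt_self _ hz.1⟩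
  obtain ⟨c, hc⟩ := const_quot (G := fun z => G1 (1 - z)) (fun z hz => by
    refine (assoc_rev (h1.deriv _ (hm z hz))).congr_deriv (Eq.symm ?_)
    rw [← neg_mul, sub_sub_cancel_left, ← neg_sub 1 z, inv_neg, inv_neg]
    congr 1
    module) h0.deriv fun z hz => h1.unit _ (hm z hz)
  exact ⟨c, G0, G1, h0, h1, hc⟩

theorem IsAssoc.unique {A B Φ Ψ : V} (h : IsAssoc A B Φ) (h' : IsAssoc A B Ψ) : Φ = Ψ := by
  obtain ⟨G0, G1, a0, a1, a⟩ := h
  obtain ⟨H0, H1, b0, b1, b⟩ := h'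
  have m1 : (1 / 2 : ℝ) ∈ Ioo (0 : ℝ) 1 := by constructor <;> norm_num
  have m2 : (1 - 1 / 2 : ℝ) ∈ Ioo (0 : ℝ) 1 := by constructor <;> norm_num
  refine (a1.unit _ m2).mul_left_cancel ?_
  rw [← a _ m1, a0.unique b0 _ m1, b _ m1, a1.unique b1 _ m2]

theorem IsAssoc.map (φ : V →ₐ[ℝ] V') (hφ : Continuous φ) {A B Φ : V} (h : IsAssoc A B Φ) :
    IsAssoc (φ A) (φ B) (φ Φ) := by
  obtain ⟨G0, G1, a0, a1, a⟩ := h
  exact ⟨_, _, a0.map φ hφ, a1.map φ hφ, fun z hz => by rw [a z hz, map_mul]⟩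

theorem IsAssoc.shift {A B a b Φ : V} (h : IsAssoc A B Φ) (h1 : Commute a A)
    (h2 : Commute a B) (h3 : Commute b A) (h4 : Commute b B) (h5 : Commute a b) :
    IsAssoc (A + a) (B + b) Φ := by
  obtain ⟨G0, G1, a0, a1, e⟩ := h
  refine ⟨_, _, a0.shift h1 h2 h3 h4 h5, a1.shift h4 h3 h2 h1 h5.symm, fun z hz => ?_⟩
  rw [e z hz, sub_sub_cancel, (commute_pw (commute_pw h5.symm z).symm (1 - z)).eq, ← mul_assoc]

theorem IsAssoc.mul_swap {A B Φ Ψ : V} (h : IsAssoc A B Φ) (h' : IsAssoc B A Ψ) : Φ * Ψ = 1 := by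
  obtain ⟨G0, G1, a0, a1, a⟩ := h
  obtain ⟨H1, H0, b1, b0, b⟩ := h'
  have m1 : (1 / 2 : ℝ) ∈ Ioo (0 : ℝ) 1 := by constructor <;> norm_num
  have e : (1 - 1 / 2 : ℝ) = 1 / 2 := by norm_num
  have e1 := a _ m1
  have e2 := b _ m1
  rw [e] at e1 e2
  refine (a1.unit _ m1).mul_left_cancel ?_
  rw [← mul_assoc, ← e1, a0.unique b0 _ m1, ← e2, mul_one, a1.unique b1 _ m1]

theorem isAssoc_zero_right (A : V) : IsAssoc A 0 1 := by
  have h0 : IsCan (0 : V) 0 fun _ => 1 :=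
    ⟨fun z _ => by simpa using hasDerivAt_const z (1 : V), fun _ _ => isUnit_one, 0, fun z _ => by simp⟩
  have h1 : IsAssoc (0 : V) 0 1 := ⟨_, _, h0, h0, fun _ _ => (mul_one _).symm⟩
  simpa using h1.shift (a := A) (b := 0) (Commute.zero_right _) (Commute.zero_right _)
    (Commute.zero_right _) (Commute.zero_right _) (Commute.zero_right _)

end Vale.Agent.P029
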