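import Vale.Agent.P029.Defs

/-!
Free associative algebra `T R X`, words, coefficients, evaluation, derivations.
-/

namespace Vale.Agent.P029

attribute [local instance 100] LieRing.ofAssociativeRing

abbrev T (R X : Type) [CommRing R] : Type := MonoidAlgebra R (FreeMonoid X)

section
variable {R : Type} [CommRing R] {X Y : Type} {B B' : Type} [Ring B] [Algebra R B] [Ring B']
  [Algebra R B']

/-- the word `w` -/
noncomputable def wd (w : List X) : T R X := MonoidAlgebra.single (FreeMonoid.ofList w) 1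

/-- the letter `i` -/
noncomputable def lt (i : X) : T R X := wd [i]

/-- coefficient of the word `w` -/
noncomputable def cf (w : List X) : T R X →ₗ[R] R where
  toFun u := u.coeff (FreeMonoid.ofList w)
  map_add' _ _ := rfl
  map_smul' _ _ := rfl

/-- evaluation -/
noncomputable def ev (f : X → B) : T R X →ₐ[R] B :=
  MonoidAlgebra.lift R B (FreeMonoid X) (FreeMonoid.lift f)

@[simp] lemma wd_nil : (wd [] : T R X) = 1 := rfl

lemma wd_append (v w : List X) : (wd (v ++ w) : T R X) = wd v * wd w := by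
  simp [wd, MonoidAlgebra.single_mul_single, FreeMonoid.ofList_append]

lemma wd_cons (i : X) (w : List X) : (wd (i :: w) : T R X) = lt i * wd w := wd_append [i] w

lemma cf_ext {u v : T R X} (h : ∀ w, cf w u = cf w v) : u = v := by
  ext w; exact h (FreeMonoid.toList w)

lemma cf_wd [DecidableEq X] (v w : List X) : cf v (wd w : T R X) = if w = v then 1 else 0 := by
  change (Finsupp.single (FreeMonoid.ofList w) (1 : R)) (FreeMonoid.ofList v) = _
  classical
  rw [Finsupp.single_apply]; simp

lemma cf_wd_self (w : List X) : cf w (wd w : T R X) = 1 := by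
  classical simp [cf_wd]

lemma cf_wd_ne {v w : List X} (h : w ≠ v) : cf v (wd w : T R X) = 0 := by
  classical simp [cf_wd, h]

/-- the finite set of words occurring in `u` -/
noncomputable def supp (u : T R X) : Finset (List X) :=
  u.coeff.support.map FreeMonoid.toList.toEmbedding

lemma mem_supp {u : T R X} {w : List X} : w ∈ supp u ↔ cf w u ≠ 0 := by
  simp only [supp, Finset.mem_map_equiv, Finsupp.mem_support_iff]; rfl

lemma eq_sum_wd (u : T R X) : u = ∑ w ∈ supp u, cf w u • wd w := by
  classical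
  refine cf_ext fun v => ?_
  simp only [map_sum, map_smul, cf_wd, smul_eq_mul, mul_ite, mul_one, mul_zero,
    Finset.sum_ite_eq']
  split_ifs with h
  · rfl
  · simpa [mem_supp] using h

/-- induction over words occurring in `u` -/
lemma ind_supp {p : T R X → Prop} (u : T R X) (h0 : p 0) (hw : ∀ w, cf w u ≠ 0 → p (wd w))
    (ha : ∀ a b, p a → p b → p (a + b)) (hs : ∀ (c : R) a, p a → p (c • a)) : p u := by
  rw [eq_sum_wd u]
  exact Finset.sum_induction _ p ha h0 fun w h => hs _ _ (hw w (mem_supp.1 h))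

lemma ind_wd {p : T R X → Prop} (u : T R X) (hw : ∀ w, p (wd w))
    (ha : ∀ a b, p a → p b → p (a + b)) (hs : ∀ (c : R) a, p a → p (c • a)) : p u :=
  ind_supp u (by simpa using hs 0 _ (hw [])) (fun w _ => hw w) ha hs

lemma ind_lt {p : T R X → Prop} (u : T R X) (h1 : p 1) (hl : ∀ i a, p a → p (lt i * a))
    (ha : ∀ a b, p a → p b → p (a + b)) (hs : ∀ (c : R) a, p a → p (c • a)) : p u := by
  refine ind_wd u (fun w => ?_) ha hs
  induction w with
  | nil => exact h1
  | cons i w ih => rw [wd_cons]; exact hl i _ ih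

lemma lin_ext {M : Type} [AddCommGroup M] [Module R M] {φ ψ : T R X →ₗ[R] M}
    (h : ∀ w, φ (wd w) = ψ (wd w)) : φ = ψ := by
  refine LinearMap.ext fun u => ind_wd (p := fun u => φ u = ψ u) u h ?_ ?_
  · intro a b ha hb; simp [ha, hb]
  · intro c a ha; simp [ha]

lemma ev_wd (f : X → B) (w : List X) : ev f (wd w : T R X) = (w.map f).prod := by
  simp [ev, wd, FreeMonoid.lift_ofList]

@[simp] lemma ev_lt (f : X → B) (i : X) : ev f (lt i : T R X) = f i := by simp [lt, ev_wd]

lemma alg_ext {φ ψ : T R X →ₐ[R] B} (h : ∀ i, φ (lt i) = ψ (lt i)) : φ = ψ := by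
  refine AlgHom.ext fun u => ind_lt (p := fun u => φ u = ψ u) u (by simp) ?_ ?_ ?_
  · intro i a ha; simp [h, ha]
  · intro a b ha hb; simp [ha, hb]
  · intro c a ha; simp [ha]

lemma map_ev (φ : B →ₐ[R] B') (f : X → B) (u : T R X) : φ (ev f u) = ev (fun i => φ (f i)) u :=
  DFunLike.congr_fun (alg_ext (φ := φ.comp (ev f)) (ψ := ev fun i => φ (f i)) (by simp)) u

@[simp] lemma ev_lt_id (u : T R X) : ev (lt : X → T R X) u = u :=
  DFunLike.congr_fun (alg_ext (φ := ev lt) (ψ := AlgHom.id R _) (by simp)) u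

lemma map_ev2 (φ : B →ₐ[R] B') (a b : B) (u : T R (Fin 2)) :
    φ (ev ![a, b] u) = ev ![φ a, φ b] u := by
  rw [map_ev]; congr 2; ext i; fin_cases i <;> rfl

lemma map_ev3 (φ : B →ₐ[R] B') (a b c : B) (u : T R (Fin 3)) :
    φ (ev ![a, b, c] u) = ev ![φ a, φ b, φ c] u := by
  rw [map_ev]; congr 2; ext i; fin_cases i <;> rfl

@[simp] lemma ev_lt_id2 (u : T R (Fin 2)) : ev ![(lt 0 : T R (Fin 2)), lt 1] u = u := by
  have : ![(lt 0 : T R (Fin 2)), lt 1] = lt := by ext1 i; fin_cases i <;> rfl
  rw [this, ev_lt_id]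

lemma commute_ev {f : X → B} {c : B} (h : ∀ i, Commute c (f i)) (u : T R X) :
    Commute c (ev f u) := by
  refine ind_lt (p := fun u => Commute c (ev f u)) u (by simp) ?_ ?_ ?_
  · intro i a ha; simpa using (h i).mul_right ha
  · intro a b ha hb; simpa using ha.add_right hb
  · intro c a ha; simpa using ha.smul_right c

lemma commute_ev2 {a b c : B} (ha : Commute c a) (hb : Commute c b) (u : T R (Fin 2)) :
    Commute c (ev ![a, b] u) :=
  commute_ev (fun i => by fin_cases i <;> assumption) u

lemma cf_nil_one : cf [] (1 : T R X) = 1 := cf_wd_self []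

lemma cf_cons_one (i : X) (w : List X) : cf (i :: w) (1 : T R X) = 0 :=
  cf_wd_ne (w := []) (by simp)

lemma cf_nil_lt_mul (i : X) (u : T R X) : cf [] (lt i * u) = 0 := by
  refine ind_wd (p := fun u => cf [] (lt i * u) = 0) u (fun w => ?_) ?_ ?_
  · rw [← wd_cons]; exact cf_wd_ne (by simp)
  · intro a b ha hb; simp [mul_add, ha, hb]
  · intro c a ha; simp [ha]

lemma cf_cons_lt_mul [DecidableEq X] (i j : X) (w : List X) (u : T R X) :
    cf (j :: w) (lt i * u) = if i = j then cf w u else 0 := by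
  refine ind_wd (p := fun u => cf (j :: w) (lt i * u) = if i = j then cf w u else 0) u
    (fun v => ?_) ?_ ?_
  · rw [← wd_cons, cf_wd, cf_wd]; by_cases h : i = j <;> simp [h]
  · intro a b ha hb; rw [mul_add, map_add, ha, hb]; split_ifs <;> simp
  · intro c a ha; rw [mul_smul_comm, map_smul, ha]; split_ifs <;> simp

lemma cf_concat_mul_lt [DecidableEq X] (i j : X) (w : List X) (u : T R X) :
    cf (w ++ [j]) (u * lt i) = if i = j then cf w u else 0 := by
  refine ind_wd (p := fun u => cf (w ++ [j]) (u * lt i) = if i = j then cf w u else 0) u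
    (fun v => ?_) ?_ ?_
  · rw [lt, ← wd_append, cf_wd, cf_wd]; by_cases h : i = j <;> simp [h]
  · intro a b ha hb; rw [add_mul, map_add, ha, hb]; split_ifs <;> simp
  · intro c a ha; rw [smul_mul_assoc, map_smul, ha]; split_ifs <;> simp

/-- value at the empty word is evaluation at zero -/
lemma ev_zero (u : T R X) : ev (fun _ => (0 : B)) u = algebraMap R B (cf [] u) := by
  refine ind_lt (p := fun u => ev (fun _ => (0 : B)) u = algebraMap R B (cf [] u)) u
    (by simp [cf_nil_one]) ?_ ?_ ?_
  · intro i a _; simp [cf_nil_lt_mul]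
  · intro a b ha hb; simp [ha, hb]
  · intro c a ha; rw [map_smul, map_smul, ha, smul_eq_mul, map_mul, Algebra.smul_def]

/-- base change -/
noncomputable def bc (S : Type) [CommRing S] [Algebra R S] : T R X →ₐ[R] T S X := ev lt

@[simp] lemma bc_lt (S : Type) [CommRing S] [Algebra R S] (i : X) :
    bc S (lt i : T R X) = lt i := ev_lt _ _

lemma bc_wd (S : Type) [CommRing S] [Algebra R S] (w : List X) :
    bc S (wd w : T R X) = wd w := by
  induction w with
  | nil => simp
  | cons i w ih => rw [wd_cons, wd_cons, map_mul, ih, bc_lt]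

lemma cf_bc (S : Type) [CommRing S] [Algebra R S] (w : List X) (u : T R X) :
    cf w (bc S u) = algebraMap R S (cf w u) := by
  classical
  refine ind_wd (p := fun u => cf w (bc S u) = algebraMap R S (cf w u)) u (fun v => ?_) ?_ ?_
  · rw [bc_wd, cf_wd, cf_wd]; split_ifs <;> simp
  · intro a b ha hb; simp [ha, hb]
  · intro c a ha
    rw [map_smul, ← algebraMap_smul S c ((bc S) a), map_smul, ha, map_smul]; simp

/-- Leibniz rule -/
def IsDer {B : Type} [Ring B] (d : B → B) : Prop := ∀ a b, d (a * b) = d a * b + a * d b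

/-- `dev f d` is the `ev f`-derivation with values `d i` on the letters -/
noncomputable def dev (f d : X → B) : T R X →ₗ[R] B :=
  ((TrivSqZeroExt.sndHom B B).restrictScalars R).comp
    (ev (fun i => (TrivSqZeroExt.inl (f i) + TrivSqZeroExt.inr (d i) : TrivSqZeroExt B B))).toLinearMap

lemma fst_ev_dual (f d : X → B) (u : T R X) :
    (ev (fun i => (TrivSqZeroExt.inl (f i) + TrivSqZeroExt.inr (d i) : TrivSqZeroExt B B)) u).fst
      = ev f u := by
  have := map_ev (TrivSqZeroExt.fstHom R B B)
    (fun i => (TrivSqZeroExt.inl (f i) + TrivSqZeroExt.inr (d i) : TrivSqZeroExt B B)) u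
  simpa using this

lemma snd_ev_dual (f d : X → B) (u : T R X) :
    (ev (fun i => (TrivSqZeroExt.inl (f i) + TrivSqZeroExt.inr (d i) : TrivSqZeroExt B B)) u).snd
      = dev f d u := rfl

@[simp] lemma dev_lt (f d : X → B) (i : X) : dev f d (lt i : T R X) = d i := by
  rw [← snd_ev_dual]; simp

@[simp] lemma dev_one (f d : X → B) : dev f d (1 : T R X) = 0 := by
  rw [← snd_ev_dual]; simp

lemma dev_mul (f d : X → B) (u v : T R X) :
    dev f d (u * v) = dev f d u * ev f v + ev f u * dev f d v := by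
  rw [← snd_ev_dual, map_mul, TrivSqZeroExt.snd_mul, fst_ev_dual, fst_ev_dual, snd_ev_dual,
    snd_ev_dual, add_comm]
  simp

lemma dev_unique (f d : X → B) (D : T R X →ₗ[R] B)
    (hm : ∀ i v, D (lt i * v) = d i * ev f v + f i * D v) (h1 : D 1 = 0) (u : T R X) :
    D u = dev f d u := by
  refine ind_lt (p := fun u => D u = dev f d u) u (by simp [h1]) ?_ ?_ ?_
  · intro i a ha; simp [hm, dev_mul, ha]
  · intro a b ha hb; simp [ha, hb]
  · intro c a ha; simp [ha]

/-- the derivation of `T R X` with values `d i` on the letters -/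
noncomputable def der (d : X → T R X) : T R X →ₗ[R] T R X := dev lt d

@[simp] lemma der_lt (d : X → T R X) (i : X) : der d (lt i) = d i := dev_lt _ _ _

@[simp] lemma der_one (d : X → T R X) : der d 1 = 0 := dev_one _ _

lemma der_mul (d : X → T R X) (u v : T R X) : der d (u * v) = der d u * v + u * der d v := by
  simp [der, dev_mul]

lemma isDer_der (d : X → T R X) : IsDer (der d) := der_mul d

lemma IsDer.one {B : Type} [Ring B] {d : B → B} (h : IsDer d) : d 1 = 0 := by
  simpa using h 1 1

lemma IsDer.lie {B F : Type} [Ring B] [FunLike F B B] [AddMonoidHomClass F B B] {d : F}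
    (h : IsDer d) (a b : B) : d ⁅a, b⁆ = ⁅d a, b⁆ + ⁅a, d b⁆ := by
  simp only [Ring.lie_def, map_sub, h a b, h b a]; abel

lemma der_lie (d : X → T R X) (u v : T R X) : der d ⁅u, v⁆ = ⁅der d u, v⁆ + ⁅u, der d v⁆ :=
  (isDer_der d).lie u v

lemma ev_der (f : X → B) (d : X → T R X) (u : T R X) :
    ev f (der d u) = dev f (fun i => ev f (d i)) u :=
  dev_unique f _ ((ev f).toLinearMap.comp (der d)) (by simp [der_mul]) (by simp) u

lemma IsDer.map_ev {δ : B →ₗ[R] B} (h : IsDer δ) (f : X → B) (u : T R X) :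
    δ (ev f u) = dev f (fun i => δ (f i)) u :=
  dev_unique f _ (δ.comp (ev f).toLinearMap) (by intro i v; simp [h (f i)]) (by simp [h.one]) u

lemma dev_add (f d d' : X → B) (u : T R X) :
    dev f (fun i => d i + d' i) u = dev f d u + dev f d' u :=
  (dev_unique f _ (dev f d + dev f d') (by
    intro i v; simp only [dev_mul, LinearMap.add_apply, dev_lt, ev_lt]; noncomm_ring)
    (by simp) u).symm

lemma dev_lie (f : X → B) (c : B) (u : T R X) : dev f (fun i => ⁅f i, c⁆) u = ⁅ev f u, c⁆ :=
  (dev_unique f _ ((LinearMap.mulRight R c - LinearMap.mulLeft R c).comp (ev f).toLinearMap) (by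
    intro i v; simp [Ring.lie_def]; noncomm_ring) (by simp) u).symm

lemma der_ext {δ δ' : T R X →ₗ[R] T R X} (h : IsDer δ) (h' : IsDer δ')
    (e : ∀ i, δ (lt i) = δ' (lt i)) : δ = δ' := by
  refine LinearMap.ext fun u => ?_
  have h1 := h.map_ev lt u
  have h2 := h'.map_ev lt u
  rw [ev_lt_id] at h1 h2
  rw [h1, h2]; simp only [e]

end

section Int
variable {X : Type} {C C' : Type} [Ring C] [Ring C']

/-- evaluation of an integral noncommutative polynomial in an arbitrary ring -/
noncomputable def evZ (f : X → C) : T ℤ X →+* C := (ev (R := ℤ) f).toRingHom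

@[simp] lemma evZ_lt (f : X → C) (i : X) : evZ f (lt i) = f i := ev_lt f i

lemma evZ_wd (f : X → C) (w : List X) : evZ f (wd w) = (w.map f).prod := ev_wd f w

lemma ind_int {p : T ℤ X → Prop} (u : T ℤ X) (h1 : p 1) (hl : ∀ i a, p a → p (lt i * a))
    (ha : ∀ a b, p a → p b → p (a + b)) (hn : ∀ a, p a → p (-a)) : p u := by
  refine ind_lt u h1 hl ha fun c a h => ?_
  have h0 : p 0 := by simpa using ha _ _ h (hn _ h)
  induction c using Int.induction_on with
  | zero => simpa using h0
  | succ i ih => rw [add_smul, one_smul]; exact ha _ _ ih h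
  | pred i ih => rw [sub_smul, one_smul, sub_eq_add_neg]; exact ha _ _ ih (hn _ h)

lemma ring_ext {φ ψ : T ℤ X →+* C} (h : ∀ i, φ (lt i) = ψ (lt i)) : φ = ψ := by
  refine RingHom.ext fun u => ind_int (p := fun u => φ u = ψ u) u (by simp) ?_ ?_ ?_
  · intro i a ha; simp [h, ha]
  · intro a b ha hb; simp [ha, hb]
  · intro a ha; simp [ha]

lemma map_evZ (φ : C →+* C') (f : X → C) (u : T ℤ X) : φ (evZ f u) = evZ (fun i => φ (f i)) u :=
  DFunLike.congr_fun (ring_ext (φ := φ.comp (evZ f)) (ψ := evZ fun i => φ (f i)) (by simp)) u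

lemma map_evZ2 (φ : C →+* C') (a b : C) (u : T ℤ (Fin 2)) :
    φ (evZ ![a, b] u) = evZ ![φ a, φ b] u := by
  rw [map_evZ]; congr 2; ext i; fin_cases i <;> rfl

lemma map_evZ3 (φ : C →+* C') (a b c : C) (u : T ℤ (Fin 3)) :
    φ (evZ ![a, b, c] u) = evZ ![φ a, φ b, φ c] u := by
  rw [map_evZ]; congr 2; ext i; fin_cases i <;> rfl

@[simp] lemma evZ_lt_id (u : T ℤ X) : evZ (lt : X → T ℤ X) u = u :=
  DFunLike.congr_fun (ring_ext (φ := evZ lt) (ψ := RingHom.id _) (by simp)) u

/-- evaluating over a bigger base ring -/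
lemma ev_bc {S B : Type} [CommRing S] [Ring B] [Algebra S B] (f : X → B) (u : T ℤ X) :
    ev f (bc S u) = evZ f u :=
  DFunLike.congr_fun (ring_ext (φ := (ev f).toRingHom.comp (bc S).toRingHom) (ψ := evZ f)
    (by simp)) u

lemma evZ_lt_eq_bc (S : Type) [CommRing S] (u : T ℤ X) : evZ (lt : X → T S X) u = bc S u := by
  rw [← ev_bc (S := S), ev_lt_id]

lemma cf_evZ_lt (S : Type) [CommRing S] (w : List X) (u : T ℤ X) :
    cf w (evZ (lt : X → T S X) u) = ((cf w u : ℤ) : S) := by
  rw [evZ_lt_eq_bc, cf_bc]; simp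

lemma bc_injective (S : Type) [CommRing S] [CharZero S] :
    Function.Injective (bc S : T ℤ X → T S X) := by
  intro u v h
  refine cf_ext fun w => ?_
  have := congrArg (cf w) h
  rw [cf_bc, cf_bc] at this
  simpa using this

lemma evZ_der {f : X → C} {d : X → T ℤ X} {δ : C →+ C} (hδ : IsDer δ)
    (h : ∀ i, evZ f (d i) = δ (f i)) (u : T ℤ X) : evZ f (der d u) = δ (evZ f u) := by
  refine ind_int (p := fun u => evZ f (der d u) = δ (evZ f u)) u (by simp [hδ.one]) ?_ ?_ ?_
  · intro i a ha; simp [der_mul, h, ha, hδ (f i)]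
  · intro a b ha hb; simp [ha, hb]
  · intro a ha; simp [ha]

lemma commute_evZ {f : X → C} {c : C} (h : ∀ i, Commute c (f i)) (u : T ℤ X) :
    Commute c (evZ f u) := commute_ev (R := ℤ) h u

/-- intertwining of two representations -/
lemma evZ_intertwine {R R' M M' : Type} [CommRing R] [CommRing R'] [AddCommGroup M]
    [AddCommGroup M'] [Module R M] [Module R' M'] (j : M →+ M')
    {P : X → Module.End R M} {P' : X → Module.End R' M'} (h : ∀ i m, j (P i m) = P' i (j m))
    (u : T ℤ X) (m : M) : j (evZ P u m) = evZ P' u (j m) := by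
  revert m
  refine ind_int (p := fun u => ∀ m, j (evZ P u m) = evZ P' u (j m)) u (by simp) ?_ ?_ ?_
  · intro i a ha m; simp [h, ha]
  · intro a b ha hb m; simp [ha, hb]
  · intro a ha m; simp [ha]

lemma evZ_mulLeft (f : X → C) (u : T ℤ X) (m : C) :
    evZ (fun i => (LinearMap.mulLeft ℤ (f i) : Module.End ℤ C)) u m = evZ f u * m := by
  revert m
  refine ind_int (p := fun u => ∀ m,
    evZ (fun i => (LinearMap.mulLeft ℤ (f i) : Module.End ℤ C)) u m = evZ f u * m) u
    (by simp) ?_ ?_ ?_
  · intro i a ha m; simp [ha, mul_assoc]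
  · intro a b ha hb m; simp [ha, hb, add_mul]
  · intro a ha m; simp [ha]

end Int

lemma ev_mulLeft {R X B : Type} [CommRing R] [Ring B] [Algebra R B] (f : X → B) (u : T R X) :
    ev (fun i => (LinearMap.mulLeft R (f i) : Module.End R B)) u = LinearMap.mulLeft R (ev f u) :=
  (map_ev (Algebra.lmul R B) f u).symm

end Vale.Agent.P029
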