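import Vale.Agent.P029.Lam

/-!
Two auxiliary rings of characteristic two, and Lie polynomials modulo `Y²`.

Plan: `exists_C`: `C = RingQuot r` on `T ℤ (Fin 3)`, `r` : `2 ∼ 0`, `lt i * lt i ∼ 0` for `i ∈ S`.
A derivation with values `d i` is `snd ∘ φ` for the ring hom `φ : C → TrivSqZeroExt C C`,
`g i ↦ inl (g i) + inr (d i)`, well defined when `d i * g i + g i * d i = 0` for `i ∈ S`; here
`d i` is `0` or `⁅g i, w⁆`, and `⁅g,w⁆ g + g ⁅g,w⁆ = g² w - w g² = 0`.
`exists_model`: `K = T (ZMod 2) (Fin 3)` with letters `A, c, E`; derivations `α : E ↦ ⁅c, A⁆`,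
`β : c ↦ E`, `ε : A ↦ E` (other letters to `0`). On `K × K`: `a (k,k') = (α k, k + α k')`,
`b (k,k') = (β k + k' * A, β k')`, `e (k,k') = (ε k + k' * c, ε k')`, `Δ v (k,k') = (v k, v k')`.
In characteristic two squares and (anti)commutators of derivations are derivations (`der_ext`):
`α² = β² = ε² = 0`, `βε + εβ = 0`, `αβ + βα = ad A`, `αε + εα = ad c`.
`p2`: the set of `ℓ` with the property is closed under sums, negatives and brackets; it is stable
under `ad x` and `ad y`: `der ![0, E, ⁅A,c⁆]` and `der ![E, 0, 0]` (`der_mem_HT`, `evZ_der` with the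
inner derivations `⁅X, ·⁆`, `⁅Y, ·⁆`). Induct with `Hom_ind_int` on the predicate
`(n = 1 ∧ ℓ is an integral combination of letters) ∨ property`, or first on monomials.
-/

namespace Vale.Agent.P029

attribute [local instance 100] LieRing.ofAssociativeRing

section ModD
variable {R K : Type} [CommRing R] [Ring K] [Algebra R K]

lemma modD_ac (h : ∀ z : K, z + z = 0) {d d' : K →ₗ[R] K} (h1 : IsDer d) (h2 : IsDer d') :
    IsDer (d ∘ₗ d' + d' ∘ₗ d) := by
  intro a b
  simp only [LinearMap.add_apply, LinearMap.comp_apply, h1 a b, h2 a b, map_add, h1 (d' a) b,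
    h1 a (d' b), h2 (d a) b, h2 a (d b)]
  linear_combination (norm := noncomm_ring) h (d a * d' b + d' a * d b)

lemma modD_sq (h : ∀ z : K, z + z = 0) {d : K →ₗ[R] K} (h1 : IsDer d) : IsDer (d ∘ₗ d) := by
  intro a b
  simp only [LinearMap.comp_apply, h1 a b, map_add, h1 (d a) b, h1 a (d b)]
  linear_combination (norm := noncomm_ring) h (d a * d b)

lemma modD_ad (h : ∀ z : K, z + z = 0) (A : K) :
    IsDer (LinearMap.mulLeft R A + LinearMap.mulRight R A) := by
  intro a b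
  simp only [LinearMap.add_apply, LinearMap.mulLeft_apply, LinearMap.mulRight_apply]
  linear_combination (norm := noncomm_ring) - h (a * A * b)

lemma modD_zero : IsDer (0 : K →ₗ[R] K) := by
  intro a b
  simp

/-- `(k, k') ↦ (δ k + k' x, k y + δ k')` -/
def modDop (δ : K →ₗ[R] K) (x y : K) : Module.End R (K × K) where
  toFun p := (δ p.1 + p.2 * x, p.1 * y + δ p.2)
  map_add' p q := by
    ext
    · simp only [Prod.fst_add, Prod.snd_add, map_add, add_mul]; abel
    · simp only [Prod.fst_add, Prod.snd_add, map_add, add_mul]; abel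
  map_smul' c p := by ext <;> simp

lemma modDop_apply (δ : K →ₗ[R] K) (x y k k' : K) :
    modDop δ x y (k, k') = (δ k + k' * x, k * y + δ k') := rfl

theorem modD_core (h : ∀ z : K, z + z = 0) (A c E : K) {α β ε : K →ₗ[R] K} (dα : IsDer α)
    (dβ : IsDer β) (dε : IsDer ε) (αA : α A = 0) (αc : α c = 0) (βA : β A = 0) (βc : β c = E)
    (εA : ε A = E) (εc : ε c = 0) (αα : ∀ k, α (α k) = 0) (ββ : ∀ k, β (β k) = 0)
    (εε : ∀ k, ε (ε k) = 0) (βε : ∀ k, β (ε k) + ε (β k) = 0)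
    (αβ : ∀ k, α (β k) + β (α k) = A * k + k * A)
    (αε : ∀ k, α (ε k) + ε (α k) = c * k + k * c) :
    ∃ (D : Type) (_ : Ring D) (Δ : K →+* D) (a b e : D),
      Function.Injective Δ ∧ (2 : D) = 0 ∧ a * a = 0 ∧ b * b = 0 ∧ e * e = 0 ∧ Commute b e ∧
      (a + b) * (a + b) = Δ A ∧ ⁅a + b, e⁆ = Δ c ∧ ⁅a + b, ⁅a + b, e⁆⁆ = Δ E := by
  let Δ : K →+* Module.End R (K × K) := Module.toModuleEnd R (K × K)
  have hΔ : ∀ v k k' : K, Δ v (k, k') = (v * k, v * k') := fun _ _ _ => rfl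
  have h6 : ⁅modDop α 0 1 + modDop β A 0, modDop ε c 0⁆ = Δ c := by
    refine LinearMap.ext fun ⟨k, k'⟩ => ?_
    simp only [Ring.lie_def, LinearMap.sub_apply, Module.End.mul_apply, LinearMap.add_apply,
      modDop_apply, hΔ, Prod.mk_add_mk, Prod.mk_sub_mk, map_add, dα k' c, dβ k' c, dε k' A, αc,
      βc, εA, mul_zero, mul_one, add_zero, zero_add, Prod.mk.injEq]
    constructor
    · linear_combination (norm := noncomm_ring) αε k + βε k - h (ε (α k)) - h (ε (β k))
    · linear_combination (norm := noncomm_ring) αε k' + βε k' - h (ε (α k')) - h (ε (β k')) +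
        h (k' * c)
  refine ⟨Module.End R (K × K), inferInstance, Δ, modDop α 0 1, modDop β A 0, modDop ε c 0,
    fun v w e => ?_, ?_, ?_, ?_, ?_, ?_, ?_, h6, ?_⟩
  · have := congrArg (fun f : Module.End R (K × K) => (f (1, 1)).1) e
    simpa only [hΔ, mul_one] using this
  · refine LinearMap.ext fun ⟨k, k'⟩ => ?_
    rw [← one_add_one_eq_two]
    exact Prod.ext (h k) (h k')
  · refine LinearMap.ext fun ⟨k, k'⟩ => ?_
    simp only [Module.End.mul_apply, modDop_apply, map_add, αα, mul_zero, mul_one, add_zero, h]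
    rfl
  · refine LinearMap.ext fun ⟨k, k'⟩ => ?_
    simp only [Module.End.mul_apply, modDop_apply, map_add, ββ, dβ k' A, βA, mul_zero, add_zero,
      zero_add, h]
    rfl
  · refine LinearMap.ext fun ⟨k, k'⟩ => ?_
    simp only [Module.End.mul_apply, modDop_apply, map_add, εε, dε k' c, εc, mul_zero, add_zero,
      zero_add, h]
    rfl
  · refine LinearMap.ext fun ⟨k, k'⟩ => ?_
    simp only [Module.End.mul_apply, modDop_apply, map_add, dβ k' c, dε k' A, βc, εA, mul_zero,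
      zero_add, Prod.mk.injEq]
    constructor
    · linear_combination (norm := noncomm_ring) βε k - h (ε (β k))
    · linear_combination (norm := noncomm_ring) βε k' - h (ε (β k'))
  · refine LinearMap.ext fun ⟨k, k'⟩ => ?_
    simp only [Module.End.mul_apply, LinearMap.add_apply, modDop_apply, hΔ, Prod.mk_add_mk,
      map_add, αα, ββ, dα k' A, dβ k' A, αA, βA, mul_zero, mul_one, add_zero, zero_add,
      Prod.mk.injEq]
    constructor
    · linear_combination (norm := noncomm_ring) αβ k + h (k * A) + h (α k' * A) + h (β k' * A)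
    · linear_combination (norm := noncomm_ring) αβ k' + h (k' * A) + h (α k) + h (β k)
  · rw [h6]
    refine LinearMap.ext fun ⟨k, k'⟩ => ?_
    simp only [Ring.lie_def, LinearMap.sub_apply, Module.End.mul_apply, LinearMap.add_apply,
      modDop_apply, hΔ, Prod.mk_add_mk, Prod.mk_sub_mk, dα c, dβ c, αc, βc, mul_zero, mul_one,
      add_zero, zero_add, zero_mul, Prod.mk.injEq]
    constructor <;> noncomm_ring

end ModD

theorem exists_model : ∃ (D : Type) (_ : Ring D) (Δ : T (ZMod 2) (Fin 3) →+* D) (a b e : D),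
    Function.Injective Δ ∧ (2 : D) = 0 ∧ a * a = 0 ∧ b * b = 0 ∧ e * e = 0 ∧ Commute b e ∧
    (a + b) * (a + b) = Δ (lt 0) ∧ ⁅a + b, e⁆ = Δ (lt 1) ∧ ⁅a + b, ⁅a + b, e⁆⁆ = Δ (lt 2) := by
  have h : ∀ z : T (ZMod 2) (Fin 3), z + z = 0 := fun z => by
    rw [← two_smul (ZMod 2) z, show (2 : ZMod 2) = 0 from rfl, zero_smul]
  let α := der (R := ZMod 2) (X := Fin 3) ![0, 0, lt 1 * lt 0 + lt 0 * lt 1]
  let β := der (R := ZMod 2) (X := Fin 3) ![0, lt 2, 0]
  let ε := der (R := ZMod 2) (X := Fin 3) ![lt 2, 0, 0]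
  have dα : IsDer α := isDer_der _
  have dβ : IsDer β := isDer_der _
  have dε : IsDer ε := isDer_der _
  have α0 : α (lt 0) = 0 := der_lt _ _
  have α1 : α (lt 1) = 0 := der_lt _ _
  have α2 : α (lt 2) = lt 1 * lt 0 + lt 0 * lt 1 := der_lt _ _
  have β0 : β (lt 0) = 0 := der_lt _ _
  have β1 : β (lt 1) = lt 2 := der_lt _ _
  have β2 : β (lt 2) = 0 := der_lt _ _
  have ε0 : ε (lt 0) = lt 2 := der_lt _ _
  have ε1 : ε (lt 1) = 0 := der_lt _ _
  have ε2 : ε (lt 2) = 0 := der_lt _ _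
  have key : ∀ {δ δ' : T (ZMod 2) (Fin 3) →ₗ[ZMod 2] T (ZMod 2) (Fin 3)}, IsDer δ → IsDer δ' →
      δ (lt 0) = δ' (lt 0) → δ (lt 1) = δ' (lt 1) → δ (lt 2) = δ' (lt 2) → ∀ k, δ k = δ' k := by
    intro δ δ' h1 h2 e0 e1 e2 k
    rw [der_ext h1 h2 fun i => by fin_cases i <;> assumption]
  refine modD_core h (lt 0) (lt 1) (lt 2) dα dβ dε α0 α1 β0 β1 ε0 ε1
    (key (modD_sq h dα) modD_zero ?_ ?_ ?_) (key (modD_sq h dβ) modD_zero ?_ ?_ ?_)
    (key (modD_sq h dε) modD_zero ?_ ?_ ?_) (key (modD_ac h dβ dε) modD_zero ?_ ?_ ?_)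
    (key (modD_ac h dα dβ) (modD_ad h (lt 0)) ?_ ?_ ?_)
    (key (modD_ac h dα dε) (modD_ad h (lt 1)) ?_ ?_ ?_)
  all_goals
    simp only [LinearMap.comp_apply, LinearMap.add_apply, LinearMap.zero_apply,
      LinearMap.mulLeft_apply, LinearMap.mulRight_apply, α0, α1, α2, β0, β1, β2, ε0, ε1, ε2,
      map_zero, map_add, dα (lt 1), dα (lt 0), dβ (lt 1), dβ (lt 0), dε (lt 1), dε (lt 0),
      mul_zero, zero_mul, add_zero, zero_add, h]
  all_goals exact add_comm _ _

end Vale.Agent.P029
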