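import Vale.Agent.P029.Lam

/-!
Two auxiliary rings of characteristic two, and Lie polynomials modulo `Y²`.

Plan: `exists_C`: `C = RingQuot r` on `T ℤ (Fin 3)`, `r` : `2 ∼ 0`, `lt i * lt i ∼ 0` for `i ∈ S`.
A derivation with values `d i` is `snd ∘ φ` for the ring hom `φ : C → TrivSqZeroExt C C`,
`g i ↦ inl (g i) + inr (d i)`, well defined when `d i * g i + g i * d i = 0` for `i ∈ S`; here
`d i` is `0` or `⁅g i, w⁆`, and `⁅g,w⁆ g + g ⁅g,w⁆ = g² w - w g² = 0`.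
`exists_model`: `K = T (ZMod 2) (Fin 3)` with letters `A, c, E`; derivations `α : E ↦ ⁅c, A⁆`,
`β : c ↦ E`, `ε : A ↦ E` (other letters to `0`). On `K × K`: `a (k,k') = (α k, k + α k')`,
`b (k,k') = (β k + k' * A, β k')`, `e (k,k') = (ε k + k' * c, ε k')`, `Δ v (k,k') = (v k, v k')`.
In characteristic two squares and (anti)commutators of derivations are derivations (`der_ext`):
`α² = β² = ε² = 0`, `βε + εβ = 0`, `αβ + βα = ad A`, `αε + εα = ad c`.
`p2`: the set of `ℓ` with the property is closed under sums, negatives and brackets; it is stable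
under `ad x` and `ad y`: `der ![0, E, ⁅A,c⁆]` and `der ![E, 0, 0]` (`der_mem_HT`, `evZ_der` with the
inner derivations `⁅X, ·⁆`, `⁅Y, ·⁆`). Induct with `Hom_ind_int` on the predicate
`(n = 1 ∧ ℓ is an integral combination of letters) ∨ property`, or first on monomials.
-/

namespace Vale.Agent.P029

attribute [local instance 100] LieRing.ofAssociativeRing

/-- the defining relations of the quotient ring -/
def relModel (S : Set (Fin 3)) (a b : T ℤ (Fin 3)) : Prop :=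
  b = 0 ∧ (a = 2 ∨ ∃ i ∈ S, a = lt i * lt i)

lemma quot_Model (S : Set (Fin 3)) : ∃ (C : Type) (_ : Ring C) (g : Fin 3 → C),
    (2 : C) = 0 ∧ (∀ i ∈ S, g i * g i = 0) ∧ Function.Surjective (evZ g) ∧
    ∀ (C' : Type) [Ring C'] (g' : Fin 3 → C'), (2 : C') = 0 → (∀ i ∈ S, g' i * g' i = 0) →
      ∃ φ : C →+* C', ∀ i, φ (g i) = g' i := by
  refine ⟨RingQuot (relModel S), inferInstance, fun i => RingQuot.mkRingHom _ (lt i), ?_,
    fun i hi => ?_, fun c => ?_, fun C' _ g' h2 hg => ?_⟩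
  · have h := RingQuot.mkRingHom_rel (r := relModel S) (x := 2) (y := 0) ⟨rfl, Or.inl rfl⟩
    rwa [map_ofNat, map_zero] at h
  · have h := RingQuot.mkRingHom_rel (r := relModel S) (x := lt i * lt i) (y := 0)
      ⟨rfl, Or.inr ⟨i, hi, rfl⟩⟩
    rwa [map_mul, map_zero] at h
  · obtain ⟨u, rfl⟩ := RingQuot.mkRingHom_surjective _ c
    exact ⟨u, by rw [← map_evZ, evZ_lt_id]⟩
  · refine ⟨RingQuot.lift ⟨evZ g', ?_⟩, fun i => ?_⟩
    · rintro x y ⟨rfl, rfl | ⟨i, hi, rfl⟩⟩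
      · rw [map_ofNat, map_zero, h2]
      · rw [map_mul, evZ_lt, map_zero, hg i hi]
    · rw [RingQuot.lift_mkRingHom_apply, evZ_lt]

lemma der_Model {C : Type} [Ring C] {S : Set (Fin 3)} {g : Fin 3 → C} (h2 : (2 : C) = 0)
    (hg : ∀ i ∈ S, g i * g i = 0) (hs : Function.Surjective (evZ g))
    (U : ∀ (C' : Type) [Ring C'] (g' : Fin 3 → C'), (2 : C') = 0 → (∀ i ∈ S, g' i * g' i = 0) →
      ∃ φ : C →+* C', ∀ i, φ (g i) = g' i)
    (d : Fin 3 → C) (hd : ∀ i, d i = 0 ∨ ∃ w, d i = ⁅g i, w⁆) :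
    ∃ δ : Module.End ℤ C, IsDer δ ∧ ∀ i, δ (g i) = d i := by
  obtain ⟨φ, hφ⟩ := U (TrivSqZeroExt C C)
    (fun i => TrivSqZeroExt.inl (g i) + TrivSqZeroExt.inr (d i))
    (by rw [← map_ofNat (TrivSqZeroExt.inlHom C C) 2, h2, map_zero]) fun i hi => by
      ext
      · simpa using hg i hi
      · have e : g i * d i + d i * g i = 0 := by
          rcases hd i with h | ⟨w, h⟩
          · rw [h, mul_zero, zero_mul, add_zero]
          · rw [h, Ring.lie_def, mul_sub, sub_mul, ← mul_assoc, hg i hi, mul_assoc w, hg i hi,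
              mul_assoc]
            simp
        simpa [TrivSqZeroExt.snd_mul] using e
  have hf : ∀ c, (φ c).fst = c := fun c => by
    obtain ⟨u, rfl⟩ := hs c
    have h := map_evZ ((TrivSqZeroExt.fstHom ℤ C C).toRingHom.comp φ) g u
    simpa [hφ] using h
  refine ⟨(AddMonoidHom.mk' (fun c => (φ c).snd) fun a b => by
    rw [map_add, TrivSqZeroExt.snd_add]).toIntLinearMap, fun a b => ?_, fun i => ?_⟩
  · change (φ (a * b)).snd = (φ a).snd * b + a * (φ b).snd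
    rw [map_mul, TrivSqZeroExt.snd_mul, hf, hf, add_comm]
    rfl
  · change (φ (g i)).snd = d i
    simp [hφ]

lemma ext_Model {C : Type} [Ring C] {g : Fin 3 → C} (hs : Function.Surjective (evZ g))
    (δ δ' : Module.End ℤ C) (h : IsDer δ) (h' : IsDer δ') (e : ∀ i, δ (g i) = δ' (g i)) :
    δ = δ' := by
  refine LinearMap.ext fun c => ?_
  obtain ⟨u, rfl⟩ := hs c
  refine ind_int (p := fun u => δ (evZ g u) = δ' (evZ g u)) u ?_ ?_ ?_ ?_
  · rw [map_one, h.one, h'.one]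
  · intro i a ha
    rw [map_mul, h, h', evZ_lt, e, ha]
  · intro a b ha hb
    rw [map_add, map_add, map_add, ha, hb]
  · intro a ha
    rw [map_neg, map_neg, map_neg, ha]

theorem exists_C (S : Set (Fin 3)) : ∃ (C : Type) (_ : Ring C) (g : Fin 3 → C)
    (p q : Module.End ℤ C), (2 : C) = 0 ∧ (∀ i ∈ S, g i * g i = 0) ∧ Ders (g 0) (g 1) (g 2) p q ∧
    (∀ δ δ' : Module.End ℤ C, IsDer δ → IsDer δ' → (∀ i, δ (g i) = δ' (g i)) → δ = δ') ∧
    ∀ (C' : Type) [Ring C'] (g' : Fin 3 → C'), (2 : C') = 0 → (∀ i ∈ S, g' i * g' i = 0) →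
      ∃ φ : C →+* C', ∀ i, φ (g i) = g' i := by
  obtain ⟨C, _, g, h2, hg, hs, U⟩ := quot_Model S
  obtain ⟨p, hp, hp'⟩ := der_Model h2 hg hs U ![⁅g 0, g 1⁆, ⁅g 1, g 0⁆, 0] fun i => by
    fin_cases i
    exacts [Or.inr ⟨_, rfl⟩, Or.inr ⟨_, rfl⟩, Or.inl rfl]
  obtain ⟨q, hq, hq'⟩ := der_Model h2 hg hs U ![0, ⁅g 1, g 2⁆, ⁅g 2, g 1⁆] fun i => by
    fin_cases i
    exacts [Or.inl rfl, Or.inr ⟨_, rfl⟩, Or.inr ⟨_, rfl⟩]
  exact ⟨C, _, g, p, q, h2, hg, ⟨hp, hq, hp' 0, hp' 1, hp' 2, hq' 0, hq' 1, hq' 2⟩,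
    ext_Model hs, U⟩

end Vale.Agent.P029
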