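import Vale.Agent.P029.Lam

/-!
Two auxiliary rings of characteristic two, and Lie polynomials modulo `Y²`.

Plan: `exists_C`: `C = RingQuot r` on `T ℤ (Fin 3)`, `r` : `2 ∼ 0`, `lt i * lt i ∼ 0` for `i ∈ S`.
A derivation with values `d i` is `snd ∘ φ` for the ring hom `φ : C → TrivSqZeroExt C C`,
`g i ↦ inl (g i) + inr (d i)`, well defined when `d i * g i + g i * d i = 0` for `i ∈ S`; here
`d i` is `0` or `⁅g i, w⁆`, and `⁅g,w⁆ g + g ⁅g,w⁆ = g² w - w g² = 0`.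
`exists_model`: `K = T (ZMod 2) (Fin 3)` with letters `A, c, E`; derivations `α : E ↦ ⁅c, A⁆`,
`β : c ↦ E`, `ε : A ↦ E` (other letters to `0`). On `K × K`: `a (k,k') = (α k, k + α k')`,
`b (k,k') = (β k + k' * A, β k')`, `e (k,k') = (ε k + k' * c, ε k')`, `Δ v (k,k') = (v k, v k')`.
In characteristic two squares and (anti)commutators of derivations are derivations (`der_ext`):
`α² = β² = ε² = 0`, `βε + εβ = 0`, `αβ + βα = ad A`, `αε + εα = ad c`.
`p2`: the set of `ℓ` with the property is closed under sums, negatives and brackets; it is stable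
under `ad x` and `ad y`: `der ![0, E, ⁅A,c⁆]` and `der ![E, 0, 0]` (`der_mem_HT`, `evZ_der` with the
inner derivations `⁅X, ·⁆`, `⁅Y, ·⁆`). Induct with `Hom_ind_int` on the predicate
`(n = 1 ∧ ℓ is an integral combination of letters) ∨ property`, or first on monomials.
-/

namespace Vale.Agent.P029

attribute [local instance 100] LieRing.ofAssociativeRing

lemma evZ_eq_zero_of_even {X C : Type} [Ring C] (h2 : (2 : C) = 0) (f : X → C) {u : T ℤ X}
    (hu : evZ (lt : X → T (ZMod 2) X) u = 0) : evZ f u = 0 := by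
  rw [eq_sum_wd u, map_sum]
  refine Finset.sum_eq_zero fun w _ => ?_
  have h1 : ((cf w u : ℤ) : ZMod 2) = 0 := by rw [← cf_evZ_lt, hu, map_zero]
  obtain ⟨c, hc⟩ := (ZMod.intCast_zmod_eq_zero_iff_dvd _ 2).mp h1
  rw [map_zsmul, hc, zsmul_eq_mul]
  push_cast
  rw [h2, zero_mul, zero_mul]


/-- the property proved in `p2` -/
def P2Q (n : ℕ) (ℓ : T ℤ (Fin 2)) : Prop :=
  ∃ g ∈ HT ℤ ![2, 2, 3] n, ∀ (C : Type) [Ring C], (2 : C) = 0 → ∀ X Y : C, Y * Y = 0 →
    evZ ![X, Y] ℓ = evZ ![X * X, ⁅X, Y⁆, ⁅X, ⁅X, Y⁆⁆] g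

lemma P2_map_lie {C C' : Type} [Ring C] [Ring C'] (φ : C →+* C') (a b : C) :
    φ ⁅a, b⁆ = ⁅φ a, φ b⁆ := by
  simp only [Ring.lie_def, map_sub, map_mul]

/-- inner derivation -/
def P2ad {C : Type} [Ring C] (a : C) : C →+ C where
  toFun b := ⁅a, b⁆
  map_zero' := lie_zero a
  map_add' := lie_add a

lemma P2ad_isDer {C : Type} [Ring C] (a : C) : IsDer (P2ad a) := by
  intro b c
  change ⁅a, b * c⁆ = ⁅a, b⁆ * c + b * ⁅a, c⁆
  simp only [Ring.lie_def]
  noncomm_ring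

lemma P2Q.zero (n : ℕ) : P2Q n 0 := ⟨0, zero_mem _, fun C _ _ X Y _ => by simp⟩

lemma P2Q.add {n : ℕ} {a b : T ℤ (Fin 2)} (ha : P2Q n a) (hb : P2Q n b) : P2Q n (a + b) := by
  obtain ⟨g, hg, h⟩ := ha
  obtain ⟨g', hg', h'⟩ := hb
  exact ⟨g + g', add_mem hg hg', fun C _ h2 X Y hY => by
    rw [map_add, map_add, h C h2 X Y hY, h' C h2 X Y hY]⟩

lemma P2Q.neg {n : ℕ} {a : T ℤ (Fin 2)} (ha : P2Q n a) : P2Q n (-a) := by
  obtain ⟨g, hg, h⟩ := ha
  exact ⟨-g, neg_mem hg, fun C _ h2 X Y hY => by rw [map_neg, map_neg, h C h2 X Y hY]⟩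

lemma P2Q.zsmul {n : ℕ} {a : T ℤ (Fin 2)} (ha : P2Q n a) (c : ℤ) : P2Q n (c • a) := by
  obtain ⟨g, hg, h⟩ := ha
  exact ⟨c • g, zsmul_mem hg c, fun C _ h2 X Y hY => by
    rw [map_zsmul, map_zsmul, h C h2 X Y hY]⟩

lemma P2Q.lie {m n : ℕ} {a b : T ℤ (Fin 2)} (ha : P2Q m a) (hb : P2Q n b) :
    P2Q (m + n) ⁅a, b⁆ := by
  obtain ⟨g, hg, h⟩ := ha
  obtain ⟨g', hg', h'⟩ := hb
  exact ⟨⁅g, g'⁆, lie_mem_HT hg hg', fun C _ h2 X Y hY => by
    rw [P2_map_lie, P2_map_lie, h C h2 X Y hY, h' C h2 X Y hY]⟩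

lemma P2_two {C : Type} [Ring C] (h2 : (2 : C) = 0) {a b : C} (c : C) (h : a = b + 2 * c) :
    a = b := by
  rw [h, h2, zero_mul, add_zero]

lemma P2Q.ad {n : ℕ} {a : T ℤ (Fin 2)} (ha : P2Q n a) (i : Fin 2) : 
    P2Q (1 + n) ⁅(lt i : T ℤ (Fin 2)), a⁆ := by
  obtain ⟨g, hg, h⟩ := ha
  rw [add_comm]
  have l0 := lt_mem_HT (R := ℤ) ![2, 2, 3] 0
  have l1 := lt_mem_HT (R := ℤ) ![2, 2, 3] 1
  have l2 := lt_mem_HT (R := ℤ) ![2, 2, 3] 2
  fin_cases i
  · refine ⟨der ![0, lt 2, ⁅(lt 0 : T ℤ (Fin 3)), lt 1⁆] g, der_mem_HT (fun j => ?_) hg,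
      fun C _ h2 X Y hY => ?_⟩
    · fin_cases j
      · exact zero_mem _
      · exact l2
      · exact (lie_mem_HT l0 l1 :)
    · rw [P2_map_lie, h C h2 X Y hY, evZ_lt, evZ_der (P2ad_isDer X)]
      · rfl
      · intro j
        fin_cases j
        · simp [P2ad, Ring.lie_def, mul_assoc]
        · simp [P2ad]
        · simp only [P2ad, P2_map_lie, Fin.reduceFinMk, Matrix.cons_val, evZ_lt,
            AddMonoidHom.coe_mk, ZeroHom.coe_mk]
          generalize ⁅X, Y⁆ = c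
          refine P2_two h2 (X * c * X - c * (X * X)) ?_
          simp only [Ring.lie_def]
          noncomm_ring
  · refine ⟨der ![lt 2, 0, 0] g, der_mem_HT (fun j => ?_) hg, fun C _ h2 X Y hY => ?_⟩
    · fin_cases j
      · exact l2
      · exact zero_mem _
      · exact zero_mem _
    · rw [P2_map_lie, h C h2 X Y hY, evZ_lt, evZ_der (P2ad_isDer Y)]
      · rfl
      · have hY' : ∀ z : C, Y * (Y * z) = 0 := fun z => by rw [← mul_assoc, hY, zero_mul]
        intro j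
        fin_cases j
        · simp only [P2ad, Fin.zero_eta, Matrix.cons_val_zero, evZ_lt, Matrix.cons_val,
            AddMonoidHom.coe_mk, ZeroHom.coe_mk]
          refine P2_two h2 (X * X * Y - X * Y * X) ?_
          simp only [Ring.lie_def]
          noncomm_ring
        · simp only [P2ad, Fin.mk_one, Matrix.cons_val_one, Matrix.cons_val_zero, map_zero,
            AddMonoidHom.coe_mk, ZeroHom.coe_mk]
          refine P2_two h2 (-(Y * X * Y)) ?_
          simp only [Ring.lie_def, mul_sub, sub_mul, mul_assoc, hY, hY', mul_zero]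
          noncomm_ring
        · simp only [P2ad, Fin.reduceFinMk, Matrix.cons_val, map_zero,
            AddMonoidHom.coe_mk, ZeroHom.coe_mk]
          refine P2_two h2 (Y * X * Y * X - X * Y * X * Y) ?_
          simp only [Ring.lie_def, mul_sub, sub_mul, mul_assoc, hY, hY', mul_zero]
          noncomm_ring

lemma P2_mon {n : ℕ} {a : T ℤ (Fin 2)} (h : IsMon lt one n a) :
    (n = 1 ∧ ∃ i, a = lt i) ∨ P2Q n a := by
  induction h with
  | of i => exact Or.inl ⟨rfl, i, rfl⟩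
  | lie _ _ iha ihb =>
    right
    rcases iha with ⟨rfl, i, rfl⟩ | ha
    · rcases ihb with ⟨rfl, j, rfl⟩ | hb
      · have h01 : P2Q (1 + 1) ⁅(lt 0 : T ℤ (Fin 2)), lt 1⁆ :=
          ⟨lt 1, lt_mem_HT (R := ℤ) ![2, 2, 3] 1, fun C _ _ X Y _ => by simp [P2_map_lie]⟩
        fin_cases i <;> fin_cases j
        · rw [lie_self]; exact P2Q.zero _
        · exact h01
        · rw [← lie_skew]; exact h01.neg
        · rw [lie_self]; exact P2Q.zero _
      · exact hb.ad i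
    · rcases ihb with ⟨rfl, j, rfl⟩ | hb
      · rw [← lie_skew, add_comm]; exact (ha.ad j).neg
      · exact ha.lie hb

theorem p2 {n : ℕ} (hn : 2 ≤ n) {ℓ : T ℤ (Fin 2)} (h : ℓ ∈ HT ℤ one n) :
    ∃ g ∈ HT ℤ ![2, 2, 3] n, ∀ (C : Type) [Ring C], (2 : C) = 0 → ∀ X Y : C, Y * Y = 0 →
      evZ ![X, Y] ℓ = evZ ![X * X, ⁅X, Y⁆, ⁅X, ⁅X, Y⁆⁆] g := by
  change P2Q n ℓ
  induction h using Submodule.span_induction with
  | mem a ha =>
    rcases P2_mon ha with ⟨h1, -⟩ | h1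
    · omega
    · exact h1
  | zero => exact P2Q.zero n
  | add a b _ _ ha hb => exact ha.add hb
  | smul c a _ ha => exact ha.zsmul c

end Vale.Agent.P029
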