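import Vale.Agent.P029.PentOp
import Vale.Agent.P029.Model
import Vale.Agent.P029.ModD
import Vale.Agent.P029.P2

/-!
Modulo two and `Y²`, a solution of the pentagon is a Lie polynomial in `c = ⁅X,Y⁆`, `E = ⁅X,c⁆`.

Plan: take `g` from `p2`. In `C` = `exists_C univ` (`a² = b² = e² = 0`, `s = a+b+e`, signs are
irrelevant): `p * p = 0` (a derivation in char 2 killing the generators), so by `Lam_two_cycle` and
`p2` in the ring `Module.End ℤ C` (char 2), with `X = q + LZ b`, `Y = p`: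
`X * X = LZ ⁅b,e⁆` (`q * q = 0`), `⁅X,Y⁆ = LZ c' + RZ (s*s)` with `c' = ⁅a+b,e⁆` (the derivation
`⁅q,p⁆` equals `ad (s*s)` on generators), `⁅X,⁅X,Y⁆⁆ = LZ E1`, `E1 = ⁅⁅a,b⁆,e⁆` (`q s = 0`). `shift`
removes `RZ (s*s)` (weight 2 ≠ n), `evZ_mulLeft`: left side of `pentOp` is `g(⁅b,e⁆, c', E1)`.
Right side: `ℓ(b+e,e) = g(⁅b,e⁆,⁅b,e⁆,0) = 0` (`ev_eq_zero_of_commute`), `ℓ(s,e) = g(s*s, c', E1)`.
Map to `exists_model` with `a ↦ a`, `b ↦ b + e`, `e ↦ e`: `⁅b,e⁆ ↦ 0`, `s ↦ a + b`,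
`ℓ(s, b+e) ↦ ℓ(a+b, b) = g(⁅a,b⁆,⁅a,b⁆,0) = 0`. So `g(A,c,E) = g(0,c,E)` in `T (ZMod 2) (Fin 3)` by
injectivity of `Δ`, hence in every ring with `2 = 0` (`ZMod.algebra`-structure, or: all
coefficients of `g - g(0,c,E)` are even by `cf_evZ_lt`, lemma `evZ_eq_zero_of_even`).
`mod2_form`: `g0 = ev ![0, lt 0, lt 1] g ∈ HT ℤ ![2,3] n`; `lazard` for the letter `0`, `Hom_mono` to
re-index by `ℕ`, `Hom_map` for `ev (fun k => (ad (lt 0))^[k] (lt 1)) : T ℤ ℕ → T ℤ (Fin 2)`.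
-/

namespace Vale.Agent.P029

attribute [local instance 100] LieRing.ofAssociativeRing

variable {n : ℕ} {ℓ : T ℤ (Fin 2)}

section
variable {C : Type} [Ring C]

lemma Bp.neg_eq (h2 : (2 : C) = 0) (a : C) : -a = a := by
  rw [neg_eq_iff_add_eq_zero, ← two_mul, h2, zero_mul]

lemma Bp.add_self (h2 : (2 : C) = 0) (a : C) : a + a = 0 := by
  rw [← two_mul, h2, zero_mul]

lemma Bp.lie_eq (h2 : (2 : C) = 0) (a b : C) : ⁅a, b⁆ = a * b + b * a := by
  rw [Ring.lie_def, sub_eq_add_neg, Bp.neg_eq h2]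

lemma Bp.two_End (h2 : (2 : C) = 0) : (2 : Module.End ℤ C) = 0 := by
  ext a
  rw [← one_add_one_eq_two]
  simpa using Bp.add_self h2 a

lemma Bp.isDer_sq (h2 : (2 : C) = 0) {p : Module.End ℤ C} (hp : IsDer p) : IsDer (p * p) := by
  intro a b
  simp only [Module.End.mul_apply, hp a b, map_add, hp (p a) b, hp a (p b)]
  have := Bp.add_self h2 (p a * p b)
  linear_combination (norm := noncomm_ring) this

lemma Bp.isDer_lie {p q : Module.End ℤ C} (hp : IsDer p) (hq : IsDer q) :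
    IsDer (⁅p, q⁆ : Module.End ℤ C) := by
  intro a b
  simp only [Ring.lie_def, LinearMap.sub_apply, Module.End.mul_apply, hp a b, hq a b, map_add,
    hp (q a) b, hp a (q b), hq (p a) b, hq a (p b)]
  noncomm_ring

lemma Bp.ev_zero (hn : 3 ≤ n) {g : T ℤ (Fin 3)} (hg : g ∈ HT ℤ ![2, 2, 3] n) (w : C) :
    evZ ![w, w, 0] g = 0 := by
  refine ev_eq_zero_of_commute (R := ℤ) (wt := ![2, 2, 3]) ?_ ?_ (by omega) hg
  · intro i j; fin_cases i <;> fin_cases j <;> simp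
  · intro i hi; fin_cases i <;> simp at hi ⊢ <;> omega

/-- the left hand side of `pentOp` -/
lemma Bp.lhs (h2 : (2 : C) = 0) (hn : 3 ≤ n) {g : T ℤ (Fin 3)} (hg : g ∈ HT ℤ ![2, 2, 3] n)
    {a b e : C} (ha : a * a = 0) (hb : b * b = 0) (he : e * e = 0) {p q : Module.End ℤ C}
    (hd : Ders a b e p q)
    (hext : ∀ δ δ' : Module.End ℤ C, IsDer δ → IsDer δ' → δ a = δ' a → δ b = δ' b → δ e = δ' e →
      δ = δ') :
    p * p = 0 ∧ evZ ![(q + LZ b) * (q + LZ b), ⁅q + LZ b, p⁆, ⁅q + LZ b, ⁅q + LZ b, p⁆⁆] g 1 =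
      evZ ![⁅b, e⁆, ⁅a + b, e⁆, ⁅⁅a, b⁆, e⁆] g := by
  have z : IsDer (0 : Module.End ℤ C) := by intro u v; simp
  have ha' : ∀ u, a * (a * u) = 0 := fun u => by rw [← mul_assoc, ha, zero_mul]
  have hb' : ∀ u, b * (b * u) = 0 := fun u => by rw [← mul_assoc, hb, zero_mul]
  have he' : ∀ u, e * (e * u) = 0 := fun u => by rw [← mul_assoc, he, zero_mul]
  have t2 := Bp.add_self h2
  have tz : ∀ u : C, (2 : ℤ) • u = 0 := fun u => by rw [two_smul, t2]
  have hpp : p * p = 0 := by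
    refine hext _ _ (Bp.isDer_sq h2 hd.pd) z ?_ ?_ ?_ <;>
      simp only [Module.End.mul_apply, hd.pa, hd.pb, hd.pe, hd.pd.lie, map_zero,
        LinearMap.zero_apply] <;>
      simp only [Ring.lie_def, mul_sub, sub_mul, mul_assoc, ha, hb, ha', hb', mul_zero]
    · linear_combination (norm := noncomm_ring) t2 (a * (b * a)) - t2 (b * (a * b))
    · linear_combination (norm := noncomm_ring) t2 (b * (a * b)) - t2 (a * (b * a))
  have hqq : q * q = 0 := by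
    refine hext _ _ (Bp.isDer_sq h2 hd.qd) z ?_ ?_ ?_ <;>
      simp only [Module.End.mul_apply, hd.qa, hd.qb, hd.qe, hd.qd.lie, map_zero,
        LinearMap.zero_apply] <;>
      simp only [Ring.lie_def, mul_sub, sub_mul, mul_assoc, he, hb, he', hb', mul_zero]
    · linear_combination (norm := noncomm_ring) t2 (b * (e * b)) - t2 (e * (b * e))
    · linear_combination (norm := noncomm_ring) t2 (e * (b * e)) - t2 (b * (e * b))
  set s := a + b + e with hs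
  have hqp : ⁅q, p⁆ = LZ (s * s) + RZ (s * s) := by
    refine hext _ _ (Bp.isDer_lie hd.qd hd.pd) ?_ ?_ ?_ ?_
    · intro u v
      simp only [LinearMap.add_apply, LinearMap.mulLeft_apply, LinearMap.mulRight_apply]
      linear_combination (norm := noncomm_ring) - t2 (u * (s * s) * v)
    all_goals
      rw [Ring.lie_def]
      simp only [LinearMap.sub_apply, Module.End.mul_apply, hd.pa, hd.pb, hd.pe, hd.qa, hd.qb,
        hd.qe, hd.pd.lie, hd.qd.lie, map_zero, LinearMap.add_apply, LinearMap.mulLeft_apply,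
        LinearMap.mulRight_apply, hs]
      simp only [Ring.lie_def, mul_sub, sub_mul, mul_add, add_mul, mul_assoc, ha, hb, he, ha', hb',
        he', mul_zero, zero_mul]
      rw [← sub_eq_zero]
      abel_nf
      simp [tz]
  have hqs : q (s * s) = 0 := by
    have : q s = 0 := by rw [hs, map_add, map_add, hd.qa, hd.qb, hd.qe]; simp [Ring.lie_def]
    rw [hd.qd, this]; simp
  have hX : (q + LZ b) * (q + LZ b) = LZ ⁅b, e⁆ := by
    ext u
    have := LinearMap.congr_fun hqq u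
    simp only [Module.End.mul_apply, LinearMap.zero_apply] at this
    simp only [Module.End.mul_apply, LinearMap.add_apply, LinearMap.mulLeft_apply, map_add, this,
      hd.qd b u, hd.qb, hb']
    linear_combination (norm := noncomm_ring) t2 (b * q u)
  have hc : ⁅q + LZ b, p⁆ = LZ ⁅a + b, e⁆ + RZ (s * s) := by
    rw [add_lie, hqp]
    ext u
    simp only [Ring.lie_def, LinearMap.sub_apply, Module.End.mul_apply, LinearMap.add_apply,
      LinearMap.mulLeft_apply, LinearMap.mulRight_apply, hd.pd b u, hd.pb, hs]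
    simp only [sub_mul, mul_add, add_mul, mul_assoc, ha', hb', he']
    rw [← sub_eq_zero]
    abel_nf
    simp [tz]
  have hE : ⁅q + LZ b, LZ ⁅a + b, e⁆ + RZ (s * s)⁆ = LZ ⁅⁅a, b⁆, e⁆ := by
    ext u
    have h1 : q ⁅a + b, e⁆ = ⁅⁅b, e⁆, e⁆ + ⁅a + b, ⁅e, b⁆⁆ := by
      rw [hd.qd.lie, map_add, hd.qa, hd.qb, hd.qe, zero_add]
    generalize s * s = w at hqs ⊢
    rw [Ring.lie_def (q + LZ b)]
    simp only [LinearMap.sub_apply, Module.End.mul_apply, LinearMap.add_apply, map_add,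
      LinearMap.mulLeft_apply, LinearMap.mulRight_apply, hd.qd _ u, hd.qd u w, hqs, h1]
    simp only [Ring.lie_def, mul_sub, sub_mul, mul_add, add_mul, mul_assoc, hb', he',
      mul_zero]
    rw [← sub_eq_zero]
    abel_nf
    simp [tz]
  refine ⟨hpp, ?_⟩
  rw [hX, hc, hE]
  have key := shift (R := ℤ) (wt := ![2, 2, 3])
    (f := fun i => LZ (![⁅b, e⁆, ⁅a + b, e⁆, ⁅⁅a, b⁆, e⁆] i)) (z := ![0, RZ (s * s), 0]) ?_ ?_ ?_ hg
  · have e1 : (fun i => LZ (![⁅b, e⁆, ⁅a + b, e⁆, ⁅⁅a, b⁆, e⁆] i) + ![0, RZ (s * s), 0] i) =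
        ![LZ ⁅b, e⁆, LZ ⁅a + b, e⁆ + RZ (s * s), LZ ⁅⁅a, b⁆, e⁆] := by
      ext1 i; fin_cases i <;> simp
    rw [e1] at key
    have e2 := evZ_mulLeft ![⁅b, e⁆, ⁅a + b, e⁆, ⁅⁅a, b⁆, e⁆] g 1
    rw [mul_one] at e2
    rw [← e2]
    exact LinearMap.congr_fun key 1
  · intro i j
    fin_cases i
    · exact Commute.zero_left _
    · exact (LinearMap.commute_mulLeft_right _ _).symm
    · exact Commute.zero_left _
  · intro i j; fin_cases i <;> fin_cases j <;> simp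
  · intro i hi; fin_cases i <;> simp at hi ⊢; omega


end

theorem bprime (h : ℓ ∈ Lam n) (hn : 3 ≤ n) :
    ∃ g ∈ HT ℤ ![2, 2, 3] n, ∀ (C : Type) [Ring C], (2 : C) = 0 → ∀ X Y : C, Y * Y = 0 →
      evZ ![X, Y] ℓ = evZ ![0, ⁅X, Y⁆, ⁅X, ⁅X, Y⁆⁆] g := by
  obtain ⟨g, hg, eg⟩ := p2 (by omega) h.1
  refine ⟨g, hg, fun C' _ h2' X Y hY => ?_⟩
  obtain ⟨C, _, v, p, q, h2, hv, hd, hext, huniv⟩ := exists_C Set.univ
  obtain ⟨hpp, hL⟩ := Bp.lhs h2 hn hg (hv 0 trivial) (hv 1 trivial) (hv 2 trivial) hd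
    fun δ δ' h1 h1' e0 e1 e2 => hext δ δ' h1 h1' fun i => by fin_cases i <;> assumption
  have hP := pentOp h hn hd
  have h2c := Lam_two_cycle h p (q + LZ (v 1))
  rw [add_eq_zero_iff_eq_neg, Bp.neg_eq (Bp.two_End h2), eg _ (Bp.two_End h2) _ _ hpp] at h2c
  rw [h2c, hL] at hP
  obtain ⟨D, _, Δ, a, b, e, hΔ, d2, ha, hb, he, hbe, hA, hc, hE⟩ := exists_model
  have t2 := Bp.add_self d2
  obtain ⟨φ, hφ⟩ := huniv D ![a, b + e, e] d2 (by
    intro i _
    fin_cases i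
    · exact ha
    · change (b + e) * (b + e) = 0
      rw [add_mul, mul_add, mul_add, hb, he, hbe.eq, zero_add, add_zero, t2]
    · exact he)
  have φ0 : φ (v 0) = a := hφ 0
  have φ1 : φ (v 1) = b + e := hφ 1
  have φ2 : φ (v 2) = e := hφ 2
  have hQ := congrArg φ hP
  simp only [map_add, map_sub, map_evZ2, map_evZ3, Ring.lie_def, map_mul, map_neg, φ0, φ1,
    φ2] at hQ
  simp only [← Ring.lie_def, Bp.neg_eq d2, add_assoc, t2, add_zero] at hQ
  have l1 : ⁅b, e⁆ = 0 := hbe.lie_eq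
  have l2 : ⁅b + e, e⁆ = 0 := by rw [add_lie, l1, lie_self, add_zero]
  have l3 : ⁅a + (b + e), e⁆ = Δ (lt 1) := by rw [← add_assoc, add_lie, lie_self, add_zero, hc]
  have l4 : ⁅⁅a, b + e⁆, e⁆ = Δ (lt 2) := by
    rw [← hE]
    have ha' : ∀ u, a * (a * u) = 0 := fun u => by rw [← mul_assoc, ha, zero_mul]
    have hb' : ∀ u, b * (b * u) = 0 := fun u => by rw [← mul_assoc, hb, zero_mul]
    have he' : ∀ u, e * (e * u) = 0 := fun u => by rw [← mul_assoc, he, zero_mul]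
    have tz : ∀ u : D, (2 : ℤ) • u = 0 := fun u => by rw [two_smul, t2]
    simp only [Ring.lie_def, mul_sub, sub_mul, mul_add, add_mul, mul_assoc, ha, hb, he, ha', hb',
      he', mul_zero]
    rw [← sub_eq_zero]
    abel_nf
    simp [tz]
  have l5 : ⁅a + b, b⁆ = (a + b) * (a + b) := by
    rw [add_lie, lie_self, add_zero, Bp.lie_eq d2, add_mul, mul_add, mul_add, ha, hb, zero_add,
      add_zero]
  have l6 : ⁅a + b, (a + b) * (a + b)⁆ = 0 := by rw [Ring.lie_def, mul_assoc, sub_self]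
  rw [l2, l3, l4, eg D d2 b e he, eg D d2 (a + b) b hb, eg D d2 (a + b) e he, hb, l1, lie_zero, l5,
    l6, hE, hc, Bp.ev_zero hn hg, Bp.ev_zero hn hg, hA, zero_add, zero_sub, Bp.neg_eq d2,
    ← map_zero Δ, ← map_evZ3, ← map_evZ3] at hQ
  have hK := hΔ hQ
  have hz : evZ (lt : Fin 3 → T (ZMod 2) (Fin 3)) (g - evZ ![0, lt 1, lt 2] g) = 0 := by
    rw [map_sub, map_evZ3, map_zero, evZ_lt, evZ_lt, hK, sub_eq_zero]
    congr 2; ext1 i; fin_cases i <;> rfl
  have := evZ_eq_zero_of_even h2' ![X * X, ⁅X, Y⁆, ⁅X, ⁅X, Y⁆⁆] hz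
  rw [map_sub, map_evZ3, map_zero, evZ_lt, evZ_lt, sub_eq_zero] at this
  rw [eg C' h2' X Y hY, this]
  rfl

end Vale.Agent.P029
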