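import Vale.Agent.P029.Pw

/-!
Existence of canonical solutions in the nilpotent setting (finite Picard iteration).

Plan: `prim_sing`: `H z = ∫ t in 0..z, h t` (integrable: continuous on `(0,1)` and dominated by
`C t ^ (-1/2)` near 0; `intervalIntegral.integral_hasDerivAt_right`). For the subspace: apply every
continuous functional vanishing on `S`, or the quotient map `S.mkQ` (continuous, finite dimension),
`ContinuousLinearMap.intervalIntegral_comp_comm`.
`exists_can`: `c t = (t - 1)⁻¹ • (pw (-A) t * B * pw A t) ∈ F 1`, `‖c t‖ ≤ C / √t` on `(0, 1/2]`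
(`pw_bound` with `δ = 1/4`). `Q 0 = 1`, `Q (k+1) = primitive of c * Q k ∈ F (k+1)` (by induction:
existence of `Q k` continuous on `(0,1)`, bounded on `(0,1/2]`, values in `F k`).
`P = ∑ k < N + 1, Q k` satisfies `P' = c * P` since `c * Q N ∈ F (N+1) = ⊥`; `G = pw A * P`,
`IsFil.isUnit`.
-/

namespace Vale.Agent.P029

open Set

variable {V : Type} [NormedRing V] [NormedAlgebra ℝ V] [CompleteSpace V] [FiniteDimensional ℝ V]

theorem prim_sing {h : ℝ → V} (hc : ContinuousOn h (Ioo 0 1)) {C : ℝ}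
    (hb : ∀ t ∈ Ioc (0 : ℝ) (1 / 2), ‖h t‖ ≤ C / √t) (S : Submodule ℝ V)
    (hS : ∀ t ∈ Ioo (0 : ℝ) 1, h t ∈ S) :
    ∃ H : ℝ → V, (∀ z ∈ Ioo (0 : ℝ) 1, HasDerivAt H (h z) z) ∧
      (∀ z ∈ Ioc (0 : ℝ) (1 / 2), ‖H z‖ ≤ 2 * C * √z) ∧ ∀ z ∈ Ioo (0 : ℝ) 1, H z ∈ S := by
  have hg : ∀ z : ℝ, IntervalIntegrable (fun t : ℝ => C * t ^ (-(1 / 2) : ℝ))
      MeasureTheory.volume 0 z := fun z =>
    (intervalIntegral.intervalIntegrable_rpow' (by norm_num)).const_mul C
  have hb' : ∀ z ≤ (1 / 2 : ℝ), ∀ t ∈ Ioc 0 z, ‖h t‖ ≤ C * t ^ (-(1 / 2) : ℝ) := by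
    intro z hz t ht
    rw [Real.rpow_neg ht.1.le, ← Real.sqrt_eq_rpow, ← div_eq_mul_inv]
    exact hb t ⟨ht.1, ht.2.trans hz⟩
  have h1 : IntervalIntegrable h MeasureTheory.volume 0 (1 / 2) := by
    refine (hg (1 / 2)).mono_fun' ?_ ?_
    · rw [uIoc_of_le (by norm_num)]
      exact (hc.mono fun t ht => ⟨ht.1, ht.2.trans_lt (by norm_num)⟩).aestronglyMeasurable
        measurableSet_Ioc
    · rw [uIoc_of_le (by norm_num)]
      exact (MeasureTheory.ae_restrict_iff' measurableSet_Ioc).2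
        (Filter.Eventually.of_forall (hb' _ le_rfl))
  have h2 : ∀ z ∈ Ioo (0 : ℝ) 1, IntervalIntegrable h MeasureTheory.volume 0 z := fun z hz =>
    h1.trans (hc.mono (ordConnected_Ioo.uIcc_subset (by norm_num) hz)).intervalIntegrable
  refine ⟨fun z => ∫ t in (0 : ℝ)..z, h t, fun z hz => ?_, fun z hz => ?_, fun z hz => ?_⟩
  · exact intervalIntegral.integral_hasDerivAt_right (h2 z hz)
      (hc.stronglyMeasurableAtFilter isOpen_Ioo z hz) (hc.continuousAt (isOpen_Ioo.mem_nhds hz))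
  · refine (intervalIntegral.norm_integral_le_of_norm_le hz.1.le
      (Filter.Eventually.of_forall (hb' z hz.2)) (hg z)).trans (le_of_eq ?_)
    rw [intervalIntegral.integral_const_mul, integral_rpow (Or.inl (by norm_num)),
      Real.zero_rpow (by norm_num), Real.sqrt_eq_rpow]
    norm_num
    ring
  · refine (Subspace.forall_mem_dualAnnihilator_apply_eq_zero_iff S _).1 fun φ hφ => ?_
    refine ((LinearMap.toContinuousLinearMap φ).intervalIntegral_comp_comm (h2 z hz)).symm.trans ?_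
    refine intervalIntegral.integral_zero_ae (Filter.Eventually.of_forall fun t ht => ?_)
    rw [uIoc_of_le hz.1.le] at ht
    exact (Submodule.mem_dualAnnihilator φ).1 hφ _ (hS t ⟨ht.1, ht.2.trans_lt hz.2⟩)

theorem can_picard {F : ℕ → Submodule ℝ V} (hF : IsFil F) {c : ℝ → V}
    (hc : ContinuousOn c (Ioo 0 1)) {K : ℝ} (hK : ∀ t ∈ Ioc (0 : ℝ) (1 / 2), ‖c t‖ ≤ K / √t)
    (hm : ∀ t, c t ∈ F 1) (k : ℕ) : ∃ P Q : ℝ → V,
      (∀ z ∈ Ioo (0 : ℝ) 1, HasDerivAt P (c z * (P z - Q z)) z) ∧ ContinuousOn Q (Ioo 0 1) ∧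
      (∃ M, ∀ z ∈ Ioc (0 : ℝ) (1 / 2), ‖Q z‖ ≤ M) ∧ (∀ z ∈ Ioo (0 : ℝ) 1, Q z ∈ F k) ∧
      (∀ z ∈ Ioo (0 : ℝ) 1, P z - 1 ∈ F 1) ∧
      ∃ C, ∀ z ∈ Ioc (0 : ℝ) (1 / 2), ‖P z - 1‖ ≤ C * √z := by
  induction k with
  | zero =>
    refine ⟨fun _ => 1, fun _ => 1, fun z _ => ?_, continuousOn_const, ⟨_, fun _ _ => le_rfl⟩,
      fun z _ => by simp [hF.top], fun z _ => by simp, 0, fun z _ => by simp⟩
    simpa using hasDerivAt_const z (1 : V)
  | succ k ih =>
    obtain ⟨P, Q, h1, h2, ⟨M, h3⟩, h4, h5, C, h6⟩ := ih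
    obtain ⟨H, k1, k2, k3⟩ := prim_sing (h := fun t => c t * Q t) (hc.mul h2) (C := K * M)
      (fun t ht => by
        refine (norm_mul_le _ _).trans ?_
        rw [mul_div_right_comm]
        exact mul_le_mul (hK t ht) (h3 t ht) (norm_nonneg _) ((norm_nonneg _).trans (hK t ht)))
      (F (k + 1)) (fun t ht => by rw [add_comm]; exact hF.mul (hm t) (h4 t ht))
    refine ⟨fun z => P z + H z, H, fun z hz => ?_,
      fun z hz => (k1 z hz).continuousAt.continuousWithinAt, ⟨|2 * (K * M)|, fun z hz => ?_⟩, k3,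
      fun z hz => ?_, C + 2 * (K * M), fun z hz => ?_⟩
    · refine ((h1 z hz).fun_add (k1 z hz)).congr_deriv ?_
      rw [← mul_add, sub_add_cancel, add_sub_cancel_right]
    · refine (k2 z hz).trans ?_
      have : √z ≤ 1 := Real.sqrt_le_one.2 (hz.2.trans (by norm_num))
      exact (mul_le_mul_of_nonneg_right (le_abs_self _) (Real.sqrt_nonneg _)).trans
        (mul_le_of_le_one_right (abs_nonneg _) this)
    · rw [add_sub_right_comm]
      exact (F 1).add_mem (h5 z hz) (hF.anti (by omega) (k3 z hz))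
    · rw [add_sub_right_comm, add_mul]
      exact (norm_add_le _ _).trans (add_le_add (h6 z hz) (k2 z hz))

theorem exists_can {F : ℕ → Submodule ℝ V} (hF : IsFil F) {N : ℕ} (hN : F N = ⊥) {A B : V}
    (hA : A ∈ F 1) (hB : B ∈ F 1) : ∃ G, IsCan A B G := by
  obtain ⟨C1, c1, h1⟩ := pw_bound (hF.isNilpotent hN hA).neg (δ := 1 / 4) (by norm_num)
  obtain ⟨C2, c2, h2⟩ := pw_bound (hF.isNilpotent hN hA) (δ := 1 / 4) (by norm_num)
  obtain ⟨P, Q, k1, -, -, k4, k5, C, k6⟩ := can_picard hF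
    (c := fun t => (t - 1)⁻¹ • (pw (-A) t * B * pw A t)) (K := 2 * (C1 * ‖B‖ * C2))
    (((continuousOn_id.sub continuousOn_const).inv₀ fun t ht => (sub_neg.2 ht.2).ne).smul
      ((((continuousOn_pw (-A)).mono fun t ht => ht.1).mul continuousOn_const).mul
        ((continuousOn_pw A).mono fun t ht => ht.1)))
    (fun t ht => by
      have ht' : t ∈ Ioc (0 : ℝ) 1 := ⟨ht.1, ht.2.trans (by norm_num)⟩
      have e1 : ‖(t - 1)⁻¹‖ ≤ 2 := by
        rw [norm_inv, Real.norm_eq_abs, abs_sub_comm, abs_of_pos (by linarith [ht.2]),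
          inv_le_comm₀ (by linarith [ht.2]) two_pos]
        linarith [ht.2]
      have e2 : t ^ (-(1 / 4) : ℝ) * t ^ (-(1 / 4) : ℝ) = (√t)⁻¹ := by
        rw [← Real.rpow_add ht.1, Real.sqrt_eq_rpow, ← Real.rpow_neg ht.1.le]
        norm_num
      have e3 : 0 ≤ t ^ (-(1 / 4) : ℝ) := Real.rpow_nonneg ht.1.le _
      calc ‖(t - 1)⁻¹ • (pw (-A) t * B * pw A t)‖
          ≤ ‖(t - 1)⁻¹‖ * (‖pw (-A) t‖ * ‖B‖ * ‖pw A t‖) := by
            rw [norm_smul]
            gcongr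
            exact norm_mul₃_le
        _ ≤ 2 * (C1 * t ^ (-(1 / 4) : ℝ) * ‖B‖ * (C2 * t ^ (-(1 / 4) : ℝ))) := by
            gcongr
            · exact h1 t ht'
            · exact h2 t ht'
        _ = _ := by
            rw [div_eq_mul_inv _ (√t), ← e2]
            ring)
    (fun t => (F 1).smul_mem _ (hF.mul_right _ (hF.mul_left _ hB))) N
  refine ⟨fun z => pw A z * P z, fun z hz => ?_,
    fun z hz => (isUnit_pw A z).mul (hF.isUnit hN (k5 z hz)), C, fun z hz => ?_⟩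
  · have hq : Q z = 0 := by simpa [hN] using k4 z hz
    refine ((hasDerivAt_pw A hz.1).fun_mul (k1 z hz)).congr_deriv ?_
    simp only [hq, sub_zero, add_mul, smul_mul_assoc, mul_smul_comm, ← mul_assoc, pw_mul_neg,
      one_mul]
  · rw [← mul_assoc, pw_neg_mul, one_mul]
    exact k6 z hz

end Vale.Agent.P029
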