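import Vale.Agent.P029.HT

/-!
A Lie polynomial of degree `≥ 3` satisfying the 2-cocycle equation vanishes.

Plan: coefficient lemma: if `π : Y → X` and `f i = ∑ j with π j = i, lt j` then
`cf w (ev f u) = cf (w.map π) u` (induction `ind_lt` with `cf_cons_lt_mul`); and if a letter `j`
does not occur in any `f i` (each `f i` a letter `≠ j`) then `cf w (ev f u) = 0` for `j ∈ w`
(or use `ev_mem_Hg` with the weight counting `j`). So for a word `w` in `Fin 3` containing `0` and
`2`, `cf (w.map ![0,0,1]) r = cf (w.map ![0,1,1]) r`. Work with words `List.ofFn v`,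
`v : Fin m → Fin 2`. Every non constant `v` (`v i = 0`, `v j = 1`) has the same coefficient as
`p i` (`0` at `i`, `1` elsewhere) and as `q j` (`1` at `j`, `0` elsewhere); since `m ≥ 3` all these
coefficients equal one number `c`. Constant words have coefficient `0` (`ev2_eq_zero` for
`![lt 0, 0]` and `![0, lt 1]`). Evaluate at `![1, 1]` in `K` (`ev2_eq_zero`): the sum of all
coefficients is `0`, so `(2 ^ m - 2) * c = 0` (or: number of non constant words is `≠ 0`).
-/

namespace Vale.Agent.P029

lemma cocyc_cf_map {K X Y : Type} [CommRing K] [DecidableEq X] (π : Y → X) (f : X → T K Y)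
    (h0 : ∀ i a, cf [] (f i * a) = 0)
    (h1 : ∀ i j w a, cf (j :: w) (f i * a) = if i = π j then cf w a else 0) (u : T K X) :
    ∀ w, cf w (ev f u) = cf (w.map π) u := by
  refine ind_lt (p := fun u => ∀ w, cf w (ev f u) = cf (w.map π) u) u ?_ ?_ ?_ ?_
  · intro w
    cases w with
    | nil => simp [cf_nil_one]
    | cons j w => simp [cf_cons_one]
  · intro i a ha w
    cases w with
    | nil => simp [h0, cf_nil_lt_mul]
    | cons j w => simp [h1, cf_cons_lt_mul, ha]
  · intro a b ha hb w
    simp [ha, hb]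
  · intro c a ha w
    simp [ha]

lemma cocyc_cf_zero {K X Y : Type} [CommRing K] (g : X → Y) {w : List Y} {j : Y} (hj : j ∈ w)
    (hg : ∀ i, g i ≠ j) (u : T K X) : cf w (ev (fun i => (lt (g i) : T K Y)) u) = 0 := by
  refine ind_wd (p := fun u => cf w (ev (fun i => (lt (g i) : T K Y)) u) = 0) u (fun v => ?_) ?_ ?_
  · have e : ev (fun i => (lt (g i) : T K Y)) (wd v : T K X) = wd (v.map g) := by
      induction v with
      | nil => simp
      | cons i v ih => rw [List.map_cons, wd_cons, wd_cons, map_mul, ih, ev_lt]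
    rw [e]
    refine cf_wd_ne ?_
    rintro rfl
    obtain ⟨i, -, hi⟩ := List.mem_map.1 hj
    exact hg i hi
  · intro a b ha hb
    simp [ha, hb]
  · intro c a ha
    simp [ha]

lemma cocyc_rel {K : Type} [CommRing K] {r : T K (Fin 2)}
    (h : ev ![(lt 0 : T K (Fin 3)), lt 1] r + ev ![lt 0 + lt 1, lt 2] r =
      ev ![lt 1, lt 2] r + ev ![lt 0, lt 1 + lt 2] r) {w : List (Fin 3)} (h0 : 0 ∈ w)
    (h2 : 2 ∈ w) : cf (w.map ![0, 0, 1]) r = cf (w.map ![0, 1, 1]) r := by
  have e1 : ![(lt 0 : T K (Fin 3)), lt 1] = fun i => lt (![0, 1] i) := by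
    funext i; fin_cases i <;> rfl
  have e2 : ![(lt 1 : T K (Fin 3)), lt 2] = fun i => lt (![1, 2] i) := by
    funext i; fin_cases i <;> rfl
  have h' := congrArg (cf w) h
  rw [map_add, map_add, e1, e2, cocyc_cf_zero _ h2 (by decide), cocyc_cf_zero _ h0 (by decide),
    zero_add, zero_add, cocyc_cf_map ![0, 0, 1], cocyc_cf_map ![0, 1, 1]] at h'
  · exact h'
  all_goals
    intro i
    fin_cases i
  all_goals first
    | (intro j w a; fin_cases j <;> simp [add_mul, cf_cons_lt_mul])
    | simp [add_mul, cf_nil_lt_mul]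

lemma cocyc_sum {K : Type} [CommRing K] {m : ℕ} {r : T K (Fin 2)} (hr : r ∈ Hg K one m) :
    r = ∑ v : Fin m → Fin 2, cf (List.ofFn v) r • wd (List.ofFn v) := by
  refine cf_ext fun w => ?_
  simp only [map_sum, map_smul, cf_wd, smul_eq_mul, mul_ite, mul_one, mul_zero]
  by_cases hw : w.length = m
  · subst hw
    rw [Finset.sum_eq_single w.get]
    · simp
    · intro v _ hv
      refine if_neg fun e => hv (List.ofFn_injective ?_)
      rw [e, List.ofFn_get]
    · simp
  · rw [mem_Hg.1 hr w (by simpa [wgt] using hw), Finset.sum_eq_zero]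
    intro v _
    refine if_neg fun e => hw ?_
    rw [← e, List.length_ofFn]

theorem cocycle {K : Type} [Field K] [CharZero K] {m : ℕ} (hm : 3 ≤ m) {r : T K (Fin 2)}
    (hr : r ∈ HT K one m)
    (h : ev ![(lt 0 : T K (Fin 3)), lt 1] r + ev ![lt 0 + lt 1, lt 2] r =
      ev ![lt 1, lt 2] r + ev ![lt 0, lt 1 + lt 2] r) : r = 0 := by
  have hs := cocyc_sum (HT_le_Hg m hr)
  generalize hc : (fun v : Fin m → Fin 2 => cf (List.ofFn v) r) = c
  have hc' : ∀ v, cf (List.ofFn v) r = c v := congrFun hc
  have hev : ∀ a b : K, ∑ v : Fin m → Fin 2, c v * ∏ k, ![a, b] (v k) = 0 := by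
    intro a b
    have h1 := ev2_eq_zero (Commute.all a b) (by omega) hr
    rw [hs] at h1
    simpa only [map_sum, map_smul, hc', ev_wd, List.map_ofFn, List.prod_ofFn, smul_eq_mul,
      Function.comp_apply] using h1
  have two : ∀ x : Fin 2, x ≠ 0 → x = 1 := by decide
  have two' : ∀ x : Fin 2, x ≠ 1 → x = 0 := by decide
  have c0 : c 0 = 0 := by
    have h1 := hev 1 0
    rw [Finset.sum_eq_single 0] at h1
    · simpa using h1
    · intro v _ hv
      obtain ⟨k, hk⟩ := Function.ne_iff.1 hv
      rw [Finset.prod_eq_zero (Finset.mem_univ k) (by rw [two _ hk]; rfl), mul_zero]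
    · simp
  have c1 : c 1 = 0 := by
    have h1 := hev 0 1
    rw [Finset.sum_eq_single 1] at h1
    · simpa using h1
    · intro v _ hv
      obtain ⟨k, hk⟩ := Function.ne_iff.1 hv
      rw [Finset.prod_eq_zero (Finset.mem_univ k) (by rw [two' _ hk]; rfl), mul_zero]
    · simp
  have rel : ∀ (v v' : Fin m → Fin 2) (i j : Fin m), (∀ k, v k = 1 → v' k = 1) → v' i = 0 →
      v j = 1 → c v = c v' := by
    intro v v' i j hle hi hj
    have h1 := cocyc_rel h (w := List.ofFn fun k => if v k = 1 then 2 else if v' k = 1 then 1 else 0)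
      (List.mem_ofFn.2 ⟨i, by
        have : v i ≠ 1 := fun e => by simpa [hi] using hle i e
        simp [this, hi]⟩) (List.mem_ofFn.2 ⟨j, by simp [hj]⟩)
    rw [List.map_ofFn, List.map_ofFn, hc', hc'] at h1
    refine Eq.trans ?_ (h1.trans ?_) <;> congr 1 <;> funext k <;> have := hle k <;>
      simp only [Function.comp_apply] <;> generalize v k = x at * <;> generalize v' k = y at * <;>
      revert x y <;> decide
  let q : Fin m → Fin m → Fin 2 := fun j k => if k = j then 1 else 0
  let p : Fin m → Fin m → Fin 2 := fun i k => if k = i then 0 else 1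
  have qp : ∀ i j, i ≠ j → c (q j) = c (p i) := fun i j hij =>
    rel _ _ i j (fun k hk => by
      have : k = j := by simpa [q] using hk
      simp [p, this, hij.symm]) (by simp [p]) (by simp [q])
  have qq : ∀ j j', c (q j) = c (q j') := by
    intro j j'
    obtain ⟨i, hi⟩ : ∃ i, i ∉ ({j, j'} : Finset (Fin m)) := by
      by_contra hh
      push Not at hh
      have := Finset.card_le_card (fun i _ => hh i : Finset.univ ⊆ ({j, j'} : Finset (Fin m)))
      have := Finset.card_le_two (a := j) (b := j')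
      simp only [Finset.card_univ, Fintype.card_fin] at *
      omega
    simp only [Finset.mem_insert, Finset.mem_singleton, not_or] at hi
    rw [qp i j hi.1, qp i j' hi.2]
  let j0 : Fin m := ⟨0, by omega⟩
  have all : ∀ v, v ≠ 0 → v ≠ 1 → c v = c (q j0) := by
    intro v h0 h1
    obtain ⟨j, hj⟩ := Function.ne_iff.1 h0
    obtain ⟨i, hi⟩ := Function.ne_iff.1 h1
    rw [qq j0 j]
    refine (rel _ _ i j (fun k hk => ?_) (two' _ hi) (by simp [q])).symm
    have : k = j := by simpa [q] using hk
    rw [this]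
    exact two _ hj
  have hq : c (q j0) = 0 := by
    have h1 := hev 1 1
    have e : ∀ v : Fin m → Fin 2, ∏ k, ![(1 : K), 1] (v k) = 1 := fun v =>
      Finset.prod_eq_one fun k _ => by generalize v k = x; fin_cases x <;> rfl
    simp only [e, mul_one] at h1
    rw [← Finset.sum_subset (Finset.filter_subset (fun v => v ≠ 0 ∧ v ≠ 1) _) (by
      intro v _ hv
      simp only [Finset.mem_filter, Finset.mem_univ, true_and, not_and_or, not_not] at hv
      rcases hv with rfl | rfl <;> assumption),
      Finset.sum_congr rfl (fun v hv => all v (Finset.mem_filter.1 hv).2.1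
        (Finset.mem_filter.1 hv).2.2), Finset.sum_const, nsmul_eq_mul, mul_eq_zero] at h1
    refine h1.resolve_left (Nat.cast_ne_zero.2 (Finset.card_ne_zero.2 ⟨q j0, ?_⟩))
    refine Finset.mem_filter.2 ⟨Finset.mem_univ _, fun e => ?_, fun e => ?_⟩
    · simpa [q] using congrFun e j0
    · simpa [q, j0, Fin.ext_iff] using congrFun e ⟨1, by omega⟩
  rw [hs]
  refine Finset.sum_eq_zero fun v _ => ?_
  rw [hc']
  by_cases h0 : v = 0
  · rw [h0, c0, zero_smul]
  by_cases h1 : v = 1
  · rw [h1, c1, zero_smul]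
  rw [all v h0 h1, hq, zero_smul]

end Vale.Agent.P029
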