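import Vale.Agent.P029.HT

/-!
Friedrichs' criterion through the Dynkin operator.

Plan: `M = T K X × T K X`, operators `f i (k, k') = (lt i * k, lt i * k' + lt i * k)` and
`g i (k, k') = (-(k * lt i), -(k' * lt i))` in `Module.End K M`; `f i` commutes with `g j`.
For a word `w` of length `m`: `ev f (wd w) (1, 0) = (wd w, m • wd w)`; `(ev g u (1, 0)).2 = 0` for
all `u`; for `m ≥ 1`, `ev (f + g) (wd w) (1, 0) = (0, h)` with `h ∈ HT K one m`
(`(f i + g i) (1, 0) = (0, lt i)`, `(f i + g i) (0, h) = (0, ⁅lt i, h⁆)`). Hence `m • u ∈ HT K one m`.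
-/

namespace Vale.Agent.P029

attribute [local instance 100] LieRing.ofAssociativeRing

section
variable {K X : Type} [CommRing K]

/-- left multiplication twisted by the degree -/
noncomputable def frF (i : X) : Module.End K (T K X × T K X) :=
  (LinearMap.mulLeft K (lt i) ∘ₗ LinearMap.fst K _ _).prod
    (LinearMap.mulLeft K (lt i) ∘ₗ LinearMap.snd K _ _ +
      LinearMap.mulLeft K (lt i) ∘ₗ LinearMap.fst K _ _)

/-- minus right multiplication -/
noncomputable def frG (i : X) : Module.End K (T K X × T K X) :=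
  LinearMap.prodMap (-LinearMap.mulRight K (lt i)) (-LinearMap.mulRight K (lt i))

/-- the sum of the two operators -/
noncomputable def frH (i : X) : Module.End K (T K X × T K X) := frF i + frG i

lemma frF_apply (i : X) (k k' : T K X) : frF i (k, k') = (lt i * k, lt i * k' + lt i * k) := rfl

lemma frG_apply (i : X) (k k' : T K X) : frG i (k, k') = (-(k * lt i), -(k' * lt i)) := rfl

lemma frF_comm (i j : X) : Commute (frF (K := K) i) (frG j) := by
  refine LinearMap.ext fun ⟨k, k'⟩ => ?_
  simp only [Module.End.mul_apply, frF_apply, frG_apply, Prod.mk.injEq]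
  constructor <;> noncomm_ring

lemma frF_wd (w : List X) :
    ev (frF (K := K)) (wd w : T K X) (1, 0) = (wd w, (w.length : K) • wd w) := by
  induction w with
  | nil => simp
  | cons i w ih =>
    rw [wd_cons, map_mul, ev_lt, Module.End.mul_apply, ih, frF_apply]
    simp [add_smul]

lemma frG_snd (u k : T K X) : (ev (frG (K := K)) u (k, 0)).2 = 0 := by
  refine ind_lt (p := fun u => (ev (frG (K := K)) u (k, 0)).2 = 0) u (by simp) ?_ ?_ ?_
  · intro i a ha
    rw [map_mul, ev_lt, Module.End.mul_apply]
    generalize ev (frG (K := K)) a (k, 0) = z at ha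
    obtain ⟨z1, z2⟩ := z
    simp only at ha
    simp [frG_apply, ha]
  · intro a b ha hb; simp [ha, hb]
  · intro c a ha; simp [ha]

lemma frFG_wd (i : X) (w : List X) : ∃ h ∈ HT K one (w.length + 1),
    ev (frH (K := K)) (wd (i :: w) : T K X) (1, 0) = (0, h) := by
  induction w generalizing i with
  | nil =>
    refine ⟨lt i, lt_mem_HT one i, ?_⟩
    change ev (frH (K := K)) (lt i : T K X) (1, 0) = _
    rw [ev_lt, frH, LinearMap.add_apply, frF_apply, frG_apply]
    simp
  | cons j w ih =>
    obtain ⟨h, hh, e⟩ := ih j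
    refine ⟨⁅(lt i : T K X), h⁆, ?_, ?_⟩
    · have := lie_mem_HT (lt_mem_HT (R := K) one i) hh
      rwa [add_comm] at this
    · rw [wd_cons, map_mul, ev_lt, Module.End.mul_apply, e, frH, LinearMap.add_apply, frF_apply,
        frG_apply]
      simp [Ring.lie_def, sub_eq_add_neg]

lemma frF_snd {m : ℕ} {u : T K X} (hu : u ∈ Hg K one m) :
    (ev (frF (K := K)) u (1, 0)).2 = (m : K) • u := by
  refine ind_supp (p := fun u => (ev (frF (K := K)) u (1, 0)).2 = (m : K) • u) u (by simp) ?_ ?_ ?_
  · intro w hw
    have : w.length = m := by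
      by_contra hne
      exact hw (hu w (by simpa using hne))
    rw [frF_wd, this]
  · intro a b ha hb; simp [ha, hb]
  · intro c a ha
    rw [map_smul, LinearMap.smul_apply, Prod.smul_snd, ha, smul_comm]

lemma frFG_snd {m : ℕ} (hm : 1 ≤ m) {u : T K X} (hu : u ∈ Hg K one m) :
    (ev (frH (K := K)) u (1, 0)).2 ∈ HT K one m := by
  refine ind_supp (p := fun u => (ev (frH (K := K)) u (1, 0)).2 ∈ HT K one m) u
    (by simp) ?_ ?_ ?_
  · intro w hw
    have hl : w.length = m := by
      by_contra hne
      exact hw (hu w (by simpa using hne))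
    cases w with
    | nil => simp at hl; omega
    | cons i w =>
      obtain ⟨h, hh, e⟩ := frFG_wd (K := K) i w
      rw [e, ← hl]
      exact hh
  · intro a b ha hb
    rw [map_add, LinearMap.add_apply, Prod.snd_add]
    exact add_mem ha hb
  · intro c a ha
    rw [map_smul, LinearMap.smul_apply, Prod.smul_snd]
    exact Submodule.smul_mem _ c ha

end

theorem friedrichs {K X : Type} [Field K] [CharZero K] {m : ℕ} (hm : 1 ≤ m) {u : T K X}
    (hu : u ∈ Hg K one m)
    (hprim : ∀ (B : Type) [Ring B] [Algebra K B] (f g : X → B), (∀ i j, Commute (f i) (g j)) →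
      ev (fun i => f i + g i) u = ev f u + ev g u) : u ∈ HT K one m := by
  have h1 := frFG_snd hm hu
  have h2 : ev (frH (K := K)) u = ev frF u + ev frG u := hprim _ frF frG frF_comm
  rw [h2, LinearMap.add_apply, Prod.snd_add, frF_snd hu, frG_snd,
    add_zero] at h1
  have hm' : (m : K) ≠ 0 := Nat.cast_ne_zero.2 (by omega)
  have := Submodule.smul_mem _ (m : K)⁻¹ h1
  rwa [smul_smul, inv_mul_cancel₀ hm', one_smul] at this

end Vale.Agent.P029
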