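import Vale.Agent.P029.P5
import Vale.Agent.P029.Fried

/-!
Consequences of the linear pentagon equation: Lie, 2-cycle, cyclic pentagon, 3-cycle.

Plan: specialisations `f = ![a,a,0,0,0]`, `f = ![0,0,0,b,b]` give `ev_x0`, `ev_0y`.
`f = ![x1, x1+x2, 0, y1+y2, y2]` (index 1 commutes with index 2) gives primitivity, then
`friedrichs` (`f 0 = x1, f 1 = y1, g 0 = x2, g 1 = y2`). `Pent.pr`: `Rel.smul`, `ev_smul_Hg`,
`exists_sum_pr`, `vander`. 2-cycle: `f = ![a, 0, b, 0, a]` and `ev2_eq_zero`.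
`cp`: `P5.rel`, `shift2` (h2: shift by `x r s`, h3: by `x p q`, h5: by `x q r`) and the 2-cycle.
3-cycle: write `ψ i j k = ev ![x i j, x j k] u`, `r = u + u(y,-x-y) + u(-x-y,x) ∈ HT K one m`.
By `tri` and `shift2`, `ev ![x i j, x j k] r = ψ i j k + ψ j k i + ψ k i j`. With labels `1..5`
(`0..4` in the code) the combination O1 - O2 + O3 - O4 of `cp` for the orders (4,1,2,3,5),
(1,4,2,3,5), (1,2,4,3,5), (1,2,3,4,5) is `R124 + R243 + R354 + R541 = 0`; with `Y i = x i 4`,
`Y5 = -(Y1+Y2+Y3)`, the cyclic symmetry `r(a,b) = r(b,-a-b)` and `r(b,a) = -r(a,b)` this is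
`r(Y1,Y2) + r(Y1+Y2,Y3) = r(Y2,Y3) + r(Y1,Y2+Y3)`; conclude with `cocycle_p5`.
`cocycle_p5`: `exists_p5`, `ev_mulLeft`, apply to `1`, `cocycle`.
-/

namespace Vale.Agent.P029

attribute [local instance 100] LieRing.ofAssociativeRing

variable {K : Type} [Field K] [CharZero K] {B : Type} [Ring B] [Algebra K B] {u : T K (Fin 2)}

omit [CharZero K] in
lemma Pent.ev_x0 (hu : u ∈ Pent K) (a : B) : ev ![a, 0] u = 0 := by
  have hr : Rel ![a, a, 0, 0, 0] := by
    refine ⟨?_, ?_, ?_, ?_, ?_, ?_⟩ <;> simp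
  have := hr.pent hu
  simpa [pent_apply, h1, h2, h3, h4, h5] using this

omit [CharZero K] in
lemma Pent.ev_0y (hu : u ∈ Pent K) (b : B) : ev ![0, b] u = 0 := by
  have hr : Rel ![0, 0, 0, b, b] := by
    refine ⟨?_, ?_, ?_, ?_, ?_, ?_⟩ <;> simp
  have := hr.pent hu
  simpa [pent_apply, h1, h2, h3, h4, h5] using this

omit [CharZero K] in
lemma Pent.mem_Y (hu : u ∈ Pent K) : u ∈ Fil K wy 1 := by
  have := sub_ev_x0_mem u
  rwa [Pent.ev_x0 hu, sub_zero] at this

omit [CharZero K] in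
lemma Pent.eq_zero_of_le_one (hu : u ∈ Pent K) {m : ℕ} (hm : m ≤ 1) (h : u ∈ Hg K one m) :
    u = 0 := by
  have e : u = cf [1] u • lt 1 := by
    refine cf_ext fun w => ?_
    rw [map_smul, lt, cf_wd]
    split_ifs with hw
    · rw [← hw, smul_eq_mul, mul_one]
    · rw [smul_zero]
      by_cases hl : wgt one w = m
      · refine Pent.mem_Y hu w ?_
        rw [wgt_one] at hl
        match w, hw, hl with
        | [], _, _ => simp
        | [i], hw, _ =>
          fin_cases i
          · simp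
          · exact absurd rfl hw
        | _ :: _ :: _, _, hl => simp at hl; omega
      · exact h w hl
  have h0 := Pent.ev_0y hu (1 : K)
  rw [e, map_smul, ev_lt] at h0
  have h1 : cf [1] u = 0 := by simpa using h0
  rw [e, h1, zero_smul]

omit [CharZero K] in
lemma cyc_ev_smul (c : K) (a b : B) {n : ℕ} (h : u ∈ Hg K one n) :
    ev ![c • a, c • b] u = c ^ n • ev ![a, b] u := by
  rw [← ev_smul_Hg c _ h]
  congr 2
  ext i
  fin_cases i <;> rfl

omit [CharZero K] in
lemma cyc_pent_smul (c : K) (f : Fin 5 → B) {n : ℕ} (h : u ∈ Hg K one n) :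
    pent (fun i => c • f i) u = c ^ n • pent f u := by
  simp only [pent_apply, h1, h2, h3, h4, h5, ← smul_sub c, cyc_ev_smul c _ _ h, smul_sub (c ^ n),
    smul_add (c ^ n)]

lemma Pent.pr (hu : u ∈ Pent K) (n : ℕ) : pr one n u ∈ Pent K := by
  intro B _ _ f hf
  obtain ⟨N, hN⟩ := exists_sum_pr (one : Fin 2 → ℕ) u
  refine vander (K := K) (fun k => pent f (P029.pr one k u)) (N + n + 1) (fun c => ?_) n (by omega)
  have h0 := (hf.smul c).pent hu
  rw [← hN (N + n + 1) (by omega), map_sum] at h0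
  rw [← h0]
  exact Finset.sum_congr rfl fun k _ => (cyc_pent_smul c f (pr_mem _ _ _)).symm

theorem Pent.lie (hu : u ∈ Pent K) {m : ℕ} (h : u ∈ Hg K one m) : u ∈ HT K one m := by
  rcases Nat.eq_zero_or_pos m with rfl | hm
  · rw [Pent.eq_zero_of_le_one hu zero_le_one h]
    exact zero_mem _
  refine friedrichs hm h fun B _ _ f g hc => ?_
  have hr : Rel ![f 0, f 0 + g 0, 0, f 1 + g 1, g 1] := by
    refine ⟨?_, ?_, ?_, ?_, ?_, ?_⟩
    · exact (Commute.refl _).add_right (hc 0 0)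
    · exact Commute.zero_right _
    · exact Commute.zero_left _
    · exact (hc 1 1).add_left (Commute.refl _)
    · exact (hc 0 1).symm
    · simpa using (hc 1 0).symm
  have h0 := hr.pent hu
  have e1 : ![f 0, f 1] = f := by ext i; fin_cases i <;> rfl
  have e2 : ![g 0, g 1] = g := by ext i; fin_cases i <;> rfl
  have e3 : ![f 0 + g 0, f 1 + g 1] = fun i => f i + g i := by ext i; fin_cases i <;> rfl
  simp only [pent_apply, h1, h2, h3, h4, h5, Matrix.cons_val, add_sub_cancel_right,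
    add_sub_cancel_left, sub_zero, Pent.ev_x0 hu, Pent.ev_0y hu, e1, e2, e3] at h0
  exact (sub_eq_zero.1 h0).symm

theorem Pent.two_cycle (hu : u ∈ Pent K) {m : ℕ} (h : u ∈ Hg K one m) (a b : B) :
    ev ![a, b] u + ev ![b, a] u = 0 := by
  rcases le_or_gt m 1 with hm | hm
  · simp [Pent.eq_zero_of_le_one hu hm h]
  have hl := Pent.lie hu h
  have hr : Rel ![a, 0, b, 0, a] := by
    refine ⟨?_, ?_, ?_, ?_, ?_, ?_⟩
    · exact Commute.zero_right _
    · exact Commute.zero_left _
    · exact Commute.zero_right _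
    · exact Commute.zero_left _
    · exact Commute.refl _
    · change Commute (0 - a - b) (0 - b - a)
      rw [sub_right_comm]
  have h0 := hr.pent hu
  simp only [pent_apply, h1, h2, h3, h4, h5, Matrix.cons_val, zero_sub] at h0
  rw [ev2_eq_zero (Commute.refl a).neg_right hm hl, ev2_eq_zero (Commute.refl a).neg_left hm hl,
    ev2_eq_zero (Commute.refl (-b)) hm hl] at h0
  rw [← neg_eq_zero, ← h0]
  abel

theorem Pent.cp (hu : u ∈ Pent K) {m : ℕ} (h : u ∈ Hg K one m) {x : Fin 5 → Fin 5 → B}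
    (hx : P5 x) {p q r s t : Fin 5} (hn : [p, q, r, s, t].Nodup) :
    ev ![x p q, x q r] u + ev ![x q r, x r s] u + ev ![x r s, x s t] u + ev ![x s t, x t p] u +
      ev ![x t p, x p q] u = 0 := by
  rcases le_or_gt m 1 with hm | hm
  · simp [Pent.eq_zero_of_le_one hu hm h]
  have hl := Pent.lie hu h
  have h0 := (hx.rel hn).pent hu
  simp only [List.nodup_cons, List.mem_cons, List.not_mem_nil, not_or, not_false_eq_true,
    List.nodup_nil, and_true, or_false] at hn
  obtain ⟨⟨hpq, hpr, hps, hpt⟩, ⟨hqr, hqs, hqt⟩, ⟨hrs, hrt⟩, hst⟩ := hn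
  have c1 : Commute (x r s) (x p q) := hx.comm _ _ _ _ (by
    simp [hrs, hpq, Ne.symm hpr, Ne.symm hqr, Ne.symm hps, Ne.symm hqs])
  have c2 : Commute (x r s) (x t p) := hx.comm _ _ _ _ (by
    simp [hrs, hrt, hst, Ne.symm hpr, Ne.symm hps, Ne.symm hpt])
  have c3 : Commute (x p q) (x s t) := hx.comm _ _ _ _ (by simp [hpq, hps, hpt, hqs, hqt, hst])
  have c4 : Commute (x q r) (x s t) := hx.comm _ _ _ _ (by simp [hqr, hqs, hqt, hrs, hrt, hst])
  have c5 : Commute (x q r) (x t p) := hx.comm _ _ _ _ (by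
    simp [hqr, hqt, hrt, Ne.symm hpq, Ne.symm hpr, Ne.symm hpt])
  have e2 : ev ![x p q, x t p - x r s] u = ev ![x p q, x t p] u :=
    shift2 (by simp) (by simp) (by simpa using c1) (by simpa using c2) (by simp) hm hl
  have e3 : ev ![x s t - x p q, x r s] u = ev ![x s t, x r s] u :=
    shift2 (by simpa using c3) (by simpa using c1.symm) (by simp) (by simp) (by simp) hm hl
  have e5 : ev ![x s t - x q r, x t p - x q r] u = ev ![x s t, x t p] u :=
    shift2 (by simpa using c4) (by simpa using c5) (by simpa using c4) (by simpa using c5)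
      (by simp) hm hl
  simp only [pent_apply, h1, h2, h3, h4, h5, Matrix.cons_val] at h0
  rw [e2, e3, e5, eq_neg_of_add_eq_zero_left (Pent.two_cycle hu h (x p q) (x t p)),
    eq_neg_of_add_eq_zero_left (Pent.two_cycle hu h (x s t) (x r s))] at h0
  rw [← neg_eq_zero, ← h0]
  abel

end Vale.Agent.P029
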