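import Vale.Agent.P029.P5

/-!
Passing between the three presentations, and the representation of `t4` on `T R (Fin 3)`.

Plan: `Rel.p5`: prove the 15 commutations (5 given, 5 trivial, 5 equivalent to `cx`: all expand to
`⁅f 0,f 2⁆+⁅f 1,f 3⁆+⁅f 2,f 4⁆+⁅f 3,f 0⁆+⁅f 4,f 1⁆ = 0`), then `fin_cases` (kill non `Nodup` cases by
`decide`); keep the build below 60 s. `rep_t4f`: for a derivation `D`,
`D * mulLeft a - mulLeft a * D = mulLeft (D a)`; the commutator of two derivations is a derivation,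
compare on letters with `der_ext` (Jacobi identity). `exists_p5`: `xm` of `T4F.rel'`.
-/

namespace Vale.Agent.P029

attribute [local instance 100] LieRing.ofAssociativeRing

variable {R : Type} [CommRing R] {B : Type} [Ring B]

noncomputable def d12 (R : Type) [CommRing R] : Module.End R (T R (Fin 3)) :=
  der ![lt 0 * lt 1 - lt 1 * lt 0, lt 1 * lt 0 - lt 0 * lt 1, 0]
noncomputable def d13 (R : Type) [CommRing R] : Module.End R (T R (Fin 3)) :=
  der ![lt 0 * lt 2 - lt 2 * lt 0, 0, lt 2 * lt 0 - lt 0 * lt 2]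
noncomputable def d23 (R : Type) [CommRing R] : Module.End R (T R (Fin 3)) :=
  der ![0, lt 1 * lt 2 - lt 2 * lt 1, lt 2 * lt 1 - lt 1 * lt 2]
/-- left multiplication -/
noncomputable abbrev Lm (a : T R (Fin 3)) : Module.End R (T R (Fin 3)) := LinearMap.mulLeft R a

lemma rep_dL {D : Module.End R (T R (Fin 3))} (hD : IsDer D) {a : T R (Fin 3)} (h : D a = 0) :
    Commute D (Lm a) := by
  refine LinearMap.ext fun u => ?_
  simp [hD a u, h]

lemma rep_dLL {D : Module.End R (T R (Fin 3))} (hD : IsDer D) {a b : T R (Fin 3)}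
    (h : D a + D b = 0) : Commute D (Lm a + Lm b) := by
  refine LinearMap.ext fun u => ?_
  simp only [Module.End.mul_apply, LinearMap.add_apply, LinearMap.mulLeft_apply, map_add,
    hD a u, hD b u]
  linear_combination (norm := noncomm_ring) h * u

lemma rep_LdL {D : Module.End R (T R (Fin 3))} (hD : IsDer D) {a b : T R (Fin 3)}
    (h : D a = a * b - b * a) : Commute (Lm a) (D + Lm b) := by
  refine LinearMap.ext fun u => ?_
  simp only [Module.End.mul_apply, LinearMap.add_apply, LinearMap.mulLeft_apply, hD a u, h]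
  noncomm_ring

lemma rep_dd {D E E' : Module.End R (T R (Fin 3))} (hD : IsDer D) (hE : IsDer E) (hE' : IsDer E')
    (h : ∀ i, D (E (lt i) + E' (lt i)) = E (D (lt i)) + E' (D (lt i))) : Commute D (E + E') := by
  have h1 : IsDer (D * (E + E') - (E + E') * D : Module.End R (T R (Fin 3))) := by
    intro a b
    simp only [Module.End.mul_apply, LinearMap.add_apply, LinearMap.sub_apply, map_add,
      hE a b, hE' a b, hD a b, hD _ b, hD a _, hE _ b, hE a _, hE' _ b, hE' a _]
    noncomm_ring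
  have h0 : IsDer (0 : Module.End R (T R (Fin 3))) := by
    intro a b; simp
  have := der_ext h1 h0 fun i => by
    simp only [Module.End.mul_apply, LinearMap.add_apply, LinearMap.sub_apply, h i,
      LinearMap.zero_apply, sub_self]
  exact sub_eq_zero.1 this

theorem rep_t4f : T4F (d12 R) (d13 R) (Lm (lt 0)) (d23 R) (Lm (lt 1)) (Lm (lt 2)) := by
  have h12 : IsDer (d12 R) := isDer_der _
  have h13 : IsDer (d13 R) := isDer_der _
  have h23 : IsDer (d23 R) := isDer_der _
  have a0 : d12 R (lt 0) = lt 0 * lt 1 - lt 1 * lt 0 := der_lt _ _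
  have a1 : d12 R (lt 1) = lt 1 * lt 0 - lt 0 * lt 1 := der_lt _ _
  have a2 : d12 R (lt 2) = 0 := der_lt _ _
  have b0 : d13 R (lt 0) = lt 0 * lt 2 - lt 2 * lt 0 := der_lt _ _
  have b1 : d13 R (lt 1) = 0 := der_lt _ _
  have b2 : d13 R (lt 2) = lt 2 * lt 0 - lt 0 * lt 2 := der_lt _ _
  have c0 : d23 R (lt 0) = 0 := der_lt _ _
  have c1 : d23 R (lt 1) = lt 1 * lt 2 - lt 2 * lt 1 := der_lt _ _
  have c2 : d23 R (lt 2) = lt 2 * lt 1 - lt 1 * lt 2 := der_lt _ _
  have cases3 : ∀ {p : Fin 3 → Prop}, p 0 → p 1 → p 2 → ∀ i, p i := by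
    intro p h0 h1 h2 i
    fin_cases i
    exacts [h0, h1, h2]
  refine ⟨rep_dL h12 a2, rep_dL h13 b1, (rep_dL h23 c0).symm, rep_dd h12 h13 h23 ?_,
    rep_dd h13 h12 h23 ?_, rep_dd h23 h12 h13 ?_, rep_dLL h12 (by rw [a0, a1]; abel),
    rep_LdL h12 a0, rep_LdL h12 a1, rep_dLL h13 (by rw [b0, b2]; abel), rep_LdL h13 b0,
    rep_LdL h13 b2, rep_dLL h23 (by rw [c1, c2]; abel), rep_LdL h23 c1, rep_LdL h23 c2⟩
  all_goals
    refine cases3 ?_ ?_ ?_ <;>
    · simp only [a0, a1, a2, b0, b1, b2, c0, c1, c2, map_add, map_sub, map_zero, h12 (lt _) (lt _),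
        h13 (lt _) (lt _), h23 (lt _) (lt _)]
      noncomm_ring

theorem exists_p5 : ∃ x : Fin 5 → Fin 5 → Module.End R (T R (Fin 3)), P5 x ∧
    x 0 3 = Lm (lt 0) ∧ x 1 3 = Lm (lt 1) ∧ x 2 3 = Lm (lt 2) := by
  refine ⟨_, (rep_t4f (R := R)).rel'.p5, ?_, ?_, ?_⟩
  · change (d23 R : Module.End R (T R (Fin 3))) - (d23 R + Lm (lt 1) + Lm (lt 2)) -
      -(Lm (lt 0) + Lm (lt 1) + Lm (lt 2)) = _
    abel
  · change (d23 R + Lm (lt 1) + Lm (lt 2) : Module.End R (T R (Fin 3))) - d23 R - Lm (lt 2) = _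
    abel
  · rfl

end Vale.Agent.P029
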