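import Vale.Agent.P029.Cyc
import Vale.Agent.P029.Rep
import Vale.Agent.P029.Cocyc

/-!
Consequences of the linear pentagon equation: Lie, 2-cycle, cyclic pentagon, 3-cycle.

Plan: specialisations `f = ![a,a,0,0,0]`, `f = ![0,0,0,b,b]` give `ev_x0`, `ev_0y`.
`f = ![x1, x1+x2, 0, y1+y2, y2]` (index 1 commutes with index 2) gives primitivity, then
`friedrichs` (`f 0 = x1, f 1 = y1, g 0 = x2, g 1 = y2`). `Pent.pr`: `Rel.smul`, `ev_smul_Hg`,
`exists_sum_pr`, `vander`. 2-cycle: `f = ![a, 0, b, 0, a]` and `ev2_eq_zero`.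
`cp`: `P5.rel`, `shift2` (h2: shift by `x r s`, h3: by `x p q`, h5: by `x q r`) and the 2-cycle.
3-cycle: write `ψ i j k = ev ![x i j, x j k] u`, `r = u + u(y,-x-y) + u(-x-y,x) ∈ HT K one m`.
By `tri` and `shift2`, `ev ![x i j, x j k] r = ψ i j k + ψ j k i + ψ k i j`. With labels `1..5`
(`0..4` in the code) the combination O1 - O2 + O3 - O4 of `cp` for the orders (4,1,2,3,5),
(1,4,2,3,5), (1,2,4,3,5), (1,2,3,4,5) is `R124 + R243 + R354 + R541 = 0`; with `Y i = x i 4`,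
`Y5 = -(Y1+Y2+Y3)`, the cyclic symmetry `r(a,b) = r(b,-a-b)` and `r(b,a) = -r(a,b)` this is
`r(Y1,Y2) + r(Y1+Y2,Y3) = r(Y2,Y3) + r(Y1,Y2+Y3)`; conclude with `cocycle_p5`.
`cocycle_p5`: `exists_p5`, `ev_mulLeft`, apply to `1`, `cocycle`.
-/

namespace Vale.Agent.P029

attribute [local instance 100] LieRing.ofAssociativeRing

variable {K : Type} [Field K] [CharZero K] {B : Type} [Ring B] [Algebra K B] {u : T K (Fin 2)}

theorem cocycle_p5 {m : ℕ} (hm : 3 ≤ m) {r : T K (Fin 2)} (hr : r ∈ HT K one m)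
    (h : ∀ (B : Type) [Ring B] [Algebra K B] (x : Fin 5 → Fin 5 → B), P5 x →
      ev ![x 0 3, x 1 3] r + ev ![x 0 3 + x 1 3, x 2 3] r =
        ev ![x 1 3, x 2 3] r + ev ![x 0 3, x 1 3 + x 2 3] r) : r = 0 := by
  obtain ⟨x, hx, h0, h1, h2⟩ := exists_p5 (R := K)
  have key : ∀ a b : T K (Fin 3), ev ![Lm a, Lm b] r = Lm (ev ![a, b] r) := fun a b =>
    (map_ev2 (Algebra.lmul K (T K (Fin 3))) a b r).symm
  have hadd : ∀ a b : T K (Fin 3), Lm a + Lm b = Lm (a + b) := fun a b =>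
    LinearMap.ext fun v => (add_mul a b v).symm
  have h3 := h _ x hx
  rw [h0, h1, h2, hadd, hadd, key, key, key, key] at h3
  refine cocycle hm hr ?_
  simpa using LinearMap.congr_fun h3 1

/-- the 3-cycle expression -/
noncomputable def cyc3R (u : T K (Fin 2)) (a b : B) : B :=
  ev ![a, b] u + ev ![b, -a - b] u + ev ![-a - b, a] u

omit [CharZero K] in
lemma cyc3R_rot (a b : B) : cyc3R u b (-a - b) = cyc3R u a b := by
  have e : -b - (-a - b) = a := by abel
  unfold cyc3R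
  rw [e]
  abel

lemma cyc3R_swap (hu : u ∈ Pent K) {m : ℕ} (h : u ∈ Hg K one m) (a b : B) :
    cyc3R u b a = -cyc3R u a b := by
  have e : -b - a = -a - b := by abel
  have h1 := Pent.two_cycle hu h a b
  have h2 := Pent.two_cycle hu h b (-a - b)
  have h3 := Pent.two_cycle hu h (-a - b) a
  unfold cyc3R
  rw [e]
  linear_combination (norm := abel1) h1 + h2 + h3

omit [CharZero K] in
lemma cyc3_shiftR {m : ℕ} (hm : 2 ≤ m) (h : u ∈ HT K one m) {a b z : B} (ha : Commute z a)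
    (hb : Commute z b) : ev ![a, b + z] u = ev ![a, b] u := by
  have e : b + z - b = z := by abel
  refine shift2 ?_ ?_ ?_ ?_ ?_ hm h
  · rw [sub_self]; exact Commute.zero_left _
  · rw [sub_self]; exact Commute.zero_left _
  · rw [e]; exact ha
  · rw [e]; exact hb
  · rw [sub_self]; exact Commute.zero_left _

omit [CharZero K] in
lemma cyc3_shiftL {m : ℕ} (hm : 2 ≤ m) (h : u ∈ HT K one m) {a b z : B} (ha : Commute z a)
    (hb : Commute z b) : ev ![a + z, b] u = ev ![a, b] u := by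
  have e : a + z - a = z := by abel
  refine shift2 ?_ ?_ ?_ ?_ ?_ hm h
  · rw [e]; exact ha
  · rw [e]; exact hb
  · rw [sub_self]; exact Commute.zero_left _
  · rw [sub_self]; exact Commute.zero_left _
  · rw [sub_self]; exact Commute.zero_right _

omit [CharZero K] in
lemma cyc3R_p5 {m : ℕ} (hm : 2 ≤ m) (h : u ∈ HT K one m) {x : Fin 5 → Fin 5 → B} (hx : P5 x)
    {i j k : Fin 5} (hn : [i, j, k].Nodup) :
    ev ![x i j, x j k] u + ev ![x j k, x k i] u + ev ![x k i, x i j] u =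
      cyc3R u (x i j) (x j k) := by
  have ex : ∀ i j k : Fin 5, [i, j, k].Nodup → ∃ l n : Fin 5, [i, j, k, l, n].Nodup ∧
      [l, n, i, j].Nodup ∧ [l, n, j, k].Nodup := by decide
  obtain ⟨l, n, h1, h2, h3⟩ := ex i j k hn
  have ha := hx.comm _ _ _ _ h2
  have hb := hx.comm _ _ _ _ h3
  have hc : Commute (x l n) (-x i j - x j k) := ha.neg_right.sub_right hb
  have e : x k i = -x i j - x j k + x l n := by
    rw [← hx.tri _ _ _ _ _ h1, hx.symm k i]
    abel
  unfold cyc3R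
  rw [e, cyc3_shiftR hm h hb hc, cyc3_shiftL hm h hc ha]

lemma cyc3R_cocycle (hu : u ∈ Pent K) {m : ℕ} (hm : 3 ≤ m) (h : u ∈ Hg K one m)
    {x : Fin 5 → Fin 5 → B} (hx : P5 x) :
    cyc3R u (x 0 3) (x 1 3) + cyc3R u (x 0 3 + x 1 3) (x 2 3) =
      cyc3R u (x 1 3) (x 2 3) + cyc3R u (x 0 3) (x 1 3 + x 2 3) := by
  have hl := Pent.lie hu h
  have hm2 : 2 ≤ m := by omega
  have rev : ∀ i j k, ev ![x i j, x j k] u + ev ![x k j, x j i] u = 0 := fun i j k => by
    rw [hx.symm k j, hx.symm j i]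
    exact Pent.two_cycle hu h _ _
  have o1 := Pent.cp hu h hx (p := 3) (q := 0) (r := 1) (s := 2) (t := 4) (by decide)
  have o2 := Pent.cp hu h hx (p := 0) (q := 3) (r := 1) (s := 2) (t := 4) (by decide)
  have o3 := Pent.cp hu h hx (p := 0) (q := 1) (r := 3) (s := 2) (t := 4) (by decide)
  have o4 := Pent.cp hu h hx (p := 0) (q := 1) (r := 2) (s := 3) (t := 4) (by decide)
  have r1 := cyc3R_p5 hm2 hl hx (i := 1) (j := 3) (k := 0) (by decide)
  have r2 := cyc3R_p5 hm2 hl hx (i := 1) (j := 3) (k := 2) (by decide)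
  have r3 := cyc3R_p5 hm2 hl hx (i := 4) (j := 3) (k := 2) (by decide)
  have r4 := cyc3R_p5 hm2 hl hx (i := 4) (j := 3) (k := 0) (by decide)
  have s0 : cyc3R u (x 1 3) (x 3 0) + cyc3R u (x 1 3) (x 3 2) + cyc3R u (x 4 3) (x 3 2) +
      cyc3R u (x 4 3) (x 3 0) = 0 := by
    linear_combination (norm := abel1) o1 - o2 + o3 - o4 - r1 - r2 - r3 - r4 + rev 0 3 1 +
      rev 3 1 2 + rev 4 0 3 + rev 1 2 3 + rev 2 3 4 + rev 3 4 0
  have t1 := hx.tri 0 1 3 2 4 (by decide)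
  have t2 := hx.tri 2 4 3 0 1 (by decide)
  have e1 : x 4 3 = -(x 0 3 + x 1 3) - x 2 3 := by
    linear_combination (norm := abel1) t1 + t2
  have e2 : x 1 3 + x 2 3 = -x 4 3 - x 0 3 := by
    linear_combination (norm := abel1) t1 + t2
  rw [hx.symm 3 0, hx.symm 3 2] at s0
  have a1 := cyc3R_swap hu h (x 0 3) (x 1 3)
  have a2 := cyc3R_swap hu h (x 4 3) (x 2 3)
  have a3 := cyc3R_rot (u := u) (x 0 3 + x 1 3) (x 2 3)
  have a4 := cyc3R_rot (u := u) (x 4 3) (x 0 3)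
  rw [← e1] at a3
  rw [← e2] at a4
  linear_combination (norm := abel1) a1 - s0 - a3 + a2 - a4

theorem Pent.three_cycle (hu : u ∈ Pent K) {m : ℕ} (hm : 3 ≤ m) (h : u ∈ Hg K one m) (a b : B) :
    ev ![a, b] u + ev ![b, -a - b] u + ev ![-a - b, a] u = 0 := by
  have hl := Pent.lie hu h
  have hx : (lt 0 : T K (Fin 2)) ∈ HT K one 1 := lt_mem_HT one 0
  have hy : (lt 1 : T K (Fin 2)) ∈ HT K one 1 := lt_mem_HT one 1
  have hz : (-lt 0 - lt 1 : T K (Fin 2)) ∈ HT K one 1 :=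
    Submodule.sub_mem _ (Submodule.neg_mem _ hx) hy
  have hev : ∀ {p q : T K (Fin 2)}, p ∈ HT K one 1 → q ∈ HT K one 1 →
      ev ![p, q] u ∈ HT K one m := fun hp hq =>
    ev_mem_HT (fun i => by fin_cases i <;> assumption) hl
  have hr : cyc3R u (lt 0 : T K (Fin 2)) (lt 1) ∈ HT K one m :=
    Submodule.add_mem _ (Submodule.add_mem _ (hev hx hy) (hev hy hz)) (hev hz hx)
  have he : ∀ (C : Type) [Ring C] [Algebra K C] (p q : C),
      ev ![p, q] (cyc3R u (lt 0 : T K (Fin 2)) (lt 1)) = cyc3R u p q := fun C _ _ p q => by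
    unfold cyc3R
    rw [map_add, map_add, map_ev2, map_ev2, map_ev2]
    simp
  have h0 := cocycle_p5 hm hr fun C _ _ x hx => by
    rw [he, he, he, he]
    exact cyc3R_cocycle hu hm h hx
  have h1 := he B a b
  rw [h0, map_zero] at h1
  exact h1.symm

/-- 3-cycle inside a five strand family -/
theorem Pent.three_p5 (hu : u ∈ Pent K) {m : ℕ} (hm : 3 ≤ m) (h : u ∈ Hg K one m)
    {x : Fin 5 → Fin 5 → B} (hx : P5 x) {i j k : Fin 5} (hn : [i, j, k].Nodup) :
    ev ![x i j, x j k] u + ev ![x j k, x k i] u + ev ![x k i, x i j] u = 0 := by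
  rw [cyc3R_p5 (by omega) (Pent.lie hu h) hx hn]
  exact Pent.three_cycle hu hm h _ _

end Vale.Agent.P029
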