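import Vale.Agent.P029.DRel

/-!
The derivation of `A K` attached to a solution `u` of the pentagon equation, and closure of `Pent`
under the Ihara bracket.

Notation `ψi = hi f u`. Potentials at the five vertices: `γ1 = 0` (f0,f1), `γ2 = ψ1` (f1,f2),
`γ3 = ψ1 + ψ5` (f2,f3), `γ4 = γ3 + ψ4 = γ5 + ψ2` (f3,f4), `γ5 = ψ3` (f4,f0); `dA f u i = ⁅f i, γ⁆` for
both vertices containing `f i` (`ψ1` commutes with `f 1`, `ψ5` with `f 2`, `ψ4` with `f 3`, `ψ2` with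
`f 4`, `ψ3` with `f 0`; `commute_ev2`).
`rel_dual`: a pair `(a, ⁅a,γ⁆)`, `(b, ⁅b,γ⁆)` with `Commute a b` commutes in the dual numbers. For
`cx` use `x = xm f` (labels 1..5, `ψijk = ev ![x i j, x j k] u`; `ψ1 = ψ123`, `ψ5 = ψ451`, `ψ4 = ψ234`
by `shift2`): `d x13 = -⁅x23,ψ123⁆ = ⁅x13,ψ213⁆` (`special_p5`), `d x24 = ⁅x24, γ3 + ψ324⁆`
(`special_p5` for 2,3,4), and `γ := ψ213 + ψ542 = γ3 + ψ324 + ψ513` (cp 1,3,2,4,5, the 2-cycle and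
`three_p5` 123), `ψ542` commutes with `x13`, `ψ513` with `x24`.
`exists_DA`: `𝒟 = snd ∘ liftA (rel_dual ..)`; `𝒟 (mkA w) = dev (ag K) (dA ..) w`, use
`dev_mem_fil`; the formulas from `IsDer.map_ev`, `ev_der`, `dev_add`, `dev_lie`.
`ih_mem_Pent`: with `Γv = 𝒟ψ γv(φ) - 𝒟φ γv(ψ) + ⁅γv(ψ), γv(φ)⁆` each `hi (ih ψ φ)` is
`Γ(target) - Γ(source)`; the sum telescopes.
-/

namespace Vale.Agent.P029

attribute [local instance 100] LieRing.ofAssociativeRing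

variable {K : Type} [Field K] [CharZero K] {B : Type} [Ring B] [Algebra K B] {u : T K (Fin 2)}

structure DerData (u : T K (Fin 2)) (D : A K →ₗ[K] A K) : Prop where
  der : IsDer D
  fil : ∀ k a, a ∈ JA K k → D a ∈ JA K (k + 1)
  e1 : ∀ Φ, h1 (ag K) (Dy u Φ) = D (h1 (ag K) Φ)
  e5 : ∀ Φ, h5 (ag K) (Dy u Φ) = D (h5 (ag K) Φ) - ⁅h5 (ag K) Φ, h1 (ag K) u⁆
  e4 : ∀ Φ, h4 (ag K) (Dy u Φ) = D (h4 (ag K) Φ) - ⁅h4 (ag K) Φ, h1 (ag K) u + h5 (ag K) u⁆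
  e3 : ∀ Φ, h3 (ag K) (Dy u Φ) = D (h3 (ag K) Φ)
  e2 : ∀ Φ, h2 (ag K) (Dy u Φ) = D (h2 (ag K) Φ) - ⁅h2 (ag K) Φ, h3 (ag K) u⁆

omit [CharZero K] in
theorem dclo_edge {D : B →ₗ[K] B} (hD : IsDer D) {a b γ : B} (ha : D a = ⁅a, γ⁆)
    (hb : D b = ⁅b, γ⁆ + ⁅b, ev ![a, b] u⁆) (Φ : T K (Fin 2)) :
    ev ![a, b] (Dy u Φ) = D (ev ![a, b] Φ) - ⁅ev ![a, b] Φ, γ⁆ := by
  have e : (fun i => D (![a, b] i)) = fun i => ⁅![a, b] i, γ⁆ +
      ev ![a, b] (![0, ⁅(lt 1 : T K (Fin 2)), u⁆] i) := by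
    funext i
    fin_cases i
    · simpa using ha
    · simpa [Ring.lie_def] using hb
  rw [hD.map_ev, e, dev_add, dev_lie, add_sub_cancel_left]
  exact ev_der _ _ Φ

theorem exists_DA (hu : u ∈ Pent K) {m : ℕ} (hm : 3 ≤ m) (h : u ∈ Hg K one m) :
    ∃ D, DerData u D := by
  let φ := liftA (R := K) (rel_dual hu hm h (rel_ag (R := K)))
  let D : A K →ₗ[K] A K :=
    ((TrivSqZeroExt.sndHom (A K) (A K)).restrictScalars K).comp φ.toLinearMap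
  have hmk : ∀ w, D (mkA K w) = dev (ag K) (dA (ag K) u) w := fun w => by
    change (φ (mkA K w)).snd = _
    rw [liftA_mk, snd_ev_dual]
  have hD : IsDer D := fun a b => by
    obtain ⟨v, rfl⟩ := mkA_surjective a
    obtain ⟨w, rfl⟩ := mkA_surjective b
    rw [← map_mul, hmk, hmk, hmk, dev_mul, mkA_eq, mkA_eq]
  have hag : ∀ i, D (ag K i) = dA (ag K) u i := fun i => by rw [ag, hmk, dev_lt]
  have d0 : D (ag K 0) = 0 := hag 0
  have d1 : D (ag K 1) = 0 := hag 1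
  have d2 : D (ag K 2) = ⁅ag K 2, h1 (ag K) u⁆ := hag 2
  have d3 : D (ag K 3) = ⁅ag K 3, h1 (ag K) u + h5 (ag K) u⁆ := hag 3
  have d4 : D (ag K 4) = ⁅ag K 4, h3 (ag K) u⁆ := hag 4
  have r := rel_ag (R := K)
  have c1 : ⁅ag K 1, h1 (ag K) u⁆ = 0 := (commute_ev2 r.c01.symm r.c12 u).lie_eq
  have c5 : ⁅ag K 2, h5 (ag K) u⁆ = 0 :=
    (commute_ev2 (r.c12.symm.sub_right (Commute.refl _)) (r.c23.sub_right (Commute.refl _)) u).lie_eq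
  have c4 : ⁅ag K 3, h4 (ag K) u⁆ = 0 := (commute_ev2 r.c23.symm r.c34 u).lie_eq
  have c2 : ⁅ag K 4, h2 (ag K) u⁆ = 0 :=
    (commute_ev2 r.c40 (r.c34.symm.sub_right (Commute.refl _)) u).lie_eq
  have c3 : ⁅ag K 0, h3 (ag K) u⁆ = 0 :=
    (commute_ev2 (r.c01.sub_right (Commute.refl _)) r.c40.symm u).lie_eq
  have hp : h3 (ag K) u + h2 (ag K) u = h1 (ag K) u + h5 (ag K) u + h4 (ag K) u := by
    have := r.pent hu
    rw [pent_apply] at this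
    rw [← sub_eq_zero, ← this]
    abel
  have hF := isFil_JA (R := K)
  have hu1 : u ∈ Fil K one 1 := (isFil_Fil one).anti (by omega) (Hg_le_Fil one m h)
  have he : ∀ a b : A K, a ∈ JA K 1 → b ∈ JA K 1 → ev ![a, b] u ∈ JA K 1 := fun a b ha hb =>
    ev_mem_fil hF (Fin.forall_fin_two.2 ⟨ha, hb⟩) hu1
  have hl : ∀ a b : A K, a ∈ JA K 1 → b ∈ JA K 1 → ⁅a, b⁆ ∈ JA K (1 + 1) := fun a b ha hb =>
    sub_mem (hF.mul ha hb) (hF.mul hb ha)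
  have g := ag_mem_JA (R := K)
  have j1 : h1 (ag K) u ∈ JA K 1 := he _ _ (g 0) (g 2)
  have j3 : h3 (ag K) u ∈ JA K 1 := he _ _ (sub_mem (g 1) (g 0)) (g 4)
  have j5 : h5 (ag K) u ∈ JA K 1 := he _ _ (sub_mem (g 1) (g 2)) (sub_mem (g 3) (g 2))
  refine ⟨D, hD, ?_, fun Φ => ?_, fun Φ => ?_, fun Φ => ?_, fun Φ => ?_, fun Φ => ?_⟩
  · rintro k _ ⟨w, hw, rfl⟩
    change D (mkA K w) ∈ _
    rw [hmk]
    refine dev_mem_fil hF g (fun i => ?_) hw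
    fin_cases i
    exacts [zero_mem _, zero_mem _, hl _ _ (g 2) j1, hl _ _ (g 3) (add_mem j1 j5), hl _ _ (g 4) j3]
  · have := dclo_edge (u := u) (γ := 0) hD (by rw [d0, lie_zero])
      (by rw [d2, lie_zero, zero_add]; rfl) Φ
    rwa [lie_zero, sub_zero] at this
  · refine dclo_edge hD ?_ ?_ Φ
    · rw [map_sub, d1, d2, sub_lie, c1]
    · change _ = _ + ⁅_, h5 (ag K) u⁆
      rw [map_sub, d3, d2, sub_lie, sub_lie, c5, lie_add]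
      abel
  · refine dclo_edge hD ?_ ?_ Φ
    · rw [d2, lie_add, c5, add_zero]
    · change _ = _ + ⁅_, h4 (ag K) u⁆
      rw [d4, ← lie_add, ← hp, lie_add, c2, add_zero]
  · have := dclo_edge (u := u) (a := ag K 1 - ag K 0) (γ := 0) hD
      (by rw [map_sub, d0, d1, lie_zero, sub_zero]) (by rw [d4, lie_zero, zero_add]; rfl) Φ
    rwa [lie_zero, sub_zero] at this
  · refine dclo_edge hD ?_ ?_ Φ
    · rw [d0, c3]
    · change _ = _ + ⁅_, h2 (ag K) u⁆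
      rw [map_sub, d3, d4, ← lie_add, sub_lie, lie_add (ag K 4), c2, add_zero, hp,
        lie_add _ _ (h4 (ag K) u), c4, add_zero]

theorem ih_mem_Pent {ψ φ : T K (Fin 2)} {m n : ℕ} (hψ : ψ ∈ Pent K) (hm : 3 ≤ m)
    (hψ' : ψ ∈ Hg K one m) (hφ : φ ∈ Pent K) (hn : 3 ≤ n) (hφ' : φ ∈ Hg K one n) :
    ih ψ φ ∈ Pent K := by
  obtain ⟨D, hD⟩ := exists_DA hψ hm hψ'
  obtain ⟨E, hE⟩ := exists_DA hφ hn hφ'
  have key : ∀ v ∈ Pent K,
      h2 (ag K) v = h4 (ag K) v + h5 (ag K) v + h1 (ag K) v - h3 (ag K) v := fun v hv => by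
    have := (rel_ag (R := K)).pent hv
    rw [pent_apply] at this
    rw [← sub_eq_zero, ← this]
    abel
  have hl : ∀ (g : T K (Fin 2) →ₐ[K] A K) a b, g ⁅a, b⁆ = ⁅g a, g b⁆ := fun g a b => by
    simp only [Ring.lie_def, map_sub, map_mul]
  rw [mem_Pent_iff, pent_apply]
  simp only [ih, map_add, map_sub, hl, hD.e1, hD.e2, hD.e3, hD.e4, hD.e5, hE.e1, hE.e2, hE.e3,
    hE.e4, hE.e5]
  rw [key ψ hψ, key φ hφ]
  simp only [map_add, map_sub, Ring.lie_def, mul_add, add_mul, mul_sub, sub_mul]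
  abel

end Vale.Agent.P029
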