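import Vale.Agent.P029.HT

/-!
The Ihara bracket on `T R (Fin 2)`.

Plan: `Dy_comm`: both sides are derivations (`der_ext`), compare on letters. The Jacobi identity
follows from `Dy_comm`, `der_lie` and the Jacobi identity of the commutator.
-/

namespace Vale.Agent.P029

attribute [local instance 100] LieRing.ofAssociativeRing

variable {R : Type} [CommRing R]

noncomputable def Dy (ψ : T R (Fin 2)) : Module.End R (T R (Fin 2)) :=
  der ![0, ⁅(lt 1 : T R (Fin 2)), ψ⁆]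

noncomputable def ih (ψ φ : T R (Fin 2)) : T R (Fin 2) := Dy ψ φ - Dy φ ψ + ⁅ψ, φ⁆

@[simp] lemma Dy_x (ψ : T R (Fin 2)) : Dy ψ (lt 0) = 0 := der_lt _ _
@[simp] lemma Dy_y (ψ : T R (Fin 2)) : Dy ψ (lt 1) = ⁅(lt 1 : T R (Fin 2)), ψ⁆ := der_lt _ _
lemma isDer_Dy (ψ : T R (Fin 2)) : IsDer (Dy ψ) := isDer_der _

lemma ihara_Dy_mul (ψ a b : T R (Fin 2)) : Dy ψ (a * b) = Dy ψ a * b + a * Dy ψ b :=
  isDer_Dy ψ a b

lemma ihara_Dy_lie (ψ a b : T R (Fin 2)) : Dy ψ ⁅a, b⁆ = ⁅Dy ψ a, b⁆ + ⁅a, Dy ψ b⁆ :=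
  der_lie _ a b

lemma Dy_add (ψ φ : T R (Fin 2)) : Dy (ψ + φ) = Dy ψ + Dy φ := by
  refine der_ext (isDer_Dy _) (fun a b => ?_) (Fin.forall_fin_two.2 ⟨by simp, by simp⟩)
  simp only [LinearMap.add_apply, isDer_Dy ψ a b, isDer_Dy φ a b]
  noncomm_ring

lemma Dy_smul (c : R) (ψ : T R (Fin 2)) : Dy (c • ψ) = c • Dy ψ := by
  refine der_ext (isDer_Dy _) (fun a b => ?_) (Fin.forall_fin_two.2 ⟨by simp, by simp⟩)
  simp only [LinearMap.smul_apply, isDer_Dy ψ a b, smul_add, smul_mul_assoc, mul_smul_comm]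

lemma Dy_comm (ψ φ : T R (Fin 2)) : Dy ψ * Dy φ - Dy φ * Dy ψ = Dy (ih ψ φ) := by
  refine der_ext (fun a b => ?_) (isDer_Dy _) (Fin.forall_fin_two.2 ⟨by simp, ?_⟩)
  · simp only [LinearMap.sub_apply, Module.End.mul_apply, ihara_Dy_mul, map_add]
    noncomm_ring
  · simp only [LinearMap.sub_apply, Module.End.mul_apply, Dy_y, ihara_Dy_lie, ih]
    simp only [Ring.lie_def]
    noncomm_ring

lemma ih_add_left (a b c : T R (Fin 2)) : ih (a + b) c = ih a c + ih b c := by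
  simp only [ih, Dy_add, LinearMap.add_apply, map_add, add_lie]
  abel

lemma ih_add_right (a b c : T R (Fin 2)) : ih a (b + c) = ih a b + ih a c := by
  simp only [ih, Dy_add, LinearMap.add_apply, map_add, lie_add]
  abel

lemma ih_self (a : T R (Fin 2)) : ih a a = 0 := by
  simp [ih]

lemma ih_smul_right (t : R) (a b : T R (Fin 2)) : ih a (t • b) = t • ih a b := by
  simp only [ih, Dy_smul, LinearMap.smul_apply, map_smul, lie_smul, smul_add, smul_sub]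

lemma ih_smul_left (t : R) (a b : T R (Fin 2)) : ih (t • a) b = t • ih a b := by
  simp only [ih, Dy_smul, LinearMap.smul_apply, map_smul, smul_lie, smul_add, smul_sub]

lemma ih_leibniz (a b c : T R (Fin 2)) : ih a (ih b c) = ih (ih a b) c + ih b (ih a c) := by
  have h : ∀ p q r : T R (Fin 2), Dy (ih p q) r = Dy p (Dy q r) - Dy q (Dy p r) := by
    intro p q r
    rw [← Dy_comm]
    rfl
  have e1 : ih a (ih b c) = Dy a (ih b c) - Dy (ih b c) a + ⁅a, ih b c⁆ := rfl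
  have e2 : ih (ih a b) c = Dy (ih a b) c - Dy c (ih a b) + ⁅ih a b, c⁆ := rfl
  have e3 : ih b (ih a c) = Dy b (ih a c) - Dy (ih a c) b + ⁅b, ih a c⁆ := rfl
  rw [e1, e2, e3, h, h, h]
  simp only [ih, map_add, map_sub, ihara_Dy_lie]
  simp only [Ring.lie_def]
  noncomm_ring

/-- `T R (Fin 2)` with the Ihara bracket -/
def Ih (R : Type) [CommRing R] : Type := T R (Fin 2)

noncomputable instance : AddCommGroup (Ih R) := inferInstanceAs (AddCommGroup (T R (Fin 2)))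

noncomputable instance : Module R (Ih R) := inferInstanceAs (Module R (T R (Fin 2)))

noncomputable instance : LieRing (Ih R) where
  bracket := ih (R := R)
  add_lie := ih_add_left (R := R)
  lie_add := ih_add_right (R := R)
  lie_self := ih_self (R := R)
  leibniz_lie := ih_leibniz (R := R)

noncomputable instance : LieAlgebra R (Ih R) where
  lie_smul := ih_smul_right (R := R)

/-- the identity map -/
noncomputable def ofIh : Ih R ≃ₗ[R] T R (Fin 2) := LinearEquiv.refl R (T R (Fin 2))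

lemma ofIh_lie (a b : Ih R) : ofIh ⁅a, b⁆ = ih (ofIh a) (ofIh b) := rfl

/-- the Lie homomorphism from the free Lie algebra on `ℕ`, as a linear map to `T R (Fin 2)` -/
noncomputable def Phi (σ : ℕ → T R (Fin 2)) : FreeLieAlgebra R ℕ →ₗ[R] T R (Fin 2) :=
  ofIh.toLinearMap.comp (FreeLieAlgebra.lift R fun k => (ofIh (R := R)).symm (σ k)).toLinearMap

@[simp] lemma Phi_of (σ : ℕ → T R (Fin 2)) (k : ℕ) : Phi σ (FreeLieAlgebra.of R k) = σ k := by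
  simp [Phi]

lemma Phi_lie (σ : ℕ → T R (Fin 2)) (a b : FreeLieAlgebra R ℕ) :
    Phi σ ⁅a, b⁆ = ih (Phi σ a) (Phi σ b) := by
  simp [Phi, ofIh_lie]

lemma ihara_lie_mem_Fil {wt : Fin 2 → ℕ} {m n : ℕ} {u v : T R (Fin 2)} (hu : u ∈ Fil R wt m)
    (hv : v ∈ Fil R wt n) : ⁅u, v⁆ ∈ Fil R wt (m + n) := by
  rw [Ring.lie_def]
  refine sub_mem ((isFil_Fil wt).mul hu hv) ?_
  rw [add_comm]
  exact (isFil_Fil wt).mul hv hu

lemma ihara_Dy_mem_HT {m n : ℕ} {ψ φ : T R (Fin 2)} (hψ : ψ ∈ HT R one m) (hφ : φ ∈ HT R one n) :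
    Dy ψ φ ∈ HT R one (n + m) := by
  refine der_mem_HT (Fin.forall_fin_two.2 ⟨zero_mem _, ?_⟩) hφ
  exact lie_mem_HT (lt_mem_HT one 1) hψ

lemma Dy_mem_Hg {m n : ℕ} {ψ φ : T R (Fin 2)} (hψ : ψ ∈ Hg R one m) (hφ : φ ∈ Hg R one n) :
    Dy ψ φ ∈ Hg R one (n + m) := by
  refine der_mem_Hg (Fin.forall_fin_two.2 ⟨zero_mem _, ?_⟩) hφ
  exact lie_mem_Hg (lt_mem_Hg one 1) hψ

lemma Dy_mem_Fil {m n : ℕ} {ψ φ : T R (Fin 2)} (hψ : ψ ∈ Fil R one m) (hφ : φ ∈ Fil R one n) :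
    Dy ψ φ ∈ Fil R one (n + m) := by
  refine der_mem_Fil (Fin.forall_fin_two.2 ⟨zero_mem _, ?_⟩) hφ
  exact ihara_lie_mem_Fil (lt_mem_Fil one 1) hψ

lemma Dy_mem_Y {n : ℕ} {ψ φ : T R (Fin 2)} (hψ : ψ ∈ Fil R wy 1) (hφ : φ ∈ Fil R wy n) :
    Dy ψ φ ∈ Fil R wy (n + 1) := by
  refine der_mem_Fil (Fin.forall_fin_two.2 ⟨zero_mem _, ?_⟩) hφ
  exact ihara_lie_mem_Fil (lt_mem_Fil wy 1) hψ

lemma ih_mem_Hg {m n : ℕ} {ψ φ : T R (Fin 2)} (hψ : ψ ∈ Hg R one m) (hφ : φ ∈ Hg R one n) :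
    ih ψ φ ∈ Hg R one (m + n) := by
  refine add_mem (sub_mem ?_ (Dy_mem_Hg hφ hψ)) (lie_mem_Hg hψ hφ)
  rw [add_comm]
  exact Dy_mem_Hg hψ hφ

lemma ih_mem_HT {m n : ℕ} {ψ φ : T R (Fin 2)} (hψ : ψ ∈ HT R one m) (hφ : φ ∈ HT R one n) :
    ih ψ φ ∈ HT R one (m + n) := by
  refine add_mem (sub_mem ?_ (ihara_Dy_mem_HT hφ hψ)) (lie_mem_HT hψ hφ)
  rw [add_comm]
  exact ihara_Dy_mem_HT hψ hφ

lemma ih_mem_Y {ψ φ : T R (Fin 2)} (hψ : ψ ∈ Fil R wy 1) (hφ : φ ∈ Fil R wy 1) :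
    ih ψ φ ∈ Fil R wy 2 := by
  exact add_mem (sub_mem (Dy_mem_Y hψ hφ) (Dy_mem_Y hφ hψ)) (ihara_lie_mem_Fil hψ hφ)

lemma bc_ih (S : Type) [CommRing S] (ψ φ : T ℤ (Fin 2)) :
    bc S (ih ψ φ) = ih (bc S ψ) (bc S φ) := by
  have hl : ∀ a b : T ℤ (Fin 2), bc S ⁅a, b⁆ = ⁅bc S a, bc S b⁆ := by
    intro a b
    simp only [Ring.lie_def, map_sub, map_mul]
  have h : ∀ a b : T ℤ (Fin 2), bc S (Dy a b) = Dy (bc S a) (bc S b) := by
    intro a b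
    have := evZ_der (f := (lt : Fin 2 → T S (Fin 2))) (d := ![0, ⁅(lt 1 : T ℤ (Fin 2)), a⁆])
      (δ := (Dy (bc S a)).toAddMonoidHom) (isDer_Dy (bc S a))
      (Fin.forall_fin_two.2 ⟨by simp, by simp [evZ_lt_eq_bc, hl]⟩) b
    rw [evZ_lt_eq_bc, evZ_lt_eq_bc] at this
    exact this
  simp only [ih, map_add, map_sub, h, hl]

end Vale.Agent.P029
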