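import Vale.Agent.P029.Spec
import Vale.Agent.P029.Ihara

/-!
The derivation of `A K` attached to a solution `u` of the pentagon equation, and closure of `Pent`
under the Ihara bracket.

Notation `ψi = hi f u`. Potentials at the five vertices: `γ1 = 0` (f0,f1), `γ2 = ψ1` (f1,f2),
`γ3 = ψ1 + ψ5` (f2,f3), `γ4 = γ3 + ψ4 = γ5 + ψ2` (f3,f4), `γ5 = ψ3` (f4,f0); `dA f u i = ⁅f i, γ⁆` for
both vertices containing `f i` (`ψ1` commutes with `f 1`, `ψ5` with `f 2`, `ψ4` with `f 3`, `ψ2` with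
`f 4`, `ψ3` with `f 0`; `commute_ev2`).
`rel_dual`: a pair `(a, ⁅a,γ⁆)`, `(b, ⁅b,γ⁆)` with `Commute a b` commutes in the dual numbers. For
`cx` use `x = xm f` (labels 1..5, `ψijk = ev ![x i j, x j k] u`; `ψ1 = ψ123`, `ψ5 = ψ451`, `ψ4 = ψ234`
by `shift2`): `d x13 = -⁅x23,ψ123⁆ = ⁅x13,ψ213⁆` (`special_p5`), `d x24 = ⁅x24, γ3 + ψ324⁆`
(`special_p5` for 2,3,4), and `γ := ψ213 + ψ542 = γ3 + ψ324 + ψ513` (cp 1,3,2,4,5, the 2-cycle and
`three_p5` 123), `ψ542` commutes with `x13`, `ψ513` with `x24`.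
`exists_DA`: `𝒟 = snd ∘ liftA (rel_dual ..)`; `𝒟 (mkA w) = dev (ag K) (dA ..) w`, use
`dev_mem_fil`; the formulas from `IsDer.map_ev`, `ev_der`, `dev_add`, `dev_lie`.
`ih_mem_Pent`: with `Γv = 𝒟ψ γv(φ) - 𝒟φ γv(ψ) + ⁅γv(ψ), γv(φ)⁆` each `hi (ih ψ φ)` is
`Γ(target) - Γ(source)`; the sum telescopes.
-/

namespace Vale.Agent.P029

attribute [local instance 100] LieRing.ofAssociativeRing

variable {K : Type} [Field K] [CharZero K] {B : Type} [Ring B] [Algebra K B] {u : T K (Fin 2)}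

noncomputable def dA (f : Fin 5 → B) (u : T K (Fin 2)) : Fin 5 → B :=
  ![0, 0, ⁅f 2, h1 f u⁆, ⁅f 3, h1 f u + h5 f u⁆, ⁅f 4, h3 f u⁆]

lemma drel_comm {a b da db : B} (γ : B) (h : Commute a b) (ha : da = ⁅a, γ⁆) (hb : db = ⁅b, γ⁆) :
    Commute (TrivSqZeroExt.inl a + TrivSqZeroExt.inr da : TrivSqZeroExt B B)
      (TrivSqZeroExt.inl b + TrivSqZeroExt.inr db) := by
  subst ha hb
  refine TrivSqZeroExt.ext (by simpa using h.eq) ?_
  have e1 : a * (b * γ - γ * b) + (a * γ - γ * a) * b = a * b * γ - γ * (a * b) := by noncomm_ring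
  have e2 : b * (a * γ - γ * a) + (b * γ - γ * b) * a = b * a * γ - γ * (b * a) := by noncomm_ring
  simpa [TrivSqZeroExt.snd_mul, Ring.lie_def, e1, e2] using by rw [h.eq]

lemma drel_sub (a b c da db dc : B) :
    (TrivSqZeroExt.inl a + TrivSqZeroExt.inr da : TrivSqZeroExt B B) -
      (TrivSqZeroExt.inl b + TrivSqZeroExt.inr db) - (TrivSqZeroExt.inl c + TrivSqZeroExt.inr dc) =
      TrivSqZeroExt.inl (a - b - c) + TrivSqZeroExt.inr (da - db - dc) :=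
  TrivSqZeroExt.ext (by simp) (by simp)

lemma drel_lie {a γ : B} (h : Commute a γ) : ⁅a, γ⁆ = 0 := sub_eq_zero.2 h.eq

theorem rel_dual (hu : u ∈ Pent K) {m : ℕ} (hm : 3 ≤ m) (h : u ∈ Hg K one m) {f : Fin 5 → B}
    (hf : Rel f) :
    Rel fun i => (TrivSqZeroExt.inl (f i) + TrivSqZeroExt.inr (dA f u i) : TrivSqZeroExt B B) := by
  have k1 : ⁅f 1, h1 f u⁆ = 0 := drel_lie (commute_ev2 hf.c01.symm hf.c12 u)
  have k5 : ⁅f 2, h5 f u⁆ = 0 := drel_lie (commute_ev2 (hf.c12.symm.sub_right (Commute.refl _))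
    (hf.c23.sub_right (Commute.refl _)) u)
  have k4 : ⁅f 3, h4 f u⁆ = 0 := drel_lie (commute_ev2 hf.c23.symm hf.c34 u)
  have k2 : ⁅f 4, h2 f u⁆ = 0 :=
    drel_lie (commute_ev2 hf.c40 (hf.c34.symm.sub_right (Commute.refl _)) u)
  have k3 : ⁅f 0, h3 f u⁆ = 0 :=
    drel_lie (commute_ev2 (hf.c01.sub_right (Commute.refl _)) hf.c40.symm u)
  have kp : h3 f u + h2 f u = h1 f u + h5 f u + h4 f u := by
    have h0 := hf.pent hu
    rw [pent_apply] at h0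
    rw [← sub_eq_zero, ← h0]
    abel
  have d2 : ⁅f 2, h1 f u⁆ = ⁅f 2, h1 f u + h5 f u⁆ := by rw [lie_add, k5, add_zero]
  have d4 : ⁅f 4, h3 f u⁆ = ⁅f 4, h1 f u + h5 f u + h4 f u⁆ := by rw [← kp, lie_add, k2, add_zero]
  refine ⟨drel_comm 0 hf.c01 (lie_zero _).symm (lie_zero _).symm,
    drel_comm (h1 f u) hf.c12 k1.symm rfl, drel_comm (h1 f u + h5 f u) hf.c23 d2 rfl,
    drel_comm (h1 f u + h5 f u + h4 f u) hf.c34 ?_ d4, drel_comm (h3 f u) hf.c40 rfl k3.symm, ?_⟩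
  · rw [lie_add, k4, add_zero]
    rfl
  have hx := hf.p5
  have s1 : ⁅f 2, h1 f u⁆ + ⁅f 1 - f 0 - f 2, ev ![f 0, f 1 - f 0 - f 2] u⁆ = 0 :=
    Pent.special_p5 hu hm h hx (i := 0) (j := 1) (k := 2) (by decide)
  have s2 : ⁅f 4, h4 f u⁆ + ⁅f 3 - f 2 - f 4, ev ![f 2, f 3 - f 2 - f 4] u⁆ = 0 :=
    Pent.special_p5 hu hm h hx (i := 1) (j := 2) (k := 3) (by decide)
  have c1 : ev ![f 1 - f 0 - f 2, f 2] u + ev ![f 2, f 3 - f 2 - f 4] u +
      ev ![f 3 - f 2 - f 4, f 1] u + ev ![f 1, f 3] u + ev ![f 3, f 1 - f 0 - f 2] u = 0 :=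
    Pent.cp hu h hx (p := 0) (q := 2) (r := 1) (s := 3) (t := 4) (by decide)
  have t1 : h1 f u + ev ![f 2, f 1 - f 0 - f 2] u + ev ![f 1 - f 0 - f 2, f 0] u = 0 :=
    Pent.three_p5 hu hm h hx (i := 0) (j := 1) (k := 2) (by decide)
  have w1 := Pent.two_cycle hu h (f 2) (f 1 - f 0 - f 2)
  have w2 := Pent.two_cycle hu h (f 0) (f 1 - f 0 - f 2)
  have e5 : ev ![f 1, f 3] u = h5 f u := by
    have e1 : f 1 - (f 1 - f 2) = f 2 := sub_sub_cancel _ _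
    have e2 : f 3 - (f 3 - f 2) = f 2 := sub_sub_cancel _ _
    have n1 : Commute (f 2) (f 1 - f 2) := hf.c12.symm.sub_right (Commute.refl _)
    have n2 : Commute (f 2) (f 3 - f 2) := hf.c23.sub_right (Commute.refl _)
    refine shift2 ?_ ?_ ?_ ?_ ?_ (by omega) (Pent.lie hu h) <;> simp only [e1, e2]
    exacts [n1, n2, n1, n2, Commute.refl _]
  have k6 : ⁅f 1 - f 0 - f 2, ev ![f 3 - f 2 - f 4, f 1] u⁆ = 0 := drel_lie (commute_ev2 hf.cx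
    (((Commute.refl _).sub_left hf.c01).sub_left hf.c12.symm) u)
  have k7 : ⁅f 3 - f 2 - f 4, ev ![f 3, f 1 - f 0 - f 2] u⁆ = 0 := drel_lie (commute_ev2
    (((Commute.refl _).sub_left hf.c23).sub_left hf.c34.symm) hf.cx.symm u)
  have g : ev ![f 0, f 1 - f 0 - f 2] u - ev ![f 3 - f 2 - f 4, f 1] u =
      h1 f u + h5 f u + ev ![f 2, f 3 - f 2 - f 4] u + ev ![f 3, f 1 - f 0 - f 2] u := by
    rw [← e5]
    linear_combination (norm := abel1) w2 + w1 - c1 - t1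
  simp only [drel_sub]
  refine drel_comm (ev ![f 0, f 1 - f 0 - f 2] u - ev ![f 3 - f 2 - f 4, f 1] u) hf.cx ?_ ?_
  · change 0 - 0 - ⁅f 2, h1 f u⁆ = _
    rw [lie_sub, k6, sub_zero, sub_zero, zero_sub, neg_eq_iff_add_eq_zero, s1]
  · change ⁅f 3, h1 f u + h5 f u⁆ - ⁅f 2, h1 f u⁆ - ⁅f 4, h3 f u⁆ = _
    rw [g, lie_add (f 3 - f 2 - f 4), k7, add_zero, lie_add (f 3 - f 2 - f 4), d2, d4,
      lie_add (f 4), eq_neg_of_add_eq_zero_left s2, sub_lie (f 3 - f 2) (f 4) (h1 f u + h5 f u),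
      sub_lie (f 3) (f 2)]
    abel

end Vale.Agent.P029
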