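import Mathlib

namespace Vale.Agent.P029

/-- `IsMon f wt n a`: `a` is a Lie monomial (iterated bracket) in the elements `f i`, of total
weight `n`, where `f i` has weight `wt i`. -/
inductive IsMon {X g : Type} [LieRing g] (f : X → g) (wt : X → ℕ) : ℕ → g → Prop
  | of (i : X) : IsMon f wt (wt i) (f i)
  | lie {m n : ℕ} {a b : g} : IsMon f wt m a → IsMon f wt n b → IsMon f wt (m + n) ⁅a, b⁆

/-- The span of the Lie monomials of weight `n`. -/
def Hom (R : Type) {X g : Type} [CommRing R] [LieRing g] [LieAlgebra R g] (f : X → g)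
    (wt : X → ℕ) (n : ℕ) : Submodule R g :=
  Submodule.span R {a | IsMon f wt n a}

/-- The free Lie algebra over `ℚ` on two generators. -/
abbrev L : Type := FreeLieAlgebra ℚ (Fin 2)

noncomputable def x : L := FreeLieAlgebra.of ℚ 0

noncomputable def y : L := FreeLieAlgebra.of ℚ 1

/-- The weight `n` part of `L` (weight = number of letters). -/
noncomputable def Lw (n : ℕ) : Submodule ℚ L := Hom ℚ (FreeLieAlgebra.of ℚ) (fun _ => 1) n

/-- `sb a b ψ = ψ(a, b)`. -/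
noncomputable def sb {g : Type} [LieRing g] [LieAlgebra ℚ g] (a b : g) : L →ₗ⁅ℚ⁆ g :=
  FreeLieAlgebra.lift ℚ ![a, b]

/-- The free Lie algebra on symbols `t i j`, `i ≠ j` in `Fin 4`. -/
abbrev FT : Type := FreeLieAlgebra ℚ {p : Fin 4 × Fin 4 // p.1 ≠ p.2}

noncomputable def tg (i j : Fin 4) : FT :=
  if h : i ≠ j then FreeLieAlgebra.of ℚ ⟨(i, j), h⟩ else 0

/-- The defining relations of `t₄`. -/
def rels : Set FT :=
  {r | (∃ i j, i ≠ j ∧ r = tg i j - tg j i) ∨
    (∃ i j k l, [i, j, k, l].Nodup ∧ r = ⁅tg i j, tg k l⁆) ∨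
    (∃ i j k, [i, j, k].Nodup ∧ r = ⁅tg i j, tg i k + tg j k⁆)}

/-- The Lie algebra `t₄`. -/
abbrev T4 : Type := FT ⧸ LieSubmodule.lieSpan ℚ FT rels

/-- The generators of `t₄`; the indices `1, 2, 3, 4` are `0, 1, 2, 3 : Fin 4`. -/
noncomputable def t (i j : Fin 4) : T4 := LieSubmodule.Quotient.mk (tg i j)

/-- The 2-cycle equation. -/
def TwoCycle (ψ : L) : Prop := sb x y ψ + sb y x ψ = 0

/-- The 3-cycle equation. -/
def ThreeCycle (ψ : L) : Prop := sb x y ψ + sb y (-x - y) ψ + sb (-x - y) x ψ = 0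

/-- The pentagon equation in `t₄`. -/
def Pentagon (ψ : L) : Prop :=
  sb (t 0 1) (t 1 2 + t 1 3) ψ + sb (t 0 2 + t 1 2) (t 2 3) ψ =
    sb (t 1 2) (t 2 3) ψ + sb (t 0 1 + t 0 2) (t 1 3 + t 2 3) ψ + sb (t 0 1) (t 1 2) ψ

/-- The space `W`: 2-cycle, 3-cycle and pentagon equations. -/
def W : Submodule ℚ L where
  carrier := {ψ | TwoCycle ψ ∧ ThreeCycle ψ ∧ Pentagon ψ}
  zero_mem' := by simp [TwoCycle, ThreeCycle, Pentagon]
  add_mem' := by
    rintro a b ⟨h1, h2, h3⟩ ⟨k1, k2, k3⟩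
    simp only [Set.mem_ofPred_eq, TwoCycle, ThreeCycle, Pentagon, map_add] at *
    refine ⟨?_, ?_, ?_⟩
    · linear_combination (norm := module) h1 + k1
    · linear_combination (norm := module) h2 + k2
    · linear_combination (norm := module) h3 + k3
  smul_mem' := by
    rintro c a ⟨h1, h2, h3⟩
    simp only [Set.mem_ofPred_eq, TwoCycle, ThreeCycle, Pentagon, map_smul, ← smul_add] at *
    exact ⟨by rw [h1, smul_zero], by rw [h2, smul_zero], by rw [h3]⟩

/-- `D ψ` is the derivation of `L` with `x ↦ 0`, `y ↦ [y, ψ]`. -/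
def IsD (D : L → LieDerivation ℚ L L) : Prop := ∀ ψ, D ψ x = 0 ∧ D ψ y = ⁅y, ψ⁆

/-- The Ihara bracket. -/
noncomputable def ihara (D : L → LieDerivation ℚ L L) (ψ φ : L) : L :=
  D ψ φ - D φ ψ + ⁅ψ, φ⁆

/-- The free Lie algebra on `e k`, `k : ℕ`; `e k` is the generator of weight `2 k + 3`. -/
abbrev F : Type := FreeLieAlgebra ℚ ℕ

noncomputable def e (k : ℕ) : F := FreeLieAlgebra.of ℚ k

/-- The weight `n` part of `F`. -/
noncomputable def Fw (n : ℕ) : Submodule ℚ F := Hom ℚ e (fun k => 2 * k + 3) n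

end Vale.Agent.P029
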