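import Vale.Agent.P029.Alg
import Vale.Agent.P029.Ihara

/-!
Integral solutions `Lam n` and evaluation in rings of characteristic two (definitions).
-/

namespace Vale.Agent.P029

attribute [local instance 100] LieRing.ofAssociativeRing

/-- integral Lie polynomials of degree `n` solving the pentagon equation -/
noncomputable def Lam (n : ℕ) : AddSubgroup (T ℤ (Fin 2)) where
  carrier := {ℓ | ℓ ∈ HT ℤ one n ∧ bc ℚ ℓ ∈ Pent ℚ}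
  zero_mem' := ⟨zero_mem _, by simp⟩
  add_mem' := fun ha hb => ⟨add_mem ha.1 hb.1, by rw [map_add]; exact add_mem ha.2 hb.2⟩
  neg_mem' := fun ha => ⟨neg_mem ha.1, by rw [map_neg]; exact neg_mem ha.2⟩

lemma mem_Lam {n : ℕ} {ℓ : T ℤ (Fin 2)} : ℓ ∈ Lam n ↔ ℓ ∈ HT ℤ one n ∧ bc ℚ ℓ ∈ Pent ℚ := Iff.rfl

/-- weights of the generators of the free Lie algebra `F` -/
abbrev wF : ℕ → ℕ := fun k => 2 * k + 3

/-- `E k = (ad c) ^ k E` with `c = ⁅X, Y⁆`, `E = ⁅X, ⁅X, Y⁆⁆` -/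
def Ek {C : Type} [Ring C] (X Y : C) (k : ℕ) : C := (fun a => ⁅⁅X, Y⁆, a⁆)^[k] ⁅X, ⁅X, Y⁆⁆

/-- `ℓ(X, Y) = a(E 0, E 1, …)` in characteristic two whenever `Y² = 0` -/
def Ev2 (ℓ : T ℤ (Fin 2)) (a : T ℤ ℕ) : Prop :=
  ∀ (C : Type) [Ring C], (2 : C) = 0 → ∀ X Y : C, Y * Y = 0 → evZ ![X, Y] ℓ = evZ (Ek X Y) a

lemma Ev2.zero : Ev2 0 0 := by intro C _ _ X Y _; simp

lemma Ev2.add {ℓ ℓ' : T ℤ (Fin 2)} {a a' : T ℤ ℕ} (h : Ev2 ℓ a) (h' : Ev2 ℓ' a') :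
    Ev2 (ℓ + ℓ') (a + a') := by
  intro C _ h2 X Y hY; simp [h C h2 X Y hY, h' C h2 X Y hY]

lemma Ev2.neg {ℓ : T ℤ (Fin 2)} {a : T ℤ ℕ} (h : Ev2 ℓ a) : Ev2 (-ℓ) (-a) := by
  intro C _ h2 X Y hY; simp [h C h2 X Y hY]

lemma Ev2.sub {ℓ ℓ' : T ℤ (Fin 2)} {a a' : T ℤ ℕ} (h : Ev2 ℓ a) (h' : Ev2 ℓ' a') :
    Ev2 (ℓ - ℓ') (a - a') := by
  intro C _ h2 X Y hY; simp [h C h2 X Y hY, h' C h2 X Y hY]

/-- left multiplication as a `ℤ`-linear map -/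
abbrev LZ {C : Type} [Ring C] (a : C) : Module.End ℤ C := LinearMap.mulLeft ℤ a

/-- right multiplication as a `ℤ`-linear map -/
abbrev RZ {C : Type} [Ring C] (a : C) : Module.End ℤ C := LinearMap.mulRight ℤ a

/-- a ring with three elements and the two derivations through which `t12`, `t23` act -/
structure Ders {C : Type} [Ring C] (a b e : C) (p q : Module.End ℤ C) : Prop where
  pd : IsDer p
  qd : IsDer q
  pa : p a = ⁅a, b⁆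
  pb : p b = ⁅b, a⁆
  pe : p e = 0
  qa : q a = 0
  qb : q b = ⁅b, e⁆
  qe : q e = ⁅e, b⁆

end Vale.Agent.P029
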