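import Vale.Agent.P029.UnivB
import Vale.Agent.P029.Arcs

/-!
The universal truncated KZ associator as an element of `T ℝ (Fin 2)`.

Plan: `exists_trunc`: `B` acts on the finite dimensional space `B ⧸ F N ≃ (Fin d → ℝ)`, with kernel
`F N`; take `V` = range of `B →ₐ ((Fin d → ℝ) →L[ℝ] (Fin d → ℝ))` (a subalgebra of a normed algebra),
or the quotient by the two sided ideal `F N` with `NormedRing.induced`/`NormedAlgebra.induced`.
`exists_univ`: `V0` = truncation of `T ℝ (Fin 2)` (`finite_quot_Fil`), filtration `IsFil.map`,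
`exists_can`, `exists_assoc`; lift `Φ0 = q Φ`. For `a b ∈ F 1`, `ev ![a,b]` kills `Fil (n+1)`
(`ev_mem_fil`), so it factors through `q` (`AlgHom.liftOfSurjective`), continuous in finite dimension;
`IsAssoc.map`. The `Y` statement: `isAssoc_zero_right` + `IsAssoc.unique` in `V0` give
`ev ![x,0] Φ - 1 ∈ Fil (n+1)`, then `sub_ev_x0_mem`. `kap`: `kappa_neg` with `m = n - 1`,
`mu (q u) = cf [] u`, `lam k (q u) = cf (replicate k 0 ++ [1]) u` for `k ≤ m` (`0` otherwise);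
`cf_cons_lt_mul`, `cf_nil_lt_mul`, `cf_concat_mul_lt`.
`exists_Phi`: `V` = truncation of `A ℝ` (`A ⧸ JA (n+1)` is a quotient of `T ⧸ Fil (n+1)`),
`f i = q (ag i)`, `penta_prod` with `Φi = ev ![f i, f (i+2)] Φ`; `IsAssoc.shift` + `unique` give
`h2 f Φ = ev ![f 0, f 3] Φ`, `h3 f Φ = ev ![f 1, f 4] Φ`, `h5 f Φ = ev ![f 1, f 3] Φ`, and `mul_swap`
gives `ev ![f 0, f 3] Φ * Φ3 = 1`, `ev ![f 1, f 4] Φ * Φ4 = 1`.
-/

namespace Vale.Agent.P029

theorem univc_finite (N : ℕ) : Module.Finite ℝ (A ℝ ⧸ JA ℝ N) := by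
  have := finite_quot_Fil (R := ℝ) (X := Fin 5) N
  refine Module.Finite.of_surjective
    (Submodule.mapQ (Fil ℝ one N) (JA ℝ N) (mkA ℝ).toLinearMap fun u hu => ⟨u, hu, rfl⟩) ?_
  intro y
  obtain ⟨a, rfl⟩ := Submodule.Quotient.mk_surjective _ y
  obtain ⟨u, rfl⟩ := mkA_surjective a
  exact ⟨Submodule.Quotient.mk u, rfl⟩

theorem univc_penta {V : Type} [NormedRing V] [NormedAlgebra ℝ V] [CompleteSpace V]
    [FiniteDimensional ℝ V] {f : Fin 5 → V} (hf : Rel f) {F : ℕ → Submodule ℝ V} (hF : IsFil F)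
    {N : ℕ} (hN : F N = ⊥) (hm : ∀ i, f i ∈ F 1) {Φ : T ℝ (Fin 2)}
    (hΦ : ∀ a ∈ F 1, ∀ b ∈ F 1, IsAssoc a b (ev ![a, b] Φ)) :
    h2 f Φ * h3 f Φ = h4 f Φ * h5 f Φ * h1 f Φ := by
  have hp := penta_prod hf hF hN hm (hΦ _ (hm 0) _ (hm 2)) (hΦ _ (hm 1) _ (hm 3))
    (hΦ _ (hm 2) _ (hm 4)) (hΦ _ (hm 3) _ (hm 0)) (hΦ _ (hm 4) _ (hm 1))
    (commute_ev2 hf.c01.symm hf.c12 Φ) (commute_ev2 hf.c12.symm hf.c23 Φ)
    (commute_ev2 hf.c23.symm hf.c34 Φ) (commute_ev2 hf.c34.symm hf.c40 Φ)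
    (commute_ev2 hf.c40.symm hf.c01 Φ)
  have e2 : IsAssoc (f 0) (f 3) (h2 f Φ) := by
    have := (hΦ _ (hm 0) _ ((F 1).sub_mem (hm 3) (hm 4))).shift (a := 0) (b := f 4)
      (Commute.zero_left _) (Commute.zero_left _) hf.c40
      (hf.c34.symm.sub_right (Commute.refl _)) (Commute.zero_left _)
    rwa [add_zero, sub_add_cancel] at this
  have e3 : IsAssoc (f 1) (f 4) (h3 f Φ) := by
    have := (hΦ _ ((F 1).sub_mem (hm 1) (hm 0)) _ (hm 4)).shift (a := f 0) (b := 0)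
      (hf.c01.sub_right (Commute.refl _)) hf.c40.symm (Commute.zero_left _)
      (Commute.zero_left _) (Commute.zero_right _)
    rwa [add_zero, sub_add_cancel] at this
  have e5 : IsAssoc (f 1) (f 3) (h5 f Φ) := by
    have := (hΦ _ ((F 1).sub_mem (hm 1) (hm 2)) _ ((F 1).sub_mem (hm 3) (hm 2))).shift
      (a := f 2) (b := f 2) (hf.c12.symm.sub_right (Commute.refl _))
      (hf.c23.sub_right (Commute.refl _)) (hf.c12.symm.sub_right (Commute.refl _))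
      (hf.c23.sub_right (Commute.refl _)) (Commute.refl _)
    rwa [sub_add_cancel, sub_add_cancel] at this
  have k2 := e2.mul_swap (hΦ _ (hm 3) _ (hm 0))
  have k3 := e3.mul_swap (hΦ _ (hm 4) _ (hm 1))
  rw [e5.unique (hΦ _ (hm 1) _ (hm 3))]
  calc h2 f Φ * h3 f Φ = h2 f Φ * h3 f Φ * (ev ![f 4, f 1] Φ * ev ![f 3, f 0] Φ *
        ev ![f 2, f 4] Φ * ev ![f 1, f 3] Φ * ev ![f 0, f 2] Φ) := by rw [hp, mul_one]
    _ = h2 f Φ * (h3 f Φ * ev ![f 4, f 1] Φ) * ev ![f 3, f 0] Φ *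
        (ev ![f 2, f 4] Φ * ev ![f 1, f 3] Φ * ev ![f 0, f 2] Φ) := by simp only [mul_assoc]
    _ = _ := by rw [k3, mul_one, k2, one_mul]; rfl

theorem exists_Phi {n : ℕ} (hn : 2 ≤ n) : ∃ Φ : T ℝ (Fin 2),
    DP n Φ ∧ Φ - 1 ∈ Fil ℝ wy 1 ⊔ Fil ℝ one (n + 1) ∧ kap n Φ ≠ 0 := by
  obtain ⟨Φ, hΦ, hY, hk⟩ := exists_univ hn
  refine ⟨Φ, ?_, hY, hk⟩
  obtain ⟨V, _, _, _, q, hq, hker⟩ := exists_trunc (isFil_JA (R := ℝ)) (n + 1) (univc_finite _)
  have : CompleteSpace V := FiniteDimensional.complete ℝ V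
  have hF := (isFil_JA (R := ℝ)).map q hq
  have hN : (JA ℝ (n + 1)).map q.toLinearMap = ⊥ := by
    rw [eq_bot_iff]
    rintro _ ⟨a, ha, rfl⟩
    exact (hker a).2 ha
  have key := univc_penta ((rel_ag (R := ℝ)).map q) hF hN (fun i => ⟨_, ag_mem_JA i, rfl⟩)
    (hΦ V _ hF hN)
  refine (hker _).1 ?_
  rw [map_sub, map_mul, map_mul, map_mul, map_h1, map_h2, map_h3, map_h4, map_h5, key, sub_self]

end Vale.Agent.P029
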