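import Vale.Agent.P029.DiffB
import Vale.Agent.P029.UnivC
import Vale.Agent.P029.Lam

/-!
Descent from `ℝ` to `ℚ` and `ℤ`.

Plan: choose a `ℚ`-linear `lam : ℝ →ₗ[ℚ] ℚ` with `lam (kap n ψ) ≠ 0`
(`Module.forall_dual_apply_eq_zero_iff`), `ψ' = ∑ w ∈ supp ψ, lam (cf w ψ) • wd w`. For a `ℚ`-algebra
`B` with `Rel f`, `1 ⊗ f` satisfies `Rel` in the `ℝ`-algebra `ℝ ⊗[ℚ] B` (`Rel.map`), and the `ℚ`-linear
map `lam ⊗ id : ℝ ⊗[ℚ] B → B` sends `ev (1 ⊗ g) ψ` to `ev g ψ'` (expand with `eq_sum_wd`, `ev_wd`).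
`exists_kap`: `exists_Phi`, `diff_main`, `descend`, `Pent.lie`, `HT_clear`, `cf_bc`.
-/

namespace Vale.Agent.P029

open scoped TensorProduct

/-- apply a rational functional to all coefficients -/
noncomputable def descMap {X : Type} (lam : ℝ →ₗ[ℚ] ℚ) (ψ : T ℝ X) : T ℚ X :=
  ∑ w ∈ supp ψ, lam (cf w ψ) • wd w

lemma desc_cf {X : Type} (lam : ℝ →ₗ[ℚ] ℚ) (ψ : T ℝ X) (v : List X) :
    cf v (descMap lam ψ) = lam (cf v ψ) := by
  classical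
  simp only [descMap, map_sum, map_smul, cf_wd, smul_eq_mul, mul_ite, mul_one, mul_zero,
    Finset.sum_ite_eq']
  split_ifs with h
  · rfl
  · rw [mem_supp, not_not] at h
    rw [h, map_zero]

/-- the map `lam ⊗ id` -/
noncomputable def descCon (lam : ℝ →ₗ[ℚ] ℚ) (B : Type) [Ring B] [Algebra ℚ B] :
    ℝ ⊗[ℚ] B →ₗ[ℚ] B :=
  (TensorProduct.lid ℚ B).toLinearMap ∘ₗ lam.rTensor B

lemma desc_ev {X : Type} (lam : ℝ →ₗ[ℚ] ℚ) {B : Type} [Ring B] [Algebra ℚ B] (g : X → B)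
    (ψ : T ℝ X) :
    descCon lam B (ev (fun i => (Algebra.TensorProduct.includeRight (g i) : ℝ ⊗[ℚ] B)) ψ) =
      ev g (descMap lam ψ) := by
  conv_lhs => rw [eq_sum_wd ψ]
  rw [descMap, map_sum, map_sum, map_sum]
  refine Finset.sum_congr rfl fun w _ => ?_
  have e : (w.map fun i => (Algebra.TensorProduct.includeRight (g i) : ℝ ⊗[ℚ] B)).prod =
      Algebra.TensorProduct.includeRight (w.map g).prod := by
    rw [map_list_prod, List.map_map]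
    rfl
  rw [map_smul (ev _), map_smul (ev g), ev_wd, ev_wd, e, Algebra.TensorProduct.includeRight_apply,
    TensorProduct.smul_tmul', smul_eq_mul, mul_one]
  simp [descCon]

lemma desc_ev2 (lam : ℝ →ₗ[ℚ] ℚ) {B : Type} [Ring B] [Algebra ℚ B] (a b : B) (ψ : T ℝ (Fin 2)) :
    descCon lam B (ev ![(Algebra.TensorProduct.includeRight a : ℝ ⊗[ℚ] B),
      Algebra.TensorProduct.includeRight b] ψ) = ev ![a, b] (descMap lam ψ) := by
  rw [← desc_ev]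
  congr 3
  funext i
  fin_cases i <;> rfl

theorem descend {n : ℕ} {ψ : T ℝ (Fin 2)} (h : ψ ∈ Pent ℝ) (hg : ψ ∈ Hg ℝ one n)
    (hk : kap n ψ ≠ 0) : ∃ ψ' ∈ Pent ℚ, ψ' ∈ Hg ℚ one n ∧ kap n ψ' ≠ 0 := by
  obtain ⟨lam, hl⟩ : ∃ lam : ℝ →ₗ[ℚ] ℚ, lam (kap n ψ) ≠ 0 := by
    by_contra hc
    push Not at hc
    exact hk ((Module.forall_dual_apply_eq_zero_iff ℚ _).1 hc)
  refine ⟨descMap lam ψ, fun B _ _ f hf => ?_, fun w hw => ?_, ?_⟩
  · have h0 := (hf.map (Algebra.TensorProduct.includeRight : B →ₐ[ℚ] ℝ ⊗[ℚ] B)).pent h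
    have h6 := congrArg (descCon lam B) h0
    rw [pent_apply, map_zero, map_sub, map_sub, map_sub, map_add] at h6
    simp only [h1, h2, h3, h4, h5, ← map_sub, desc_ev2] at h6
    exact h6
  · rw [desc_cf, hg w hw, map_zero]
  · rw [kap, desc_cf]
    exact hl

theorem exists_kap {n : ℕ} (hn : 3 ≤ n) (hodd : Odd n) : ∃ ℓ ∈ Lam n, kap n ℓ ≠ 0 := by
  obtain ⟨Φ, a1, a2, a3⟩ := exists_Phi (n := n) (by omega)
  obtain ⟨ψ, b1, b2, b3⟩ := diff_main hn hodd a1 a2 a3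
  obtain ⟨φ, c1, c2, c3⟩ := descend b1 b2 b3
  obtain ⟨N, hN, ℓ, d1, d2⟩ := HT_clear (Pent.lie c1 c2)
  refine ⟨ℓ, ⟨d1, d2 ▸ Submodule.smul_mem _ _ c1⟩, fun h0 => ?_⟩
  have e := congrArg (kap n) d2
  rw [map_smul, kap, cf_bc] at e
  rw [kap] at h0 c3
  rw [h0, map_zero, smul_eq_mul] at e
  exact mul_ne_zero (Nat.cast_ne_zero.2 hN) c3 e.symm

end Vale.Agent.P029
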