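import Vale.Agent.P029.Alg

/-!
From an associator to a solution of the linear pentagon with nonzero coefficient of `x^(n-1) y`.

Plan: `eq_zero_of_JA`: `v = mkA w`, `w ∈ Fil (m+1)`, `w = ∑ pr k w`; apply the scaling
`liftA (rel_ag.smul c)`: `c ^ m • v = ∑ c ^ k • mkA (pr k w)` (`mkA_eq`, `ev_smul_Hg`, `map_pent`);
`vander` gives `v = mkA (pr m w) = 0`. `lin_DP`: `Φ = Φ' + ψ + r`, `r ∈ Fil (m+1)`, all `hi` map
`Fil k` to `JA k` (`ev_mem_fil`); expand: modulo `JA (m+1)`, `hi Φ * hj Φ ≡ hi Φ' * hj Φ' + hi ψ + hj ψ`.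
`diff_main`: `Φb = ev ![-x, -y] Φ` satisfies `DP` (`liftA (rel_ag.smul (-1))` preserves `JA`),
`pr k Φb = (-1)^k • pr k Φ`. `Φ - Φb ∈ Fil 1`, degree 1: `lin_DP` + `eq_zero_of_le_one`, degree 2:
parity. Induction on `m` from 3 to `n`: there is `Φ'` with `DP n Φ'`, `Φ - Φ' ∈ Fil m`,
`Φ' - 1 ∈ Fil wy 1 ⊔ Fil one (n+1)`, `kap n Φ' = - kap n Φ`. Step (`m < n`): `ψ = pr m (Φ - Φ')`,
`Φ'' = ex n (rho ψ) Φ'`; `rho ψ 1 = ψ`, `rho ψ` maps `Fil one k` to `Fil one (k+m)` and `Fil wy k`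
to `Fil wy (k+1)` (`Pent.mem_Y`, `Dy_mem_Fil`, `Dy_mem_Y`). Note `Fil wy 1 ≤ Fil one 1`.
At `m = n`, `ψ = pr n (Φ - Φ')` has `kap n ψ = 2 * kap n Φ`.
-/

namespace Vale.Agent.P029

variable {K : Type} [Field K] [CharZero K]

omit [CharZero K] in
theorem diff_ev2 {B : Type} [Ring B] [Algebra K B] (c : K) (a b : B) {n : ℕ} {u : T K (Fin 2)}
    (hu : u ∈ Hg K one n) : ev ![c • a, c • b] u = c ^ n • ev ![a, b] u := by
  rw [← ev_smul_Hg c _ hu]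
  congr 2
  ext1 i
  fin_cases i <;> rfl

omit [CharZero K] in
theorem diff_pent {B : Type} [Ring B] [Algebra K B] (c : K) (f : Fin 5 → B) {n : ℕ}
    {u : T K (Fin 2)} (hu : u ∈ Hg K one n) : pent (fun i => c • f i) u = c ^ n • pent f u := by
  simp only [pent_apply, h1, h2, h3, h4, h5, ← smul_sub, diff_ev2 c _ _ hu, ← smul_add]

theorem eq_zero_of_JA {m : ℕ} {ψ : T K (Fin 2)} (h : ψ ∈ Hg K one m)
    (hJ : pent (ag K) ψ ∈ JA K (m + 1)) : ψ ∈ Pent K := by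
  obtain ⟨w, hw, hv⟩ := hJ
  change mkA K w = _ at hv
  obtain ⟨N, hN⟩ := exists_sum_pr one w
  have hs := hN (max N (m + 1)) (le_max_left _ _)
  have hm : m < max N (m + 1) := lt_max_of_lt_right (Nat.lt_succ_self m)
  have key := vander (K := K) (fun k => mkA K (pr one k w) - if k = m then pent (ag K) ψ else 0)
    (max N (m + 1)) (fun c => ?_) m hm
  · rw [if_pos rfl, pr_of_Fil hw (Nat.lt_succ_self m), map_zero, zero_sub, neg_eq_zero] at key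
    exact mem_Pent_iff.2 key
  have e1 : liftA (rel_ag.smul c) (pent (ag K) ψ) = c ^ m • pent (ag K) ψ := by
    simp only [map_pent, liftA_ag]
    exact diff_pent c _ h
  have e2 : liftA (rel_ag.smul c) (mkA K w) =
      ∑ k ∈ Finset.range (max N (m + 1)), c ^ k • mkA K (pr one k w) := by
    rw [liftA_mk]
    conv_lhs => rw [← hs]
    rw [map_sum]
    exact Finset.sum_congr rfl fun k _ => by rw [ev_smul_Hg c _ (pr_mem one k w), mkA_eq]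
  simp only [smul_sub, Finset.sum_sub_distrib, smul_ite, smul_zero, Finset.sum_ite_eq',
    Finset.mem_range, hm, if_true]
  rw [← e2, ← e1, hv, sub_self]

omit [CharZero K] in
theorem diff_mul {B : Type} [Ring B] [Algebra K B] {F : ℕ → Submodule K B} (hF : IsFil F) {m : ℕ}
    (hm : 1 ≤ m) {a a' b b' : B} (ha : a' - 1 ∈ F 1 ∧ a - a' ∈ F m)
    (hb : b' - 1 ∈ F 1 ∧ b - b' ∈ F m) : (a' * b' - 1 ∈ F 1 ∧ a * b - a' * b' ∈ F m) ∧
      a * b - a' * b' - ((a - a') + (b - b')) ∈ F (m + 1) := by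
  refine ⟨⟨?_, ?_⟩, ?_⟩
  · rw [show a' * b' - 1 = (a' - 1) * b' + (b' - 1) by noncomm_ring]
    exact add_mem (hF.mul_right _ ha.1) hb.1
  · rw [show a * b - a' * b' = (a - a') * b + a' * (b - b') by noncomm_ring]
    exact add_mem (hF.mul_right _ ha.2) (hF.mul_left _ hb.2)
  · rw [show a * b - a' * b' - ((a - a') + (b - b')) =
      (a - a') * ((b - b') + (b' - 1)) + (a' - 1) * (b - b') by noncomm_ring]
    exact add_mem (hF.mul ha.2 (add_mem (hF.anti hm hb.2) hb.1)) (add_comm 1 m ▸ hF.mul ha.1 hb.2)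

omit [CharZero K] in
theorem diff_h {k : ℕ} {u : T K (Fin 2)} (hu : u ∈ Fil K one k) :
    h1 (ag K) u ∈ JA K k ∧ h2 (ag K) u ∈ JA K k ∧ h3 (ag K) u ∈ JA K k ∧ h4 (ag K) u ∈ JA K k ∧
      h5 (ag K) u ∈ JA K k := by
  have key : ∀ a b : A K, a ∈ JA K 1 → b ∈ JA K 1 → ev ![a, b] u ∈ JA K k := fun a b ha hb =>
    ev_mem_fil isFil_JA (wt := one) (Fin.forall_fin_two.2 ⟨ha, hb⟩) hu
  have g := ag_mem_JA (R := K)
  exact ⟨key _ _ (g 0) (g 2), key _ _ (g 0) (sub_mem (g 3) (g 4)),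
    key _ _ (sub_mem (g 1) (g 0)) (g 4), key _ _ (g 2) (g 4),
    key _ _ (sub_mem (g 1) (g 2)) (sub_mem (g 3) (g 2))⟩

theorem lin_DP {m n : ℕ} (hm : 1 ≤ m) (hmn : m ≤ n) {Φ Φ' : T K (Fin 2)} (h : DP n Φ)
    (h' : DP n Φ') (h1 : Φ' - 1 ∈ Fil K one 1) (hd : Φ - Φ' ∈ Fil K one m) :
    pr one m (Φ - Φ') ∈ Pent K := by
  refine eq_zero_of_JA (pr_mem one m _) ?_
  obtain ⟨a1, a2, a3, a4, a5⟩ := diff_h h1
  obtain ⟨b1, b2, b3, b4, b5⟩ := diff_h hd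
  obtain ⟨c1, c2, c3, c4, c5⟩ := diff_h (sub_pr_mem hd)
  simp only [map_sub, map_one] at a1 a2 a3 a4 a5 b1 b2 b3 b4 b5 c1 c2 c3 c4 c5
  have e1 := (diff_mul isFil_JA hm ⟨a2, b2⟩ ⟨a3, b3⟩).2
  obtain ⟨e2, e3⟩ := diff_mul isFil_JA hm ⟨a4, b4⟩ ⟨a5, b5⟩
  have e4 := (diff_mul isFil_JA hm e2 ⟨a1, b1⟩).2
  have e5 := isFil_JA.anti (Nat.succ_le_succ hmn) (sub_mem h h')
  have e6 := sub_mem (add_mem (add_mem (sub_mem e5 e1) e4) e3)
    (sub_mem (sub_mem (sub_mem (add_mem c2 c3) c4) c5) c1)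
  refine (congrArg (· ∈ JA K (m + 1)) ?_).mpr e6
  simp only [pent_apply, map_sub]
  abel

end Vale.Agent.P029
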