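import Vale.Agent.P029.DClo

/-!
The truncated exponential of `rho u = Dy u + (left multiplication by u)` preserves the group
pentagon equation.

Plan: `exp_mul_mem`: `S ^ k (a * b) = ∑ i + j = k, choose • (P ^ i a * Q ^ j b)` (induction, or
`Commute.add_pow'` applied to suitable operators, or the pattern of `Finset.sum_antidiagonal_choose_succ`),
`P ^ i a * Q ^ j b ∈ F (i + j)`, so the difference only has terms with `i + j > n`.
For vertices `s, t` put `op t s = D + mulLeft γt - mulRight γs` on `A K` (raises `JA` by one since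
`γ ∈ JA K 1`: `ev_mem_fil`). `DerData` gives `hi (rho u Φ) = op t s (hi Φ)` (edges h1: 1→2,
h5: 2→3, h4: 3→4, h3: 1→5, h2: 5→4, see `DRel`), hence `hi (ex n (rho u) Φ) = ex n (op t s) (hi Φ)`,
and `op t s (a * b) = op t r a * b + a * op r s b`. So both sides of `DP` are, modulo
`JA K (n+1)`, `ex n (op 4 1)` of the old sides; `γ4` is computed in two ways by `mem_Pent_iff`.
-/

namespace Vale.Agent.P029

variable {K : Type} [Field K] [CharZero K]

/-- truncated exponential -/
noncomputable def ex {M : Type} [AddCommGroup M] [Module K M] (n : ℕ) (P : Module.End K M) :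
    Module.End K M :=
  ∑ k ∈ Finset.range (n + 1), ((k.factorial : K)⁻¹) • P ^ k

noncomputable def rho (u : T K (Fin 2)) : Module.End K (T K (Fin 2)) :=
  Dy u + LinearMap.mulLeft K u

section ExpStepAux
variable {B : Type} [Ring B] [Algebra K B]

omit [CharZero K] in
lemma expStep_pow_mem {F : ℕ → Submodule K B} {P : Module.End K B}
    (hP : ∀ k a, a ∈ F k → P a ∈ F (k + 1)) (i k : ℕ) {a : B} (ha : a ∈ F k) :
    (P ^ i) a ∈ F (k + i) := by
  induction i with
  | zero => simpa using ha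
  | succ i ih => rw [pow_succ', Module.End.mul_apply]; exact hP _ _ ih

omit [CharZero K] in
lemma expStep_leibniz {P Q S : Module.End K B} (hS : ∀ a b, S (a * b) = P a * b + a * Q b)
    (k : ℕ) (a b : B) : (S ^ k) (a * b) =
      ∑ p ∈ Finset.HasAntidiagonal.antidiagonal k, k.choose p.1 • ((P ^ p.1) a * (Q ^ p.2) b) := by
  induction k with
  | zero => simp
  | succ k ih =>
    rw [pow_succ', Module.End.mul_apply, ih,
      Finset.sum_antidiagonal_choose_succ_nsmul (fun i j => (P ^ i) a * (Q ^ j) b) k, map_sum,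
      ← Finset.sum_add_distrib]
    refine Finset.sum_congr rfl fun p hp => ?_
    have hp' : k = p.1 + p.2 := (Finset.HasAntidiagonal.mem_antidiagonal.1 hp).symm
    rw [map_nsmul, hS, ← Nat.choose_symm_of_eq_add hp', smul_add, pow_succ', pow_succ',
      Module.End.mul_apply, Module.End.mul_apply, add_comm]

omit [CharZero K] in
lemma expStep_apply {M : Type} [AddCommGroup M] [Module K M] (n : ℕ) (P : Module.End K M)
    (a : M) : ex n P a = ∑ k ∈ Finset.range (n + 1), ((k.factorial : K)⁻¹) • (P ^ k) a := by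
  simp [ex, LinearMap.sum_apply]

omit [CharZero K] in
lemma expStep_ex_mem {F : ℕ → Submodule K B} (hF : IsFil F) {P : Module.End K B}
    (hP : ∀ k a, a ∈ F k → P a ∈ F (k + 1)) (n k : ℕ) {a : B} (ha : a ∈ F k) :
    ex n P a ∈ F k := by
  rw [expStep_apply]
  exact Submodule.sum_mem _ fun i _ => Submodule.smul_mem _ _
    (hF.anti (Nat.le_add_right k i) (expStep_pow_mem hP i k ha))

omit [CharZero K] in
lemma expStep_map {M M' : Type} [AddCommGroup M] [Module K M] [AddCommGroup M'] [Module K M']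
    (φ : M →ₗ[K] M') {P : Module.End K M} {P' : Module.End K M'} (h : ∀ a, φ (P a) = P' (φ a))
    (n : ℕ) (a : M) : φ (ex n P a) = ex n P' (φ a) := by
  have hp : ∀ k : ℕ, φ ((P ^ k) a) = (P' ^ k) (φ a) := by
    intro k
    induction k with
    | zero => simp
    | succ k ih => rw [pow_succ', pow_succ', Module.End.mul_apply, Module.End.mul_apply, h, ih]
  rw [expStep_apply, expStep_apply, map_sum]
  exact Finset.sum_congr rfl fun k _ => by rw [map_smul, hp]

lemma expStep_coef (i j : ℕ) :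
    (((i + j).factorial : K)⁻¹) * ((i + j).choose i : K) =
      ((i.factorial : K)⁻¹) * ((j.factorial : K)⁻¹) := by
  have h := Nat.add_choose_mul_factorial_mul_factorial j i
  have h' : (((j + i).choose i : ℕ) : K) * (j.factorial : K) * (i.factorial : K) =
      ((j + i).factorial : K) := by exact_mod_cast congrArg (Nat.cast : ℕ → K) h
  rw [add_comm j i] at h'
  have hi : (i.factorial : K) ≠ 0 := Nat.cast_ne_zero.2 (Nat.factorial_ne_zero i)
  have hj : (j.factorial : K) ≠ 0 := Nat.cast_ne_zero.2 (Nat.factorial_ne_zero j)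
  have hij : ((i + j).factorial : K) ≠ 0 := Nat.cast_ne_zero.2 (Nat.factorial_ne_zero _)
  field_simp
  linear_combination h'

end ExpStepAux

theorem exp_mul_mem {B : Type} [Ring B] [Algebra K B] {F : ℕ → Submodule K B} (hF : IsFil F)
    {P Q S : Module.End K B} (hP : ∀ k a, a ∈ F k → P a ∈ F (k + 1))
    (hQ : ∀ k a, a ∈ F k → Q a ∈ F (k + 1)) (hS : ∀ a b, S (a * b) = P a * b + a * Q b)
    (n : ℕ) (a b : B) : ex n S (a * b) - ex n P a * ex n Q b ∈ F (n + 1) := by
  classical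
  set t : ℕ × ℕ → B := fun p =>
    (((p.1.factorial : K)⁻¹) * ((p.2.factorial : K)⁻¹)) • ((P ^ p.1) a * (Q ^ p.2) b) with ht
  set s : Finset (ℕ × ℕ) := Finset.range (n + 1) ×ˢ Finset.range (n + 1) with hs
  have e1 : ex n P a * ex n Q b = ∑ p ∈ s, t p := by
    rw [expStep_apply, expStep_apply, Finset.sum_mul_sum, hs, Finset.sum_product]
    refine Finset.sum_congr rfl fun i _ => Finset.sum_congr rfl fun j _ => ?_
    rw [smul_mul_smul_comm]
  have e2 : ex n S (a * b) = ∑ p ∈ s with p.1 + p.2 ≤ n, t p := by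
    rw [expStep_apply, ← Finset.sum_fiberwise_of_maps_to (t := Finset.range (n + 1))
      (g := fun p : ℕ × ℕ => p.1 + p.2)]
    · refine Finset.sum_congr rfl fun k hk => ?_
      have hk' : k ≤ n := Nat.lt_succ_iff.1 (Finset.mem_range.1 hk)
      rw [expStep_leibniz hS, Finset.smul_sum]
      refine Finset.sum_congr ?_ fun p hp => ?_
      · ext p
        simp only [hs, Finset.HasAntidiagonal.mem_antidiagonal, Finset.mem_filter, Finset.mem_product,
          Finset.mem_range]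
        omega
      · have hp' : p.1 + p.2 = k := (Finset.mem_filter.1 hp).2
        rw [← hp', ← Nat.cast_smul_eq_nsmul K, smul_smul, expStep_coef]
    · intro p hp
      have := (Finset.mem_filter.1 hp).2
      exact Finset.mem_range.2 (Nat.lt_succ_of_le this)
  rw [e1, e2, ← Finset.sum_filter_add_sum_filter_not s (fun p : ℕ × ℕ => p.1 + p.2 ≤ n) t,
    sub_add_cancel_left]
  refine neg_mem (Submodule.sum_mem _ fun p hp => Submodule.smul_mem _ _ ?_)
  have hp' : n + 1 ≤ (0 + p.1) + (0 + p.2) := by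
    have := (Finset.mem_filter.1 hp).2
    omega
  exact hF.anti hp' (hF.mul (expStep_pow_mem hP p.1 0 (by simp [hF.top]))
    (expStep_pow_mem hQ p.2 0 (by simp [hF.top])))

/-- the operator attached to an edge with potentials `c` (target) and `d` (source) -/
noncomputable def expStepOp {B : Type} [Ring B] [Algebra K B] (D : B →ₗ[K] B) (c d : B) :
    Module.End K B :=
  D + LinearMap.mulLeft K c - LinearMap.mulRight K d

omit [CharZero K] in
lemma expStepOp_apply {B : Type} [Ring B] [Algebra K B] (D : B →ₗ[K] B) (c d a : B) :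
    expStepOp D c d a = D a + c * a - a * d := rfl

omit [CharZero K] in
lemma expStepOp_mul {B : Type} [Ring B] [Algebra K B] {D : B →ₗ[K] B} (hD : IsDer D)
    (c r d a b : B) :
    expStepOp D c d (a * b) = expStepOp D c r a * b + a * expStepOp D r d b := by
  simp only [expStepOp_apply, hD a b]
  noncomm_ring

omit [CharZero K] in
lemma expStepOp_fil {B : Type} [Ring B] [Algebra K B] {F : ℕ → Submodule K B} (hF : IsFil F)
    {D : B →ₗ[K] B} (hD : ∀ k a, a ∈ F k → D a ∈ F (k + 1)) {c d : B} (hc : c ∈ F 1)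
    (hd : d ∈ F 1) (k : ℕ) (a : B) (ha : a ∈ F k) : expStepOp D c d a ∈ F (k + 1) := by
  rw [expStepOp_apply]
  refine sub_mem (add_mem (hD k a ha) ?_) (hF.mul ha hd)
  rw [add_comm k 1]
  exact hF.mul hc ha

omit [CharZero K] in
lemma expStep_ev_mem {u : T K (Fin 2)} (hu : u ∈ Fil K one 1) {a b : A K} (ha : a ∈ JA K 1)
    (hb : b ∈ JA K 1) : ev ![a, b] u ∈ JA K 1 :=
  ev_mem_fil (isFil_JA (R := K)) (wt := one) (fun i => by fin_cases i <;> assumption) hu

theorem DP.ex_rho {u : T K (Fin 2)} (hu : u ∈ Pent K) {m : ℕ} (hm : 3 ≤ m) (h : u ∈ Hg K one m)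
    {n : ℕ} {Φ : T K (Fin 2)} (hΦ : DP n Φ) : DP n (ex n (rho u) Φ) := by
  obtain ⟨D, hD⟩ := exists_DA hu hm h
  have hF := isFil_JA (R := K)
  have hu1 : u ∈ Fil K one 1 :=
    (isFil_Fil (R := K) one).anti (show 1 ≤ m by omega) (Hg_le_Fil one m h)
  have g := ag_mem_JA (R := K)
  have m1 : h1 (ag K) u ∈ JA K 1 := expStep_ev_mem hu1 (g 0) (g 2)
  have m2 : h2 (ag K) u ∈ JA K 1 := expStep_ev_mem hu1 (g 0) (sub_mem (g 3) (g 4))
  have m3 : h3 (ag K) u ∈ JA K 1 := expStep_ev_mem hu1 (sub_mem (g 1) (g 0)) (g 4)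
  have m5 : h5 (ag K) u ∈ JA K 1 :=
    expStep_ev_mem hu1 (sub_mem (g 1) (g 2)) (sub_mem (g 3) (g 2))
  have hp : h1 (ag K) u + h5 (ag K) u + h4 (ag K) u = h3 (ag K) u + h2 (ag K) u := by
    have := mem_Pent_iff.1 hu
    rw [pent_apply] at this
    linear_combination (norm := abel) -this
  obtain ⟨c2, hc2⟩ : ∃ c, c = h1 (ag K) u := ⟨_, rfl⟩
  obtain ⟨c3, hc3⟩ : ∃ c, c = h1 (ag K) u + h5 (ag K) u := ⟨_, rfl⟩
  obtain ⟨c5, hc5⟩ : ∃ c, c = h3 (ag K) u := ⟨_, rfl⟩
  obtain ⟨c4, hc4⟩ : ∃ c, c = h3 (ag K) u + h2 (ag K) u := ⟨_, rfl⟩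
  have n1 : (0 : A K) ∈ JA K 1 := zero_mem _
  have n2 : c2 ∈ JA K 1 := hc2 ▸ m1
  have n3 : c3 ∈ JA K 1 := hc3 ▸ add_mem m1 m5
  have n5 : c5 ∈ JA K 1 := hc5 ▸ m3
  have n4 : c4 ∈ JA K 1 := hc4 ▸ add_mem m3 m2
  have hr : ∀ Ψ, rho u Ψ = Dy u Ψ + u * Ψ := fun _ => rfl
  have k1 : h1 (ag K) (ex n (rho u) Φ) = ex n (expStepOp D c2 0) (h1 (ag K) Φ) := by
    refine expStep_map (h1 (ag K)).toLinearMap (fun Ψ => ?_) n Φ
    simp only [AlgHom.toLinearMap_apply, hr, map_add, map_mul, hD.e1, expStepOp_apply, hc2,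
      mul_zero, sub_zero]
  have k5 : h5 (ag K) (ex n (rho u) Φ) = ex n (expStepOp D c3 c2) (h5 (ag K) Φ) := by
    refine expStep_map (h5 (ag K)).toLinearMap (fun Ψ => ?_) n Φ
    simp only [AlgHom.toLinearMap_apply, hr, map_add, map_mul, hD.e5, expStepOp_apply, hc2, hc3,
      Ring.lie_def]
    noncomm_ring
  have k4 : h4 (ag K) (ex n (rho u) Φ) = ex n (expStepOp D c4 c3) (h4 (ag K) Φ) := by
    refine expStep_map (h4 (ag K)).toLinearMap (fun Ψ => ?_) n Φ
    simp only [AlgHom.toLinearMap_apply, hr, map_add, map_mul, hD.e4, expStepOp_apply, hc4, hc3,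
      Ring.lie_def, ← hp]
    noncomm_ring
  have k3 : h3 (ag K) (ex n (rho u) Φ) = ex n (expStepOp D c5 0) (h3 (ag K) Φ) := by
    refine expStep_map (h3 (ag K)).toLinearMap (fun Ψ => ?_) n Φ
    simp only [AlgHom.toLinearMap_apply, hr, map_add, map_mul, hD.e3, expStepOp_apply, hc5,
      mul_zero, sub_zero]
  have k2 : h2 (ag K) (ex n (rho u) Φ) = ex n (expStepOp D c4 c5) (h2 (ag K) Φ) := by
    refine expStep_map (h2 (ag K)).toLinearMap (fun Ψ => ?_) n Φ
    simp only [AlgHom.toLinearMap_apply, hr, map_add, map_mul, hD.e2, expStepOp_apply, hc4, hc5,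
      Ring.lie_def]
    noncomm_ring
  have op := fun {c d : A K} (hc : c ∈ JA K 1) (hd : d ∈ JA K 1) =>
    expStepOp_fil hF hD.fil hc hd
  have a1 := exp_mul_mem hF (op n4 n5) (op n5 n1) (expStepOp_mul hD.der c4 c5 0) n
    (h2 (ag K) Φ) (h3 (ag K) Φ)
  have a2 := exp_mul_mem hF (op n4 n2) (op n2 n1) (expStepOp_mul hD.der c4 c2 0) n
    (h4 (ag K) Φ * h5 (ag K) Φ) (h1 (ag K) Φ)
  have a3 := hF.mul_right (ex n (expStepOp D c2 0) (h1 (ag K) Φ))
    (exp_mul_mem hF (op n4 n3) (op n3 n2) (expStepOp_mul hD.der c4 c3 c2) n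
      (h4 (ag K) Φ) (h5 (ag K) Φ))
  have a4 := expStep_ex_mem hF (op n4 n1) n (n + 1) hΦ
  rw [map_sub] at a4
  have a5 := add_mem (add_mem (sub_mem a4 a1) a2) a3
  unfold DP
  rw [k1, k2, k3, k4, k5]
  refine (congrArg (fun z => z ∈ JA K (n + 1)) ?_).mp a5
  rw [sub_mul]
  abel

end Vale.Agent.P029
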