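import Vale.Agent.P029.Diff
import Vale.Agent.P029.ExpStep

/-!
From an associator to a solution of the linear pentagon with nonzero coefficient of `x^(n-1) y`.

Plan: `eq_zero_of_JA`: `v = mkA w`, `w ∈ Fil (m+1)`, `w = ∑ pr k w`; apply the scaling
`liftA (rel_ag.smul c)`: `c ^ m • v = ∑ c ^ k • mkA (pr k w)` (`mkA_eq`, `ev_smul_Hg`, `map_pent`);
`vander` gives `v = mkA (pr m w) = 0`. `lin_DP`: `Φ = Φ' + ψ + r`, `r ∈ Fil (m+1)`, all `hi` map
`Fil k` to `JA k` (`ev_mem_fil`); expand: modulo `JA (m+1)`, `hi Φ * hj Φ ≡ hi Φ' * hj Φ' + hi ψ + hj ψ`.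
`diff_main`: `Φb = ev ![-x, -y] Φ` satisfies `DP` (`liftA (rel_ag.smul (-1))` preserves `JA`),
`pr k Φb = (-1)^k • pr k Φ`. `Φ - Φb ∈ Fil 1`, degree 1: `lin_DP` + `eq_zero_of_le_one`, degree 2:
parity. Induction on `m` from 3 to `n`: there is `Φ'` with `DP n Φ'`, `Φ - Φ' ∈ Fil m`,
`Φ' - 1 ∈ Fil wy 1 ⊔ Fil one (n+1)`, `kap n Φ' = - kap n Φ`. Step (`m < n`): `ψ = pr m (Φ - Φ')`,
`Φ'' = ex n (rho ψ) Φ'`; `rho ψ 1 = ψ`, `rho ψ` maps `Fil one k` to `Fil one (k+m)` and `Fil wy k`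
to `Fil wy (k+1)` (`Pent.mem_Y`, `Dy_mem_Fil`, `Dy_mem_Y`). Note `Fil wy 1 ≤ Fil one 1`.
At `m = n`, `ψ = pr n (Φ - Φ')` has `kap n ψ = 2 * kap n Φ`.
-/

namespace Vale.Agent.P029

variable {K : Type} [Field K] [CharZero K]

/-- the substitution `x ↦ -x`, `y ↦ -y` -/
noncomputable def diffbN : T K (Fin 2) →ₐ[K] T K (Fin 2) := ev fun i => (-1 : K) • lt i

omit [CharZero K] in
theorem diffb_cf (w : List (Fin 2)) (u : T K (Fin 2)) :
    cf w (diffbN u) = (-1) ^ w.length * cf w u := by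
  refine ind_wd (p := fun u => cf w (diffbN u) = (-1) ^ w.length * cf w u) u (fun v => ?_) ?_ ?_
  · rw [diffbN, ev_smul_Hg _ _ (wd_mem_Hg one v), ev_lt_id, map_smul, wgt_one, smul_eq_mul, cf_wd]
    split_ifs with h
    · rw [h]
    · rw [mul_zero, mul_zero]
  · intro a b ha hb
    simp only [map_add, ha, hb, mul_add]
  · intro c a ha
    simp only [map_smul, ha, smul_eq_mul, mul_left_comm]

omit [CharZero K] in
theorem diffb_fil {wt : Fin 2 → ℕ} {k : ℕ} {u : T K (Fin 2)} (hu : u ∈ Fil K wt k) :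
    diffbN u ∈ Fil K wt k := fun w hw => by rw [diffb_cf, hu w hw, mul_zero]

omit [CharZero K] in
theorem diffb_h {B : Type} [Ring B] [Algebra K B] (f : Fin 5 → B) (Φ : T K (Fin 2)) :
    h2 f (diffbN Φ) * h3 f (diffbN Φ) - h4 f (diffbN Φ) * h5 f (diffbN Φ) * h1 f (diffbN Φ) =
      h2 (fun i => (-1 : K) • f i) Φ * h3 (fun i => (-1 : K) • f i) Φ -
        h4 (fun i => (-1 : K) • f i) Φ * h5 (fun i => (-1 : K) • f i) Φ *
          h1 (fun i => (-1 : K) • f i) Φ := by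
  have e : ∀ a b : B, ev ![a, b] (diffbN Φ) = ev ![(-1 : K) • a, (-1 : K) • b] Φ := fun a b => by
    rw [diffbN, map_ev]
    congr 2
    ext1 i
    fin_cases i <;> simp
  simp only [h1, h2, h3, h4, h5, e, smul_sub]

omit [CharZero K] in
theorem diffb_DP {n : ℕ} {Φ : T K (Fin 2)} (h : DP n Φ) : DP n (diffbN Φ) := by
  obtain ⟨w, hw, hv⟩ := h
  change mkA K w = _ at hv
  have e1 : liftA (rel_ag.smul (-1 : K)) (mkA K w) ∈ JA K (n + 1) := by
    rw [liftA_mk]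
    exact ev_mem_fil isFil_JA (wt := one) (fun i => Submodule.smul_mem _ _ (ag_mem_JA i)) hw
  rw [hv, map_sub, map_mul, map_mul, map_mul, map_h1, map_h2, map_h3, map_h4, map_h5] at e1
  simp only [liftA_ag] at e1
  exact (congrArg (· ∈ JA K (n + 1)) (diffb_h (ag K) Φ)).mpr e1

omit [CharZero K] in
theorem diffb_Y : Fil K wy 1 ≤ Fil K one 1 := fun u hu w hw => hu w (by
  obtain rfl : w = [] := List.eq_nil_of_length_eq_zero (by simpa using hw)
  simp)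

omit [CharZero K] in
theorem diffb_ex {M : Type} [AddCommGroup M] [Module K M] {n : ℕ} (hn : 1 ≤ n)
    (P : Module.End K M) (a : M) (S : Submodule K M) (h : ∀ z, P (P z) ∈ S) :
    ex n P a - a - P a ∈ S := by
  obtain ⟨n, rfl⟩ := Nat.exists_eq_add_of_le' hn
  rw [ex, Finset.sum_range_succ', Finset.sum_range_succ']
  simp only [zero_add, Nat.factorial_one, Nat.factorial_zero, Nat.cast_one, inv_one, one_smul,
    pow_one, pow_zero, LinearMap.add_apply, Module.End.one_apply, add_sub_cancel_right,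
    LinearMap.sum_apply, LinearMap.smul_apply]
  refine sum_mem fun k _ => Submodule.smul_mem _ _ ?_
  rw [pow_succ', pow_succ']
  exact h _

theorem diffb_step {m n : ℕ} (hm : 3 ≤ m) (hmn : m < n) {Φ Φ' : T K (Fin 2)} (h : DP n Φ)
    (h' : DP n Φ') (hd : Φ - Φ' ∈ Fil K one m)
    (hY : Φ' - 1 ∈ Fil K wy 1 ⊔ Fil K one (n + 1)) :
    ∃ Ψ, DP n Ψ ∧ Φ - Ψ ∈ Fil K one (m + 1) ∧ Ψ - 1 ∈ Fil K wy 1 ⊔ Fil K one (n + 1) ∧
      kap n Ψ = kap n Φ' := by
  have f1 := isFil_Fil (R := K) (one : Fin 2 → ℕ)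
  have f2 := isFil_Fil (R := K) wy
  have h1 : Φ' - 1 ∈ Fil K one 1 := sup_le diffb_Y (f1.anti (by omega)) hY
  have hP := lin_DP (by omega) hmn.le h h' h1 hd
  have hH := pr_mem one m (Φ - Φ')
  have hr := sub_pr_mem hd
  generalize pr one m (Φ - Φ') = ψ at hP hH hr
  have r1 : ∀ {k z}, z ∈ Fil K one k → rho ψ z ∈ Fil K one (k + m) := fun hz =>
    add_mem (Dy_mem_Fil (Hg_le_Fil _ _ hH) hz) (add_comm m _ ▸ f1.mul (Hg_le_Fil _ _ hH) hz)
  have r2 : ∀ {k z}, z ∈ Fil K wy k → rho ψ z ∈ Fil K wy (k + 1) := fun hz =>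
    add_mem (Dy_mem_Y (Pent.mem_Y hP) hz) (add_comm 1 _ ▸ f2.mul (Pent.mem_Y hP) hz)
  have t1 : ∀ z, z ∈ Fil K (one : Fin 2 → ℕ) 0 := fun z => f1.top ▸ Submodule.mem_top
  have t2 : ∀ z, z ∈ Fil K wy 0 := fun z => f2.top ▸ Submodule.mem_top
  have r3 : rho ψ Φ' = ψ + rho ψ (Φ' - 1) := by
    rw [map_sub, show rho ψ 1 = ψ by simp [rho, Dy], add_sub_cancel]
  obtain ⟨e1, e2⟩ := diffb_ex (n := n) (by omega) (rho ψ) Φ' (Fil K one (m + 1) ⊓ Fil K wy 2)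
    fun z => ⟨f1.anti (by omega) (r1 (r1 (t1 z))), r2 (r2 (t2 z))⟩
  refine ⟨_, h'.ex_rho hP hm hH, ?_, ?_, ?_⟩
  · have e3 := sub_mem (sub_mem hr (add_comm 1 m ▸ r1 h1)) e1
    refine (congrArg (· ∈ Fil K one (m + 1)) ?_).mpr e3
    rw [r3]
    abel
  · have e3 := add_mem (Submodule.mem_sup_left (T := Fil K one (n + 1))
      (add_mem (f2.anti one_le_two e2) (r2 (t2 Φ')))) hY
    refine (congrArg (· ∈ Fil K wy 1 ⊔ Fil K one (n + 1)) ?_).mpr e3
    abel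
  · obtain ⟨a, ha, b, hb, hab⟩ := Submodule.mem_sup.1 hY
    have k1 := kap_of_Y (n := n) e2
    rw [map_sub, map_sub, r3, ← hab, map_add, map_add, map_add, kap_of_Hg (by omega) hmn.ne hH,
      kap_of_Y (r2 ha), kap_of_Fil (by omega) (f1.anti (by omega) (r1 hb))] at k1
    simpa [sub_eq_zero] using k1

theorem diff_main {n : ℕ} (hn : 3 ≤ n) (hodd : Odd n) {Φ : T K (Fin 2)} (h : DP n Φ)
    (hY : Φ - 1 ∈ Fil K wy 1 ⊔ Fil K one (n + 1)) (hk : kap n Φ ≠ 0) :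
    ∃ ψ ∈ Pent K, ψ ∈ Hg K one n ∧ kap n ψ ≠ 0 := by
  have f1 := isFil_Fil (R := K) (one : Fin 2 → ℕ)
  have hle : Fil K wy 1 ⊔ Fil K one (n + 1) ≤ Fil K one 1 := sup_le diffb_Y (f1.anti (by omega))
  have b1 : diffbN Φ - 1 ∈ Fil K wy 1 ⊔ Fil K one (n + 1) := by
    obtain ⟨a, ha, b, hb, hab⟩ := Submodule.mem_sup.1 hY
    rw [← map_one (diffbN (K := K)), ← map_sub, ← hab, map_add]
    exact Submodule.add_mem_sup (diffb_fil ha) (diffb_fil hb)
  have b2 : ∀ w : List (Fin 2), Even w.length → cf w (Φ - diffbN Φ) = 0 := fun w hw => by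
    rw [map_sub, diffb_cf, hw.neg_one_pow, one_mul, sub_self]
  have b3 : Φ - diffbN Φ ∈ Fil K one 1 := fun w hw => b2 w (by
    rw [show w.length = 0 by simpa using hw]
    exact Even.zero)
  have b4 := mem_Fil_succ b3 (Pent.eq_zero_of_le_one
    (lin_DP le_rfl (by omega) h (diffb_DP h) (hle b1) b3) le_rfl (pr_mem _ _ _))
  have b5 : Φ - diffbN Φ ∈ Fil K one 3 := fun w hw => by
    rw [wgt_one] at hw
    rcases lt_or_ge w.length 2 with k | k
    · exact b4 w (by rwa [wgt_one])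
    · exact b2 w (by rw [show w.length = 2 by omega]; exact even_two)
  have b6 : kap n (diffbN Φ) = -kap n Φ := by
    rw [kap, diffb_cf, List.length_append, List.length_replicate, List.length_singleton,
      Nat.sub_add_cancel (by omega), hodd.neg_one_pow, neg_one_mul]
  have key : ∀ m, 3 ≤ m → m ≤ n → ∃ Ψ, DP n Ψ ∧ Φ - Ψ ∈ Fil K one m ∧
      Ψ - 1 ∈ Fil K wy 1 ⊔ Fil K one (n + 1) ∧ kap n Ψ = -kap n Φ := by
    intro m hm
    induction m, hm using Nat.le_induction with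
    | base => exact fun _ => ⟨_, diffb_DP h, b5, b1, b6⟩
    | succ m hm ih =>
      intro hmn
      obtain ⟨Ψ, k1, k2, k3, k4⟩ := ih (by omega)
      obtain ⟨Ψ', l1, l2, l3, l4⟩ := diffb_step hm hmn h k1 k2 k3
      exact ⟨Ψ', l1, l2, l3, l4.trans k4⟩
  obtain ⟨Ψ, k1, k2, k3, k4⟩ := key n hn le_rfl
  refine ⟨_, lin_DP (by omega) le_rfl h k1 (hle k3) k2, pr_mem _ _ _, ?_⟩
  rw [kap_pr (by omega), map_sub, k4, sub_neg_eq_add, ← two_mul]
  exact mul_ne_zero two_ne_zero hk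

end Vale.Agent.P029
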