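import Vale.Agent.P029.Growth

/-!
The edge lemma: the regularised holonomy of a small perturbation of the KZ equation converges to
the associator.

Plan: `a = ε`, `b = (1+ε)⁻¹`, `1 - b = ε / (1+ε) ≥ ε / 2`. `Z z = inverse (G0 z) * Y z * inverse (Y a) * G0 a`,
`Z a = 1`, `Z' = -(ε / (1 - ε z)) • (inverse (G0 z) * C * G0 z) * Z`, so on `[a, b] ⊆ [ε/2, 1 - ε/2]`
`‖(Z - 1)'‖ ≤ k ‖Z - 1‖ + k ‖1‖` with `k = O(ε ^ (1 - 2δ))` (`growth`, `δ = 1/8`); Gronwall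
(`norm_le_gronwallBound_of_norm_deriv_right_le`) gives `‖Z b - 1‖ = O(ε ^ (3/4))`.
`Y b * inverse (Y a) = G1 (1-b) * Φ * Z b * inverse (G0 a)`;
`pw (-B) ε * G1 (ε/(1+ε)) = pw B (1+ε)⁻¹ * (pw (-B) (ε/(1+ε)) * G1 (ε/(1+ε))) = 1 + O(√ε)`,
`inverse (G0 ε) * pw A ε = inverse (pw (-A) ε * G0 ε) = 1 + O(√ε)`. So the middle part is
`Φ + O(√ε)`; conjugating by `pw D ε` fixes `Φ` and costs `ε ^ (-1/4)` (`pw_bound`, `δ = 1/8`).
-/

namespace Vale.Agent.P029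

open Set Filter Topology

variable {V : Type} [NormedRing V] [NormedAlgebra ℝ V] [CompleteSpace V]

/-- `f = 1 + O(√ε)` at `0+` -/
def EdgeNear (f : ℝ → V) : Prop :=
  Asymptotics.IsBigO (𝓝[>] (0 : ℝ)) (fun ε => f ε - 1) fun ε => √ε

lemma edge_sqrt_tendsto : Tendsto (fun ε : ℝ => √ε) (𝓝[>] 0) (𝓝 0) := by
  have : Tendsto (fun ε : ℝ => √ε) (𝓝 0) (𝓝 (√0)) := Real.continuous_sqrt.tendsto 0
  rw [Real.sqrt_zero] at this
  exact this.mono_left nhdsWithin_le_nhds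

omit [NormedAlgebra ℝ V] [CompleteSpace V] in
lemma EdgeNear.tendsto {f : ℝ → V} (h : EdgeNear f) :
    Tendsto (fun ε => f ε - 1) (𝓝[>] 0) (𝓝 0) :=
  Asymptotics.IsBigO.trans_tendsto h edge_sqrt_tendsto

omit [NormedAlgebra ℝ V] [CompleteSpace V] in
lemma EdgeNear.bdd {f : ℝ → V} (h : EdgeNear f) :
    Asymptotics.IsBigO (𝓝[>] (0 : ℝ)) f fun _ => (1 : ℝ) := by
  have h1 : Tendsto f (𝓝[>] 0) (𝓝 1) := by
    have := h.tendsto.add_const 1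
    simpa using this
  exact h1.isBigO_one ℝ

omit [NormedAlgebra ℝ V] [CompleteSpace V] in
lemma edge_bigO_mul {f g : ℝ → V} {u v : ℝ → ℝ} (hf : Asymptotics.IsBigO (𝓝[>] (0 : ℝ)) f u)
    (hg : Asymptotics.IsBigO (𝓝[>] (0 : ℝ)) g v) :
    Asymptotics.IsBigO (𝓝[>] (0 : ℝ)) (fun ε => f ε * g ε) fun ε => u ε * v ε := by
  have := hf.norm_left.mul hg.norm_left
  refine Asymptotics.IsBigO.trans (Asymptotics.IsBigO.of_bound 1 (Eventually.of_forall ?_)) this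
  intro ε
  rw [one_mul, Real.norm_of_nonneg (by positivity)]
  exact norm_mul_le _ _

omit [NormedAlgebra ℝ V] [CompleteSpace V] in
lemma EdgeNear.mul {f g : ℝ → V} (hf : EdgeNear f) (hg : EdgeNear g) :
    EdgeNear fun ε => f ε * g ε := by
  have h1 := edge_bigO_mul hf hg.bdd
  simp only [mul_one] at h1
  have h2 := h1.add hg
  refine h2.congr_left fun ε => ?_
  noncomm_ring

omit [NormedAlgebra ℝ V] in
lemma EdgeNear.inverse {f : ℝ → V} (hf : EdgeNear f) : EdgeNear fun ε => Ring.inverse (f ε) := by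
  have h1 := (NormedRing.inverse_add_norm_diff_first_order (1 : Vˣ)).comp_tendsto hf.tendsto
  have h2 : Asymptotics.IsBigO (𝓝[>] (0 : ℝ)) (fun ε => ‖f ε - 1‖) fun ε => √ε := hf.norm_left
  refine (h1.trans h2).congr_left fun ε => ?_
  simp

omit [NormedAlgebra ℝ V] [CompleteSpace V] in
lemma EdgeNear.congr {f g : ℝ → V} (hf : EdgeNear f) (h : ∀ ε ∈ Ioo (0 : ℝ) (1 / 2), f ε = g ε) :
    EdgeNear g := by
  refine Asymptotics.IsBigO.congr' hf ?_ EventuallyEq.rfl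
  filter_upwards [Ioo_mem_nhdsGT (show (0 : ℝ) < 1 / 2 by norm_num)] with ε hε
  rw [h ε hε]

omit [NormedAlgebra ℝ V] [CompleteSpace V] in
lemma edgeNear_of_bound {f : ℝ → V} (K : ℝ)
    (h : ∀ ε ∈ Ioo (0 : ℝ) (1 / 2), ‖f ε - 1‖ ≤ K * √ε) : EdgeNear f := by
  refine Asymptotics.IsBigO.of_bound K ?_
  filter_upwards [Ioo_mem_nhdsGT (show (0 : ℝ) < 1 / 2 by norm_num)] with ε hε
  rw [Real.norm_of_nonneg (Real.sqrt_nonneg _)]
  exact h ε hε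

omit [CompleteSpace V] in
/-- Gronwall: a solution of `Z' = N Z` with small `N` stays near its initial value `1` -/
lemma edge_gronwall {Z N : ℝ → V} {a b k : ℝ} (hab : a ≤ b) (hb : b - a ≤ 1) (hk : 0 < k)
    (hZ : ∀ z ∈ Icc a b, HasDerivAt Z (N z * Z z) z) (h1 : Z a = 1)
    (hN : ∀ z ∈ Icc a b, ‖N z‖ ≤ k) : ‖Z b - 1‖ ≤ ‖(1 : V)‖ * (Real.exp k - 1) := by
  have hc : ContinuousOn (fun z => Z z - 1) (Icc a b) := fun z hz =>
    ((hZ z hz).continuousAt.sub continuousAt_const).continuousWithinAt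
  have h := norm_le_gronwallBound_of_norm_deriv_right_le (f := fun z => Z z - 1)
    (f' := fun z => N z * Z z) (δ := 0) (K := k) (ε := k * ‖(1 : V)‖) hc
    (fun z hz => ((hZ z (Ico_subset_Icc_self hz)).sub_const 1).hasDerivWithinAt) (by simp [h1])
    (fun z hz => by
      have h2 := hN z (Ico_subset_Icc_self hz)
      have h3 : ‖Z z‖ ≤ ‖Z z - 1‖ + ‖(1 : V)‖ := by
        have := norm_add_le (Z z - 1) 1
        simpa using this
      calc ‖N z * Z z‖ ≤ ‖N z‖ * ‖Z z‖ := norm_mul_le _ _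
        _ ≤ k * (‖Z z - 1‖ + ‖(1 : V)‖) := by gcongr
        _ = _ := by ring) b ⟨hab, le_rfl⟩
  rw [gronwallBound_of_K_ne_0 hk.ne'] at h
  refine h.trans ?_
  simp only [zero_mul, zero_add]
  rw [mul_div_cancel_left₀ _ hk.ne']
  gcongr
  nlinarith

/-- the derivative of the inverse of a solution -/
lemma edge_inv_deriv {G : ℝ → V} {M : V} {z : ℝ} (hG : HasDerivAt G (M * G z) z)
    (hu : IsUnit (G z)) :
    HasDerivAt (fun w => Ring.inverse (G w)) (-(Ring.inverse (G z) * M)) z := by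
  obtain ⟨u, hu⟩ := hu
  have h1 := hasFDerivAt_ringInverse (𝕜 := ℝ) u
  rw [hu] at h1
  have h2 := h1.comp_hasDerivAt z hG
  refine HasDerivAt.congr_deriv h2 ?_
  rw [← hu]
  simp [mul_assoc]

lemma edge_rpow {ε : ℝ} (hε : ε ∈ Ioo (0 : ℝ) (1 / 2)) :
    ε * ((ε / 2) ^ (-(1 / 8 : ℝ)) * (ε / 2) ^ (-(1 / 8 : ℝ))) ≤ 2 * √ε := by
  obtain ⟨h0, h1⟩ := hε
  have hp : 0 < ε / 2 := by linarith
  rw [← Real.rpow_add hp]
  have h2 : (ε / 2) ^ (-(1 / 8 : ℝ) + -(1 / 8 : ℝ)) ≤ (ε / 2) ^ (-(1 / 2 : ℝ)) :=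
    Real.rpow_le_rpow_of_exponent_ge hp (by linarith) (by norm_num)
  have h3 : (ε / 2) ^ (-(1 / 2 : ℝ)) = (√(ε / 2))⁻¹ := by
    rw [Real.rpow_neg hp.le, Real.sqrt_eq_rpow]
  have h4 : 0 < √(ε / 2) := Real.sqrt_pos.2 hp
  have h5 : √(ε / 2) * √(ε / 2) = ε / 2 := Real.mul_self_sqrt hp.le
  have h6 : √(ε / 2) ≤ √ε := Real.sqrt_le_sqrt (by linarith)
  calc ε * (ε / 2) ^ (-(1 / 8 : ℝ) + -(1 / 8 : ℝ)) ≤ ε * (√(ε / 2))⁻¹ := by
        rw [← h3]; gcongr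
    _ = 2 * √(ε / 2) := by
        field_simp
        nlinarith
    _ ≤ 2 * √ε := by gcongr

/-- the perturbation factor is `1 + O(√ε)` -/
lemma edge_Z {A B C Φ : V} (hA : IsNilpotent A) (hB : IsNilpotent B) {G0 G1 : ℝ → V}
    (h0 : IsCan A B G0) (h1 : IsCan B A G1) (h : ∀ z ∈ Ioo (0 : ℝ) 1, G0 z = G1 (1 - z) * Φ)
    {Y : ℝ → ℝ → V}
    (hY : ∀ ε ∈ Ioo (0 : ℝ) 1, ∀ z ∈ Ioo (0 : ℝ) 1, HasDerivAt (Y ε)
      ((z⁻¹ • A + (z - 1)⁻¹ • B - (ε / (1 - ε * z)) • C) * Y ε z) z)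
    (hu : ∀ ε ∈ Ioo (0 : ℝ) 1, ∀ z ∈ Ioo (0 : ℝ) 1, IsUnit (Y ε z)) :
    EdgeNear fun ε => Ring.inverse (G0 (1 + ε)⁻¹) * Y ε (1 + ε)⁻¹ *
      (Ring.inverse (Y ε ε) * G0 ε) := by
  obtain ⟨K, hK0, hK⟩ := growth hA hB h0 h1 h (show (0 : ℝ) < 1 / 8 by norm_num)
  set c : ℝ := 4 * (K * ‖C‖ * K) + 1 with hc
  have hc0 : 0 < c := by positivity
  have hexp : Asymptotics.IsBigO (𝓝[>] (0 : ℝ)) (fun ε => Real.exp (c * √ε) - 1)
      fun ε => √ε := by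
    have e1 : Asymptotics.IsBigO (𝓝 (0 : ℝ)) (fun x => Real.exp x - 1) fun x => x := by
      have := (Real.hasDerivAt_exp 0).isBigO_sub
      simpa using this
    have e2 : Tendsto (fun ε : ℝ => c * √ε) (𝓝[>] 0) (𝓝 0) := by
      simpa using edge_sqrt_tendsto.const_mul c
    exact (e1.comp_tendsto e2).trans (Asymptotics.isBigO_const_mul_self c _ _)
  refine Asymptotics.IsBigO.trans (Asymptotics.IsBigO.of_bound ‖(1 : V)‖ ?_) hexp
  filter_upwards [Ioo_mem_nhdsGT (show (0 : ℝ) < 1 / 2 by norm_num)] with ε hε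
  obtain ⟨e0, e1⟩ := hε
  have hε1 : ε ∈ Ioo (0 : ℝ) 1 := ⟨e0, by linarith⟩
  have hp : 0 < 1 + ε := by linarith
  have hab : ε ≤ (1 + ε)⁻¹ := by
    rw [inv_eq_one_div, le_div_iff₀ hp]; nlinarith
  have hb2 : (1 + ε)⁻¹ ≤ 1 - ε / 2 := by
    rw [inv_eq_one_div, div_le_iff₀ hp]; nlinarith
  have hs : 0 < √ε := Real.sqrt_pos.2 e0
  have hin : ∀ z ∈ Icc ε (1 + ε)⁻¹, z ∈ Ioo (0 : ℝ) 1 := fun z hz =>
    ⟨by linarith [hz.1], by linarith [hz.2]⟩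
  have key := edge_gronwall
    (Z := fun z => Ring.inverse (G0 z) * Y ε z * (Ring.inverse (Y ε ε) * G0 ε))
    (N := fun z => -((ε / (1 - ε * z)) • (Ring.inverse (G0 z) * C * G0 z))) (k := c * √ε) hab
    (by linarith) (by positivity) (fun z hz => by
      have hz' := hin z hz
      have d := ((edge_inv_deriv (h0.deriv z hz') (h0.unit z hz')).mul
        (hY ε hε1 z hz')).mul_const (Ring.inverse (Y ε ε) * G0 ε)
      refine HasDerivAt.congr_deriv d ?_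
      have hg : G0 z * Ring.inverse (G0 z) = 1 := Ring.mul_inverse_cancel _ (h0.unit z hz')
      have hg' : ∀ w : V, G0 z * (Ring.inverse (G0 z) * w) = w := fun w => by
        rw [← mul_assoc, hg, one_mul]
      simp only [neg_mul, smul_mul_assoc, mul_assoc, hg', sub_mul, mul_sub, add_mul, mul_add,
        mul_smul_comm]
      abel)
    (by
      have hy : Y ε ε * Ring.inverse (Y ε ε) = 1 := Ring.mul_inverse_cancel _ (hu ε hε1 ε hε1)
      have hg : Ring.inverse (G0 ε) * G0 ε = 1 := Ring.inverse_mul_cancel _ (h0.unit ε hε1)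
      show Ring.inverse (G0 ε) * Y ε ε * (Ring.inverse (Y ε ε) * G0 ε) = 1
      rw [mul_assoc, ← mul_assoc (Y ε ε), hy, one_mul, hg])
    (fun z hz => by
      have hz' := hin z hz
      obtain ⟨g1, g2⟩ := hK (ε / 2) ⟨by linarith, by linarith⟩ z
        ⟨by linarith [hz.1], by linarith [hz.2]⟩
      have hd : 1 / 2 ≤ 1 - ε * z := by nlinarith [hz'.1, hz'.2]
      have hq : ε / (1 - ε * z) ≤ 2 * ε := by
        rw [div_le_iff₀ (by linarith)]; nlinarith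
      have hq0 : 0 ≤ ε / (1 - ε * z) := div_nonneg e0.le (by linarith)
      have hr := edge_rpow ⟨e0, e1⟩
      set r : ℝ := (ε / 2) ^ (-(1 / 8 : ℝ)) with hrdef
      have hr0 : 0 ≤ r := Real.rpow_nonneg (by linarith) _
      have hn : ‖Ring.inverse (G0 z) * C * G0 z‖ ≤ K * r * ‖C‖ * (K * r) :=
        calc _ ≤ ‖Ring.inverse (G0 z) * C‖ * ‖G0 z‖ := norm_mul_le _ _
          _ ≤ ‖Ring.inverse (G0 z)‖ * ‖C‖ * ‖G0 z‖ := by gcongr; exact norm_mul_le _ _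
          _ ≤ _ := by gcongr
      rw [norm_neg, norm_smul, Real.norm_of_nonneg hq0]
      have hk : 0 ≤ K * ‖C‖ * K := by positivity
      calc ε / (1 - ε * z) * ‖Ring.inverse (G0 z) * C * G0 z‖
          ≤ 2 * ε * (K * r * ‖C‖ * (K * r)) := by gcongr
        _ = 2 * (K * ‖C‖ * K) * (ε * (r * r)) := by ring
        _ ≤ 2 * (K * ‖C‖ * K) * (2 * √ε) := by gcongr
        _ ≤ c * √ε := by rw [hc]; nlinarith)
  refine key.trans ?_
  gcongr
  exact le_abs_self _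

lemma edge_left {A B : V} {G1 : ℝ → V} (h1 : IsCan B A G1) :
    EdgeNear fun ε => pw (-B) ε * G1 (1 - (1 + ε)⁻¹) := by
  obtain ⟨K, hK⟩ := h1.asym
  obtain ⟨L, hL0, hL⟩ := pw_near_one (-B)
  have a1 : EdgeNear fun ε => pw (-B) (1 + ε) := by
    refine edgeNear_of_bound L fun ε hε => ?_
    obtain ⟨e0, e1⟩ := hε
    refine (hL (1 + ε) ⟨by linarith, by linarith⟩).trans ?_
    have : ε ≤ √ε := Real.le_sqrt_of_sq_le (by nlinarith)
    rw [add_sub_cancel_left, abs_of_pos e0]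
    gcongr
  have a2 : EdgeNear fun ε => pw (-B) (1 - (1 + ε)⁻¹) * G1 (1 - (1 + ε)⁻¹) := by
    refine edgeNear_of_bound |K| fun ε hε => ?_
    obtain ⟨e0, e1⟩ := hε
    have hp : 0 < 1 + ε := by linarith
    have he : 1 - (1 + ε)⁻¹ = ε / (1 + ε) := by field_simp; ring
    have b1 : ε / (1 + ε) ≤ ε := div_le_self e0.le (by linarith)
    rw [he]
    refine (hK _ ⟨by positivity, by linarith⟩).trans ?_
    exact mul_le_mul (le_abs_self _) (Real.sqrt_le_sqrt b1) (Real.sqrt_nonneg _) (abs_nonneg _)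
  refine (a1.mul a2).congr fun ε hε => ?_
  obtain ⟨e0, e1⟩ := hε
  have hp : 0 < 1 + ε := by linarith
  have he : 1 - (1 + ε)⁻¹ = ε / (1 + ε) := by field_simp; ring
  rw [← mul_assoc, ← pw_mul _ hp (by rw [he]; positivity), he]
  congr 2
  field_simp

lemma edge_right {A B : V} {G0 : ℝ → V} (h0 : IsCan A B G0) :
    EdgeNear fun ε => Ring.inverse (G0 ε) * pw A ε := by
  obtain ⟨K, hK⟩ := h0.asym
  have a1 : EdgeNear fun ε => pw (-A) ε * G0 ε :=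
    edgeNear_of_bound K fun ε hε => hK ε ⟨hε.1, hε.2.le⟩
  refine a1.inverse.congr fun ε hε => ?_
  have hu := h0.unit ε ⟨hε.1, by linarith [hε.2]⟩
  have e1 : Ring.inverse (G0 ε) * pw A ε * (pw (-A) ε * G0 ε) = 1 := by
    rw [mul_assoc, ← mul_assoc (pw A ε), pw_mul_neg, one_mul, Ring.inverse_mul_cancel _ hu]
  have hv : IsUnit (pw (-A) ε * G0 ε) := (isUnit_pw _ _).mul hu
  calc Ring.inverse (pw (-A) ε * G0 ε)
      = Ring.inverse (G0 ε) * pw A ε * (pw (-A) ε * G0 ε) *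
        Ring.inverse (pw (-A) ε * G0 ε) := by rw [e1, one_mul]
    _ = _ := by rw [mul_assoc _ (pw (-A) ε * G0 ε), Ring.mul_inverse_cancel _ hv, mul_one]

lemma edge_pw_bigO {D : V} (hD : IsNilpotent D) :
    Asymptotics.IsBigO (𝓝[>] (0 : ℝ)) (fun ε => pw D ε) fun ε => ε ^ (-(1 / 8 : ℝ)) := by
  obtain ⟨K, -, hK⟩ := pw_bound hD (show (0 : ℝ) < 1 / 8 by norm_num)
  refine Asymptotics.IsBigO.of_bound K ?_
  filter_upwards [Ioo_mem_nhdsGT (show (0 : ℝ) < 1 by norm_num)] with ε hε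
  rw [Real.norm_of_nonneg (Real.rpow_nonneg hε.1.le _)]
  exact hK ε ⟨hε.1, hε.2.le⟩

lemma edge_lim :
    Tendsto (fun ε : ℝ => ε ^ (-(1 / 8 : ℝ)) * √ε * ε ^ (-(1 / 8 : ℝ))) (𝓝[>] 0) (𝓝 0) := by
  have h1 : Tendsto (fun ε : ℝ => ε ^ (1 / 4 : ℝ)) (𝓝 0) (𝓝 ((0 : ℝ) ^ (1 / 4 : ℝ))) :=
    (Real.continuousAt_rpow_const 0 _ (Or.inr (by norm_num))).tendsto
  rw [Real.zero_rpow (by norm_num)] at h1
  refine (h1.mono_left nhdsWithin_le_nhds).congr' ?_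
  filter_upwards [self_mem_nhdsWithin] with ε hε
  have e0 : (0 : ℝ) < ε := hε
  rw [Real.sqrt_eq_rpow, ← Real.rpow_add e0, ← Real.rpow_add e0]
  norm_num

theorem edge {A B D C Φ : V} (hA : IsNilpotent A) (hB : IsNilpotent B) (hD : IsNilpotent D)
    (h : IsAssoc A B Φ) (hDΦ : Commute D Φ) {Y : ℝ → ℝ → V}
    (hY : ∀ ε ∈ Ioo (0 : ℝ) 1, ∀ z ∈ Ioo (0 : ℝ) 1, HasDerivAt (Y ε)
      ((z⁻¹ • A + (z - 1)⁻¹ • B - (ε / (1 - ε * z)) • C) * Y ε z) z)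
    (hu : ∀ ε ∈ Ioo (0 : ℝ) 1, ∀ z ∈ Ioo (0 : ℝ) 1, IsUnit (Y ε z)) :
    Tendsto (fun ε => pw (-D) ε * pw (-B) ε * Y ε (1 + ε)⁻¹ * Ring.inverse (Y ε ε) * pw A ε *
      pw D ε) (𝓝[>] 0) (𝓝 Φ) := by
  obtain ⟨G0, G1, h0, h1, h⟩ := h
  have a1 := edge_left h1
  have a2 := (edge_Z hA hB h0 h1 h hY hu).mul (edge_right h0)
  have b1 := edge_bigO_mul (edge_bigO_mul a1 (Asymptotics.isBigO_const_const Φ
    (one_ne_zero (α := ℝ)) _)) a2.bdd
  have b2 := edge_bigO_mul (Asymptotics.isBigO_const_const Φ (one_ne_zero (α := ℝ)) _) a2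
  simp only [mul_one, one_mul] at b1 b2
  have b3 := edge_bigO_mul (edge_bigO_mul (edge_pw_bigO hD.neg) (b1.add b2)) (edge_pw_bigO hD)
  have b4 := (b3.trans_tendsto edge_lim).add_const Φ
  rw [zero_add] at b4
  refine b4.congr' ?_
  filter_upwards [Ioo_mem_nhdsGT (show (0 : ℝ) < 1 by norm_num)] with ε hε
  have hp : 0 < 1 + ε := by linarith [hε.1]
  have hb : (1 + ε)⁻¹ ∈ Ioo (0 : ℝ) 1 :=
    ⟨by positivity, inv_lt_one_of_one_lt₀ (by linarith [hε.1])⟩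
  have c1 : ∀ w : V, G1 (1 - (1 + ε)⁻¹) * (Φ * (Ring.inverse (G0 (1 + ε)⁻¹) * w)) = w := fun w => by
    rw [← mul_assoc, ← mul_assoc, ← h _ hb, Ring.mul_inverse_cancel _ (h0.unit _ hb), one_mul]
  have c2 : ∀ w : V, G0 ε * (Ring.inverse (G0 ε) * w) = w := fun w => by
    rw [← mul_assoc, Ring.mul_inverse_cancel _ (h0.unit _ hε), one_mul]
  have c3 : pw (-D) ε * (Φ * pw D ε) = Φ := by
    rw [(commute_pw hDΦ.symm ε).eq, ← mul_assoc, pw_neg_mul, one_mul]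
  simp only [sub_mul, mul_sub, add_mul, mul_add, mul_assoc, one_mul, mul_one, c1, c2, c3]
  abel

end Vale.Agent.P029
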