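import Vale.Agent.P029.ModD

/-!
Injectivity of the reduction modulo `2` and `Y²`, freeness of the `E k`, and the Ihara bracket.

Plan: `zlem`: `Z = X + Y`, `Z² = 0`; 3-cycle: `ℓ(X,Y) = ℓ(Y,Z) + ℓ(Z,X)`, `ℓ(Z,X) = ℓ(X,Z)` (2-cycle,
char 2), and `Ek Y Z = Ek X Z` since `⁅Y,Z⁆ = ⁅X,Z⁆`, `⁅Z,⁅X,Z⁆⁆ = 0`; use `mod2_form`.
`aprime`: `C = exists_C {0, 1}`: in `pentOp` the left side vanishes (`p * p = 0`, 2-cycle), the first
two terms on the right vanish by `zlem` (`X + Y = b`, resp. `a`), so `ℓ(a+b+e, e) = 0` in every char 2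
ring with `a² = b² = 0`. Take `Module.End ℤ (K × K)`, `K = T (ZMod 2) (Fin 2)`, `w = x + y`,
`a (k,k') = (w k', 0)`, `b (k,k') = (0, w k)`, `e (k,k') = (y k', y k)`; the diagonal `K → K × K`
intertwines `![LZ x, LZ y]` with `![a+b+e, e]` (`evZ_intertwine`, `evZ_mulLeft`), so
`evZ lt ℓ = 0` in `K`; `cf_evZ_lt`. `lam_half`: `sat2`, and `Pent ℚ` is a `ℚ`-subspace.
`Ek_free`: `exists_model` with `X = a + b`, `Y = e`: `Ek X Y k = Δ ((ad c)^k E)`; then the ring hom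
`ev ![0, der (k ↦ lt (k+1)), mulLeft (lt 0)] : T (ZMod 2) (Fin 3) → End (T (ZMod 2) ℕ)` sends
`(ad c)^k E` to `mulLeft (lt k)`; apply to `1`.
`Ev2.ih`: `Y` commutes with all `Ek X Y k`, so `evZ ![X,Y] (Dy ℓ u) = 0` by `evZ_der` with `δ = 0`.
-/

namespace Vale.Agent.P029

attribute [local instance 100] LieRing.ofAssociativeRing

variable {n : ℕ} {ℓ : T ℤ (Fin 2)}

theorem EkF_succ {C : Type} [Ring C] (X Y : C) (k : ℕ) :
    Ek X Y (k + 1) = ⁅⁅X, Y⁆, Ek X Y k⁆ := Function.iterate_succ_apply' _ _ _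

theorem EkF_commute {C : Type} [Ring C] (h2 : (2 : C) = 0) {X Y : C} (hY : Y * Y = 0) (k : ℕ) :
    Commute Y (Ek X Y k) := by
  have hc : ⁅Y, ⁅X, Y⁆⁆ = 0 := by
    have h1 : ⁅Y, ⁅X, Y⁆⁆ = 2 * (Y * X * Y) - (Y * Y) * X - X * (Y * Y) := by
      simp only [Ring.lie_def]; noncomm_ring
    rw [h1, h2, hY]; simp
  have key : ⁅Y, Ek X Y k⁆ = 0 := by
    induction k with
    | zero =>
      change ⁅Y, ⁅X, ⁅X, Y⁆⁆⁆ = 0
      rw [leibniz_lie, hc, lie_zero, add_zero, ← lie_skew Y X, neg_lie, lie_self, neg_zero]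
    | succ k ih => rw [EkF_succ, leibniz_lie, hc, ih, zero_lie, lie_zero, add_zero]
  exact sub_eq_zero.1 key

theorem Ek_free {a : T ℤ ℕ} (h : Ev2 0 a) : ∀ w, (2 : ℤ) ∣ cf w a := by
  obtain ⟨D, _, Δ, p, q, e, hΔ, h2, -, -, he, -, -, hc, hE⟩ := exists_model
  let u : ℕ → T (ZMod 2) (Fin 3) := fun k => (fun z => ⁅(lt 1 : T (ZMod 2) (Fin 3)), z⁆)^[k] (lt 2)
  have hu : ∀ k, u (k + 1) = ⁅(lt 1 : T (ZMod 2) (Fin 3)), u k⁆ := fun k =>
    Function.iterate_succ_apply' _ _ _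
  have h1 : Ek (p + q) e = fun k => Δ (u k) := by
    funext k
    induction k with
    | zero => exact hE
    | succ k ih => rw [EkF_succ, ih, hc, hu]; simp only [Ring.lie_def, map_sub, map_mul]
  have h3 := h D h2 (p + q) e he
  rw [map_zero, h1, ← map_evZ] at h3
  have h4 : evZ u a = 0 := hΔ (by rw [← h3, map_zero])
  let δ : Module.End (ZMod 2) (T (ZMod 2) ℕ) := der fun k => lt (k + 1)
  let μ := Algebra.lmul (ZMod 2) (T (ZMod 2) ℕ)
  have hμ : ∀ x v, μ x v = x * v := fun x v => rfl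
  let φ : T (ZMod 2) (Fin 3) →ₐ[ZMod 2] Module.End (ZMod 2) (T (ZMod 2) ℕ) :=
    ev ![0, δ, μ (lt 0)]
  have h5 : ∀ k, φ (u k) = μ (lt k) := by
    intro k
    induction k with
    | zero => exact ev_lt _ _
    | succ k ih =>
      have h6 : φ (lt 1) = δ := ev_lt _ _
      rw [hu, Ring.lie_def, map_sub, map_mul, map_mul, ih, h6]
      refine LinearMap.ext fun v => ?_
      have h7 : δ (lt k * v) = lt (k + 1) * v + lt k * δ v := by
        simp only [δ]; rw [der_mul, der_lt]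
      rw [LinearMap.sub_apply, Module.End.mul_apply, Module.End.mul_apply, hμ, hμ, hμ, h7,
        add_sub_cancel_right]
  have h7 := map_evZ φ.toRingHom u a
  have h8 := map_evZ μ.toRingHom lt a
  have h9 : μ (evZ lt a) = 0 := by
    have h10 : (fun i => φ.toRingHom (u i)) = fun i => μ.toRingHom (lt i) := funext h5
    rw [h10, ← h8, h4, map_zero] at h7
    exact h7.symm
  have h11 : evZ (lt : ℕ → T (ZMod 2) ℕ) a = 0 := by
    have := DFunLike.congr_fun h9 1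
    rwa [hμ, mul_one] at this
  intro w
  have h12 := cf_evZ_lt (ZMod 2) w a
  rw [h11, map_zero] at h12
  exact (ZMod.intCast_zmod_eq_zero_iff_dvd _ 2).1 h12.symm

theorem EkF_Dy {ℓ : T ℤ (Fin 2)} {a : T ℤ ℕ} (h : Ev2 ℓ a) {C : Type} [Ring C]
    (h2 : (2 : C) = 0) {X Y : C} (hY : Y * Y = 0) (u : T ℤ (Fin 2)) :
    evZ ![X, Y] (Dy ℓ u) = 0 := by
  refine evZ_der (δ := (0 : C →+ C)) (fun _ _ => by simp) (fun i => ?_) u
  fin_cases i
  · exact map_zero _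
  · change evZ ![X, Y] ⁅(lt 1 : T ℤ (Fin 2)), ℓ⁆ = 0
    rw [Ring.lie_def, map_sub, map_mul, map_mul, h C h2 X Y hY, evZ_lt]
    exact sub_eq_zero.2 (commute_evZ (EkF_commute h2 hY) a)

theorem Ev2.ih {ℓ' : T ℤ (Fin 2)} {a a' : T ℤ ℕ} (h : Ev2 ℓ a) (h' : Ev2 ℓ' a') :
    Ev2 (ih ℓ ℓ') ⁅a, a'⁆ := by
  intro C _ h2 X Y hY
  rw [P029.ih, map_add, map_sub, EkF_Dy h h2 hY, EkF_Dy h' h2 hY, sub_zero, zero_add]
  simp only [Ring.lie_def, map_sub, map_mul, h C h2 X Y hY, h' C h2 X Y hY]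

end Vale.Agent.P029
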