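import Vale.Agent.P029.Cyc
import Vale.Agent.P029.Sat

/-!
The space `W` versus `Pent ℚ`.

Plan: `exists_lift`: `FreeLieAlgebra.lift` kills the Lie ideal spanned by `rels`
(`LieSubmodule.lieSpan_le`, `LieHom.ker`), descend with `Submodule.liftQ`. `t4_rel`: the relations of
`T4` (`LieSubmodule.Quotient.mk_eq_zero'`). `map_sb`: `FreeLieAlgebra.hom_ext`.
`pent_of_W`: `exists_lift` for `Rel.t4f`, `map_sb`, `sb_eq_ev`.
`pentagon_of_Pent`: `N` = range of `j = lift ![t 0 3, t 1 3, t 2 3] : FreeLieAlgebra ℚ (Fin 3) → T4`.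
`N` is stable under `⁅t i j, ·⁆` (relations), hence under `⁅v, ·⁆` for all `v`. Let `κ : T4 → T4` be the
Lie hom killing `t i 3` and fixing the other generators; `v - κ v ∈ N` for all `v` (`free_ind`).
For the pentagon element `v`, `κ v = 0` because `sb a 0 ψ = 0` (`Pent.ev_x0`, `io_injective_fin`). So
`v = j w`; the representation `ρ` from `rep_t4f` kills `v` (`T4F.pent`), and `ρ (j w) 1 = io w`.
`mem_W`: 2- and 3-cycle by injectivity of `io`. `W_two`: `Lw 2` is spanned by `⁅x,y⁆`; the 3-cycle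
gives `3 c • ⁅x,y⁆ = 0`, coefficient of the word `[0,1]` under `io`.
-/

namespace Vale.Agent.P029

attribute [local instance 100] LieRing.ofAssociativeRing

lemma faith_nodup4 {i j k l : Fin 4} (h : [i, j, k, l].Nodup) : i ≠ j ∧ k ≠ l := by
  simp only [List.nodup_cons, List.mem_cons, not_or] at h
  exact ⟨h.1.1, h.2.2.1.1⟩

lemma faith_nodup3 {i j k : Fin 4} (h : [i, j, k].Nodup) : i ≠ j ∧ i ≠ k ∧ j ≠ k := by
  simp only [List.nodup_cons, List.mem_cons, not_or] at h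
  exact ⟨h.1.1, h.1.2.1, h.2.1.1⟩

theorem exists_lift {g : Type} [LieRing g] [LieAlgebra ℚ g] (s : Fin 4 → Fin 4 → g)
    (h1 : ∀ i j, i ≠ j → s i j = s j i) (h2 : ∀ i j k l, [i, j, k, l].Nodup → ⁅s i j, s k l⁆ = 0)
    (h3 : ∀ i j k, [i, j, k].Nodup → ⁅s i j, s i k + s j k⁆ = 0) :
    ∃ φ : T4 →ₗ⁅ℚ⁆ g, ∀ i j, i ≠ j → φ (t i j) = s i j := by
  let φ0 : FT →ₗ⁅ℚ⁆ g := FreeLieAlgebra.lift ℚ fun p => s p.1.1 p.1.2
  have hφ0 : ∀ i j, i ≠ j → φ0 (tg i j) = s i j := by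
    intro i j hij
    simp only [tg, dif_pos hij, φ0, FreeLieAlgebra.lift_of_apply]
  have hker : LieSubmodule.lieSpan ℚ FT rels ≤ φ0.ker := by
    rw [LieSubmodule.lieSpan_le]
    rintro r (⟨i, j, hij, rfl⟩ | ⟨i, j, k, l, hn, rfl⟩ | ⟨i, j, k, hn, rfl⟩)
    · rw [SetLike.mem_coe, LieHom.mem_ker, map_sub, hφ0 i j hij, hφ0 j i hij.symm, h1 i j hij,
        sub_self]
    · obtain ⟨hij, hkl⟩ := faith_nodup4 hn
      rw [SetLike.mem_coe, LieHom.mem_ker, LieHom.map_lie, hφ0 i j hij, hφ0 k l hkl]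
      exact h2 i j k l hn
    · obtain ⟨hij, hik, hjk⟩ := faith_nodup3 hn
      rw [SetLike.mem_coe, LieHom.mem_ker, LieHom.map_lie, map_add, hφ0 i j hij, hφ0 i k hik,
        hφ0 j k hjk]
      exact h3 i j k hn
  let φ1 : T4 →ₗ[ℚ] g := (LieSubmodule.lieSpan ℚ FT rels).toSubmodule.liftQ φ0.toLinearMap
    (fun r hr => hker hr)
  have hφ1 : ∀ a : FT, φ1 (LieSubmodule.Quotient.mk a) = φ0 a := fun a => rfl
  refine ⟨{ φ1 with map_lie' := ?_ }, fun i j hij => ?_⟩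
  · intro a b
    obtain ⟨a, rfl⟩ := LieSubmodule.Quotient.surjective_mk' _ a
    obtain ⟨b, rfl⟩ := LieSubmodule.Quotient.surjective_mk' _ b
    exact φ0.map_lie a b
  · exact hφ0 i j hij

theorem t4_rel : (∀ i j, i ≠ j → t i j = t j i) ∧
    (∀ i j k l, [i, j, k, l].Nodup → ⁅t i j, t k l⁆ = 0) ∧
    ∀ i j k, [i, j, k].Nodup → ⁅t i j, t i k + t j k⁆ = 0 := by
  have key : ∀ r ∈ rels, (LieSubmodule.Quotient.mk r : T4) = 0 := fun r hr =>
    LieSubmodule.Quotient.mk_eq_zero'.2 (LieSubmodule.subset_lieSpan hr)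
  refine ⟨fun i j hij => ?_, fun i j k l hn => ?_, fun i j k hn => ?_⟩
  · rw [← sub_eq_zero]
    exact key _ (Or.inl ⟨i, j, hij, rfl⟩)
  · exact key _ (Or.inr (Or.inl ⟨i, j, k, l, hn, rfl⟩))
  · exact key _ (Or.inr (Or.inr ⟨i, j, k, hn, rfl⟩))

theorem exists_lift_t4f {B : Type} [Ring B] [Algebra ℚ B] {t12 t13 t14 t23 t24 t34 : B}
    (h : T4F t12 t13 t14 t23 t24 t34) : ∃ φ : T4 →ₗ⁅ℚ⁆ B, φ (t 0 1) = t12 ∧ φ (t 0 2) = t13 ∧
      φ (t 0 3) = t14 ∧ φ (t 1 2) = t23 ∧ φ (t 1 3) = t24 ∧ φ (t 2 3) = t34 := by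
  refine (exists_lift
    (![![0, t12, t13, t14], ![t12, 0, t23, t24], ![t13, t23, 0, t34], ![t14, t24, t34, 0]] :
      Fin 4 → Fin 4 → B) ?_ ?_ ?_).elim fun φ hφ => ?_
  rotate_right
  · exact ⟨φ, hφ 0 1 (by decide), hφ 0 2 (by decide), hφ 0 3 (by decide), hφ 1 2 (by decide),
      hφ 1 3 (by decide), hφ 2 3 (by decide)⟩
  · intro i j _
    fin_cases i <;> fin_cases j <;> rfl
  · intro i j k l hn
    rw [← commute_iff_lie_eq]
    have := h.d1; have := h.d2; have := h.d3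
    have := h.d1.symm; have := h.d2.symm; have := h.d3.symm
    fin_cases i <;> fin_cases j <;> fin_cases k <;> fin_cases l <;>
      first | exact absurd hn (by decide) | assumption
  · intro i j k hn
    rw [← commute_iff_lie_eq]
    have sw : ∀ {a b c : B}, Commute a (b + c) → Commute a (c + b) := fun h => by
      rwa [add_comm]
    have := h.a12; have := h.a13; have := h.a23; have := h.b12; have := h.b14; have := h.b24
    have := h.c13; have := h.c14; have := h.c34; have := h.e23; have := h.e24; have := h.e34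
    fin_cases i <;> fin_cases j <;> fin_cases k <;>
      first | exact absurd hn (by decide) | assumption | (apply sw; assumption)

lemma map_sb {g g' : Type} [LieRing g] [LieAlgebra ℚ g] [LieRing g'] [LieAlgebra ℚ g']
    (φ : g →ₗ⁅ℚ⁆ g') (a b : g) (ψ : L) : φ (sb a b ψ) = sb (φ a) (φ b) ψ := by
  have : φ.comp (sb a b) = sb (φ a) (φ b) := by
    apply FreeLieAlgebra.hom_ext
    intro i
    fin_cases i <;> simp [sb, FreeLieAlgebra.lift_of_apply]
  exact LieHom.congr_fun this ψ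

lemma sb_eq_ev {B : Type} [Ring B] [Algebra ℚ B] (a b : B) (ψ : L) :
    sb a b ψ = ev ![a, b] (io ψ) := (ev_io _ _).symm

theorem pent_of_W {ψ : L} (h : ψ ∈ W) : io ψ ∈ Pent ℚ := by
  intro B _ _ f hf
  obtain ⟨φ, e01, e02, e03, e12, e13, e23⟩ := exists_lift_t4f hf.t4f
  have key := congrArg φ h.2.2
  simp only [map_add, map_sb, e01, e02, e12, e13, e23, sb_eq_ev] at key
  have a1 : f 2 + (f 3 - f 2 - f 4) = f 3 - f 4 := by abel
  have a2 : f 1 - f 0 - f 2 + f 2 = f 1 - f 0 := by abel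
  have a3 : f 0 + (f 1 - f 0 - f 2) = f 1 - f 2 := by abel
  have a4 : f 3 - f 2 - f 4 + f 4 = f 3 - f 2 := by abel
  rw [a1, a2, a3, a4] at key
  rw [pent_apply]
  simp only [h1, h2, h3, h4, h5]
  rw [key]
  abel

end Vale.Agent.P029
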