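import Vale.Agent.P029.Faith
import Vale.Agent.P029.Cyc3

/-!
The space `W` versus `Pent ℚ`.

Plan: `exists_lift`: `FreeLieAlgebra.lift` kills the Lie ideal spanned by `rels`
(`LieSubmodule.lieSpan_le`, `LieHom.ker`), descend with `Submodule.liftQ`. `t4_rel`: the relations of
`T4` (`LieSubmodule.Quotient.mk_eq_zero'`). `map_sb`: `FreeLieAlgebra.hom_ext`.
`pent_of_W`: `exists_lift` for `Rel.t4f`, `map_sb`, `sb_eq_ev`.
`pentagon_of_Pent`: `N` = range of `j = lift ![t 0 3, t 1 3, t 2 3] : FreeLieAlgebra ℚ (Fin 3) → T4`.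
`N` is stable under `⁅t i j, ·⁆` (relations), hence under `⁅v, ·⁆` for all `v`. Let `κ : T4 → T4` be the
Lie hom killing `t i 3` and fixing the other generators; `v - κ v ∈ N` for all `v` (`free_ind`).
For the pentagon element `v`, `κ v = 0` because `sb a 0 ψ = 0` (`Pent.ev_x0`, `io_injective_fin`). So
`v = j w`; the representation `ρ` from `rep_t4f` kills `v` (`T4F.pent`), and `ρ (j w) 1 = io w`.
`mem_W`: 2- and 3-cycle by injectivity of `io`. `W_two`: `Lw 2` is spanned by `⁅x,y⁆`; the 3-cycle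
gives `3 c • ⁅x,y⁆ = 0`, coefficient of the word `[0,1]` under `io`.
-/

namespace Vale.Agent.P029

attribute [local instance 100] LieRing.ofAssociativeRing

section
variable {g : Type} [LieRing g] [LieAlgebra ℚ g]

omit [LieAlgebra ℚ g] in
lemma fb_add (a b c : g) : ⁅a, b + c⁆ = ⁅a, b⁆ + ⁅a, c⁆ := lie_add a b c

omit [LieAlgebra ℚ g] in
lemma fb_sub (a b c : g) : ⁅a, b - c⁆ = ⁅a, b⁆ - ⁅a, c⁆ := lie_sub a b c

omit [LieAlgebra ℚ g] in
lemma fb_zero (a : g) : ⁅a, (0 : g)⁆ = 0 := lie_zero a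

lemma fb_smul (c : ℚ) (a b : g) : ⁅a, c • b⁆ = c • ⁅a, b⁆ := lie_smul c a b

end

/-- the inclusion of the free ideal -/
noncomputable def fbJ : FreeLieAlgebra ℚ (Fin 3) →ₗ⁅ℚ⁆ T4 :=
  FreeLieAlgebra.lift ℚ ![t 0 3, t 1 3, t 2 3]

lemma fb_ind {p : T4 → Prop} (hof : ∀ i j, i ≠ j → p (t i j))
    (hlie : ∀ a b, p a → p b → p ⁅a, b⁆) (h0 : p 0) (hadd : ∀ a b, p a → p b → p (a + b))
    (hsmul : ∀ (c : ℚ) a, p a → p (c • a)) (v : T4) : p v := by
  obtain ⟨a, rfl⟩ := Submodule.Quotient.mk_surjective _ v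
  refine free_ind (p := fun a : FT => p (LieSubmodule.Quotient.mk a)) (fun i => ?_)
    (fun a b => hlie _ _) h0 (fun a b => hadd _ _) (fun c a => hsmul c _) a
  have := hof i.1.1 i.1.2 i.2
  rwa [t, tg, dif_pos i.2] at this

lemma fb_mem (i : Fin 4) (hi : i ≠ 3) : t i 3 ∈ fbJ.range := by
  fin_cases i
  · exact ⟨FreeLieAlgebra.of ℚ 0, FreeLieAlgebra.lift_of_apply _ _⟩
  · exact ⟨FreeLieAlgebra.of ℚ 1, FreeLieAlgebra.lift_of_apply _ _⟩
  · exact ⟨FreeLieAlgebra.of ℚ 2, FreeLieAlgebra.lift_of_apply _ _⟩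
  · exact absurd rfl hi

lemma fb_mem' {i j : Fin 4} (hij : i ≠ j) (h : i = 3 ∨ j = 3) : t i j ∈ fbJ.range := by
  rcases h with rfl | rfl
  · rw [t4_rel.1 _ _ hij]; exact fb_mem j hij.symm
  · exact fb_mem i hij

lemma fb_gen {i j k : Fin 4} (hij : i ≠ j) (hk : k ≠ 3) : ⁅t i j, t k 3⁆ ∈ fbJ.range := by
  by_cases h : i = 3 ∨ j = 3
  · exact fbJ.range.lie_mem (fb_mem' hij h) (fb_mem k hk)
  push Not at h
  have key : ∀ i j : Fin 4, i ≠ j → i ≠ 3 → j ≠ 3 → ⁅t i j, t i 3⁆ ∈ fbJ.range := by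
    intro i j hij hi hj
    have h1 := t4_rel.2.2 i 3 j (by simp [hi, hij, hj.symm])
    rw [fb_add, add_eq_zero_iff_eq_neg, t4_rel.1 3 j hj.symm] at h1
    rw [← lie_skew, h1, neg_neg]
    exact fbJ.range.lie_mem (fb_mem i hi) (fb_mem j hj)
  by_cases h1 : k = i
  · rw [h1]; exact key i j hij h.1 h.2
  by_cases h2 : k = j
  · rw [h2, t4_rel.1 _ _ hij]; exact key j i hij.symm h.2 h.1
  rw [t4_rel.2.1 i j k 3 (by simp [hij, Ne.symm h1, Ne.symm h2, h.1, h.2, hk])]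
  exact fbJ.range.zero_mem

lemma fb_ideal (v : T4) : ∀ n ∈ fbJ.range, ⁅v, n⁆ ∈ fbJ.range := by
  refine fb_ind (p := fun v => ∀ n ∈ fbJ.range, ⁅v, n⁆ ∈ fbJ.range) (fun i j hij => ?_)
    (fun a b ha hb n hn => ?_) (fun n _ => ?_) (fun a b ha hb n hn => ?_) (fun c a ha n hn => ?_) v
  · rintro _ ⟨w, rfl⟩
    refine free_ind (p := fun w => ⁅t i j, fbJ w⁆ ∈ fbJ.range) (fun k => ?_)
      (fun a b ha hb => ?_) ?_ (fun a b ha hb => ?_) (fun c a ha => ?_) w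
    · rw [fbJ, FreeLieAlgebra.lift_of_apply]
      fin_cases k <;> exact fb_gen hij (by decide)
    · rw [LieHom.map_lie, leibniz_lie]
      exact fbJ.range.add_mem (fbJ.range.lie_mem ha ⟨b, rfl⟩) (fbJ.range.lie_mem ⟨a, rfl⟩ hb)
    · rw [map_zero, fb_zero]; exact fbJ.range.zero_mem
    · rw [map_add, fb_add]; exact fbJ.range.add_mem ha hb
    · rw [map_smul, fb_smul]; exact fbJ.range.smul_mem c ha
  · rw [lie_lie]; exact fbJ.range.sub_mem (ha _ (hb n hn)) (hb _ (ha n hn))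
  · rw [zero_lie]; exact fbJ.range.zero_mem
  · rw [add_lie]; exact fbJ.range.add_mem (ha n hn) (hb n hn)
  · rw [smul_lie]; exact fbJ.range.smul_mem c (ha n hn)

lemma fb_kappa : ∃ κ : T4 →ₗ⁅ℚ⁆ T4, (∀ i j, i ≠ j → κ (t i j) = if i = 3 ∨ j = 3 then 0 else t i j) ∧
    ∀ v, v - κ v ∈ fbJ.range := by
  obtain ⟨κ, hκ⟩ := exists_lift (fun i j => if i = 3 ∨ j = 3 then 0 else t i j)
    (fun i j hij => by simp only [or_comm, t4_rel.1 i j hij])
    (fun i j k l h => by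
      split_ifs
      exacts [lie_zero _, zero_lie _, lie_zero _, t4_rel.2.1 i j k l h])
    (fun i j k h => by
      by_cases h1 : i = 3 ∨ j = 3
      · rw [if_pos h1, zero_lie]
      by_cases h2 : k = 3
      · simp [h2]
      push Not at h1
      simpa only [h1.1, h1.2, h2, or_self, if_false] using t4_rel.2.2 i j k h)
  refine ⟨κ, hκ, fb_ind (fun i j hij => ?_) (fun a b ha hb => ?_) ?_ (fun a b ha hb => ?_)
    fun c a ha => ?_⟩
  · rw [hκ i j hij]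
    split_ifs with h
    · rw [sub_zero]; exact fb_mem' hij h
    · rw [sub_self]; exact fbJ.range.zero_mem
  · have e : ⁅a, b⁆ - κ ⁅a, b⁆ = ⁅κ a, b - κ b⁆ - ⁅b, a - κ a⁆ := by
      rw [LieHom.map_lie, fb_sub, fb_sub, ← lie_skew a b, ← lie_skew (κ a) b]; abel
    rw [e]
    exact fbJ.range.sub_mem (fb_ideal _ _ hb) (fb_ideal _ _ ha)
  · rw [map_zero, sub_self]; exact fbJ.range.zero_mem
  · rw [map_add, add_sub_add_comm]; exact fbJ.range.add_mem ha hb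
  · rw [map_smul, ← smul_sub]; exact fbJ.range.smul_mem c ha

lemma fb_sb_x {g : Type} [LieRing g] [LieAlgebra ℚ g] (a b : g) : sb a b x = a :=
  FreeLieAlgebra.lift_of_apply _ _

lemma fb_sb_y {g : Type} [LieRing g] [LieAlgebra ℚ g] (a b : g) : sb a b y = b :=
  FreeLieAlgebra.lift_of_apply _ _

lemma fb_io_sb (a b : L) (ψ : L) : io (sb a b ψ) = ev ![io a, io b] (io ψ) := by
  rw [map_sb, sb_eq_ev]

lemma fb_sb0 {ψ : L} (h : io ψ ∈ Pent ℚ) {g : Type} [LieRing g] [LieAlgebra ℚ g] (a : g) :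
    sb a 0 ψ = 0 := by
  have h1 : sb x 0 ψ = 0 := io_injective_fin (by
    rw [fb_io_sb, map_zero]; exact Pent.ev_x0 h _)
  have h2 := map_sb (sb a 0) x 0 ψ
  rw [h1, map_zero, fb_sb_x] at h2
  exact h2.symm

theorem pentagon_of_Pent {ψ : L} (h : io ψ ∈ Pent ℚ) :
    sb (t 0 1) (t 1 2 + t 1 3) ψ + sb (t 0 2 + t 1 2) (t 2 3) ψ =
      sb (t 1 2) (t 2 3) ψ + sb (t 0 1 + t 0 2) (t 1 3 + t 2 3) ψ + sb (t 0 1) (t 1 2) ψ := by
  rw [← sub_eq_zero]
  set v := sb (t 0 1) (t 1 2 + t 1 3) ψ + sb (t 0 2 + t 1 2) (t 2 3) ψ -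
    (sb (t 1 2) (t 2 3) ψ + sb (t 0 1 + t 0 2) (t 1 3 + t 2 3) ψ + sb (t 0 1) (t 1 2) ψ) with hv
  obtain ⟨κ, hκ, hN⟩ := fb_kappa
  obtain ⟨ρ, r1, r2, r3, r4, r5, r6⟩ := exists_lift_t4f (rep_t4f (R := ℚ))
  have h1 : κ v = 0 := by
    simp only [hv, map_sub, map_add, map_sb, hκ 0 1 (by decide), hκ 1 2 (by decide),
      hκ 1 3 (by decide), hκ 0 2 (by decide), hκ 2 3 (by decide), or_true, if_true, add_zero,
      fb_sb0 h, zero_add, sub_self]
  have h2 : ρ v = 0 := by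
    simp only [hv, map_sub, map_add, map_sb, r1, r2, r4, r5, r6, sb_eq_ev]
    exact sub_eq_zero.2 ((rep_t4f (R := ℚ)).pent h)
  obtain ⟨w, hw⟩ := hN v
  rw [h1, sub_zero] at hw
  have h3 : ρ (fbJ w) = LinearMap.mulLeft ℚ (io w) := by
    have e : ρ.comp fbJ = FreeLieAlgebra.lift ℚ fun i =>
        (LinearMap.mulLeft ℚ (lt i) : Module.End ℚ (T ℚ (Fin 3))) := by
      refine FreeLieAlgebra.hom_ext fun i => ?_
      rw [LieHom.comp_apply, fbJ, FreeLieAlgebra.lift_of_apply, FreeLieAlgebra.lift_of_apply]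
      fin_cases i
      exacts [r3, r5, r6]
    rw [← LieHom.comp_apply, e, ← ev_io, ev_mulLeft, ev_lt_id]
  have h4 : io w = io 0 := by
    have := LinearMap.congr_fun (h3.symm.trans ((congrArg ρ hw).trans h2)) 1
    simpa using this
  rw [← hw, io_injective_fin h4]
  exact map_zero _

theorem mem_W {ψ : L} {n : ℕ} (hn : 3 ≤ n) (h : io ψ ∈ Pent ℚ) (hg : io ψ ∈ Hg ℚ one n) :
    ψ ∈ W := by
  refine ⟨io_injective_fin ?_, io_injective_fin ?_, pentagon_of_Pent h⟩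
  · rw [map_add, fb_io_sb, fb_io_sb, map_zero]
    exact Pent.two_cycle h hg _ _
  · rw [map_add, map_add, fb_io_sb, fb_io_sb, fb_io_sb, map_zero, map_sub, map_neg]
    exact Pent.three_cycle h hn hg _ _

theorem W_two {ψ : L} (h : ψ ∈ W) (h2 : ψ ∈ Lw 2) : ψ = 0 := by
  have key := Hom_ind (R := ℚ) (f := FreeLieAlgebra.of ℚ) (wt := fun _ : Fin 2 => 1)
    (p := fun n a => (n = 1 → ∃ α β : ℚ, a = α • x + β • y) ∧ (n = 2 → ∃ c : ℚ, a = c • ⁅x, y⁆))
    (fun i => ⟨fun _ => by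
      fin_cases i
      exacts [⟨1, 0, by simp [x]⟩, ⟨0, 1, by simp [y]⟩], fun h => by simp at h⟩)
    (fun m n a b ha hb pa pb => by
      have h1 := ha.le (m := 1) fun _ => le_rfl
      have h2 := hb.le (m := 1) fun _ => le_rfl
      refine ⟨fun h => by omega, fun h => ?_⟩
      obtain ⟨α, β, rfl⟩ := pa.1 (by omega)
      obtain ⟨γ, δ, rfl⟩ := pb.1 (by omega)
      refine ⟨α * δ - β * γ, ?_⟩
      simp only [add_lie, lie_add, smul_lie, lie_smul, lie_self, ← lie_skew y x]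
      module)
    (fun n => ⟨fun _ => ⟨0, 0, by simp⟩, fun _ => ⟨0, by simp⟩⟩)
    (fun n a b pa pb => ⟨fun h => by
      obtain ⟨α, β, rfl⟩ := pa.1 h
      obtain ⟨γ, δ, rfl⟩ := pb.1 h
      exact ⟨α + γ, β + δ, by module⟩, fun h => by
      obtain ⟨α, rfl⟩ := pa.2 h
      obtain ⟨γ, rfl⟩ := pb.2 h
      exact ⟨α + γ, by module⟩⟩)
    (fun n c a pa => ⟨fun h => by
      obtain ⟨α, β, rfl⟩ := pa.1 h
      exact ⟨c * α, c * β, by module⟩, fun h => by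
      obtain ⟨α, rfl⟩ := pa.2 h
      exact ⟨c * α, by module⟩⟩) h2
  obtain ⟨c, rfl⟩ := key.2 rfl
  have h3 := h.2.1
  simp only [ThreeCycle, map_smul, LieHom.map_lie, fb_sb_x, fb_sb_y, lie_sub, sub_lie, lie_neg, neg_lie,
    lie_self, ← lie_skew y x] at h3
  linear_combination (norm := module) (1 / 3 : ℚ) • h3

end Vale.Agent.P029
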