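import Vale.Agent.P029.Basic

/-!
Weights, filtrations and homogeneous components of `T R X`.

Plan: everything is by `ind_supp` (induction over the words occurring in `u`) plus induction on the
word. `Fil`/`Hg` are spanned by words. For products: `wd v * wd w = wd (v ++ w)`.
`vander`: apply a linear functional (or use `Polynomial.funext` / Lagrange) ; over an infinite field a
polynomial vanishing everywhere is zero; `Module.forall_dual_apply_eq_zero_iff`.
-/

namespace Vale.Agent.P029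

variable {R : Type} [CommRing R] {X Y : Type} {B B' : Type} [Ring B] [Algebra R B] [Ring B']
  [Algebra R B']

/-- all letters have weight one -/
abbrev one : X → ℕ := fun _ => 1

/-- weight counting the letter `y = 1` -/
abbrev wy : Fin 2 → ℕ := ![0, 1]

def wgt (wt : X → ℕ) (w : List X) : ℕ := (w.map wt).sum

@[simp] lemma wgt_nil (wt : X → ℕ) : wgt wt [] = 0 := rfl
@[simp] lemma wgt_cons (wt : X → ℕ) (i : X) (w : List X) : wgt wt (i :: w) = wt i + wgt wt w := by
  simp [wgt]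
@[simp] lemma wgt_append (wt : X → ℕ) (v w : List X) : wgt wt (v ++ w) = wgt wt v + wgt wt w := by
  simp [wgt]
@[simp] lemma wgt_one (w : List X) : wgt one w = w.length := by simp [wgt]

/-- elements all of whose words have weight `≥ k` -/
def Fil (R : Type) [CommRing R] (wt : X → ℕ) (k : ℕ) : Submodule R (T R X) where
  carrier := {u | ∀ w, wgt wt w < k → cf w u = 0}
  zero_mem' := by simp
  add_mem' := by intro a b ha hb w hw; simp [ha w hw, hb w hw]
  smul_mem' := by intro c a ha w hw; simp [ha w hw]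

/-- homogeneous elements of weight `n` -/
def Hg (R : Type) [CommRing R] (wt : X → ℕ) (n : ℕ) : Submodule R (T R X) where
  carrier := {u | ∀ w, wgt wt w ≠ n → cf w u = 0}
  zero_mem' := by simp
  add_mem' := by intro a b ha hb w hw; simp [ha w hw, hb w hw]
  smul_mem' := by intro c a ha w hw; simp [ha w hw]

lemma mem_Fil {wt : X → ℕ} {k : ℕ} {u : T R X} :
    u ∈ Fil R wt k ↔ ∀ w, wgt wt w < k → cf w u = 0 := Iff.rfl

lemma mem_Hg {wt : X → ℕ} {n : ℕ} {u : T R X} :
    u ∈ Hg R wt n ↔ ∀ w, wgt wt w ≠ n → cf w u = 0 := Iff.rfl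

/-- the component of weight `n` -/
noncomputable def pr (wt : X → ℕ) (n : ℕ) : T R X →ₗ[R] T R X where
  toFun u := .ofCoeff (u.coeff.filter fun w => wgt wt (FreeMonoid.toList w) = n)
  map_add' _ _ := by ext; simp [Finsupp.filter_add]
  map_smul' _ _ := by ext; simp [Finsupp.filter_smul]

lemma cf_pr (wt : X → ℕ) (n : ℕ) (w : List X) (u : T R X) :
    cf w (pr wt n u) = if wgt wt w = n then cf w u else 0 := by
  exact Finsupp.filter_apply (fun w => wgt wt (FreeMonoid.toList w) = n) u.coeff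
    (FreeMonoid.ofList w)

/-- a multiplicative decreasing filtration -/
structure IsFil (F : ℕ → Submodule R B) : Prop where
  top : F 0 = ⊤
  anti : Antitone F
  mul : ∀ {j k a b}, a ∈ F j → b ∈ F k → a * b ∈ F (j + k)

lemma IsFil.mul_left {F : ℕ → Submodule R B} (hF : IsFil F) {k : ℕ} (a : B) {b : B}
    (hb : b ∈ F k) : a * b ∈ F k := by
  simpa using hF.mul (j := 0) (a := a) (by simp [hF.top]) hb

lemma IsFil.mul_right {F : ℕ → Submodule R B} (hF : IsFil F) {k : ℕ} {a : B} (b : B)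
    (ha : a ∈ F k) : a * b ∈ F k := by
  simpa using hF.mul (k := 0) (b := b) ha (by simp [hF.top])

lemma IsFil.pow_mem {F : ℕ → Submodule R B} (hF : IsFil F) {a : B} (ha : a ∈ F 1) (k : ℕ) :
    a ^ k ∈ F k := by
  induction k with
  | zero => simp [hF.top]
  | succ k ih => rw [pow_succ]; exact hF.mul ih ha

lemma IsFil.isNilpotent {F : ℕ → Submodule R B} (hF : IsFil F) {N : ℕ} (hN : F N = ⊥) {a : B}
    (ha : a ∈ F 1) : IsNilpotent a := by
  exact ⟨N, by simpa [hN] using hF.pow_mem ha N⟩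

lemma IsFil.isUnit {F : ℕ → Submodule R B} (hF : IsFil F) {N : ℕ} (hN : F N = ⊥) {a : B}
    (ha : a - 1 ∈ F 1) : IsUnit a := by
  simpa using (hF.isNilpotent hN ha).isUnit_add_one

lemma IsFil.map {F : ℕ → Submodule R B} (hF : IsFil F) (φ : B →ₐ[R] B')
    (hφ : Function.Surjective φ) : IsFil fun k => (F k).map φ.toLinearMap := by
  refine ⟨?_, fun j k h => Submodule.map_mono (hF.anti h), ?_⟩
  · rw [hF.top, Submodule.map_top]
    exact LinearMap.range_eq_top.2 hφ
  · rintro j k _ _ ⟨a, ha, rfl⟩ ⟨b, hb, rfl⟩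
    exact ⟨a * b, hF.mul ha hb, map_mul φ a b⟩

lemma fil_map_mem {M : Type} [AddCommGroup M] [Module R M] (S : Submodule R M)
    (φ : T R X →ₗ[R] M) (u : T R X) (h : ∀ w, cf w u ≠ 0 → φ (wd w) ∈ S) : φ u ∈ S :=
  ind_supp (p := fun u => φ u ∈ S) u (by simp) h
    (fun a b ha hb => by rw [map_add]; exact S.add_mem ha hb)
    (fun c a ha => by rw [map_smul]; exact S.smul_mem c ha)

lemma fil_mul_mem (S : Submodule R (T R X)) (u v : T R X)
    (h : ∀ w w', cf w u ≠ 0 → cf w' v ≠ 0 → wd (w ++ w') ∈ S) : u * v ∈ S :=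
  fil_map_mem S (LinearMap.mulRight R v) u fun w hw =>
    fil_map_mem S (LinearMap.mulLeft R (wd w)) v fun w' hw' => by
      simpa [wd_append] using h w w' hw hw'

lemma fil_wd_mem {wt : X → ℕ} {k : ℕ} {w : List X} (h : k ≤ wgt wt w) :
    (wd w : T R X) ∈ Fil R wt k :=
  fun v hv => cf_wd_ne (by rintro rfl; omega)

lemma fil_le_wgt {wt : X → ℕ} {k : ℕ} {u : T R X} (hu : u ∈ Fil R wt k) {w : List X}
    (h : cf w u ≠ 0) : k ≤ wgt wt w := not_lt.1 fun h' => h (hu w h')

lemma fil_wgt_eq {wt : X → ℕ} {k : ℕ} {u : T R X} (hu : u ∈ Hg R wt k) {w : List X}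
    (h : cf w u ≠ 0) : wgt wt w = k := not_not.1 fun h' => h (hu w h')

lemma isFil_Fil (wt : X → ℕ) : IsFil (Fil R wt) := by
  refine ⟨eq_top_iff.2 fun u _ w hw => absurd hw (Nat.not_lt_zero _),
    fun j k h u hu w hw => hu w (hw.trans_le h), fun {j k a b} ha hb => ?_⟩
  refine fil_mul_mem _ a b fun w w' hw hw' => fil_wd_mem ?_
  rw [wgt_append]
  exact add_le_add (fil_le_wgt ha hw) (fil_le_wgt hb hw')

lemma wd_mem_Hg (wt : X → ℕ) (w : List X) : (wd w : T R X) ∈ Hg R wt (wgt wt w) := by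
  exact fun v hv => cf_wd_ne (by rintro rfl; exact hv rfl)

lemma lt_mem_Hg (wt : X → ℕ) (i : X) : (lt i : T R X) ∈ Hg R wt (wt i) := by
  simpa [lt] using wd_mem_Hg (R := R) wt [i]

lemma one_mem_Hg (wt : X → ℕ) : (1 : T R X) ∈ Hg R wt 0 := by
  simpa using wd_mem_Hg (R := R) wt []

lemma mul_mem_Hg {wt : X → ℕ} {m n : ℕ} {u v : T R X} (hu : u ∈ Hg R wt m) (hv : v ∈ Hg R wt n) :
    u * v ∈ Hg R wt (m + n) := by
  refine fil_mul_mem _ u v fun w w' hw hw' => ?_
  rw [← fil_wgt_eq hu hw, ← fil_wgt_eq hv hw', ← wgt_append]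
  exact wd_mem_Hg wt _

lemma lie_mem_Hg {wt : X → ℕ} {m n : ℕ} {u v : T R X} (hu : u ∈ Hg R wt m) (hv : v ∈ Hg R wt n) :
    ⁅u, v⁆ ∈ Hg R wt (m + n) := by
  rw [Ring.lie_def]
  exact Submodule.sub_mem _ (mul_mem_Hg hu hv) (add_comm n m ▸ mul_mem_Hg hv hu)

lemma Hg_le_Fil (wt : X → ℕ) (n : ℕ) : Hg R wt n ≤ Fil R wt n := by
  exact fun u hu w hw => hu w hw.ne

lemma lt_mem_Fil (wt : X → ℕ) (i : X) : (lt i : T R X) ∈ Fil R wt (wt i) :=
  Hg_le_Fil _ _ (lt_mem_Hg wt i)

lemma pr_mem (wt : X → ℕ) (n : ℕ) (u : T R X) : pr wt n u ∈ Hg R wt n := by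
  intro w hw
  rw [cf_pr, if_neg hw]

lemma pr_of_mem {wt : X → ℕ} {n : ℕ} {u : T R X} (h : u ∈ Hg R wt n) : pr wt n u = u := by
  refine cf_ext fun w => ?_
  rw [cf_pr]
  split_ifs with h'
  · rfl
  · exact (h w h').symm

lemma pr_of_ne {wt : X → ℕ} {m n : ℕ} {u : T R X} (h : u ∈ Hg R wt m) (hmn : m ≠ n) :
    pr wt n u = 0 := by
  refine cf_ext fun w => ?_
  rw [cf_pr, map_zero]
  split_ifs with h'
  · exact h w (by omega)
  · rfl

lemma pr_of_Fil {wt : X → ℕ} {m n : ℕ} {u : T R X} (h : u ∈ Fil R wt m) (hmn : n < m) :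
    pr wt n u = 0 := by
  refine cf_ext fun w => ?_
  rw [cf_pr, map_zero]
  split_ifs with h'
  · exact h w (by omega)
  · rfl

lemma sub_pr_mem {wt : X → ℕ} {m : ℕ} {u : T R X} (h : u ∈ Fil R wt m) :
    u - pr wt m u ∈ Fil R wt (m + 1) := by
  intro w hw
  rw [map_sub, cf_pr]
  split_ifs with h'
  · exact sub_self _
  · rw [sub_zero]; exact h w (by omega)

lemma mem_Fil_succ {wt : X → ℕ} {m : ℕ} {u : T R X} (h : u ∈ Fil R wt m) (h0 : pr wt m u = 0) :
    u ∈ Fil R wt (m + 1) := by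
  simpa [h0] using sub_pr_mem h

lemma exists_sum_pr (wt : X → ℕ) (u : T R X) :
    ∃ N, ∀ M, N ≤ M → ∑ k ∈ Finset.range M, pr wt k u = u := by
  refine ⟨(supp u).sup (wgt wt) + 1, fun M hM => cf_ext fun w => ?_⟩
  simp only [map_sum, cf_pr, Finset.sum_ite_eq, Finset.mem_range]
  split_ifs with h
  · rfl
  · by_contra h'
    have := Finset.le_sup (f := wgt wt) (mem_supp.2 (Ne.symm h'))
    omega

lemma pr_sum {wt : X → ℕ} {N n : ℕ} {b : ℕ → T R X} (hb : ∀ k, b k ∈ Hg R wt k) :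
    pr wt n (∑ k ∈ Finset.range N, b k) = if n < N then b n else 0 := by
  rw [map_sum]
  split_ifs with h
  · rw [Finset.sum_eq_single n (fun k _ hk => pr_of_ne (hb k) hk)
      (fun h' => absurd (Finset.mem_range.2 h) h'), pr_of_mem (hb n)]
  · exact Finset.sum_eq_zero fun k hk => pr_of_ne (hb k) (by have := Finset.mem_range.1 hk; omega)

lemma fil_ev_wd {F : ℕ → Submodule R B} (hF : IsFil F) {wt : X → ℕ} {f : X → B}
    (hf : ∀ i, f i ∈ F (wt i)) (w : List X) : ev f (wd w : T R X) ∈ F (wgt wt w) := by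
  induction w with
  | nil => simp [hF.top]
  | cons i w ih => rw [wd_cons, map_mul, ev_lt, wgt_cons]; exact hF.mul (hf i) ih

lemma ev_mem_fil {F : ℕ → Submodule R B} (hF : IsFil F) {wt : X → ℕ} {f : X → B}
    (hf : ∀ i, f i ∈ F (wt i)) {k : ℕ} {u : T R X} (hu : u ∈ Fil R wt k) : ev f u ∈ F k := by
  exact fil_map_mem _ (ev f).toLinearMap u fun w hw =>
    hF.anti (fil_le_wgt hu hw) (fil_ev_wd hF hf w)

lemma dev_mem_fil {F : ℕ → Submodule R B} (hF : IsFil F) {wt : X → ℕ} {f d : X → B} {m : ℕ}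
    (hf : ∀ i, f i ∈ F (wt i)) (hd : ∀ i, d i ∈ F (wt i + m)) {k : ℕ} {u : T R X}
    (hu : u ∈ Fil R wt k) : dev f d u ∈ F (k + m) := by
  refine fil_map_mem _ (dev f d) u fun w hw =>
    hF.anti (Nat.add_le_add_right (fil_le_wgt hu hw) m) ?_
  clear hw
  induction w with
  | nil => simp
  | cons i w ih =>
    rw [wd_cons, dev_mul, dev_lt, ev_lt, wgt_cons]
    refine Submodule.add_mem _ ?_ ?_
    · rw [Nat.add_right_comm]; exact hF.mul (hd i) (fil_ev_wd hF hf w)
    · rw [Nat.add_assoc]; exact hF.mul (hf i) ih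

lemma der_mem_Fil {wt : X → ℕ} {d : X → T R X} {m : ℕ} (hd : ∀ i, d i ∈ Fil R wt (wt i + m))
    {k : ℕ} {u : T R X} (hu : u ∈ Fil R wt k) : der d u ∈ Fil R wt (k + m) :=
  dev_mem_fil (isFil_Fil wt) (lt_mem_Fil wt) hd hu

lemma der_mem_Hg {wt : X → ℕ} {d : X → T R X} {m : ℕ} (hd : ∀ i, d i ∈ Hg R wt (wt i + m))
    {k : ℕ} {u : T R X} (hu : u ∈ Hg R wt k) : der d u ∈ Hg R wt (k + m) := by
  refine fil_map_mem _ (der d) u fun w hw => ?_
  rw [← fil_wgt_eq hu hw]
  clear hw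
  induction w with
  | nil => simp
  | cons i w ih =>
    rw [wd_cons, der_mul, der_lt, wgt_cons]
    refine Submodule.add_mem _ ?_ ?_
    · rw [Nat.add_right_comm]; exact mul_mem_Hg (hd i) (wd_mem_Hg wt w)
    · rw [Nat.add_assoc]; exact mul_mem_Hg (lt_mem_Hg wt i) ih

lemma ev_mem_Hg {wt : X → ℕ} {wt' : Y → ℕ} {f : X → T R Y} (hf : ∀ i, f i ∈ Hg R wt' (wt i))
    {k : ℕ} {u : T R X} (hu : u ∈ Hg R wt k) : ev f u ∈ Hg R wt' k := by
  refine fil_map_mem _ (ev f).toLinearMap u fun w hw => ?_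
  rw [← fil_wgt_eq hu hw]
  clear hw
  show ev f (wd w : T R X) ∈ _
  induction w with
  | nil => simpa using one_mem_Hg wt'
  | cons i w ih => rw [wd_cons, map_mul, ev_lt, wgt_cons]; exact mul_mem_Hg (hf i) ih

lemma ev_smul_Hg (c : R) (f : X → B) {n : ℕ} {u : T R X} (hu : u ∈ Hg R one n) :
    ev (fun i => c • f i) u = c ^ n • ev f u := by
  refine ind_supp (p := fun u => ev (fun i => c • f i) u = c ^ n • ev f u) u (by simp)
    (fun w hw => ?_) (fun a b ha hb => by rw [map_add, map_add, ha, hb, smul_add])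
    (fun r a ha => by rw [map_smul, map_smul, ha, smul_comm])
  rw [← fil_wgt_eq hu hw, wgt_one]
  clear hw
  induction w with
  | nil => simp
  | cons i w ih =>
    rw [wd_cons, map_mul, map_mul, ih, ev_lt, ev_lt, List.length_cons, pow_succ', mul_smul,
      smul_mul_assoc, mul_smul_comm]

lemma bc_mem_Hg (S : Type) [CommRing S] [Algebra R S] {wt : X → ℕ} {n : ℕ} {u : T R X}
    (hu : u ∈ Hg R wt n) : bc S u ∈ Hg S wt n := by
  intro w hw
  rw [cf_bc, hu w hw, map_zero]

/-- `u - u(x, 0)` only contains words with a letter `y` -/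
lemma sub_ev_x0_mem (u : T R (Fin 2)) : u - ev ![(lt 0 : T R (Fin 2)), 0] u ∈ Fil R wy 1 := by
  refine ind_lt (p := fun u => u - ev ![(lt 0 : T R (Fin 2)), 0] u ∈ Fil R wy 1) u (by simp)
    (fun i a ha => ?_) (fun a b ha hb => ?_) (fun c a ha => ?_)
  · rw [map_mul, ev_lt]
    fin_cases i
    · simpa [mul_sub] using (isFil_Fil wy).mul_left (lt 0) ha
    · simpa using (isFil_Fil wy).mul_right a (lt_mem_Fil (R := R) wy 1)
  · rw [map_add, add_sub_add_comm]; exact Submodule.add_mem _ ha hb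
  · rw [map_smul, ← smul_sub]; exact Submodule.smul_mem _ c ha

lemma vander {K M : Type} [Field K] [CharZero K] [AddCommGroup M] [Module K M] (v : ℕ → M) (N : ℕ)
    (h : ∀ c : K, ∑ k ∈ Finset.range N, c ^ k • v k = 0) : ∀ k < N, v k = 0 := by
  intro k hk
  rw [← Module.forall_dual_apply_eq_zero_iff K]
  intro φ
  have hp : (∑ j ∈ Finset.range N, Polynomial.monomial j (φ (v j)) : Polynomial K) = 0 := by
    refine Polynomial.funext fun c => ?_
    have := congrArg φ (h c)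
    simp only [map_sum, map_smul, smul_eq_mul, map_zero] at this
    simp only [Polynomial.eval_finsetSum, Polynomial.eval_monomial, Polynomial.eval_zero]
    rw [← this]
    exact Finset.sum_congr rfl fun j _ => mul_comm _ _
  have := congrArg (fun p : Polynomial K => p.coeff k) hp
  simpa [Polynomial.coeff_monomial, hk] using this

lemma Hg_fg [Finite X] (n : ℕ) : (Hg R (one : X → ℕ) n).FG := by
  have hfin : ((fun w => (wd w : T R X)) '' {w : List X | w.length = n}).Finite :=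
    (List.finite_length_eq X n).image _
  refine Submodule.fg_def.2 ⟨_, hfin, le_antisymm (Submodule.span_le.2 ?_) fun u hu => ?_⟩
  · rintro _ ⟨w, hw, rfl⟩
    have := wd_mem_Hg (R := R) one w
    rwa [wgt_one, show w.length = n from hw] at this
  · refine fil_map_mem _ LinearMap.id u fun w hw => Submodule.subset_span ⟨w, ?_, rfl⟩
    simpa using fil_wgt_eq hu hw

lemma finite_quot_Fil [Finite X] (n : ℕ) : Module.Finite R (T R X ⧸ Fil R (one : X → ℕ) n) := by
  have hfin : ((fun w => (Fil R (one : X → ℕ) n).mkQ (wd w : T R X)) ''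
      {w : List X | w.length < n}).Finite := (List.finite_length_lt X n).image _
  refine ⟨Submodule.fg_def.2 ⟨_, hfin, eq_top_iff.2 fun q _ => ?_⟩⟩
  obtain ⟨u, rfl⟩ := (Fil R (one : X → ℕ) n).mkQ_surjective q
  refine fil_map_mem _ _ u fun w _ => ?_
  by_cases h : w.length < n
  · exact Submodule.subset_span ⟨w, h, rfl⟩
  · have h0 : (Fil R (one : X → ℕ) n).mkQ (wd w : T R X) = 0 :=
      (Submodule.Quotient.mk_eq_zero _).2 (fil_wd_mem (by simpa using h))
    rw [h0]
    exact Submodule.zero_mem _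

/-- coefficient of `x^(n-1) y` -/
noncomputable def kap (n : ℕ) : T R (Fin 2) →ₗ[R] R := cf (List.replicate (n - 1) 0 ++ [1])

lemma fil_wgt_kap {n : ℕ} (hn : 1 ≤ n) :
    wgt one (List.replicate (n - 1) (0 : Fin 2) ++ [1]) = n := by
  rw [wgt_one, List.length_append, List.length_replicate, List.length_singleton]; omega

lemma kap_of_Y {n : ℕ} {u : T R (Fin 2)} (hu : u ∈ Fil R wy 2) : kap n u = 0 := by
  exact hu _ (by simp [wgt])

lemma kap_of_Fil {n : ℕ} (hn : 1 ≤ n) {u : T R (Fin 2)} (hu : u ∈ Fil R one (n + 1)) :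
    kap n u = 0 := by
  exact hu _ (by rw [fil_wgt_kap hn]; omega)

lemma kap_of_Hg {m n : ℕ} (hn : 1 ≤ n) (hmn : m ≠ n) {u : T R (Fin 2)} (hu : u ∈ Hg R one m) :
    kap n u = 0 := by
  exact hu _ (by rw [fil_wgt_kap hn]; omega)

lemma kap_pr {n : ℕ} (hn : 1 ≤ n) (u : T R (Fin 2)) : kap n (pr one n u) = kap n u := by
  unfold kap
  rw [cf_pr, if_pos (fil_wgt_kap hn)]

end Vale.Agent.P029
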