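import Vale.Agent.P029.Ap
import Vale.Agent.P029.EkF
import Vale.Agent.P029.Desc

/-!
The main induction: generators, spanning and injectivity over `ℤ`.
-/

namespace Vale.Agent.P029

attribute [local instance 100] LieRing.ofAssociativeRing

lemma zero_of_halving {α : Type} (S : Set α) (f : α → ℤ) (h : ∀ a ∈ S, ∃ b ∈ S, f a = 2 * f b) :
    ∀ a ∈ S, f a = 0 := by
  have key : ∀ N : ℕ, ∀ a ∈ S, (f a).natAbs ≤ N → f a = 0 := by
    intro N
    induction N with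
    | zero => intro a _ h0; omega
    | succ N ih =>
      intro a ha hN
      obtain ⟨b, hb, e⟩ := h a ha
      have := ih b hb (by omega)
      omega
  exact fun a ha => key _ a ha le_rfl

lemma Ev2.intCast_mul {ℓ : T ℤ (Fin 2)} {a : T ℤ ℕ} (h : Ev2 ℓ a) (c : ℤ) :
    Ev2 ((c : T ℤ (Fin 2)) * ℓ) ((c : T ℤ ℕ) * a) := by
  intro C _ h2 X Y hY; simp [h C h2 X Y hY]

lemma Ev2.of_odd {ℓ : T ℤ (Fin 2)} {a : T ℤ ℕ} {c : ℤ} (hc : Odd c)
    (h : Ev2 ℓ ((c : T ℤ ℕ) * a)) : Ev2 ℓ a := by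
  intro C _ h2 X Y hY
  obtain ⟨j, rfl⟩ := hc
  rw [h C h2 X Y hY]; simp [map_ofNat, h2]

lemma Ev2.of_even {ℓ : T ℤ (Fin 2)} {a : T ℤ ℕ} {c : ℤ} (hc : Even c)
    (h : Ev2 ℓ ((c : T ℤ ℕ) * a)) : Ev2 ℓ 0 := by
  intro C _ h2 X Y hY
  obtain ⟨j, rfl⟩ := hc
  rw [h C h2 X Y hY, ← two_mul]; simp [map_ofNat, h2]

lemma wF_le {g : Type} [LieRing g] {f : ℕ → g} {n : ℕ} {a : g} (h : IsMon f wF n a) : 3 ≤ n :=
  h.le fun i => by simp

theorem real_all (n : ℕ) : ∀ a ∈ HT ℤ wF n, ∃ d ∈ Lam n, Ev2 d a := by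
  induction n using Nat.strong_induction_on with
  | _ n ih =>
  set k := (n - 3) / 2 with hk
  have key : ∀ a ∈ HT ℤ wF n, ∃ (c : ℤ), ∃ d ∈ Lam n, kap n d = 0 ∧ (2 * k + 3 ≠ n → c = 0) ∧
      Ev2 d (a - (c : T ℤ ℕ) * lt k) := by
    intro a ha
    refine Hom_ind_int (f := lt) (wt := wF) (p := fun m a => m = n → ∃ (c : ℤ), ∃ d ∈ Lam n,
      kap n d = 0 ∧ (2 * k + 3 ≠ n → c = 0) ∧ Ev2 d (a - (c : T ℤ ℕ) * lt k))
      ?_ ?_ ?_ ?_ ?_ ha rfl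
    · intro i hi
      have : i = k := by simp only [wF] at hi; omega
      subst this
      exact ⟨1, 0, zero_mem _, by simp, fun h => absurd hi h, by simpa using Ev2.zero⟩
    · intro m1 m2 a b ha hb _ _ hm
      have h1 := wF_le ha
      have h2 := wF_le hb
      obtain ⟨d1, hd1, e1⟩ := ih m1 (by omega) a ha.mem
      obtain ⟨d2, hd2, e2⟩ := ih m2 (by omega) b hb.mem
      exact ⟨0, Vale.Agent.P029.ih d1 d2, hm ▸ ih_mem_Lam hd1 h1 hd2 h2, kap_ih hd1 hd2,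
        fun _ => rfl, by simpa using e1.ih e2⟩
    · intro m _
      exact ⟨0, 0, zero_mem _, by simp, fun _ => rfl, by simpa using Ev2.zero⟩
    · intro m a b ha hb hm
      obtain ⟨c1, d1, h1, k1, l1, e1⟩ := ha hm
      obtain ⟨c2, d2, h2, k2, l2, e2⟩ := hb hm
      refine ⟨c1 + c2, d1 + d2, add_mem h1 h2, by simp [k1, k2], fun h => by simp [l1 h, l2 h], ?_⟩
      convert e1.add e2 using 1
      push_cast; noncomm_ring
    · intro m a ha hm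
      obtain ⟨c1, d1, h1, k1, l1, e1⟩ := ha hm
      refine ⟨-c1, -d1, neg_mem h1, by simp [k1], fun h => by simp [l1 h], ?_⟩
      convert e1.neg using 1
      push_cast; noncomm_ring
  intro a ha
  obtain ⟨c, d, hd, -, hc, e⟩ := key a ha
  by_cases hn : 2 * k + 3 = n
  swap
  · exact ⟨d, hd, by simpa [hc hn] using e⟩
  have hn3 : 3 ≤ n := by omega
  obtain ⟨σ, hσ, eσ⟩ : ∃ σ ∈ Lam n, Ev2 σ (lt k) := by
    by_contra hne
    obtain ⟨ℓ, hℓ, hκ⟩ := exists_kap hn3 ⟨k + 1, by omega⟩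
    refine hκ (zero_of_halving (Lam n) (kap n) (fun ℓ hℓ => ?_) ℓ hℓ)
    obtain ⟨a, ha, ea⟩ := mod2_form hℓ hn3
    obtain ⟨c, d, hd, kd, -, e⟩ := key a ha
    have e' : Ev2 (ℓ - d) ((c : T ℤ ℕ) * lt k) := by simpa using ea.sub e
    rcases Int.even_or_odd c with hc | hc
    · obtain ⟨ℓ', hℓ', h⟩ := lam_half (sub_mem hℓ hd) hn3 (e'.of_even hc)
      refine ⟨ℓ', hℓ', ?_⟩
      have := congrArg (kap n) h
      rw [map_sub, map_add, kd] at this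
      omega
    · exact absurd ⟨ℓ - d, sub_mem hℓ hd, e'.of_odd hc⟩ hne
  refine ⟨d + (c : T ℤ (Fin 2)) * σ, add_mem hd ?_, by simpa using e.add (eσ.intCast_mul c)⟩
  rw [← zsmul_eq_mul]; exact zsmul_mem hσ c

theorem exists_sigma (k : ℕ) : ∃ σ ∈ Lam (2 * k + 3), Ev2 σ (lt k) :=
  real_all _ _ (lt_mem_HT wF k)

variable {σ : ℕ → T ℤ (Fin 2)}

theorem Phi_mem (hσ : ∀ k, σ k ∈ Lam (2 * k + 3)) {n : ℕ} {b : FreeLieAlgebra ℤ ℕ}
    (hb : b ∈ Hom ℤ (FreeLieAlgebra.of ℤ) wF n) : Phi σ b ∈ Lam n := by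
  refine Hom_ind_int (p := fun n b => Phi σ b ∈ Lam n) ?_ ?_ ?_ ?_ ?_ hb
  · intro i; rw [Phi_of]; exact hσ i
  · intro m n a b ha hb h1 h2; rw [Phi_lie]; exact ih_mem_Lam h1 (wF_le ha) h2 (wF_le hb)
  · intro n; rw [map_zero]; exact zero_mem _
  · intro n a b h1 h2; rw [map_add]; exact add_mem h1 h2
  · intro n a h1; rw [map_neg]; exact neg_mem h1

theorem Phi_ev (hσ : ∀ k, Ev2 (σ k) (lt k)) (b : FreeLieAlgebra ℤ ℕ) : Ev2 (Phi σ b) (io b) := by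
  obtain ⟨N, b, hb, rfl⟩ := exists_sum_Hom wF b
  refine Finset.sum_induction _ (fun b => Ev2 (Phi σ b) (io b)) ?_ ?_ fun k _ => ?_
  · intro a b h1 h2; rw [map_add, map_add]; exact h1.add h2
  · rw [map_zero, map_zero]; exact Ev2.zero
  refine Hom_ind_int (p := fun _ b => Ev2 (Phi σ b) (io b)) ?_ ?_ ?_ ?_ ?_ (hb k)
  · intro i; rw [Phi_of, io_of]; exact hσ i
  · intro m n a b _ _ h1 h2; rw [Phi_lie, LieHom.map_lie]; exact h1.ih h2
  · intro n; rw [map_zero, map_zero]; exact Ev2.zero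
  · intro n a b h1 h2; rw [map_add, map_add]; exact h1.add h2
  · intro n a h1; rw [map_neg, map_neg]; exact h1.neg

lemma wF_pos (i : ℕ) : 0 < wF i := by simp

lemma wF_fin (k : ℕ) : {i | wF i = k}.Finite :=
  (Set.finite_Iic k).subset fun i hi => by
    simp only [wF, Set.mem_ofPred_eq] at hi; simp only [Set.mem_Iic]; omega

theorem Phi_inj (hσ : ∀ k, Ev2 (σ k) (lt k)) {b : FreeLieAlgebra ℤ ℕ} (hb : Phi σ b = 0) :
    b = 0 := by
  apply io_injective wF_pos wF_fin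
  rw [map_zero]
  refine cf_ext fun w => ?_
  rw [map_zero]
  refine zero_of_halving {b | Phi σ b = 0} (fun b => cf w (io b)) (fun b hb => ?_) b hb
  have h := Phi_ev hσ b
  rw [show Phi σ b = 0 from hb] at h
  obtain ⟨b', rfl⟩ := sat2_all wF_pos wF_fin (Ek_free h)
  refine ⟨b', cf_ext fun v => ?_, by simp only [map_add]; ring⟩
  have := congrArg (cf v) (show Phi σ (b' + b') = 0 from hb)
  simp only [map_add, map_zero] at this ⊢
  omega

theorem Phi_span (hσ : ∀ k, σ k ∈ Lam (2 * k + 3)) (hσ' : ∀ k, Ev2 (σ k) (lt k)) {n : ℕ}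
    (hn : 3 ≤ n) {ℓ : T ℤ (Fin 2)} (h : ℓ ∈ Lam n) :
    ∃ r : ℤ, r ≠ 0 ∧ ∃ b ∈ Hom ℤ (FreeLieAlgebra.of ℤ) wF n, Phi σ b = r • ℓ := by
  let P : Submodule ℤ (T ℤ (Fin 2)) := (Lam n).toIntSubmodule
  let N : Submodule ℤ (T ℤ (Fin 2)) := (Hom ℤ (FreeLieAlgebra.of ℤ) wF n).map (Phi σ)
  have hle : P ≤ Hg ℤ one n := fun u hu => HT_le_Hg n hu.1
  have hfg : P.FG := Submodule.FG.of_le (Hg_fg n) hle
  have hPN : P ≤ N ⊔ Ideal.span {(2 : ℤ)} • P := by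
    intro u hu
    obtain ⟨a, ha, ea⟩ := mod2_form hu hn
    rw [HT_eq_map] at ha
    obtain ⟨b, hb, rfl⟩ := ha
    have e : Ev2 (u - Phi σ b) 0 := by simpa using ea.sub (Phi_ev hσ' b)
    obtain ⟨u', hu', h'⟩ := lam_half (sub_mem hu (Phi_mem hσ hb)) hn e
    have : u = Phi σ b + (2 : ℤ) • u' := by rw [two_smul, ← h']; abel
    rw [this]
    exact Submodule.add_mem_sup ⟨b, hb, rfl⟩
      (Submodule.smul_mem_smul (Ideal.mem_span_singleton_self _) hu')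
  obtain ⟨r, hr, hrP⟩ := Submodule.exists_sub_one_mem_and_smul_le_of_fg_of_le_sup hfg le_rfl hPN
  refine ⟨r, ?_, ?_⟩
  · rintro rfl
    rw [Ideal.mem_span_singleton] at hr
    omega
  · obtain ⟨b, hb, e⟩ := hrP (Submodule.smul_mem_pointwise_smul ℓ r P h)
    exact ⟨b, hb, e⟩

end Vale.Agent.P029
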