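import Vale.Agent.P029.FaithB
import Vale.Agent.P029.Main

/-!
The Deligne–Drinfeld conjecture.
-/

namespace Vale.Agent.P029

attribute [local instance 100] LieRing.ofAssociativeRing

lemma io_inj : Function.Injective (io : L → T ℚ (Fin 2)) := io_injective_fin

lemma io_x : io x = (lt 0 : T ℚ (Fin 2)) := io_of _

lemma io_y : io y = (lt 1 : T ℚ (Fin 2)) := io_of _

lemma mem_Lw {ψ : L} {n : ℕ} : ψ ∈ Lw n ↔ io ψ ∈ HT ℚ one n := by
  rw [HT_eq_map]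
  refine ⟨fun h => ⟨ψ, h, rfl⟩, ?_⟩
  rintro ⟨φ, h, e⟩
  rwa [← io_inj e]

lemma exists_back : ∃ g : T ℚ (Fin 2) →ₗ[ℚ] L, ∀ ψ, g (io ψ) = ψ := by
  obtain ⟨g, hg⟩ := LinearMap.exists_leftInverse_of_injective
    (io : L →ₗ⁅ℚ⁆ T ℚ (Fin 2)).toLinearMap (LinearMap.ker_eq_bot.2 io_inj)
  exact ⟨g, fun ψ => DFunLike.congr_fun hg ψ⟩

lemma Dy_io (ψ φ : L) : ∃ χ : L, io χ = Dy (io ψ) (io φ) := by
  refine free_ind (p := fun φ : L => ∃ χ : L, io χ = Dy (io ψ) (io φ)) ?_ ?_ ?_ ?_ ?_ φ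
  · intro i
    fin_cases i
    · exact ⟨0, by simp⟩
    · exact ⟨⁅y, ψ⁆, by simp [io_y]⟩
  · rintro a b ⟨a', ha⟩ ⟨b', hb⟩
    exact ⟨⁅a', b⁆ + ⁅a, b'⁆, by
      simp only [map_add, LieHom.map_lie, ha, hb, (isDer_Dy (io ψ)).lie]⟩
  · exact ⟨0, by simp⟩
  · rintro a b ⟨a', ha⟩ ⟨b', hb⟩
    exact ⟨a' + b', by simp only [map_add, ha, hb]⟩
  · rintro c a ⟨a', ha⟩
    exact ⟨c • a', by simp only [map_smul, ha]⟩

theorem exists_D : ∃ D : L → LieDerivation ℚ L L, IsD D := by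
  obtain ⟨g, hg⟩ := exists_back
  have key : ∀ ψ φ : L, io (g (Dy (io ψ) (io φ))) = Dy (io ψ) (io φ) := by
    intro ψ φ
    obtain ⟨χ, h⟩ := Dy_io ψ φ
    rw [← h, hg]
  refine ⟨fun ψ => ⟨g ∘ₗ Dy (io ψ) ∘ₗ (io : L →ₗ⁅ℚ⁆ T ℚ (Fin 2)).toLinearMap, fun a b => ?_⟩,
    fun ψ => ⟨?_, ?_⟩⟩
  · apply io_inj
    change io (g (Dy (io ψ) (io ⁅a, b⁆))) =
      io (⁅a, g (Dy (io ψ) (io b))⁆ - ⁅b, g (Dy (io ψ) (io a))⁆)
    rw [key, map_sub, LieHom.map_lie, LieHom.map_lie, LieHom.map_lie, key, key,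
      (isDer_Dy (io ψ)).lie, ← lie_skew (io b)]
    abel
  · change g (Dy (io ψ) (io x)) = 0
    rw [io_x, Dy_x, map_zero]
  · apply io_inj
    change io (g (Dy (io ψ) (io y))) = _
    rw [key, LieHom.map_lie, io_y, Dy_y]

variable {D : L → LieDerivation ℚ L L}

lemma io_D (hD : IsD D) (ψ φ : L) : io (D ψ φ) = Dy (io ψ) (io φ) := by
  refine free_ind (p := fun φ : L => io (D ψ φ) = Dy (io ψ) (io φ)) ?_ ?_ ?_ ?_ ?_ φ
  · intro i
    fin_cases i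
    · change io (D ψ x) = Dy (io ψ) (io x)
      rw [(hD ψ).1, io_x, Dy_x, map_zero]
    · change io (D ψ y) = Dy (io ψ) (io y)
      rw [(hD ψ).2, LieHom.map_lie, io_y, Dy_y]
  · intro a b ha hb
    rw [LieDerivation.apply_lie_eq_add, map_add, LieHom.map_lie, LieHom.map_lie, LieHom.map_lie,
      ha, hb, (isDer_Dy (io ψ)).lie, add_comm]
  · simp
  · intro a b ha hb; simp only [map_add, ha, hb]
  · intro c a ha; simp only [map_smul, ha]

lemma io_ihara (hD : IsD D) (ψ φ : L) : io (ihara D ψ φ) = ih (io ψ) (io φ) := by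
  simp only [ihara, ih, map_add, map_sub, io_D hD, LieHom.map_lie]

lemma W_small {ψ : L} {n : ℕ} (hn : n < 3) (h : ψ ∈ W) (h' : ψ ∈ Lw n) : ψ = 0 := by
  rcases Nat.lt_or_ge n 2 with h2 | h2
  · apply io_inj
    rw [map_zero]
    exact Pent.eq_zero_of_le_one (pent_of_W h) (by omega) (HT_le_Hg n (mem_Lw.1 h'))
  · obtain rfl : n = 2 := by omega
    exact W_two h h'

lemma W_decomp {ψ : L} (h : ψ ∈ W) :
    ∃ (N : ℕ) (b : ℕ → L), ψ = ∑ k ∈ Finset.range N, b k ∧ ∀ k < N, b k ∈ W ∧ b k ∈ Lw k := by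
  obtain ⟨N, b, hb, e⟩ := exists_sum_Hom (one : Fin 2 → ℕ) ψ
  have hg : ∀ k, io (b k) ∈ Hg ℚ one k := fun k => HT_le_Hg k (mem_Lw.1 (hb k))
  have hp : ∀ k < N, io (b k) ∈ Pent ℚ := by
    intro k hk
    have := Pent.pr (pent_of_W h) k
    rwa [e, map_sum, pr_sum hg, if_pos hk] at this
  have hw : ∀ k < N, k ≠ 2 → b k ∈ W := by
    intro k hk h2
    rcases Nat.lt_or_ge k 3 with h3 | h3
    · have : b k = 0 := by
        apply io_inj
        rw [map_zero]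
        exact Pent.eq_zero_of_le_one (hp k hk) (by omega) (hg k)
      rw [this]; exact zero_mem _
    · exact mem_W h3 (hp k hk) (hg k)
  refine ⟨N, b, e, fun k hk => ⟨?_, hb k⟩⟩
  by_cases h2 : k = 2
  · subst h2
    rw [← Finset.add_sum_erase _ _ (Finset.mem_range.2 hk)] at e
    rw [← sub_eq_iff_eq_add] at e
    rw [← e]
    refine sub_mem h (Submodule.sum_mem _ fun j hj => ?_)
    rw [Finset.mem_erase, Finset.mem_range] at hj
    exact hw j hj.2 hj.1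
  · exact hw k hk h2

lemma ihara_add_left (hD : IsD D) (a b c : L) : ihara D (a + b) c = ihara D a c + ihara D b c :=
  io_inj (by simp only [io_ihara hD, map_add, ih_add_left])

lemma ihara_add_right (hD : IsD D) (a b c : L) : ihara D a (b + c) = ihara D a b + ihara D a c :=
  io_inj (by simp only [io_ihara hD, map_add, ih_add_right])

lemma ihara_zero_left (hD : IsD D) (a : L) : ihara D 0 a = 0 := by
  simpa using ihara_add_left hD 0 0 a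

lemma ihara_zero_right (hD : IsD D) (a : L) : ihara D a 0 = 0 := by
  simpa using ihara_add_right hD a 0 0

theorem ihara_mem_W (hD : IsD D) {ψ φ : L} (hψ : ψ ∈ W) (hφ : φ ∈ W) : ihara D ψ φ ∈ W := by
  obtain ⟨N, a, rfl, ha⟩ := W_decomp hψ
  obtain ⟨M, b, rfl, hb⟩ := W_decomp hφ
  refine Finset.sum_induction _ (fun ψ => ihara D ψ _ ∈ W) ?_ ?_ fun i hi => ?_
  · intro u v hu hv; rw [ihara_add_left hD]; exact add_mem hu hv
  · rw [ihara_zero_left hD]; exact zero_mem _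
  refine Finset.sum_induction _ (fun φ => ihara D (a i) φ ∈ W) ?_ ?_ fun j hj => ?_
  · intro u v hu hv; rw [ihara_add_right hD]; exact add_mem hu hv
  · rw [ihara_zero_right hD]; exact zero_mem _
  obtain ⟨a1, a2⟩ := ha i (Finset.mem_range.1 hi)
  obtain ⟨b1, b2⟩ := hb j (Finset.mem_range.1 hj)
  rcases Nat.lt_or_ge i 3 with hi3 | hi3
  · rw [W_small hi3 a1 a2, ihara_zero_left hD]; exact zero_mem _
  rcases Nat.lt_or_ge j 3 with hj3 | hj3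
  · rw [W_small hj3 b1 b2, ihara_zero_right hD]; exact zero_mem _
  have ga := HT_le_Hg i (mem_Lw.1 a2)
  have gb := HT_le_Hg j (mem_Lw.1 b2)
  refine mem_W (n := i + j) (by omega) ?_ ?_ <;> rw [io_ihara hD]
  · exact ih_mem_Pent (pent_of_W a1) hi3 ga (pent_of_W b1) hj3 gb
  · exact ih_mem_Hg ga gb

/-- the map from the integral to the rational free Lie algebra -/
noncomputable def cst : FreeLieAlgebra ℤ ℕ →+ F :=
  (FreeLieAlgebra.lift ℤ (FreeLieAlgebra.of ℚ : ℕ → F)).toLinearMap.toAddMonoidHom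

lemma cst_of (k : ℕ) : cst (FreeLieAlgebra.of ℤ k) = e k := FreeLieAlgebra.lift_of_apply _ _

lemma cst_lie (a b : FreeLieAlgebra ℤ ℕ) : cst ⁅a, b⁆ = ⁅cst a, cst b⁆ :=
  LieHom.map_lie (FreeLieAlgebra.lift ℤ (FreeLieAlgebra.of ℚ : ℕ → F)) a b

lemma cst_fun : (fun i => cst (FreeLieAlgebra.of ℤ i)) = e := funext cst_of

lemma cst_clear (a : F) : ∃ N : ℕ, N ≠ 0 ∧ ∃ b, cst b = (N : ℚ) • a := by
  obtain ⟨N, b, hb, rfl⟩ := exists_sum_Hom wF a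
  refine Finset.sum_induction _ (fun a => ∃ N : ℕ, N ≠ 0 ∧ ∃ b, cst b = (N : ℚ) • a) ?_ ?_
    fun k _ => ?_
  · rintro u v ⟨N1, h1, b1, e1⟩ ⟨N2, h2, b2, e2⟩
    refine ⟨N1 * N2, mul_ne_zero h1 h2, N2 • b1 + N1 • b2, ?_⟩
    rw [map_add, map_nsmul, map_nsmul, e1, e2]
    push_cast
    module
  · exact ⟨1, one_ne_zero, 0, by simp⟩
  · obtain ⟨M, hM, c, -, hc⟩ := Hom_clear (f := FreeLieAlgebra.of ℤ) (wt := wF) cst cst_lie
      (u := b k) (n := k) (by rw [cst_fun]; exact hb k)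
    exact ⟨M, hM, c, hc⟩

lemma Phi_cst (σ : ℕ → T ℤ (Fin 2)) (b : FreeLieAlgebra ℤ ℕ) :
    Phi (fun k => bc ℚ (σ k)) (cst b) = bc ℚ (Phi σ b) := by
  obtain ⟨N, b, hb, rfl⟩ := exists_sum_Hom wF b
  simp only [map_sum]
  refine Finset.sum_congr rfl fun k _ => ?_
  refine Hom_ind_int (p := fun _ b => Phi (fun k => bc ℚ (σ k)) (cst b) = bc ℚ (Phi σ b))
    ?_ ?_ ?_ ?_ ?_ (hb k)
  · intro i; rw [cst_of, e, Phi_of, Phi_of]
  · intro m n a b _ _ h1 h2; rw [cst_lie, Phi_lie, Phi_lie, bc_ih, h1, h2]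
  · intro n; simp
  · intro n a b h1 h2; simp only [map_add, h1, h2]
  · intro n a h1; simp only [map_neg, h1]

theorem main : (∃ D : L → LieDerivation ℚ L L, IsD D) ∧
    ∀ D : L → LieDerivation ℚ L L, IsD D →
      (∀ ψ ∈ W, ∀ φ ∈ W, ihara D ψ φ ∈ W) ∧
      ∃ σ : ℕ → L, (∀ k, σ k ∈ W ⊓ Lw (2 * k + 3)) ∧
        ∃ Φ : F →ₗ[ℚ] L, (∀ k, Φ (e k) = σ k) ∧ (∀ a b, Φ ⁅a, b⁆ = ihara D (Φ a) (Φ b)) ∧
          Function.Injective Φ ∧ LinearMap.range Φ = W ∧ ∀ n, (Fw n).map Φ = W ⊓ Lw n := by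
  refine ⟨exists_D, fun D hD => ⟨fun ψ hψ φ hφ => ihara_mem_W hD hψ hφ, ?_⟩⟩
  choose s hs hs' using exists_sigma
  have hσ : ∀ k, ∃ σ : L, io σ = bc ℚ (s k) := fun k => by
    have := bc_mem_HT ℚ (hs k).1
    rw [HT_eq_map] at this
    obtain ⟨σ, -, h⟩ := this
    exact ⟨σ, h⟩
  choose σ hσ using hσ
  have hσW : ∀ k, σ k ∈ W ⊓ Lw (2 * k + 3) := fun k => by
    have h1 := bc_mem_HT ℚ (hs k).1
    rw [← hσ] at h1
    exact ⟨mem_W (by omega) (hσ k ▸ (hs k).2) (HT_le_Hg _ h1), mem_Lw.2 h1⟩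
  obtain ⟨g, hg⟩ := exists_back
  set Ψ := Phi fun k => bc ℚ (s k) with hΨ
  have hr : ∀ a, io (g (Ψ a)) = Ψ a := by
    intro a
    suffices h : ∃ χ, io χ = Ψ a by obtain ⟨χ, h⟩ := h; rw [← h, hg]
    refine free_ind (p := fun a => ∃ χ, io χ = Ψ a) ?_ ?_ ?_ ?_ ?_ a
    · intro i; exact ⟨σ i, by rw [hσ, hΨ, Phi_of]⟩
    · rintro a b ⟨a', ha⟩ ⟨b', hb⟩
      exact ⟨ihara D a' b', by rw [io_ihara hD, ha, hb, hΨ, Phi_lie]⟩
    · exact ⟨0, by simp⟩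
    · rintro a b ⟨a', ha⟩ ⟨b', hb⟩
      exact ⟨a' + b', by simp only [map_add, ha, hb]⟩
    · rintro c a ⟨a', ha⟩
      exact ⟨c • a', by simp only [map_smul, ha]⟩
  set Φ : F →ₗ[ℚ] L := g ∘ₗ Ψ with hΦ
  have hio : ∀ a, io (Φ a) = Ψ a := hr
  have he : ∀ k, Φ (e k) = σ k := fun k => io_inj (by rw [hio, hσ, hΨ, e, Phi_of])
  have hl : ∀ a b, Φ ⁅a, b⁆ = ihara D (Φ a) (Φ b) := fun a b =>
    io_inj (by rw [io_ihara hD, hio, hio, hio, hΨ, Phi_lie])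
  have hmap : ∀ n, (Fw n).map Φ = W ⊓ Lw n := by
    intro n
    apply le_antisymm
    · rw [Submodule.map_le_iff_le_comap]
      refine Hom_le (S := fun n => (W ⊓ Lw n).comap Φ) (fun i => ?_) ?_ n
      · rw [Submodule.mem_comap, he]; exact hσW i
      · intro m n a b ha hb
        rw [Submodule.mem_comap, hl]
        refine ⟨ihara_mem_W hD ha.1 hb.1, mem_Lw.2 ?_⟩
        rw [io_ihara hD]
        exact ih_mem_HT (mem_Lw.1 ha.2) (mem_Lw.1 hb.2)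
    · rintro ψ ⟨h1, h2⟩
      rcases Nat.lt_or_ge n 3 with hn | hn
      · rw [W_small hn h1 h2]; exact zero_mem _
      obtain ⟨N, hN, ℓ, hℓ, eℓ⟩ := HT_clear (mem_Lw.1 h2)
      have hL : ℓ ∈ Lam n := ⟨hℓ, eℓ ▸ Submodule.smul_mem _ _ (pent_of_W h1)⟩
      obtain ⟨r, hr0, b, hb, eb⟩ := Phi_span hs hs' hn hL
      have hc : cst b ∈ Fw n := by
        have := Hom_int_map (R := ℚ) cst cst_lie hb
        rwa [cst_fun] at this
      refine ⟨((r : ℚ) * N)⁻¹ • cst b, Submodule.smul_mem _ _ hc, io_inj ?_⟩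
      rw [hio, map_smul, hΨ, Phi_cst, eb, map_zsmul, eℓ, ← Int.cast_smul_eq_zsmul ℚ, smul_smul,
        smul_smul, mul_assoc, inv_mul_cancel₀ (mul_ne_zero (by exact_mod_cast hr0)
          (by exact_mod_cast hN)), one_smul]
  refine ⟨σ, hσW, Φ, he, hl, ?_, ?_, hmap⟩
  · rw [injective_iff_map_eq_zero]
    intro a ha
    obtain ⟨N, hN, b, hb⟩ := cst_clear a
    have h0 : Phi s b = 0 := by
      apply bc_injective ℚ
      rw [← Phi_cst, hb, map_smul, ← hΨ, ← hio, ha, map_zero, map_zero, smul_zero]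
    rw [Phi_inj hs' h0, map_zero] at hb
    exact (smul_eq_zero.1 hb.symm).resolve_left (by exact_mod_cast hN)
  · apply le_antisymm
    · rintro _ ⟨a, rfl⟩
      obtain ⟨N, b, hb, rfl⟩ := exists_sum_Hom wF a
      rw [map_sum]
      refine Submodule.sum_mem _ fun k _ => ?_
      have : Φ (b k) ∈ (Fw k).map Φ := ⟨b k, hb k, rfl⟩
      rw [hmap] at this
      exact this.1
    · intro ψ h
      obtain ⟨N, b, rfl, hb⟩ := W_decomp h
      refine Submodule.sum_mem _ fun k hk => ?_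
      have : b k ∈ W ⊓ Lw k := hb k (Finset.mem_range.1 hk)
      rw [← hmap] at this
      obtain ⟨a, -, ha⟩ := this
      exact ⟨a, ha⟩

end Vale.Agent.P029
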