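import Vale.Agent.P029.Pw

/-!
A flat section of the KZ connection on the square `(0,1)²`.

Plan for `flat_abs`: by induction on `k` get `Q k : E → V` with values in `F k`, `Q 0 = 1`,
`HasFDerivAt (Q (k+1)) (v ↦ ω p v * Q k p) p` on `U`, `Q (k+1) p0 = 0`. The form
`p ↦ (v ↦ ω p v * Q k p)` is differentiable and closed (`hs`, `hc`), so
`Convex.exists_forall_hasFDerivAt_of_fderiv_symmetric` applies; values in `F (k+1)`: compose with
`mkQ` (continuous in finite dimension) and use `Convex.is_const_of_fderivWithin_eq_zero` or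
`IsOpen.is_const_of_fderiv_eq_zero`. Then `Fl = ∑ k < N + 1, Q k`.
`exists_flat`: `ω p = (fst).smulRight (Pc f p) + (snd).smulRight (Qc f p)`. Closedness: only the
terms with `g = f 3 - f 2 - f 4` matter. Commutation `Pc * Qc = Qc * Pc`: with `k = ⁅f 2, f 4⁆`,
`⁅f 2, g⁆ = -k`, `⁅g, f 4⁆ = -k`, `⁅g, f 1⁆ + ⁅f 0, g⁆ = k` (from `Rel.cx`), and the scalar identity
`-(x-1)(y-1) + (1-xy) + x(y-1) + y(x-1) = 0`.
-/

namespace Vale.Agent.P029

open Set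

variable {V : Type} [NormedRing V] [NormedAlgebra ℝ V] [CompleteSpace V] [FiniteDimensional ℝ V]

omit [CompleteSpace V] in
theorem flat_mem {E : Type} [NormedAddCommGroup E] [NormedSpace ℝ E] {U : Set E} (hU : IsOpen U)
    (hcv : Convex ℝ U) (S : Submodule ℝ V) {f : E → V} {η : E → E →L[ℝ] V}
    (hf : ∀ p ∈ U, HasFDerivAt f (η p) p) (hη : ∀ p ∈ U, ∀ v, η p v ∈ S) {p p0 : E} (hp : p ∈ U)
    (hp0 : p0 ∈ U) : f p - f p0 ∈ S := by
  by_contra hn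
  obtain ⟨φ, hφ, hS⟩ := Submodule.exists_le_ker_of_notMem hn
  let φ' : V →L[ℝ] ℝ := LinearMap.toContinuousLinearMap φ
  have h1 : ∀ x ∈ U, HasFDerivAt (fun y => φ' (f y)) (0 : E →L[ℝ] ℝ) x := fun x hx => by
    have h2 : HasFDerivAt (fun y => φ' (f y)) (φ'.comp (η x)) x :=
      φ'.hasFDerivAt.comp x (hf x hx)
    have h3 : φ'.comp (η x) = 0 := ContinuousLinearMap.ext fun v => hS (hη x hx v)
    rwa [h3] at h2
  have h4 : φ' (f p) = φ' (f p0) :=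
    hU.is_const_of_fderiv_eq_zero (𝕜 := ℝ) (f := fun y => φ' (f y)) hcv.isPreconnected
      (fun x hx => (h1 x hx).differentiableAt.differentiableWithinAt)
      (fun x hx => (h1 x hx).fderiv) hp hp0
  apply hφ
  rw [map_sub, sub_eq_zero]
  exact h4

theorem flat_step {E : Type} [NormedAddCommGroup E] [NormedSpace ℝ E] {U : Set E} (hU : IsOpen U)
    (hcv : Convex ℝ U) {F : ℕ → Submodule ℝ V} (hF : IsFil F)
    {ω : E → E →L[ℝ] V} (hd : DifferentiableOn ℝ ω U)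
    (hs : ∀ p ∈ U, ∀ v w, fderiv ℝ ω p v w = fderiv ℝ ω p w v)
    (hc : ∀ p ∈ U, ∀ v w, Commute (ω p v) (ω p w)) (hω : ∀ p ∈ U, ∀ v, ω p v ∈ F 1)
    {k : ℕ} {q r : E → V} (hq : ∀ p ∈ U, q p ∈ F k)
    (hr : ∀ p ∈ U, ∃ L : E →L[ℝ] V, HasFDerivAt q L p ∧ ∀ v, L v = ω p v * r p) :
    ∃ q' : E → V, (∀ p ∈ U, q' p ∈ F (k + 1)) ∧
      ∀ p ∈ U, ∃ L : E →L[ℝ] V, HasFDerivAt q' L p ∧ ∀ v, L v = ω p v * q p := by
  rcases U.eq_empty_or_nonempty with rfl | ⟨p0, hp0⟩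
  · exact ⟨0, fun _ h => h.elim, fun _ h => h.elim⟩
  let η : E → E →L[ℝ] V := fun p => ((ContinuousLinearMap.mul ℝ V).flip (q p)).comp (ω p)
  have hη : ∀ p v, η p v = ω p v * q p := fun _ _ => rfl
  have h1 : ∀ p ∈ U, ∃ M : E →L[ℝ] E →L[ℝ] V, HasFDerivAt η M p ∧
      ∀ v w, M v w = fderiv ℝ ω p v w * q p + ω p w * ω p v * r p := fun p hp => by
    obtain ⟨L, hL, hLv⟩ := hr p hp
    have h2 : HasFDerivAt (fun y => (ContinuousLinearMap.mul ℝ V).flip (q y))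
        ((ContinuousLinearMap.mul ℝ V).flip.comp L) p :=
      (ContinuousLinearMap.mul ℝ V).flip.hasFDerivAt.comp p hL
    have h3 : HasFDerivAt ω (fderiv ℝ ω p) p := (hd.differentiableAt (hU.mem_nhds hp)).hasFDerivAt
    refine ⟨_, h2.clm_comp h3, fun v w => ?_⟩
    simp [hLv, mul_assoc]
  obtain ⟨f, hf⟩ := hcv.exists_forall_hasFDerivAt_of_fderiv_symmetric hU (ω := η)
    (fun p hp => (h1 p hp).choose_spec.1.differentiableAt.differentiableWithinAt)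
    (fun p hp v w => by
      obtain ⟨M, hM, hMv⟩ := h1 p hp
      rw [hM.fderiv, hMv, hMv, hs p hp v w, (hc p hp v w).eq])
  refine ⟨fun p => f p - f p0, fun p hp => ?_, fun p hp => ⟨η p, (hf p hp).sub_const _, hη p⟩⟩
  refine flat_mem hU hcv _ hf (fun x hx v => ?_) hp hp0
  rw [hη, add_comm k 1]
  exact hF.mul (hω x hx v) (hq x hx)

theorem flat_abs {E : Type} [NormedAddCommGroup E] [NormedSpace ℝ E] {U : Set E} (hU : IsOpen U)
    (hcv : Convex ℝ U) {F : ℕ → Submodule ℝ V} (hF : IsFil F) {N : ℕ} (hN : F N = ⊥)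
    {ω : E → E →L[ℝ] V} (hd : DifferentiableOn ℝ ω U)
    (hs : ∀ p ∈ U, ∀ v w, fderiv ℝ ω p v w = fderiv ℝ ω p w v)
    (hc : ∀ p ∈ U, ∀ v w, Commute (ω p v) (ω p w)) (hω : ∀ p ∈ U, ∀ v, ω p v ∈ F 1) :
    ∃ Fl : E → V, ∀ p ∈ U, IsUnit (Fl p) ∧
      ∃ L : E →L[ℝ] V, HasFDerivAt Fl L p ∧ ∀ v, L v = ω p v * Fl p := by
  have key : ∀ k : ℕ, ∃ S q r : E → V, (∀ p ∈ U, S p - 1 ∈ F 1) ∧ (∀ p ∈ U, q p ∈ F k) ∧
      (∀ p ∈ U, ∃ L : E →L[ℝ] V, HasFDerivAt S L p ∧ ∀ v, L v = ω p v * (S p - q p)) ∧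
      ∀ p ∈ U, ∃ L : E →L[ℝ] V, HasFDerivAt q L p ∧ ∀ v, L v = ω p v * r p := by
    intro k
    induction k with
    | zero =>
      refine ⟨fun _ => 1, fun _ => 1, fun _ => 0, fun p _ => by simp, fun p _ => by simp [hF.top],
        fun p _ => ⟨0, hasFDerivAt_const _ _, fun v => by simp⟩,
        fun p _ => ⟨0, hasFDerivAt_const _ _, fun v => by simp⟩⟩
    | succ k ih =>
      obtain ⟨S, q, r, h1, h2, h3, h4⟩ := ih
      obtain ⟨q', h5, h6⟩ := flat_step hU hcv hF hd hs hc hω h2 h4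
      refine ⟨fun p => S p + q' p, q', q, fun p hp => ?_, h5, fun p hp => ?_, h6⟩
      · rw [add_sub_right_comm]
        exact (F 1).add_mem (h1 p hp) (hF.anti (Nat.le_add_left 1 k) (h5 p hp))
      · obtain ⟨L, hL, hLv⟩ := h3 p hp
        obtain ⟨L', hL', hLv'⟩ := h6 p hp
        refine ⟨L + L', hL.add hL', fun v => ?_⟩
        rw [ContinuousLinearMap.add_apply, hLv, hLv', ← mul_add, sub_add_cancel,
          add_sub_cancel_right]
  obtain ⟨S, q, r, h1, h2, h3, -⟩ := key N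
  refine ⟨S, fun p hp => ⟨hF.isUnit hN (h1 p hp), ?_⟩⟩
  obtain ⟨L, hL, hLv⟩ := h3 p hp
  have h4 : q p = 0 := by
    have h5 := h2 p hp
    rwa [hN, Submodule.mem_bot] at h5
  exact ⟨L, hL, fun v => by rw [hLv, h4, sub_zero]⟩

end Vale.Agent.P029
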