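import Vale.Agent.P029.Assoc

/-!
Growth of canonical solutions and the sign of the depth one coefficients of the associator.

Plan: `IsCan.growth`: `P z = pw (-A) z * G z` tends to `1` at `0+` and is a continuous unit on
`(0, 1/2]`, so `P` and `Ring.inverse P` are bounded there (near 0 by `NormedRing.inverse_continuousAt`
at `1`, on `[r, 1/2]` by compactness); `G = pw A * P`, `inverse G = inverse P * pw (-A)`.
`growth`: on `[1/2, 1)` use `G0 z = G1 (1 - z) * Φ` (`Φ` is a unit).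
`kappa_neg`: `c z = mu (G0 z)` has derivative 0 and tends to 1 at `0+` so `c = 1`;
`c k z = lam k (G0 z)` tends to `0` at `0+` (`G0 z - pw A z → 0` by `pw_bound`, `pw_right`),
`(c 0)' = 1/(z-1) < 0`, `(c (k+1))' = c k / z`; by induction `c k` is strictly decreasing and negative on
`(0,1)`. At `1-`: `G0 z - pw B (1-z) * Φ → 0` and `pw_left` give `c m z → lam m Φ`.
-/

namespace Vale.Agent.P029

open Set

variable {V : Type} [NormedRing V] [NormedAlgebra ℝ V] [CompleteSpace V]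

omit [NormedAlgebra ℝ V] [CompleteSpace V] in
theorem gr_bdd {g : ℝ → V} {l : V} (hc : ContinuousOn g (Ioc 0 (1 / 2)))
    (hl : Filter.Tendsto g (nhdsWithin 0 (Ioi 0)) (nhds l)) :
    ∃ C : ℝ, 0 ≤ C ∧ ∀ z ∈ Ioc (0 : ℝ) (1 / 2), ‖g z‖ ≤ C := by
  have h1 : ∀ᶠ z in nhdsWithin (0 : ℝ) (Ioi 0), ‖g z‖ < ‖l‖ + 1 :=
    hl.norm.eventually (gt_mem_nhds (lt_add_one _))
  obtain ⟨r, hr0, hr⟩ := (nhdsGT_basis (0 : ℝ)).eventually_iff.1 h1
  have hsub : Icc (min r (1 / 2)) (1 / 2 : ℝ) ⊆ Ioc 0 (1 / 2) := fun z hz =>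
    ⟨lt_of_lt_of_le (lt_min hr0 (by norm_num)) hz.1, hz.2⟩
  obtain ⟨C, hC⟩ := isCompact_Icc.exists_bound_of_continuousOn (hc.mono hsub)
  refine ⟨max C (‖l‖ + 1), le_max_of_le_right (by positivity), fun z hz => ?_⟩
  rcases lt_or_ge z r with h | h
  · exact le_max_of_le_right (hr ⟨hz.1, h⟩).le
  · exact le_max_of_le_left (hC z ⟨(min_le_left _ _).trans h, hz.2⟩)

theorem gr_inverse_pw (A : V) (z : ℝ) : Ring.inverse (pw A z) = pw (-A) z := by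
  have h := (Ring.eq_mul_inverse_iff_mul_eq (pw (-A) z) 1 (pw A z) (isUnit_pw A z)).2
    (pw_neg_mul A z)
  rw [h, one_mul]

theorem gr_tendsto {A B : V} {G : ℝ → V} (h : IsCan A B G) :
    Filter.Tendsto (fun z => pw (-A) z * G z) (nhdsWithin 0 (Ioi 0)) (nhds 1) := by
  obtain ⟨C, hC⟩ := h.asym
  rw [tendsto_iff_norm_sub_tendsto_zero]
  have h1 : Filter.Tendsto (fun z : ℝ => C * √z) (nhdsWithin 0 (Ioi 0)) (nhds 0) := by
    have h2 : Continuous fun z : ℝ => C * √z := by fun_prop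
    have h3 := (h2.tendsto 0).mono_left (nhdsWithin_le_nhds (s := Ioi (0 : ℝ)))
    simpa using h3
  refine squeeze_zero' (Filter.Eventually.of_forall fun _ => norm_nonneg _) ?_ h1
  filter_upwards [Ioc_mem_nhdsGT (show (0 : ℝ) < 1 / 2 by norm_num)] with z hz using hC z hz

theorem IsCan.growth {A B : V} (hA : IsNilpotent A) {G : ℝ → V} (h : IsCan A B G) {δ : ℝ}
    (hδ : 0 < δ) : ∃ C : ℝ, 0 ≤ C ∧ ∀ z ∈ Ioc (0 : ℝ) (1 / 2),
      ‖G z‖ ≤ C * z ^ (-δ) ∧ ‖Ring.inverse (G z)‖ ≤ C * z ^ (-δ) := by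
  have hsub : Ioc (0 : ℝ) (1 / 2) ⊆ Ioo 0 1 := fun z hz => ⟨hz.1, by linarith [hz.2]⟩
  have hG : ContinuousOn G (Ioc 0 (1 / 2)) := fun z hz =>
    (h.deriv z (hsub hz)).continuousAt.continuousWithinAt
  have hP : ContinuousOn (fun z => pw (-A) z * G z) (Ioc 0 (1 / 2)) :=
    ((continuousOn_pw (-A)).mono fun z hz => hz.1).mul hG
  have hPu : ∀ z ∈ Ioc (0 : ℝ) (1 / 2), IsUnit (pw (-A) z * G z) := fun z hz =>
    (isUnit_pw _ _).mul (h.unit z (hsub hz))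
  have hQ : ContinuousOn (fun z => Ring.inverse (pw (-A) z * G z)) (Ioc 0 (1 / 2)) := by
    intro z hz
    obtain ⟨u, hu⟩ := hPu z hz
    have h1 := NormedRing.inverse_continuousAt u
    rw [hu] at h1
    exact ContinuousAt.comp_continuousWithinAt (f := fun z => pw (-A) z * G z) h1 (hP z hz)
  have hT := gr_tendsto h
  have hT' : Filter.Tendsto (fun z => Ring.inverse (pw (-A) z * G z)) (nhdsWithin 0 (Ioi 0))
      (nhds (Ring.inverse (1 : V))) := by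
    have h1 := NormedRing.inverse_continuousAt (1 : Vˣ)
    rw [Units.val_one] at h1
    exact h1.tendsto.comp hT
  obtain ⟨C1, hC1, hb1⟩ := gr_bdd hP hT
  obtain ⟨C2, hC2, hb2⟩ := gr_bdd hQ hT'
  obtain ⟨D1, hD1, hd1⟩ := pw_bound hA hδ
  obtain ⟨D2, hD2, hd2⟩ := pw_bound hA.neg hδ
  refine ⟨D1 * C1 + C2 * D2, by positivity, fun z hz => ?_⟩
  have hz1 : z ∈ Ioc (0 : ℝ) 1 := ⟨hz.1, by linarith [hz.2]⟩
  have hr : 0 ≤ z ^ (-δ) := Real.rpow_nonneg hz.1.le _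
  have e1 : G z = pw A z * (pw (-A) z * G z) := by rw [← mul_assoc, pw_mul_neg, one_mul]
  constructor
  · calc ‖G z‖ = ‖pw A z * (pw (-A) z * G z)‖ := by rw [← e1]
      _ ≤ ‖pw A z‖ * ‖pw (-A) z * G z‖ := norm_mul_le _ _
      _ ≤ (D1 * z ^ (-δ)) * C1 := mul_le_mul (hd1 z hz1) (hb1 z hz) (norm_nonneg _) (by positivity)
      _ ≤ (D1 * C1 + C2 * D2) * z ^ (-δ) := by nlinarith [mul_nonneg (mul_nonneg hC2 hD2) hr]
  · have e2 : Ring.inverse (G z) = Ring.inverse (pw (-A) z * G z) * pw (-A) z := by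
      conv_lhs => rw [e1]
      rw [Ring.inverse_mul (Or.inl (isUnit_pw A z)), gr_inverse_pw]
    calc ‖Ring.inverse (G z)‖ = ‖Ring.inverse (pw (-A) z * G z) * pw (-A) z‖ := by rw [← e2]
      _ ≤ ‖Ring.inverse (pw (-A) z * G z)‖ * ‖pw (-A) z‖ := norm_mul_le _ _
      _ ≤ C2 * (D2 * z ^ (-δ)) := mul_le_mul (hb2 z hz) (hd2 z hz1) (norm_nonneg _) hC2
      _ ≤ (D1 * C1 + C2 * D2) * z ^ (-δ) := by nlinarith [mul_nonneg (mul_nonneg hD1 hC1) hr]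

theorem growth {A B Φ : V} (hA : IsNilpotent A) (hB : IsNilpotent B) {G0 G1 : ℝ → V}
    (h0 : IsCan A B G0) (h1 : IsCan B A G1) (h : ∀ z ∈ Ioo (0 : ℝ) 1, G0 z = G1 (1 - z) * Φ)
    {δ : ℝ} (hδ : 0 < δ) : ∃ C : ℝ, 0 ≤ C ∧ ∀ ε ∈ Ioc (0 : ℝ) (1 / 2), ∀ z ∈ Icc ε (1 - ε),
      ‖G0 z‖ ≤ C * ε ^ (-δ) ∧ ‖Ring.inverse (G0 z)‖ ≤ C * ε ^ (-δ) := by
  obtain ⟨C0, hC0, hb0⟩ := h0.growth hA hδ
  obtain ⟨C1, hC1, hb1⟩ := h1.growth hB hδ
  have hΦ : IsUnit Φ := by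
    have hm : (1 / 2 : ℝ) ∈ Ioo (0 : ℝ) 1 := ⟨by norm_num, by norm_num⟩
    have hm' : (1 - 1 / 2 : ℝ) ∈ Ioo (0 : ℝ) 1 := ⟨by norm_num, by norm_num⟩
    have hu := h0.unit _ hm
    rw [h _ hm] at hu
    have h3 := (isUnit_ringInverse.2 (h1.unit _ hm')).mul hu
    rwa [Ring.inverse_mul_cancel_left _ _ (h1.unit _ hm')] at h3
  refine ⟨C0 + C1 * (‖Φ‖ + ‖Ring.inverse Φ‖), by positivity, fun ε hε z hz => ?_⟩
  have hr : 0 ≤ ε ^ (-δ) := Real.rpow_nonneg hε.1.le _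
  have hmono : ∀ w : ℝ, ε ≤ w → w ^ (-δ) ≤ ε ^ (-δ) := fun w hw =>
    Real.rpow_le_rpow_of_nonpos hε.1 hw (by linarith)
  have hn1 := norm_nonneg Φ
  have hn2 := norm_nonneg (Ring.inverse Φ)
  rcases le_total z (1 / 2) with h2 | h2
  · have hz' : z ∈ Ioc (0 : ℝ) (1 / 2) := ⟨lt_of_lt_of_le hε.1 hz.1, h2⟩
    have h3 := mul_le_mul_of_nonneg_left (hmono z hz.1) hC0
    have h4 : C0 * ε ^ (-δ) ≤ (C0 + C1 * (‖Φ‖ + ‖Ring.inverse Φ‖)) * ε ^ (-δ) :=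
      mul_le_mul_of_nonneg_right (le_add_of_nonneg_right (by positivity)) hr
    exact ⟨(hb0 z hz').1.trans (h3.trans h4), (hb0 z hz').2.trans (h3.trans h4)⟩
  · have hz' : 1 - z ∈ Ioc (0 : ℝ) (1 / 2) := ⟨by linarith [hz.2, hε.1], by linarith⟩
    have hz2 : z ∈ Ioo (0 : ℝ) 1 := ⟨by linarith, by linarith [hz.2, hε.1]⟩
    have hz3 : 1 - z ∈ Ioo (0 : ℝ) 1 := ⟨hz'.1, by linarith⟩
    have h3 := mul_le_mul_of_nonneg_left (hmono (1 - z) (by linarith [hz.2])) hC1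
    have h5 := (hb1 _ hz').1.trans h3
    have h6 := (hb1 _ hz').2.trans h3
    have h7 := mul_nonneg hC0 hr
    have h8 := mul_nonneg (mul_nonneg hC1 hn1) hr
    have h9 := mul_nonneg (mul_nonneg hC1 hn2) hr
    rw [h z hz2]
    constructor
    · calc ‖G1 (1 - z) * Φ‖ ≤ ‖G1 (1 - z)‖ * ‖Φ‖ := norm_mul_le _ _
        _ ≤ (C1 * ε ^ (-δ)) * ‖Φ‖ := mul_le_mul_of_nonneg_right h5 hn1
        _ ≤ _ := by nlinarith
    · rw [Ring.inverse_mul (Or.inr hΦ)]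
      calc ‖Ring.inverse Φ * Ring.inverse (G1 (1 - z))‖
          ≤ ‖Ring.inverse Φ‖ * ‖Ring.inverse (G1 (1 - z))‖ := norm_mul_le _ _
        _ ≤ ‖Ring.inverse Φ‖ * (C1 * ε ^ (-δ)) := mul_le_mul_of_nonneg_left h6 hn2
        _ ≤ _ := by nlinarith

end Vale.Agent.P029
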