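import Vale.Agent.P029.Hom

/-!
API for spans of Lie monomials `Hom R f wt n`, Lazard elimination (spanning half), shift lemma.

Plan: `Hom_ind` is `Submodule.span_induction` + induction on `IsMon` (for the bracket of two elements
of spans use bilinearity: `lie_mem_Hom`). Everything else follows from `Hom_ind`/`Hom_le`.
`lazard`: show by induction on monomials `a` of weight `n`: (`a = f x` and `n = wt x`) or
`a ∈ Hom f' wt' n`; first prove that `ad (f x)` maps `Hom f' wt' n` to `Hom f' wt' (wt x + n)`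
(Leibniz rule). `shift`: by induction on monomials `m` of weight `k`: either `m = lt i`, `k = wt i`, or
`ev (f + z) m = ev f m`; in both cases `ev (f+z) m = ev f m + c` with `c` commuting with all
`f j`, `z j` (use `commute_ev`).
-/

namespace Vale.Agent.P029

attribute [local instance 100] LieRing.ofAssociativeRing

section Assoc
variable {R : Type} [CommRing R] {X Y : Type} {B : Type} [Ring B] [Algebra R B] {wt : X → ℕ}

/-- Lie polynomials of weight `n` inside the free associative algebra -/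
noncomputable def HT (R : Type) [CommRing R] (wt : X → ℕ) (n : ℕ) : Submodule R (T R X) :=
  Hom R lt wt n

/-- the canonical map from the free Lie algebra to the free associative algebra -/
noncomputable def io : FreeLieAlgebra R X →ₗ⁅R⁆ T R X := FreeLieAlgebra.lift R lt

@[simp] lemma io_of (i : X) : io (FreeLieAlgebra.of R i) = lt i := FreeLieAlgebra.lift_of_apply _ _

lemma HT_eq_map (n : ℕ) :
    HT R wt n = (Hom R (FreeLieAlgebra.of R) wt n).map (io (R := R) (X := X)).toLinearMap := by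
  rw [Hom_map]; simp [HT]

lemma lt_mem_HT (wt : X → ℕ) (i : X) : (lt i : T R X) ∈ HT R wt (wt i) := of_mem_Hom _ _ _

lemma lie_mem_HT {m n : ℕ} {a b : T R X} (ha : a ∈ HT R wt m) (hb : b ∈ HT R wt n) :
    ⁅a, b⁆ ∈ HT R wt (m + n) := lie_mem_Hom ha hb

lemma HT_le_Hg (n : ℕ) : HT R wt n ≤ Hg R wt n :=
  Hom_le (lt_mem_Hg wt) (fun _ _ _ _ => lie_mem_Hg) n

lemma ev_lie_HT (f : X → B) (a b : T R X) : ev f ⁅a, b⁆ = ⁅ev f a, ev f b⁆ := by
  simp only [Ring.lie_def, map_sub, map_mul]

lemma ev_io (f : X → B) (a : FreeLieAlgebra R X) : ev f (io a) = FreeLieAlgebra.lift R f a := by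
  refine free_ind (p := fun a => ev f (io a) = FreeLieAlgebra.lift R f a) (fun i => ?_)
    (fun a b ha hb => ?_) (by simp only [map_zero]) (fun a b ha hb => ?_) (fun c a ha => ?_) a
  · rw [io_of, ev_lt, FreeLieAlgebra.lift_of_apply]
  · rw [LieHom.map_lie, LieHom.map_lie, ev_lie_HT, ha, hb]
  · rw [map_add, map_add, map_add, ha, hb]
  · rw [map_smul, map_smul, map_smul, ha]

lemma ev_mem_HT {wt' : Y → ℕ} {f : X → T R Y} (hf : ∀ i, f i ∈ HT R wt' (wt i)) {n : ℕ}
    {u : T R X} (hu : u ∈ HT R wt n) : ev f u ∈ HT R wt' n := by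
  refine Hom_ind (p := fun n a => ev f a ∈ HT R wt' n) (fun i => ?_)
    (fun m n a b _ _ ha hb => ?_) (fun n => ?_) (fun n a b ha hb => ?_) (fun n c a ha => ?_) hu
  · rw [ev_lt]
    exact hf i
  · rw [ev_lie_HT]
    exact lie_mem_HT ha hb
  · rw [map_zero]
    exact zero_mem _
  · rw [map_add]
    exact add_mem ha hb
  · rw [map_smul]
    exact Submodule.smul_mem _ c ha

lemma der_mem_HT {d : X → T R X} {m : ℕ} (hd : ∀ i, d i ∈ HT R wt (wt i + m)) {n : ℕ}
    {u : T R X} (hu : u ∈ HT R wt n) : der d u ∈ HT R wt (n + m) := by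
  refine Hom_ind (p := fun n a => der d a ∈ HT R wt (n + m)) (fun i => ?_)
    (fun k n a b h1 h2 ha hb => ?_) (fun n => ?_) (fun n a b ha hb => ?_) (fun n c a ha => ?_) hu
  · rw [der_lt]
    exact hd i
  · rw [der_lie]
    refine add_mem ?_ ?_
    · rw [add_right_comm]
      exact lie_mem_HT ha h2.mem
    · rw [add_assoc]
      exact lie_mem_HT h1.mem hb
  · rw [map_zero]
    exact zero_mem _
  · rw [map_add]
    exact add_mem ha hb
  · rw [map_smul]
    exact Submodule.smul_mem _ c ha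

lemma bc_mem_HT (S : Type) [CommRing S] {n : ℕ} {u : T ℤ X} (hu : u ∈ HT ℤ wt n) :
    bc S u ∈ HT S wt n := by
  have h := Hom_int_map (R := S) (bc S : T ℤ X →ₐ[ℤ] T S X).toRingHom.toAddMonoidHom
    (fun a b => ev_lie_HT lt a b) hu
  have e : (fun i => (bc S : T ℤ X →ₐ[ℤ] T S X).toRingHom.toAddMonoidHom (lt i)) = lt :=
    funext fun i => bc_lt S i
  rw [e] at h
  exact h

lemma HT_clear {n : ℕ} {u : T ℚ X} (hu : u ∈ HT ℚ wt n) :
    ∃ N : ℕ, N ≠ 0 ∧ ∃ b ∈ HT ℤ wt n, bc ℚ b = (N : ℚ) • u := by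
  have e : (fun i => (bc ℚ : T ℤ X →ₐ[ℤ] T ℚ X).toRingHom.toAddMonoidHom (lt i)) = lt :=
    funext fun i => bc_lt ℚ i
  exact Hom_clear (f := lt) (bc ℚ : T ℤ X →ₐ[ℤ] T ℚ X).toRingHom.toAddMonoidHom
    (fun a b => ev_lie_HT lt a b) (by rw [e]; exact hu)

lemma shift_lie_HT {f z : X → B} {a b : T R X} {c c' : B}
    (ha : ev (fun i => f i + z i) a = ev f a + c) (hb : ev (fun i => f i + z i) b = ev f b + c')
    (h1 : ∀ j, Commute c (f j)) (h2 : ∀ j, Commute c (z j)) (h3 : ∀ j, Commute c' (f j)) :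
    ev (fun i => f i + z i) ⁅a, b⁆ = ev f ⁅a, b⁆ := by
  have k1 : Commute c (ev (fun i => f i + z i) b) :=
    commute_ev (fun j => (h1 j).add_right (h2 j)) b
  have k2 : Commute c' (ev f a) := commute_ev h3 a
  rw [ev_lie_HT, ev_lie_HT, ha, add_lie, k1.lie_eq, hb, lie_add, k2.symm.lie_eq, add_zero,
    add_zero]

lemma shift_mon_HT {f z : X → B} (hf : ∀ i j, Commute (z i) (f j))
    (hz : ∀ i j, Commute (z i) (z j)) {n : ℕ} {u : T R X} (hu : IsMon lt wt n u) :
    ∃ c : B, ev (fun i => f i + z i) u = ev f u + c ∧ (∀ j, Commute c (f j)) ∧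
      ∀ j, Commute c (z j) := by
  induction hu with
  | of i => exact ⟨z i, by rw [ev_lt, ev_lt], hf i, hz i⟩
  | lie _ _ ha hb =>
    obtain ⟨c, ha, h1, h2⟩ := ha
    obtain ⟨c', hb, h3, -⟩ := hb
    exact ⟨0, by rw [add_zero, shift_lie_HT ha hb h1 h2 h3], fun _ => Commute.zero_left _,
      fun _ => Commute.zero_left _⟩

theorem shift {f z : X → B} (hf : ∀ i j, Commute (z i) (f j)) (hz : ∀ i j, Commute (z i) (z j))
    {n : ℕ} (h0 : ∀ i, wt i = n → z i = 0) {u : T R X} (hu : u ∈ HT R wt n) :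
    ev (fun i => f i + z i) u = ev f u := by
  refine Submodule.span_induction (p := fun u _ => ev (fun i => f i + z i) u = ev f u)
    (fun u hu => ?_) (by rw [map_zero, map_zero]) (fun a b _ _ ha hb => ?_)
    (fun c a _ ha => ?_) hu
  · cases hu with
    | of i => rw [ev_lt, ev_lt, h0 i rfl, add_zero]
    | lie ha hb =>
      obtain ⟨c, ha, h1, h2⟩ := shift_mon_HT hf hz ha
      obtain ⟨c', hb, h3, -⟩ := shift_mon_HT hf hz hb
      exact shift_lie_HT ha hb h1 h2 h3
  · rw [map_add, map_add, ha, hb]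
  · rw [map_smul, map_smul, ha]

theorem ev_eq_zero_of_commute {z : X → B} (hz : ∀ i j, Commute (z i) (z j))
    {n : ℕ} (h0 : ∀ i, wt i = n → z i = 0) (hpos : 0 < n) {u : T R X} (hu : u ∈ HT R wt n) :
    ev z u = 0 := by
  have h := shift (f := fun _ => (0 : B)) (fun _ _ => Commute.zero_right _) hz h0 hu
  simp only [zero_add] at h
  rw [h, ev_zero, mem_Hg.1 (HT_le_Hg n hu) [] (by simpa [wgt] using hpos.ne), map_zero]

/-- two letter form of the shift lemma -/
theorem shift2 {a b a' b' : B} (h1 : Commute (a' - a) a) (h2 : Commute (a' - a) b)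
    (h3 : Commute (b' - b) a) (h4 : Commute (b' - b) b) (h5 : Commute (a' - a) (b' - b))
    {n : ℕ} (hn : 2 ≤ n) {u : T R (Fin 2)} (hu : u ∈ HT R one n) :
    ev ![a', b'] u = ev ![a, b] u := by
  have h := shift (f := ![a, b]) (z := ![a' - a, b' - b])
    (fun i j => by fin_cases i <;> fin_cases j <;> assumption)
    (fun i j => by
      fin_cases i <;> fin_cases j
      exacts [Commute.refl _, h5, h5.symm, Commute.refl _])
    (fun i hi => absurd hi (by simp only [one]; omega)) hu
  rw [← h]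
  congr 2
  funext i
  fin_cases i <;> simp

theorem ev2_eq_zero {a b : B} (h : Commute a b) {n : ℕ} (hn : 2 ≤ n) {u : T R (Fin 2)}
    (hu : u ∈ HT R one n) : ev ![a, b] u = 0 :=
  ev_eq_zero_of_commute
    (fun i j => by
      fin_cases i <;> fin_cases j
      exacts [Commute.refl _, h, h.symm, Commute.refl _])
    (fun i hi => absurd hi (by simp only [one]; omega)) (by omega) hu

end Assoc

end Vale.Agent.P029
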