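import Vale.Agent.P029.Fil

/-!
API for spans of Lie monomials `Hom R f wt n`, Lazard elimination (spanning half), shift lemma.

Plan: `Hom_ind` is `Submodule.span_induction` + induction on `IsMon` (for the bracket of two elements
of spans use bilinearity: `lie_mem_Hom`). Everything else follows from `Hom_ind`/`Hom_le`.
`lazard`: show by induction on monomials `a` of weight `n`: (`a = f x` and `n = wt x`) or
`a ∈ Hom f' wt' n`; first prove that `ad (f x)` maps `Hom f' wt' n` to `Hom f' wt' (wt x + n)`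
(Leibniz rule). `shift`: by induction on monomials `m` of weight `k`: either `m = lt i`, `k = wt i`, or
`ev (f + z) m = ev f m`; in both cases `ev (f+z) m = ev f m + c` with `c` commuting with all
`f j`, `z j` (use `commute_ev`).
-/

namespace Vale.Agent.P029

attribute [local instance 100] LieRing.ofAssociativeRing

section Lie
variable {R : Type} [CommRing R] {X Y g g' : Type} [LieRing g] [LieAlgebra R g] [LieRing g']
  [LieAlgebra R g'] {f : X → g} {wt : X → ℕ}

lemma IsMon.mem {n : ℕ} {a : g} (h : IsMon f wt n a) : a ∈ Hom R f wt n := Submodule.subset_span h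

lemma of_mem_Hom (f : X → g) (wt : X → ℕ) (i : X) : f i ∈ Hom R f wt (wt i) := (IsMon.of i).mem

lemma lie_mem_Hom {m n : ℕ} {a b : g} (ha : a ∈ Hom R f wt m) (hb : b ∈ Hom R f wt n) :
    ⁅a, b⁆ ∈ Hom R f wt (m + n) := by
  induction ha, hb using Submodule.span_induction₂ with
  | mem_mem a b ha hb => exact (IsMon.lie ha hb).mem
  | zero_left b _ => rw [zero_lie]; exact zero_mem _
  | zero_right a _ => rw [lie_zero]; exact zero_mem _
  | add_left a a' b _ _ _ h h' => rw [add_lie]; exact add_mem h h'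
  | add_right a b b' _ _ _ h h' => rw [lie_add]; exact add_mem h h'
  | smul_left c a b _ _ h => rw [smul_lie]; exact Submodule.smul_mem _ c h
  | smul_right c a b _ _ h => rw [lie_smul]; exact Submodule.smul_mem _ c h

lemma Hom_ind {p : ℕ → g → Prop} (hof : ∀ i, p (wt i) (f i))
    (hlie : ∀ m n a b, IsMon f wt m a → IsMon f wt n b → p m a → p n b → p (m + n) ⁅a, b⁆)
    (h0 : ∀ n, p n 0) (hadd : ∀ n a b, p n a → p n b → p n (a + b))
    (hsmul : ∀ n (c : R) a, p n a → p n (c • a)) {n : ℕ} {a : g} (ha : a ∈ Hom R f wt n) :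
    p n a := by
  have key : ∀ n a, IsMon f wt n a → p n a := by
    intro n a h
    induction h with
    | of i => exact hof i
    | lie ha hb iha ihb => exact hlie _ _ _ _ ha hb iha ihb
  induction ha using Submodule.span_induction with
  | mem a h => exact key n a h
  | zero => exact h0 n
  | add a b _ _ h h' => exact hadd n a b h h'
  | smul c a _ h => exact hsmul n c a h

lemma hom_int_smul {S M : Type} [Ring S] [AddCommGroup M] [Module S M] {q : M → Prop} (h0 : q 0)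
    (hadd : ∀ a b, q a → q b → q (a + b)) (hneg : ∀ a, q a → q (-a)) {a : M} (h : q a) (c : ℤ) :
    q ((c : S) • a) := by
  rw [Int.cast_smul_eq_zsmul]
  induction c using Int.induction_on with
  | zero => rw [zero_smul]; exact h0
  | succ i ih => rw [add_smul, one_smul]; exact hadd _ _ ih h
  | pred i ih => rw [sub_smul, one_smul, sub_eq_add_neg]; exact hadd _ _ ih (hneg _ h)

/-- version for `ℤ` (any `ℤ`-module structure) -/
lemma Hom_ind_int {g : Type} [LieRing g] [LieAlgebra ℤ g] {f : X → g} {p : ℕ → g → Prop}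
    (hof : ∀ i, p (wt i) (f i))
    (hlie : ∀ m n a b, IsMon f wt m a → IsMon f wt n b → p m a → p n b → p (m + n) ⁅a, b⁆)
    (h0 : ∀ n, p n 0) (hadd : ∀ n a b, p n a → p n b → p n (a + b))
    (hneg : ∀ n a, p n a → p n (-a)) {n : ℕ} {a : g} (ha : a ∈ Hom ℤ f wt n) : p n a := by
  exact Hom_ind hof hlie h0 hadd (fun n c a h =>
    @hom_int_smul ℤ g _ _ LieAlgebra.toModule (p n) (h0 n) (hadd n) (hneg n) a h c) ha

lemma Hom_le {S : ℕ → Submodule R g} (hof : ∀ i, f i ∈ S (wt i))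
    (hlie : ∀ m n a b, a ∈ S m → b ∈ S n → ⁅a, b⁆ ∈ S (m + n)) (n : ℕ) : Hom R f wt n ≤ S n := by
  intro a ha
  exact Hom_ind (p := fun n a => a ∈ S n) hof (fun m n a b _ _ => hlie m n a b)
    (fun _ => zero_mem _) (fun _ _ _ => add_mem) (fun _ c _ => Submodule.smul_mem _ c) ha

lemma Hom_mono {f' : Y → g} {wt' : Y → ℕ} (h : ∀ i, f i ∈ Hom R f' wt' (wt i)) (n : ℕ) :
    Hom R f wt n ≤ Hom R f' wt' n :=
  Hom_le h (fun _ _ _ _ => lie_mem_Hom) n

lemma Hom_map (φ : g →ₗ⁅R⁆ g') (n : ℕ) :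
    (Hom R f wt n).map φ.toLinearMap = Hom R (fun i => φ (f i)) wt n := by
  refine le_antisymm (Submodule.map_le_iff_le_comap.2 ?_) ?_
  · refine Hom_le (S := fun n => (Hom R (fun i => φ (f i)) wt n).comap φ.toLinearMap)
      (fun i => of_mem_Hom (fun i => φ (f i)) wt i) (fun m n a b ha hb => ?_) n
    have h := lie_mem_Hom (Submodule.mem_comap.1 ha) (Submodule.mem_comap.1 hb)
    exact Submodule.mem_comap.2 ((φ.map_lie a b).symm ▸ h :
      φ ⁅a, b⁆ ∈ Hom R (fun i => φ (f i)) wt (m + n))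
  · refine Hom_le (S := fun n => (Hom R f wt n).map φ.toLinearMap)
      (fun i => ⟨f i, of_mem_Hom f wt i, rfl⟩) ?_ n
    rintro m n _ _ ⟨a, ha, rfl⟩ ⟨b, hb, rfl⟩
    exact ⟨⁅a, b⁆, lie_mem_Hom ha hb, φ.map_lie a b⟩

lemma IsMon.le {m n : ℕ} {a : g} (hm : ∀ i, m ≤ wt i) (h : IsMon f wt n a) : m ≤ n := by
  induction h with
  | of i => exact hm i
  | lie _ _ iha _ => exact iha.trans (Nat.le_add_right _ _)

lemma Hom_eq_bot {n : ℕ} (h : ∀ i, n < wt i) : Hom R f wt n = ⊥ := by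
  refine Submodule.span_eq_bot.2 fun a ha => ?_
  exact absurd (IsMon.le (m := n + 1) h ha) (Nat.not_succ_le_self n)

lemma hom_free_ind {p : FreeLieAlgebra R X → Prop} (hof : ∀ i, p (FreeLieAlgebra.of R i))
    (hlie : ∀ a b, p a → p b → p ⁅a, b⁆) (h0 : p 0) (hadd : ∀ a b, p a → p b → p (a + b))
    (hsmul : ∀ (c : R) a, p a → p (c • a)) (a : FreeLieAlgebra R X) : p a := by
  let K : LieSubalgebra R (FreeLieAlgebra R X) :=
    { carrier := {a | p a}
      add_mem' := fun {a b} => hadd a b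
      zero_mem' := h0
      smul_mem' := hsmul
      lie_mem' := fun {a b} => hlie a b }
  let φ : FreeLieAlgebra R X →ₗ⁅R⁆ K := FreeLieAlgebra.lift R fun i => ⟨_, hof i⟩
  have h : K.incl.comp φ = LieHom.id := FreeLieAlgebra.hom_ext fun i => by simp [φ]
  have h1 : ((φ a : K) : FreeLieAlgebra R X) = a := DFunLike.congr_fun h a
  rw [← h1]
  exact (φ a).2

lemma exists_sum_Hom (wt : X → ℕ) (a : FreeLieAlgebra R X) :
    ∃ (N : ℕ) (b : ℕ → FreeLieAlgebra R X), (∀ k, b k ∈ Hom R (FreeLieAlgebra.of R) wt k) ∧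
      a = ∑ k ∈ Finset.range N, b k := by
  have h : a ∈ ⨆ k, Hom R (FreeLieAlgebra.of R) wt k := by
    refine hom_free_ind (p := fun a => a ∈ ⨆ k, Hom R (FreeLieAlgebra.of R) wt k)
      (fun i => Submodule.mem_iSup_of_mem (wt i) (of_mem_Hom _ wt i)) (fun a b ha hb => ?_)
      (zero_mem _) (fun _ _ => add_mem) (fun c _ => Submodule.smul_mem _ c) a
    induction ha using Submodule.iSup_induction' with
    | mem m a ha =>
      induction hb using Submodule.iSup_induction' with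
      | mem n b hb => exact Submodule.mem_iSup_of_mem (m + n) (lie_mem_Hom ha hb)
      | zero => rw [lie_zero]; exact zero_mem _
      | add b b' _ _ h h' => rw [lie_add]; exact add_mem h h'
    | zero => rw [zero_lie]; exact zero_mem _
    | add a a' _ _ h h' => rw [add_lie]; exact add_mem h h'
  obtain ⟨b, hb, rfl⟩ := (Submodule.mem_iSup_iff_exists_finsupp _ _).1 h
  obtain ⟨N, hN⟩ := b.support.exists_nat_subset_range
  exact ⟨N, b, hb, Finsupp.sum_of_support_subset b hN _ fun _ _ => rfl⟩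

/-- induction principle for the free Lie algebra -/
lemma free_ind {p : FreeLieAlgebra R X → Prop} (hof : ∀ i, p (FreeLieAlgebra.of R i))
    (hlie : ∀ a b, p a → p b → p ⁅a, b⁆) (h0 : p 0) (hadd : ∀ a b, p a → p b → p (a + b))
    (hsmul : ∀ (c : R) a, p a → p (c • a)) (a : FreeLieAlgebra R X) : p a := by
  exact hom_free_ind hof hlie h0 hadd hsmul a

/-- the new letters after eliminating the letter `x` -/
def lzf (f : X → g) (x : X) (j : {y // y ≠ x} × ℕ) : g := (fun a => ⁅f x, a⁆)^[j.2] (f j.1)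

def lzw (wt : X → ℕ) (x : X) (j : {y // y ≠ x} × ℕ) : ℕ := wt j.1 + j.2 * wt x

lemma hom_ad (x : X) {n : ℕ} {a : g} (ha : a ∈ Hom R (lzf f x) (lzw wt x) n) :
    ⁅f x, a⁆ ∈ Hom R (lzf f x) (lzw wt x) (wt x + n) := by
  refine Hom_ind (p := fun n a => ⁅f x, a⁆ ∈ Hom R (lzf f x) (lzw wt x) (wt x + n))
    (fun j => ?_) (fun m n a b ha hb ha' hb' => ?_) (fun n => by simp)
    (fun n a b h h' => by rw [lie_add]; exact add_mem h h')
    (fun n c a h => by rw [lie_smul]; exact Submodule.smul_mem _ c h) ha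
  · have e1 : ⁅f x, lzf f x j⁆ = lzf f x (j.1, j.2 + 1) :=
      (Function.iterate_succ_apply' (fun a => ⁅f x, a⁆) j.2 _).symm
    have e2 : wt x + lzw wt x j = lzw wt x (j.1, j.2 + 1) := by simp only [lzw]; ring
    rw [e1, e2]
    exact of_mem_Hom _ _ _
  · rw [leibniz_lie]
    refine add_mem ?_ ?_
    · rw [← add_assoc]; exact lie_mem_Hom ha' hb.mem
    · rw [add_left_comm]; exact lie_mem_Hom ha.mem hb'

theorem lazard (x : X) {n : ℕ} {a : g} (ha : a ∈ Hom R f wt n) :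
    ∃ c : R, (wt x ≠ n → c = 0) ∧ a - c • f x ∈ Hom R (lzf f x) (lzw wt x) n := by
  refine Hom_ind (p := fun n a => ∃ c : R, (wt x ≠ n → c = 0) ∧
    a - c • f x ∈ Hom R (lzf f x) (lzw wt x) n) (fun i => ?_) ?_
    (fun n => ⟨0, fun _ => rfl, by simp⟩) ?_ ?_ ha
  · rcases eq_or_ne i x with rfl | h
    · exact ⟨1, fun h => absurd rfl h, by simp⟩
    · refine ⟨0, fun _ => rfl, ?_⟩
      simpa [lzf, lzw] using of_mem_Hom (R := R) (lzf f x) (lzw wt x) (⟨i, h⟩, 0)
  · rintro m n a b - - ⟨c, hc, ha⟩ ⟨d, hd, hb⟩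
    have h1 : c • ⁅f x, b - d • f x⁆ ∈ Hom R (lzf f x) (lzw wt x) (m + n) := by
      rcases eq_or_ne (wt x) m with rfl | h
      · exact Submodule.smul_mem _ c (hom_ad x hb)
      · rw [hc h, zero_smul]; exact zero_mem _
    have h2 : d • ⁅f x, a - c • f x⁆ ∈ Hom R (lzf f x) (lzw wt x) (m + n) := by
      rcases eq_or_ne (wt x) n with rfl | h
      · rw [add_comm]; exact Submodule.smul_mem _ d (hom_ad x ha)
      · rw [hd h, zero_smul]; exact zero_mem _
    refine ⟨0, fun _ => rfl, ?_⟩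
    have e : ⁅a, b⁆ - (0 : R) • f x = ⁅a - c • f x, b - d • f x⁆ + c • ⁅f x, b - d • f x⁆ -
        d • ⁅f x, a - c • f x⁆ := by
      simp only [sub_lie, lie_sub, smul_lie, lie_smul, lie_self, smul_zero, sub_zero, zero_smul,
        ← lie_skew a (f x), smul_neg]
      abel
    rw [e]
    exact sub_mem (add_mem (lie_mem_Hom ha hb) h1) h2
  · rintro n a b ⟨c, hc, ha⟩ ⟨d, hd, hb⟩
    refine ⟨c + d, fun h => by rw [hc h, hd h, add_zero], ?_⟩
    rw [add_smul, add_sub_add_comm]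
    exact add_mem ha hb
  · rintro n e a ⟨c, hc, ha⟩
    refine ⟨e * c, fun h => by rw [hc h, mul_zero], ?_⟩
    rw [mul_smul, ← smul_sub]
    exact Submodule.smul_mem _ e ha

/-- clearing denominators -/
lemma Hom_clear {g g' : Type} [LieRing g] [LieAlgebra ℤ g] [LieRing g'] [LieAlgebra ℚ g']
    {f : X → g} (c : g →+ g') (hc : ∀ a b, c ⁅a, b⁆ = ⁅c a, c b⁆) {n : ℕ} {u : g'}
    (hu : u ∈ Hom ℚ (fun i => c (f i)) wt n) :
    ∃ N : ℕ, N ≠ 0 ∧ ∃ b ∈ Hom ℤ f wt n, c b = (N : ℚ) • u := by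
  have cst : ∀ (N : ℕ) (b : g), c (N • b) = (N : ℚ) • c b := fun N b => by
    rw [map_nsmul, Nat.cast_smul_eq_nsmul]
  refine Hom_ind (p := fun n u => ∃ N : ℕ, N ≠ 0 ∧ ∃ b ∈ Hom ℤ f wt n, c b = (N : ℚ) • u)
    (fun i => ⟨1, one_ne_zero, f i, of_mem_Hom f wt i, by simp⟩) ?_
    (fun n => ⟨1, one_ne_zero, 0, zero_mem _, by simp⟩) ?_ ?_ hu
  · rintro m n u v - - ⟨N, hN, a, ha, e⟩ ⟨M, hM, b, hb, e'⟩
    refine ⟨N * M, mul_ne_zero hN hM, ⁅a, b⁆, lie_mem_Hom ha hb, ?_⟩
    rw [hc, e, e', smul_lie, lie_smul, smul_smul, Nat.cast_mul]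
  · rintro n u v ⟨N, hN, a, ha, e⟩ ⟨M, hM, b, hb, e'⟩
    refine ⟨N * M, mul_ne_zero hN hM, M • a + N • b, add_mem (nsmul_mem ha M) (nsmul_mem hb N), ?_⟩
    rw [map_add, cst, cst, e, e', smul_smul, smul_smul, smul_add, Nat.cast_mul, mul_comm (M : ℚ)]
  · rintro n q u ⟨N, hN, a, ha, e⟩
    have h1 : ∃ b ∈ Hom ℤ f wt n, c b = (q.num : ℚ) • c a := by
      obtain ⟨k, hk | hk⟩ := Int.eq_nat_or_neg q.num
      · exact ⟨k • a, nsmul_mem ha k, by rw [cst, hk, Int.cast_natCast]⟩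
      · exact ⟨-(k • a), neg_mem (nsmul_mem ha k), by
          rw [map_neg, cst, hk, Int.cast_neg, Int.cast_natCast, neg_smul]⟩
    obtain ⟨b, hb, e'⟩ := h1
    refine ⟨N * q.den, mul_ne_zero hN q.den_nz, b, hb, ?_⟩
    rw [e', e, smul_smul, smul_smul, Nat.cast_mul, mul_assoc, Rat.den_mul_eq_num, mul_comm]

lemma Hom_int_map {g g' : Type} [LieRing g] [LieAlgebra ℤ g] [LieRing g'] [LieAlgebra R g']
    {f : X → g} (c : g →+ g') (hc : ∀ a b, c ⁅a, b⁆ = ⁅c a, c b⁆) {n : ℕ} {b : g}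
    (hb : b ∈ Hom ℤ f wt n) : c b ∈ Hom R (fun i => c (f i)) wt n := by
  exact Hom_ind_int (p := fun n b => c b ∈ Hom R (fun i => c (f i)) wt n)
    (fun i => of_mem_Hom (fun i => c (f i)) wt i)
    (fun m n a b _ _ h h' => by rw [hc]; exact lie_mem_Hom h h')
    (fun n => by rw [map_zero]; exact zero_mem _)
    (fun n a b h h' => by rw [map_add]; exact add_mem h h')
    (fun n a h => by rw [map_neg]; exact neg_mem h) hb

end Lie

end Vale.Agent.P029
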