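import Vale.Agent.P029.Assoc

/-!
Growth of canonical solutions and the sign of the depth one coefficients of the associator.

Plan: `IsCan.growth`: `P z = pw (-A) z * G z` tends to `1` at `0+` and is a continuous unit on
`(0, 1/2]`, so `P` and `Ring.inverse P` are bounded there (near 0 by `NormedRing.inverse_continuousAt`
at `1`, on `[r, 1/2]` by compactness); `G = pw A * P`, `inverse G = inverse P * pw (-A)`.
`growth`: on `[1/2, 1)` use `G0 z = G1 (1 - z) * Φ` (`Φ` is a unit).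
`kappa_neg`: `c z = mu (G0 z)` has derivative 0 and tends to 1 at `0+` so `c = 1`;
`c k z = lam k (G0 z)` tends to `0` at `0+` (`G0 z - pw A z → 0` by `pw_bound`, `pw_right`),
`(c 0)' = 1/(z-1) < 0`, `(c (k+1))' = c k / z`; by induction `c k` is strictly decreasing and negative on
`(0,1)`. At `1-`: `G0 z - pw B (1-z) * Φ → 0` and `pw_left` give `c m z → lam m Φ`.
-/

namespace Vale.Agent.P029

open Set

variable {V : Type} [NormedRing V] [NormedAlgebra ℝ V] [CompleteSpace V]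

lemma kap_tend {A B : V} (hA : IsNilpotent A) {G : ℝ → V} (h : IsCan A B G) :
    Filter.Tendsto (fun z => G z - pw A z) (nhdsWithin 0 (Ioi 0)) (nhds 0) := by
  obtain ⟨C, hC⟩ := h.asym
  obtain ⟨D, hD0, hD⟩ := pw_bound hA (δ := 1 / 4) (by norm_num)
  have hlim : Filter.Tendsto (fun z : ℝ => D * C * z ^ (1 / 4 : ℝ)) (nhdsWithin 0 (Ioi 0))
      (nhds 0) := by
    have h1 : ContinuousAt (fun z : ℝ => z ^ (1 / 4 : ℝ)) 0 :=
      Real.continuousAt_rpow_const 0 _ (Or.inr (by norm_num))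
    have h2 := (h1.tendsto.const_mul (D * C)).mono_left (nhdsWithin_le_nhds (s := Ioi 0))
    simpa [Real.zero_rpow] using h2
  refine squeeze_zero_norm' ?_ hlim
  filter_upwards [Ioc_mem_nhdsGT (show (0 : ℝ) < 1 / 2 by norm_num)] with z hz
  have e : G z - pw A z = pw A z * (pw (-A) z * G z - 1) := by
    rw [mul_sub, ← mul_assoc, pw_mul_neg, one_mul, mul_one]
  have h1 := hD z ⟨hz.1, by linarith [hz.2]⟩
  have h2 := hC z hz
  have h3 : z ^ (-(1 / 4 : ℝ)) * √z = z ^ (1 / 4 : ℝ) := by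
    rw [Real.sqrt_eq_rpow, ← Real.rpow_add hz.1]
    norm_num
  calc ‖G z - pw A z‖ ≤ ‖pw A z‖ * ‖pw (-A) z * G z - 1‖ := by
        rw [e]; exact norm_mul_le _ _
    _ ≤ (D * z ^ (-(1 / 4 : ℝ))) * (C * √z) :=
        mul_le_mul h1 h2 (norm_nonneg _) (mul_nonneg hD0 (Real.rpow_nonneg hz.1.le _))
    _ = D * C * (z ^ (-(1 / 4 : ℝ)) * √z) := by ring
    _ = D * C * z ^ (1 / 4 : ℝ) := by rw [h3]

lemma kap_anti {f f' : ℝ → ℝ} (hf : ∀ z ∈ Ioo (0 : ℝ) 1, HasDerivAt f (f' z) z)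
    (hn : ∀ z ∈ Ioo (0 : ℝ) 1, f' z < 0) : StrictAntiOn f (Ioo 0 1) := by
  refine strictAntiOn_of_deriv_neg (convex_Ioo 0 1) ?_ ?_
  · exact fun z hz => (hf z hz).continuousAt.continuousWithinAt
  · intro z hz
    rw [interior_Ioo] at hz
    rw [(hf z hz).deriv]
    exact hn z hz

lemma kap_neg {f : ℝ → ℝ} (hf : StrictAntiOn f (Ioo 0 1))
    (h0 : Filter.Tendsto f (nhdsWithin 0 (Ioi 0)) (nhds 0)) : ∀ z ∈ Ioo (0 : ℝ) 1, f z < 0 := by
  intro z hz
  have hz2 : z / 2 ∈ Ioo (0 : ℝ) 1 := ⟨by linarith [hz.1], by linarith [hz.1, hz.2]⟩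
  have h1 : f z < f (z / 2) := hf hz2 hz (by linarith [hz.1])
  have h2 : f (z / 2) ≤ 0 := by
    refine ge_of_tendsto h0 ?_
    filter_upwards [Ioo_mem_nhdsGT hz2.1] with w hw
    exact (hf ⟨hw.1, hw.2.trans hz2.2⟩ hz2 hw.2).le
  linarith

omit [CompleteSpace V] in
lemma kap_deriv {A B : V} {G : ℝ → V} (h : IsCan A B G) (l : V →L[ℝ] ℝ) {z : ℝ}
    (hz : z ∈ Ioo (0 : ℝ) 1) :
    HasDerivAt (fun w => l (G w)) (z⁻¹ * l (A * G z) + (z - 1)⁻¹ * l (B * G z)) z := by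
  have h1 := l.hasFDerivAt.comp_hasDerivAt z (h.deriv z hz)
  simp only [add_mul, smul_mul_assoc, map_add, map_smul, smul_eq_mul] at h1
  exact h1

lemma kap_lim {A B : V} (hA : IsNilpotent A) {G : ℝ → V} (h : IsCan A B G) (l : V →L[ℝ] ℝ) (u : V)
    {c : ℝ} (hc : ∀ z, l (pw A z * u) = c) :
    Filter.Tendsto (fun z => l (G z * u)) (nhdsWithin 0 (Ioi 0)) (nhds c) := by
  have h1 := (l.continuous.tendsto _).comp ((kap_tend hA h).mul_const u)
  have h2 := h1.add_const c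
  simp only [zero_mul, map_zero, zero_add] at h2
  refine h2.congr fun z => ?_
  simp only [Function.comp, sub_mul, map_sub, hc]
  ring

theorem kappa_neg {A B Φ : V} (hA : IsNilpotent A) (hB : IsNilpotent B) (h : IsAssoc A B Φ)
    (mu : V →L[ℝ] ℝ) (lam : ℕ → V →L[ℝ] ℝ) {m : ℕ} (hm : 1 ≤ m) (mu1 : mu 1 = 1)
    (muA : ∀ v, mu (A * v) = 0) (muB : ∀ v, mu (B * v) = 0) (l0A : ∀ v, lam 0 (A * v) = 0)
    (l0B : ∀ v, lam 0 (B * v) = mu v) (lA : ∀ k < m, ∀ v, lam (k + 1) (A * v) = lam k v)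
    (lB : ∀ k < m, ∀ v, lam (k + 1) (B * v) = 0) (l1 : ∀ k ≤ m, lam k 1 = 0)
    (lr : ∀ k ≤ m, ∀ v, lam k (v * A) = 0) : lam m Φ < 0 := by
  obtain ⟨G0, G1, h0, h1, hΦ⟩ := h
  have hmu : ∀ z ∈ Ioo (0 : ℝ) 1, mu (G0 z) = 1 := by
    have hd : ∀ z ∈ Ioo (0 : ℝ) 1, HasDerivAt (fun w => mu (G0 w)) 0 z := by
      intro z hz
      have := kap_deriv h0 mu hz
      simpa [muA, muB] using this
    have hl : Filter.Tendsto (fun z => mu (G0 z)) (nhdsWithin 0 (Ioi 0)) (nhds 1) := by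
      have := kap_lim hA h0 mu 1 (c := 1) (fun z => by rw [pw_left mu muA, mu1])
      simpa using this
    intro z hz
    have hc : ∀ w ∈ Ioo (0 : ℝ) 1, mu (G0 w) = mu (G0 z) := by
      intro w hw
      exact isOpen_Ioo.is_const_of_deriv_eq_zero isPreconnected_Ioo
        (fun y hy => (hd y hy).differentiableAt.differentiableWithinAt)
        (fun y hy => (hd y hy).deriv) hw hz
    have h2 : Filter.Tendsto (fun w => mu (G0 w)) (nhdsWithin 0 (Ioi 0)) (nhds (mu (G0 z))) := by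
      refine tendsto_const_nhds.congr' ?_
      filter_upwards [Ioo_mem_nhdsGT (show (0 : ℝ) < 1 by norm_num)] with w hw
      exact (hc w hw).symm
    exact tendsto_nhds_unique h2 hl
  have hl : ∀ k ≤ m, Filter.Tendsto (fun z => lam k (G0 z)) (nhdsWithin 0 (Ioi 0)) (nhds 0) := by
    intro k hk
    have := kap_lim hA h0 (lam k) 1 (c := 0)
      (fun z => by rw [mul_one, pw_right (lam k) (lr k hk), l1 k hk])
    simpa using this
  have hanti : ∀ k ≤ m, StrictAntiOn (fun z => lam k (G0 z)) (Ioo 0 1) := by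
    intro k
    induction k with
    | zero =>
      intro _
      refine kap_anti (fun z hz => kap_deriv h0 (lam 0) hz) fun z hz => ?_
      rw [l0A, l0B, hmu z hz]
      have : (z - 1)⁻¹ < 0 := inv_lt_zero.2 (by linarith [hz.2])
      simpa using this
    | succ k ih =>
      intro hk
      have hk' : k < m := hk
      refine kap_anti (fun z hz => kap_deriv h0 (lam (k + 1)) hz) fun z hz => ?_
      rw [lA k hk', lB k hk', mul_zero, add_zero]
      exact mul_neg_of_pos_of_neg (inv_pos.2 hz.1) (kap_neg (ih hk'.le) (hl k hk'.le) z hz)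
  have hmB : ∀ v, lam m (B * v) = 0 := by
    obtain ⟨k, rfl⟩ : ∃ k, m = k + 1 := ⟨m - 1, by omega⟩
    exact lB k (Nat.lt_succ_self k)
  have hend := kap_lim hB h1 (lam m) Φ (c := lam m Φ) (fun z => pw_left (lam m) hmB z Φ)
  have hh : (1 / 2 : ℝ) ∈ Ioo (0 : ℝ) 1 := ⟨by norm_num, by norm_num⟩
  have hneg := kap_neg (hanti m le_rfl) (hl m le_rfl) _ hh
  have hle : lam m Φ ≤ lam m (G0 (1 / 2)) := by
    refine le_of_tendsto hend ?_
    filter_upwards [Ioo_mem_nhdsGT hh.1] with w hw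
    have hw1 : 1 - w ∈ Ioo (0 : ℝ) 1 := ⟨by linarith [hw.2], by linarith [hw.1]⟩
    have e := hΦ _ hw1
    rw [sub_sub_cancel] at e
    rw [← e]
    exact (hanti m le_rfl hh hw1 (by linarith [hw.2])).le
  exact hle.trans_lt hneg

end Vale.Agent.P029
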