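import Vale.Agent.P029.Bp

/-!
Modulo two and `Y²`, a solution of the pentagon is a Lie polynomial in `c = ⁅X,Y⁆`, `E = ⁅X,c⁆`.

Plan: take `g` from `p2`. In `C` = `exists_C univ` (`a² = b² = e² = 0`, `s = a+b+e`, signs are
irrelevant): `p * p = 0` (a derivation in char 2 killing the generators), so by `Lam_two_cycle` and
`p2` in the ring `Module.End ℤ C` (char 2), with `X = q + LZ b`, `Y = p`:
`X * X = LZ ⁅b,e⁆` (`q * q = 0`), `⁅X,Y⁆ = LZ c' + RZ (s*s)` with `c' = ⁅a+b,e⁆` (the derivation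
`⁅q,p⁆` equals `ad (s*s)` on generators), `⁅X,⁅X,Y⁆⁆ = LZ E1`, `E1 = ⁅⁅a,b⁆,e⁆` (`q s = 0`). `shift`
removes `RZ (s*s)` (weight 2 ≠ n), `evZ_mulLeft`: left side of `pentOp` is `g(⁅b,e⁆, c', E1)`.
Right side: `ℓ(b+e,e) = g(⁅b,e⁆,⁅b,e⁆,0) = 0` (`ev_eq_zero_of_commute`), `ℓ(s,e) = g(s*s, c', E1)`.
Map to `exists_model` with `a ↦ a`, `b ↦ b + e`, `e ↦ e`: `⁅b,e⁆ ↦ 0`, `s ↦ a + b`,
`ℓ(s, b+e) ↦ ℓ(a+b, b) = g(⁅a,b⁆,⁅a,b⁆,0) = 0`. So `g(A,c,E) = g(0,c,E)` in `T (ZMod 2) (Fin 3)` by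
injectivity of `Δ`, hence in every ring with `2 = 0` (`ZMod.algebra`-structure, or: all
coefficients of `g - g(0,c,E)` are even by `cf_evZ_lt`, lemma `evZ_eq_zero_of_even`).
`mod2_form`: `g0 = ev ![0, lt 0, lt 1] g ∈ HT ℤ ![2,3] n`; `lazard` for the letter `0`, `Hom_mono` to
re-index by `ℕ`, `Hom_map` for `ev (fun k => (ad (lt 0))^[k] (lt 1)) : T ℤ ℕ → T ℤ (Fin 2)`.
-/

namespace Vale.Agent.P029

attribute [local instance 100] LieRing.ofAssociativeRing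

variable {n : ℕ} {ℓ : T ℤ (Fin 2)}

/-- the elements `(ad x) ^ k y` -/
noncomputable def m2fE (R : Type) [CommRing R] (k : ℕ) : T R (Fin 2) :=
  (fun a => ⁅(lt 0 : T R (Fin 2)), a⁆)^[k] (lt 1)

lemma m2f_lazard {R : Type} [CommRing R] (hn : 3 ≤ n) {u : T R (Fin 2)}
    (hu : u ∈ HT R ![2, 3] n) : ∃ a ∈ HT R wF n, ev (m2fE R) a = u := by
  obtain ⟨c, hc, hmem⟩ := lazard (0 : Fin 2) hu
  rw [hc (by simp; omega), zero_smul, sub_zero] at hmem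
  have h1 : u ∈ Hom R (fun k => (ev (R := R) (m2fE R)).toLieHom (lt k)) wF n := by
    refine Hom_mono (fun j => ?_) n hmem
    obtain ⟨⟨y, hy⟩, k⟩ := j
    have e : y = 1 := by omega
    subst e
    have h2 := of_mem_Hom (R := R) (fun k => (ev (R := R) (m2fE R)).toLieHom (lt k)) wF k
    have e1 : lzw ![2, 3] 0 (⟨1, hy⟩, k) = wF k := by simp [lzw]; ring
    have e2 : lzf (lt : Fin 2 → T R (Fin 2)) 0 (⟨1, hy⟩, k) =
        (ev (R := R) (m2fE R)).toLieHom (lt k) := by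
      rw [AlgHom.coe_toLieHom, ev_lt]; rfl
    rw [e1, e2]
    exact h2
  rw [← Hom_map] at h1
  obtain ⟨a, ha, e⟩ := h1
  exact ⟨a, ha, e⟩

lemma m2f_evZ {C : Type} [Ring C] (c E : C) (k : ℕ) :
    evZ ![c, E] (m2fE ℤ k) = (fun a => ⁅c, a⁆)^[k] E := by
  induction k with
  | zero => simp [m2fE]
  | succ k ih =>
    rw [Function.iterate_succ_apply', ← ih]
    simp only [m2fE, Function.iterate_succ_apply', Ring.lie_def, map_sub, map_mul, evZ_lt]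
    rfl

theorem mod2_form (h : ℓ ∈ Lam n) (hn : 3 ≤ n) : ∃ a ∈ HT ℤ wF n, Ev2 ℓ a := by
  obtain ⟨g, hg, e⟩ := bprime h hn
  have hg0 : ev ![(0 : T ℤ (Fin 2)), lt 0, lt 1] g ∈ HT ℤ ![2, 3] n := by
    refine ev_mem_HT (fun i => ?_) hg
    fin_cases i
    · exact zero_mem _
    · exact lt_mem_HT ![2, 3] 0
    · exact lt_mem_HT ![2, 3] 1
  obtain ⟨a, ha, ea⟩ := m2f_lazard hn hg0
  refine ⟨a, ha, fun C _ h2 X Y hY => ?_⟩
  rw [e C h2 X Y hY]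
  have e1 := DFunLike.congr_fun (ring_ext
    (φ := (evZ ![⁅X, Y⁆, ⁅X, ⁅X, Y⁆⁆]).comp
      (ev (R := ℤ) ![(0 : T ℤ (Fin 2)), lt 0, lt 1]).toRingHom)
    (ψ := evZ ![0, ⁅X, Y⁆, ⁅X, ⁅X, Y⁆⁆]) (fun i => by fin_cases i <;> simp)) g
  have e2 := DFunLike.congr_fun (ring_ext
    (φ := (evZ ![⁅X, Y⁆, ⁅X, ⁅X, Y⁆⁆]).comp (ev (R := ℤ) (m2fE ℤ)).toRingHom)
    (ψ := evZ (Ek X Y)) (fun k => by simp [m2f_evZ, Ek])) a
  rw [← e1, ← e2]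
  exact congrArg (evZ ![⁅X, Y⁆, ⁅X, ⁅X, Y⁆⁆]) ea.symm

end Vale.Agent.P029
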