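import Vale.Agent.P029.Alg

/-!
Passing between the three presentations, and the representation of `t4` on `T R (Fin 3)`.

Plan: `Rel.p5`: prove the 15 commutations (5 given, 5 trivial, 5 equivalent to `cx`: all expand to
`⁅f 0,f 2⁆+⁅f 1,f 3⁆+⁅f 2,f 4⁆+⁅f 3,f 0⁆+⁅f 4,f 1⁆ = 0`), then `fin_cases` (kill non `Nodup` cases by
`decide`); keep the build below 60 s. `rep_t4f`: for a derivation `D`,
`D * mulLeft a - mulLeft a * D = mulLeft (D a)`; the commutator of two derivations is a derivation,
compare on letters with `der_ext` (Jacobi identity). `exists_p5`: `xm` of `T4F.rel'`.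
-/

namespace Vale.Agent.P029

attribute [local instance 100] LieRing.ofAssociativeRing

variable {R : Type} [CommRing R] {B : Type} [Ring B]

lemma xm_comm_P5 {f : Fin 5 → B} (h : Rel f) (i j k l : Fin 5) (hn : [i, j, k, l].Nodup) :
    Commute (xm f i j) (xm f k l) := by
  have c0123 : Commute (f 0) (f 4) := by
    unfold Commute SemiconjBy
    linear_combination (norm := noncomm_ring) -h.c40.eq
  have c0124 : Commute (f 0) (f 0 - f 4 - f 1) := by
    unfold Commute SemiconjBy
    linear_combination (norm := noncomm_ring) -h.c01.eq + h.c40.eq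
  have c0134 : Commute (f 0) (f 1) := by
    unfold Commute SemiconjBy
    linear_combination (norm := noncomm_ring) h.c01.eq
  have c0213 : Commute (f 1 - f 0 - f 2) (f 3 - f 2 - f 4) := by
    unfold Commute SemiconjBy
    linear_combination (norm := noncomm_ring) h.cx.eq
  have c0214 : Commute (f 1 - f 0 - f 2) (f 4 - f 0 - f 3) := by
    unfold Commute SemiconjBy
    linear_combination (norm := noncomm_ring) h.c01.eq - h.c12.eq - h.cx.eq
  have c0234 : Commute (f 1 - f 0 - f 2) (f 1) := by
    unfold Commute SemiconjBy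
    linear_combination (norm := noncomm_ring) -h.c01.eq + h.c12.eq
  have c0312 : Commute (f 2 - f 3 - f 1) (f 2) := by
    unfold Commute SemiconjBy
    linear_combination (norm := noncomm_ring) -h.c12.eq + h.c23.eq
  have c0314 : Commute (f 2 - f 3 - f 1) (f 4 - f 0 - f 3) := by
    unfold Commute SemiconjBy
    linear_combination (norm := noncomm_ring)
      -h.c01.eq + h.c12.eq - h.c34.eq + h.c40.eq + h.cx.eq
  have c0324 : Commute (f 2 - f 3 - f 1) (f 0 - f 4 - f 1) := by
    unfold Commute SemiconjBy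
    linear_combination (norm := noncomm_ring)
      h.c01.eq - h.c23.eq + h.c34.eq - h.c40.eq - h.cx.eq
  have c0412 : Commute (f 3) (f 2) := by
    unfold Commute SemiconjBy
    linear_combination (norm := noncomm_ring) -h.c23.eq
  have c0413 : Commute (f 3) (f 3 - f 2 - f 4) := by
    unfold Commute SemiconjBy
    linear_combination (norm := noncomm_ring) h.c23.eq - h.c34.eq
  have c0423 : Commute (f 3) (f 4) := by
    unfold Commute SemiconjBy
    linear_combination (norm := noncomm_ring) h.c34.eq
  have c1234 : Commute (f 2) (f 1) := by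
    unfold Commute SemiconjBy
    linear_combination (norm := noncomm_ring) -h.c12.eq
  have c1324 : Commute (f 3 - f 2 - f 4) (f 0 - f 4 - f 1) := by
    unfold Commute SemiconjBy
    linear_combination (norm := noncomm_ring) h.c23.eq - h.c34.eq + h.cx.eq
  have c1423 : Commute (f 4 - f 0 - f 3) (f 4) := by
    unfold Commute SemiconjBy
    linear_combination (norm := noncomm_ring) -h.c34.eq + h.c40.eq
  fin_cases i <;> fin_cases j <;> fin_cases k <;> fin_cases l <;>
    first | exact absurd hn (by decide) | skip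
  exacts [c0123, c0124, c0123, c0134, c0124, c0134, c0213, c0214, c0213, c0234, c0214, c0234, c0312,
    c0314, c0312, c0324, c0314, c0324, c0412, c0413, c0412, c0423, c0413, c0423, c0123,
    c0124, c0123, c0134, c0124, c0134, c0312.symm, c0412.symm, c0312.symm, c1234,
    c0412.symm, c1234, c0213.symm, c0413.symm, c0213.symm, c1324, c0413.symm, c1324,
    c0214.symm, c0314.symm, c0214.symm, c1423, c0314.symm, c1423, c0213, c0214, c0213,
    c0234, c0214, c0234, c0312.symm, c0412.symm, c0312.symm, c1234, c0412.symm, c1234,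
    c0123.symm, c0423.symm, c0123.symm, c1423.symm, c0423.symm, c1423.symm, c0124.symm,
    c0324.symm, c0124.symm, c1324.symm, c0324.symm, c1324.symm, c0312, c0314, c0312, c0324,
    c0314, c0324, c0213.symm, c0413.symm, c0213.symm, c1324, c0413.symm, c1324, c0123.symm,
    c0423.symm, c0123.symm, c1423.symm, c0423.symm, c1423.symm, c0134.symm, c0234.symm,
    c0134.symm, c1234.symm, c0234.symm, c1234.symm, c0412, c0413, c0412, c0423, c0413,
    c0423, c0214.symm, c0314.symm, c0214.symm, c1423, c0314.symm, c1423, c0124.symm,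
    c0324.symm, c0124.symm, c1324.symm, c0324.symm, c1324.symm, c0134.symm, c0234.symm,
    c0134.symm, c1234.symm, c0234.symm, c1234.symm]

/-- integer coordinates of `xm` -/
def xc_P5 : Fin 5 → Fin 5 → Fin 5 → ℤ :=
  ![![![0, 0, 0, 0, 0], ![1, 0, 0, 0, 0], ![-1, 1, -1, 0, 0], ![0, -1, 1, -1, 0], ![0, 0, 0, 1, 0]],
    ![![1, 0, 0, 0, 0], ![0, 0, 0, 0, 0], ![0, 0, 1, 0, 0], ![0, 0, -1, 1, -1], ![-1, 0, 0, -1, 1]],
    ![![-1, 1, -1, 0, 0], ![0, 0, 1, 0, 0], ![0, 0, 0, 0, 0], ![0, 0, 0, 0, 1], ![1, -1, 0, 0, -1]],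
    ![![0, -1, 1, -1, 0], ![0, 0, -1, 1, -1], ![0, 0, 0, 0, 1], ![0, 0, 0, 0, 0], ![0, 1, 0, 0, 0]],
    ![![0, 0, 0, 1, 0], ![-1, 0, 0, -1, 1], ![1, -1, 0, 0, -1], ![0, 1, 0, 0, 0], ![0, 0, 0, 0, 0]]]

lemma xm_eq_P5 (f : Fin 5 → B) (i j : Fin 5) : xm f i j = ∑ a, xc_P5 i j a • f a := by
  fin_cases i <;> fin_cases j <;> simp [xm, xc_P5, Fin.sum_univ_five] <;> abel

lemma xc_tri_P5 : ∀ i j k l m : Fin 5, [i, j, k, l, m].Nodup →
    ∀ a, xc_P5 i j a + xc_P5 i k a + xc_P5 j k a = xc_P5 l m a := by
  decide +kernel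

lemma Rel.p5 {f : Fin 5 → B} (h : Rel f) : P5 (xm f) := by
  refine ⟨fun i j => ?_, xm_comm_P5 h, fun i j k l m hn => ?_⟩
  · fin_cases i <;> fin_cases j <;> rfl
  · simp only [xm_eq_P5, ← Finset.sum_add_distrib, ← add_smul, xc_tri_P5 i j k l m hn]

lemma nodup_P5 : ∀ p q r s t : Fin 5, [p, q, r, s, t].Nodup →
    [p, q, s, t].Nodup ∧ [s, t, q, r].Nodup ∧ [q, r, t, p].Nodup ∧ [t, p, r, s].Nodup ∧
      [r, s, p, q].Nodup ∧ [p, r, q, s].Nodup ∧ [q, r, s, t, p].Nodup := by
  decide +kernel

lemma P5.rel {x : Fin 5 → Fin 5 → B} (h : P5 x) {p q r s t : Fin 5} (hn : [p, q, r, s, t].Nodup) :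
    Rel ![x p q, x s t, x q r, x t p, x r s] := by
  obtain ⟨n1, n2, n3, n4, n5, n6, n7⟩ := nodup_P5 p q r s t hn
  refine ⟨h.comm _ _ _ _ n1, h.comm _ _ _ _ n2, h.comm _ _ _ _ n3, h.comm _ _ _ _ n4,
    h.comm _ _ _ _ n5, ?_⟩
  change Commute (x s t - x p q - x q r) (x t p - x q r - x r s)
  have e1 : x s t - x p q - x q r = x p r := by
    rw [← h.tri _ _ _ _ _ hn]
    abel
  have e2 : x t p - x q r - x r s = x q s := by
    rw [← h.tri _ _ _ _ _ n7]
    abel
  rw [e1, e2]
  exact h.comm _ _ _ _ n6

lemma P5.perm {x : Fin 5 → Fin 5 → B} (h : P5 x) (σ : Fin 5 → Fin 5) (hσ : Function.Injective σ) :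
    P5 fun i j => x (σ i) (σ j) :=
  ⟨fun _ _ => h.symm _ _, fun _ _ _ _ hn => h.comm _ _ _ _ (hn.map hσ),
    fun _ _ _ _ _ hn => h.tri _ _ _ _ _ (hn.map hσ)⟩

lemma Rel.t4f {f : Fin 5 → B} (h : Rel f) :
    T4F (f 0) (f 1 - f 0 - f 2) (f 2 - f 3 - f 1) (f 2) (f 3 - f 2 - f 4) (f 4) := by
  constructor
  · unfold Commute SemiconjBy
    linear_combination (norm := noncomm_ring) -h.c40.eq
  · unfold Commute SemiconjBy
    linear_combination (norm := noncomm_ring) h.cx.eq
  · unfold Commute SemiconjBy
    linear_combination (norm := noncomm_ring) -h.c12.eq + h.c23.eq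
  · unfold Commute SemiconjBy
    linear_combination (norm := noncomm_ring) h.c01.eq
  · unfold Commute SemiconjBy
    linear_combination (norm := noncomm_ring) -h.c01.eq + h.c12.eq
  · unfold Commute SemiconjBy
    linear_combination (norm := noncomm_ring) -h.c12.eq
  · unfold Commute SemiconjBy
    linear_combination (norm := noncomm_ring) -h.c01.eq + h.c40.eq
  · unfold Commute SemiconjBy
    linear_combination (norm := noncomm_ring)
      h.c01.eq - h.c23.eq + h.c34.eq - h.c40.eq - h.cx.eq
  · unfold Commute SemiconjBy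
    linear_combination (norm := noncomm_ring) h.c23.eq - h.c34.eq + h.cx.eq
  · unfold Commute SemiconjBy
    linear_combination (norm := noncomm_ring) h.c01.eq - h.c12.eq - h.cx.eq
  · unfold Commute SemiconjBy
    linear_combination (norm := noncomm_ring)
      -h.c01.eq + h.c12.eq - h.c34.eq + h.c40.eq + h.cx.eq
  · unfold Commute SemiconjBy
    linear_combination (norm := noncomm_ring) h.c34.eq - h.c40.eq
  · unfold Commute SemiconjBy
    linear_combination (norm := noncomm_ring) h.c23.eq
  · unfold Commute SemiconjBy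
    linear_combination (norm := noncomm_ring) -h.c23.eq + h.c34.eq
  · unfold Commute SemiconjBy
    linear_combination (norm := noncomm_ring) -h.c34.eq

variable {t12 t13 t14 t23 t24 t34 : B}

lemma T4F.rel (h : T4F t12 t13 t14 t23 t24 t34) :
    Rel ![t12, t12 + t13 + t23, t23, t23 + t24 + t34, t34] := by
  constructor
  · change Commute t12 (t12 + t13 + t23)
    unfold Commute SemiconjBy
    linear_combination (norm := noncomm_ring) h.a12.eq
  · change Commute (t12 + t13 + t23) t23
    unfold Commute SemiconjBy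
    linear_combination (norm := noncomm_ring) -h.a23.eq
  · change Commute t23 (t23 + t24 + t34)
    unfold Commute SemiconjBy
    linear_combination (norm := noncomm_ring) h.e23.eq
  · change Commute (t23 + t24 + t34) t34
    unfold Commute SemiconjBy
    linear_combination (norm := noncomm_ring) -h.e34.eq
  · change Commute t34 t12
    unfold Commute SemiconjBy
    linear_combination (norm := noncomm_ring) -h.d1.eq
  · change Commute ((t12 + t13 + t23) - t12 - t23)
      ((t23 + t24 + t34) - t23 - t34)
    unfold Commute SemiconjBy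
    linear_combination (norm := noncomm_ring) h.d2.eq

/-- the sum of all generators is central -/
lemma T4F.central (h : T4F t12 t13 t14 t23 t24 t34) :
    let c := t12 + t13 + t14 + t23 + t24 + t34
    Commute c t12 ∧ Commute c t13 ∧ Commute c t14 ∧ Commute c t23 ∧ Commute c t24 ∧
      Commute c t34 := by
  dsimp only
  refine ⟨?_, ?_, ?_, ?_, ?_, ?_⟩
  · unfold Commute SemiconjBy
    linear_combination (norm := noncomm_ring) -h.d1.eq - h.a12.eq - h.b12.eq
  · unfold Commute SemiconjBy
    linear_combination (norm := noncomm_ring) -h.d2.eq - h.a13.eq - h.c13.eq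
  · unfold Commute SemiconjBy
    linear_combination (norm := noncomm_ring) -h.d3.eq - h.b14.eq - h.c14.eq
  · unfold Commute SemiconjBy
    linear_combination (norm := noncomm_ring) h.d3.eq - h.a23.eq - h.e23.eq
  · unfold Commute SemiconjBy
    linear_combination (norm := noncomm_ring) h.d2.eq - h.b24.eq - h.e24.eq
  · unfold Commute SemiconjBy
    linear_combination (norm := noncomm_ring) h.d1.eq - h.c34.eq - h.e34.eq

lemma T4F.rel' (h : T4F t12 t13 t14 t23 t24 t34) :
    Rel ![-(t13 + t14 + t23 + t24 + t34), -(t14 + t24 + t34), t23, t23 + t24 + t34, t34] := by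
  constructor
  · change Commute (-(t13 + t14 + t23 + t24 + t34)) (-(t14 + t24 + t34))
    unfold Commute SemiconjBy
    linear_combination (norm := noncomm_ring) h.d2.eq - h.d3.eq + h.c13.eq + h.e23.eq
  · change Commute (-(t14 + t24 + t34)) t23
    unfold Commute SemiconjBy
    linear_combination (norm := noncomm_ring) -h.d3.eq + h.e23.eq
  · change Commute t23 (t23 + t24 + t34)
    unfold Commute SemiconjBy
    linear_combination (norm := noncomm_ring) h.e23.eq
  · change Commute (t23 + t24 + t34) t34
    unfold Commute SemiconjBy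
    linear_combination (norm := noncomm_ring) -h.e34.eq
  · change Commute t34 (-(t13 + t14 + t23 + t24 + t34))
    unfold Commute SemiconjBy
    linear_combination (norm := noncomm_ring) -h.c34.eq - h.e34.eq
  · change Commute ((-(t14 + t24 + t34)) - (-(t13 + t14 + t23 + t24 + t34)) - t23)
      ((t23 + t24 + t34) - t23 - t34)
    unfold Commute SemiconjBy
    linear_combination (norm := noncomm_ring) h.d2.eq

lemma T4F.pent [Algebra R B] (h : T4F t12 t13 t14 t23 t24 t34) {u : T R (Fin 2)}
    (hu : u ∈ Pent R) :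
    ev ![t12, t23 + t24] u + ev ![t13 + t23, t34] u =
      ev ![t23, t34] u + ev ![t12 + t13, t24 + t34] u + ev ![t12, t23] u := by
  have h0 := h.rel.pent hu
  change ev ![t12, t23 + t24 + t34 - t34] u + ev ![t12 + t13 + t23 - t12, t34] u -
    ev ![t23, t34] u - ev ![t12 + t13 + t23 - t23, t23 + t24 + t34 - t23] u -
    ev ![t12, t23] u = 0 at h0
  rw [show t23 + t24 + t34 - t34 = t23 + t24 by abel, show t12 + t13 + t23 - t12 = t13 + t23 by abel,
    show t12 + t13 + t23 - t23 = t12 + t13 by abel,
    show t23 + t24 + t34 - t23 = t24 + t34 by abel] at h0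
  linear_combination (norm := noncomm_ring) h0

end Vale.Agent.P029
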