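import Vale.Agent.P029.Lam
import Vale.Agent.P029.DClo

/-!
Integral consequences of the pentagon equation, valid in every ring.

Plan: 2- and 3-cycle: the identity holds in `T ℚ (Fin 2)` for `bc ℚ ℓ` (`Pent.two_cycle`,
`Pent.three_cycle`, `bc_mem_Hg`, `HT_le_Hg`), pull it back to `T ℤ (Fin 2)` with `bc_injective`
(`ev_bc`, `map_evZ2` for `(bc ℚ).toRingHom`), push it forward by `evZ ![a, b]`.
`pentOp`: in `Module.End ℚ (T ℚ (Fin 3))` use `rep_t4f.pent`, apply to `1`. `shift2`: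
`u(t23, t34) = u(-(t24+t34), t34)` (shift by `t234`), `u(t12+t13, t24+t34) = u(-s, t24+t34)` and
`u(t13+t23, t34) = u(-s, t34)` with `s = t14+t24+t34` (`T4F.central`); these are left
multiplications (`ev_mulLeft`); `u(t12,t23) 1 = 0` since derivations kill `1` and `cf [] u = 0`.
Transfer the identity to `M = T ℤ (Fin 3)` along the injective map `bc ℚ` and then to `C` along
`evZ ![a,b,e]` by `evZ_intertwine` (+ `evZ_der`). Beware of the two `Module ℤ` instances on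
`T ℤ _`: `evZ_intertwine` accepts any.
`ih_mem_Lam`: `ih_mem_HT`, `bc_ih`, `ih_mem_Pent`. `Lam_mem_Y`: `Pent.mem_Y` and `cf_bc`.
-/

namespace Vale.Agent.P029

attribute [local instance 100] LieRing.ofAssociativeRing

variable {n : ℕ} {ℓ : T ℤ (Fin 2)} {C : Type} [Ring C]

lemma pentOp_bc2 {X : Type} (a b : T ℤ X) (u : T ℤ (Fin 2)) :
    bc ℚ (evZ ![a, b] u) = ev ![bc ℚ a, bc ℚ b] (bc ℚ u) := by
  rw [ev_bc]
  exact map_evZ2 (bc ℚ : T ℤ X →ₐ[ℤ] T ℚ X).toRingHom a b u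

lemma pentOp_Hg (h : ℓ ∈ Lam n) : bc ℚ ℓ ∈ Hg ℚ one n := HT_le_Hg n (bc_mem_HT ℚ h.1)

theorem Lam_two_cycle (h : ℓ ∈ Lam n) (a b : C) : evZ ![a, b] ℓ + evZ ![b, a] ℓ = 0 := by
  have h0 : evZ ![(lt 0 : T ℤ (Fin 2)), lt 1] ℓ + evZ ![lt 1, lt 0] ℓ = 0 := by
    apply bc_injective ℚ
    rw [map_add, pentOp_bc2, pentOp_bc2, map_zero]
    exact Pent.two_cycle h.2 (pentOp_Hg h) _ _
  have := congrArg (evZ ![a, b]) h0
  simpa [map_evZ2] using this

theorem Lam_three_cycle (h : ℓ ∈ Lam n) (hn : 3 ≤ n) (a b : C) :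
    evZ ![a, b] ℓ + evZ ![b, -a - b] ℓ + evZ ![-a - b, a] ℓ = 0 := by
  have h0 : evZ ![(lt 0 : T ℤ (Fin 2)), lt 1] ℓ + evZ ![lt 1, -lt 0 - lt 1] ℓ +
      evZ ![-lt 0 - lt 1, lt 0] ℓ = 0 := by
    apply bc_injective ℚ
    rw [map_add, map_add, pentOp_bc2, pentOp_bc2, pentOp_bc2, map_zero, map_sub, map_neg]
    exact Pent.three_cycle h.2 hn (pentOp_Hg h) _ _
  have := congrArg (evZ ![a, b]) h0
  simpa [map_evZ2] using this

lemma pentOp_ring {K B : Type} [CommRing K] [Ring B] [Algebra K B] {t12 t13 t14 t23 t24 t34 : B}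
    (h : T4F t12 t13 t14 t23 t24 t34) {u : T K (Fin 2)} (hu : u ∈ Pent K) (hn : 2 ≤ n)
    (hl : u ∈ HT K one n) :
    ev ![t12, t23 + t24] u = ev ![-(t24 + t34), t34] u + ev ![-(t14 + t24 + t34), t24 + t34] u -
      ev ![-(t14 + t24 + t34), t34] u + ev ![t12, t23] u := by
  obtain ⟨-, -, c14, -, c24, c34⟩ := h.central
  have e1 : ev ![t13 + t23, t34] u = ev ![-(t14 + t24 + t34), t34] u := by
    have e : t13 + t23 - -(t14 + t24 + t34) = t12 + t13 + t14 + t23 + t24 + t34 - t12 := by abel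
    refine shift2 ?_ ?_ (by simp) (by simp) (by simp) hn hl
    · rw [e]
      exact (((c14.add_right c24).add_right c34).sub_left (h.b12.add_right h.d1)).neg_right
    · rw [e]
      exact c34.sub_left h.d1
  have e2 : ev ![t23, t34] u = ev ![-(t24 + t34), t34] u := by
    have e : t23 - -(t24 + t34) = t23 + t24 + t34 := by abel
    have k1 : Commute (t23 + t24 + t34) t34 := h.e34.symm.add_left (Commute.refl _)
    have k2 : Commute (t23 + t24 + t34) t24 := by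
      rw [add_right_comm]
      exact h.e24.symm.add_left (Commute.refl _)
    refine shift2 ?_ ?_ (by simp) (by simp) (by simp) hn hl
    · rw [e]
      exact (k2.add_right k1).neg_right
    · rw [e]
      exact k1
  have e3 : ev ![t12 + t13, t24 + t34] u = ev ![-(t14 + t24 + t34), t24 + t34] u := by
    have e : t12 + t13 - -(t14 + t24 + t34) = t12 + t13 + t14 + t23 + t24 + t34 - t23 := by abel
    refine shift2 ?_ ?_ (by simp) (by simp) (by simp) hn hl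
    · rw [e, add_assoc t14]
      exact ((c14.add_right (c24.add_right c34)).sub_left (h.d3.symm.add_right h.e23)).neg_right
    · rw [e]
      exact (c24.add_right c34).sub_left h.e23
  have := h.pent hu
  rw [e1, e2, e3] at this
  rw [eq_sub_of_add_eq this]
  abel

lemma pentOp_one {K X M : Type} [CommRing K] [AddCommGroup M] [Module K M]
    {P : X → Module.End K M} {m : M} (hP : ∀ i, P i m = 0) (u : T K X) :
    ev P u m = cf [] u • m := by
  refine ind_lt (p := fun u => ev P u m = cf [] u • m) u (by simp [cf_nil_one]) ?_ ?_ ?_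
  · intro i a ha
    simp [ha, hP, cf_nil_lt_mul]
  · intro a b ha hb
    simp [ha, hb, add_smul]
  · intro c a ha
    simp [ha, mul_smul]

lemma pentOp_Lm {K : Type} [CommRing K] (a b : T K (Fin 3)) (u : T K (Fin 2)) :
    ev ![Lm a, Lm b] u 1 = ev ![a, b] u := by
  have := map_ev2 (Algebra.lmul K (T K (Fin 3))) a b u
  change LinearMap.mulLeft K _ = ev ![Lm a, Lm b] u at this
  rw [← this, LinearMap.mulLeft_apply, mul_one]

lemma pentOp_rat {u : T ℚ (Fin 2)} (hu : u ∈ Pent ℚ) (hn : 2 ≤ n) (hl : u ∈ HT ℚ one n) :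
    ev ![d12 ℚ, d23 ℚ + Lm (lt 1)] u 1 =
      ev ![-(lt 1 + lt 2), lt 2] u + ev ![-(lt 0 + lt 1 + lt 2), lt 1 + lt 2] u -
        ev ![-(lt 0 + lt 1 + lt 2), lt 2] u := by
  have e1 : (Lm (lt 1) + Lm (lt 2) : Module.End ℚ (T ℚ (Fin 3))) = Lm (lt 1 + lt 2) :=
    LinearMap.ext fun m => (add_mul _ _ _).symm
  have e2 : (Lm (lt 0) + Lm (lt 1) + Lm (lt 2) : Module.End ℚ (T ℚ (Fin 3))) =
      Lm (lt 0 + lt 1 + lt 2) :=
    LinearMap.ext fun m => by simp [add_mul]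
  have e3 : ∀ a : T ℚ (Fin 3), -Lm a = Lm (-a) := fun a =>
    LinearMap.ext fun m => (neg_mul _ _).symm
  have h0 : cf [] u = 0 := Pent.mem_Y hu [] (by simp)
  have h1 : ev ![d12 ℚ, d23 ℚ] u (1 : T ℚ (Fin 3)) = 0 := by
    rw [pentOp_one (Fin.forall_fin_two.2 ⟨der_one _, der_one _⟩), h0, zero_smul]
  rw [pentOp_ring rep_t4f hu hn hl, e1, e2, e3, e3, LinearMap.add_apply, LinearMap.sub_apply,
    LinearMap.add_apply, h1, add_zero, pentOp_Lm, pentOp_Lm, pentOp_Lm]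

lemma pentOp_inter {S : Type} [CommRing S] [Module S C] {a b e : C} {p q l : Module.End S C}
    (pd : IsDer p) (qd : IsDer q) (pa : p a = a * b - b * a) (pb : p b = b * a - a * b)
    (pe : p e = 0) (qa : q a = 0) (qb : q b = b * e - e * b) (qe : q e = e * b - b * e)
    (hl : ∀ m, l m = b * m) (u : T ℤ (Fin 2)) :
    evZ ![a, b, e] (evZ ![d12 ℤ, d23 ℤ + Lm (lt 1)] u 1) = evZ ![p, q + l] u 1 := by
  have k1 : ∀ m, evZ ![a, b, e] (d12 ℤ m) = p (evZ ![a, b, e] m) := fun m =>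
    evZ_der (δ := p.toAddMonoidHom) pd (fun i => by fin_cases i <;> simp [pa, pb, pe]) m
  have k2 : ∀ m, evZ ![a, b, e] (d23 ℤ m) = q (evZ ![a, b, e] m) := fun m =>
    evZ_der (δ := q.toAddMonoidHom) qd (fun i => by fin_cases i <;> simp [qa, qb, qe]) m
  have := evZ_intertwine (evZ ![a, b, e]).toAddMonoidHom (P := ![d12 ℤ, d23 ℤ + Lm (lt 1)])
    (P' := ![p, q + l]) (Fin.forall_fin_two.2 ⟨k1, fun m => by simp [k2, hl]⟩) u 1
  simpa using this

theorem pentOp (h : ℓ ∈ Lam n) (hn : 3 ≤ n) {a b e : C} {p q : Module.End ℤ C}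
    (hd : Ders a b e p q) :
    evZ ![p, q + LZ b] ℓ 1 =
      evZ ![-(b + e), e] ℓ + evZ ![-(a + b + e), b + e] ℓ - evZ ![-(a + b + e), e] ℓ := by
  have h0 : evZ ![d12 ℤ, d23 ℤ + Lm (lt 1)] ℓ 1 =
      evZ ![-(lt 1 + lt 2), lt 2] ℓ + evZ ![-(lt 0 + lt 1 + lt 2), lt 1 + lt 2] ℓ -
        evZ ![-(lt 0 + lt 1 + lt 2), lt 2] ℓ := by
    apply bc_injective ℚ
    have e : ![(lt 0 : T ℚ (Fin 3)), lt 1, lt 2] = lt := by
      ext1 i
      fin_cases i <;> rfl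
    have k := pentOp_inter (a := (lt 0 : T ℚ (Fin 3))) (b := lt 1) (e := lt 2) (p := d12 ℚ)
      (q := d23 ℚ) (l := Lm (lt 1)) (isDer_der _) (isDer_der _) (der_lt _ _) (der_lt _ _)
      (der_lt _ _) (der_lt _ _) (der_lt _ _) (der_lt _ _) (fun _ => rfl) ℓ
    rw [e, evZ_lt_eq_bc, ← ev_bc (S := ℚ) ![d12 ℚ, d23 ℚ + Lm (lt 1)],
      pentOp_rat h.2 (by omega) (bc_mem_HT ℚ h.1)] at k
    rw [k, map_sub, map_add, pentOp_bc2, pentOp_bc2, pentOp_bc2]
    simp only [map_neg, map_add, bc_lt]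
  rw [← pentOp_inter hd.pd hd.qd hd.pa hd.pb hd.pe hd.qa hd.qb hd.qe (fun _ => rfl) ℓ, h0]
  simp [map_evZ2]

theorem Lam_mem_Y (h : ℓ ∈ Lam n) : ℓ ∈ Fil ℤ wy 1 := by
  intro w hw
  have := Pent.mem_Y h.2 w hw
  rw [cf_bc] at this
  simpa using this

theorem ih_mem_Lam {m : ℕ} {ℓ' : T ℤ (Fin 2)} (h : ℓ ∈ Lam m) (hm : 3 ≤ m) (h' : ℓ' ∈ Lam n)
    (hn : 3 ≤ n) : ih ℓ ℓ' ∈ Lam (m + n) := by
  refine ⟨ih_mem_HT h.1 h'.1, ?_⟩
  rw [bc_ih]
  exact ih_mem_Pent h.2 hm (pentOp_Hg h) h'.2 hn (pentOp_Hg h')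

theorem kap_ih {m k : ℕ} {ℓ' : T ℤ (Fin 2)} (h : ℓ ∈ Lam m) (h' : ℓ' ∈ Lam n) :
    kap k (ih ℓ ℓ') = 0 :=
  kap_of_Y (ih_mem_Y (Lam_mem_Y h) (Lam_mem_Y h'))

end Vale.Agent.P029
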