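import Vale.Agent.P029.Alg

/-!
`pw A z = z ^ A = exp (log z • A)` in a real Banach algebra, canonical solutions of the KZ equation
and associators (definitions).

Plan: use `letI : NormedAlgebra ℚ V := NormedAlgebra.restrictScalars ℚ ℝ V` inside proofs for
`NormedSpace.exp_add_of_commute`, `NormedSpace.map_exp`, `Commute.exp_right`;
`hasDerivAt_exp_smul_const'`. `pw_bound`: if `A ^ N = 0`, `exp (t • A) = ∑ k < N, (t^k / k!) • A ^ k`
(`NormedSpace.exp_series_hasSum_exp'` and `hasSum_sum_of_ne_finset_zero`) and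
`|log z| ^ k ≤ C * z ^ (-δ)` on `(0, 1]` (`Real.abs_log_mul_self_rpow_lt`, or `x ^ k / k! ≤ exp x`
with `x = δ |log z|`). `pw_left`/`pw_right`: apply the functional to the exponential series.
-/

namespace Vale.Agent.P029

open Set

variable {V V' : Type} [NormedRing V] [NormedAlgebra ℝ V] [CompleteSpace V] [NormedRing V']
  [NormedAlgebra ℝ V'] [CompleteSpace V']

noncomputable def pw (A : V) (z : ℝ) : V := NormedSpace.exp (Real.log z • A)

/-- the solution of `G' = (A / z + B / (z - 1)) G` on `(0, 1)` with `G ∼ z ^ A` at `0` -/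
structure IsCan (A B : V) (G : ℝ → V) : Prop where
  deriv : ∀ z ∈ Ioo (0 : ℝ) 1, HasDerivAt G ((z⁻¹ • A + (z - 1)⁻¹ • B) * G z) z
  unit : ∀ z ∈ Ioo (0 : ℝ) 1, IsUnit (G z)
  asym : ∃ C : ℝ, ∀ z ∈ Ioc (0 : ℝ) (1 / 2), ‖pw (-A) z * G z - 1‖ ≤ C * √z

/-- `Φ` is the KZ associator of the pair `(A, B)` -/
def IsAssoc (A B Φ : V) : Prop :=
  ∃ G0 G1, IsCan A B G0 ∧ IsCan B A G1 ∧ ∀ z ∈ Ioo (0 : ℝ) 1, G0 z = G1 (1 - z) * Φ

lemma pw_add {A B : V} (h : Commute A B) (z : ℝ) : pw (A + B) z = pw A z * pw B z := by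
  let : NormedAlgebra ℚ V := NormedAlgebra.restrictScalars ℚ ℝ V
  rw [pw, smul_add]
  exact NormedSpace.exp_add_of_commute ((h.smul_left _).smul_right _)

omit [CompleteSpace V] in
@[simp] lemma pw_zero (z : ℝ) : pw (0 : V) z = 1 := by simp [pw]

omit [CompleteSpace V] in
@[simp] lemma pw_one (A : V) : pw A 1 = 1 := by simp [pw]

lemma pw_neg_mul (A : V) (z : ℝ) : pw (-A) z * pw A z = 1 := by
  rw [← pw_add (Commute.refl A).neg_left, neg_add_cancel, pw_zero]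

lemma pw_mul_neg (A : V) (z : ℝ) : pw A z * pw (-A) z = 1 := by
  rw [← pw_add (Commute.refl A).neg_right, add_neg_cancel, pw_zero]

lemma isUnit_pw (A : V) (z : ℝ) : IsUnit (pw A z) := by
  exact ⟨⟨pw A z, pw (-A) z, pw_mul_neg A z, pw_neg_mul A z⟩, rfl⟩

lemma pw_mul (A : V) {z w : ℝ} (hz : 0 < z) (hw : 0 < w) : pw A (z * w) = pw A z * pw A w := by
  let : NormedAlgebra ℚ V := NormedAlgebra.restrictScalars ℚ ℝ V
  rw [pw, Real.log_mul hz.ne' hw.ne', add_smul]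
  exact NormedSpace.exp_add_of_commute (((Commute.refl A).smul_left _).smul_right _)

lemma pw_inv (A : V) (z : ℝ) : pw A z⁻¹ = pw (-A) z := by
  rw [pw, pw, Real.log_inv, neg_smul, smul_neg]

lemma commute_pw {c A : V} (h : Commute c A) (z : ℝ) : Commute c (pw A z) := by
  exact (h.smul_right _).exp_right

lemma hasDerivAt_pw (A : V) {z : ℝ} (hz : 0 < z) : HasDerivAt (pw A) ((z⁻¹ • A) * pw A z) z := by
  have h := (hasDerivAt_exp_smul_const' A (Real.log z)).scomp z (Real.hasDerivAt_log hz.ne')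
  rw [smul_mul_assoc]
  exact h

lemma continuousOn_pw (A : V) : ContinuousOn (pw A) (Ioi 0) := by
  exact fun z hz => (hasDerivAt_pw A hz).continuousAt.continuousWithinAt

lemma map_pw (φ : V →ₐ[ℝ] V') (hφ : Continuous φ) (A : V) (z : ℝ) :
    φ (pw A z) = pw (φ A) z := by
  let : NormedAlgebra ℚ V := NormedAlgebra.restrictScalars ℚ ℝ V
  let : NormedAlgebra ℚ V' := NormedAlgebra.restrictScalars ℚ ℝ V'
  rw [pw, pw, NormedSpace.map_exp φ hφ, map_smul]


lemma Pw_hasSum (A : V) (z : ℝ) :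
    HasSum (fun n : ℕ => ((n.factorial : ℝ)⁻¹ * Real.log z ^ n) • A ^ n) (pw A z) := by
  have h := NormedSpace.exp_series_hasSum_exp' (𝕂 := ℝ) (Real.log z • A)
  simp only [smul_pow, smul_smul] at h
  exact h

lemma pw_bound {A : V} (hA : IsNilpotent A) {δ : ℝ} (hδ : 0 < δ) :
    ∃ C : ℝ, 0 ≤ C ∧ ∀ z ∈ Ioc (0 : ℝ) 1, ‖pw A z‖ ≤ C * z ^ (-δ) := by
  obtain ⟨N, hN⟩ := hA
  refine ⟨∑ k ∈ Finset.range N, δ⁻¹ ^ k * ‖A ^ k‖, by positivity, fun z hz => ?_⟩
  have h1 : pw A z = ∑ k ∈ Finset.range N, ((k.factorial : ℝ)⁻¹ * Real.log z ^ k) • A ^ k := by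
    refine (Pw_hasSum A z).unique (hasSum_sum_of_ne_finset_zero fun k hk => ?_)
    rw [pow_eq_zero_of_le (by simpa using hk) hN, smul_zero]
  rw [h1, Finset.sum_mul]
  refine norm_sum_le_of_le _ fun k _ => ?_
  have hl : Real.log z ≤ 0 := Real.log_nonpos hz.1.le hz.2
  have h2 := Real.pow_div_factorial_le_exp (δ * |Real.log z|) (by positivity) k
  have h3 : Real.exp (δ * |Real.log z|) = z ^ (-δ) := by
    rw [Real.rpow_def_of_pos hz.1, abs_of_nonpos hl]
    congr 1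
    ring
  rw [norm_smul, mul_right_comm, Real.norm_eq_abs, abs_mul, abs_pow, abs_inv, Nat.abs_cast]
  refine mul_le_mul_of_nonneg_right ?_ (norm_nonneg _)
  rw [← h3]
  refine le_trans (le_of_eq ?_) (mul_le_mul_of_nonneg_left h2 (by positivity))
  rw [mul_pow, inv_pow]
  field_simp

/-- `z ^ A` is Lipschitz near `z = 1` -/
lemma pw_near_one (A : V) :
    ∃ C : ℝ, 0 ≤ C ∧ ∀ z ∈ Icc (1 / 2 : ℝ) 2, ‖pw A z - 1‖ ≤ C * |z - 1| := by
  have hsub : Icc (1 / 2 : ℝ) 2 ⊆ Ioi 0 := fun z hz => lt_of_lt_of_le (by norm_num) hz.1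
  have hc : ContinuousOn (fun z : ℝ => (z⁻¹ • A) * pw A z) (Icc (1 / 2 : ℝ) 2) :=
    ((continuousOn_inv₀.mono fun z hz => (hsub hz).ne').smul continuousOn_const).mul
      ((continuousOn_pw A).mono hsub)
  obtain ⟨C, hC⟩ := isCompact_Icc.exists_bound_of_continuousOn hc
  have h1 : (1 : ℝ) ∈ Icc (1 / 2 : ℝ) 2 := by constructor <;> norm_num
  refine ⟨C, (norm_nonneg _).trans (hC 1 h1), fun z hz => ?_⟩
  have := (convex_Icc (1 / 2 : ℝ) 2).norm_image_sub_le_of_norm_hasDerivWithin_le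
    (fun z hz => (hasDerivAt_pw A (hsub hz)).hasDerivWithinAt) hC h1 hz
  rwa [pw_one] at this

lemma pw_left (lam : V →L[ℝ] ℝ) {A : V} (h : ∀ v, lam (A * v) = 0) (z : ℝ) (u : V) :
    lam (pw A z * u) = lam u := by
  have h1 := ((Pw_hasSum A z).mul_right u).mapL lam
  refine h1.unique ?_
  have h2 := hasSum_single (f := fun n : ℕ =>
    lam ((((n.factorial : ℝ)⁻¹ * Real.log z ^ n) • A ^ n) * u)) 0 (fun n hn => by
      obtain ⟨k, rfl⟩ := Nat.exists_eq_succ_of_ne_zero hn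
      rw [smul_mul_assoc, map_smul, pow_succ' A, mul_assoc A, h, smul_zero])
  simpa using h2

lemma pw_right (lam : V →L[ℝ] ℝ) {A : V} (h : ∀ v, lam (v * A) = 0) (z : ℝ) :
    lam (pw A z) = lam 1 := by
  have h1 := (Pw_hasSum A z).mapL lam
  refine h1.unique ?_
  have h2 := hasSum_single (f := fun n : ℕ =>
    lam (((n.factorial : ℝ)⁻¹ * Real.log z ^ n) • A ^ n)) 0 (fun n hn => by
      obtain ⟨k, rfl⟩ := Nat.exists_eq_succ_of_ne_zero hn
      rw [map_smul, pow_succ A, h, smul_zero])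
  simpa using h2

end Vale.Agent.P029
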