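import Vale.Agent.P029.Alg

/-!
The universal truncated KZ associator as an element of `T ℝ (Fin 2)`.

Plan: `exists_trunc`: `B` acts on the finite dimensional space `B ⧸ F N ≃ (Fin d → ℝ)`, with kernel
`F N`; take `V` = range of `B →ₐ ((Fin d → ℝ) →L[ℝ] (Fin d → ℝ))` (a subalgebra of a normed algebra),
or the quotient by the two sided ideal `F N` with `NormedRing.induced`/`NormedAlgebra.induced`.
`exists_univ`: `V0` = truncation of `T ℝ (Fin 2)` (`finite_quot_Fil`), filtration `IsFil.map`,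
`exists_can`, `exists_assoc`; lift `Φ0 = q Φ`. For `a b ∈ F 1`, `ev ![a,b]` kills `Fil (n+1)`
(`ev_mem_fil`), so it factors through `q` (`AlgHom.liftOfSurjective`), continuous in finite dimension;
`IsAssoc.map`. The `Y` statement: `isAssoc_zero_right` + `IsAssoc.unique` in `V0` give
`ev ![x,0] Φ - 1 ∈ Fil (n+1)`, then `sub_ev_x0_mem`. `kap`: `kappa_neg` with `m = n - 1`,
`mu (q u) = cf [] u`, `lam k (q u) = cf (replicate k 0 ++ [1]) u` for `k ≤ m` (`0` otherwise);
`cf_cons_lt_mul`, `cf_nil_lt_mul`, `cf_concat_mul_lt`.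
`exists_Phi`: `V` = truncation of `A ℝ` (`A ⧸ JA (n+1)` is a quotient of `T ⧸ Fil (n+1)`),
`f i = q (ag i)`, `penta_prod` with `Φi = ev ![f i, f (i+2)] Φ`; `IsAssoc.shift` + `unique` give
`h2 f Φ = ev ![f 0, f 3] Φ`, `h3 f Φ = ev ![f 1, f 4] Φ`, `h5 f Φ = ev ![f 1, f 3] Φ`, and `mul_swap`
gives `ev ![f 0, f 3] Φ * Φ3 = 1`, `ev ![f 1, f 4] Φ * Φ4 = 1`.
-/

namespace Vale.Agent.P029

/-- left multiplication on the quotient module -/
noncomputable def univAct {B : Type} [Ring B] [Algebra ℝ B] {F : ℕ → Submodule ℝ B} (hF : IsFil F)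
    (N : ℕ) : B →ₐ[ℝ] Module.End ℝ (B ⧸ F N) :=
  AlgHom.ofLinearMap
    { toFun := fun a => (F N).mapQ (F N) (LinearMap.mulLeft ℝ a) fun _ hb => hF.mul_left a hb
      map_add' := fun a b => by
        refine Submodule.linearMap_qext _ (LinearMap.ext fun c => ?_)
        change (F N).mkQ ((a + b) * c) = (F N).mkQ (a * c) + (F N).mkQ (b * c)
        rw [add_mul, map_add]
      map_smul' := fun r a => by
        refine Submodule.linearMap_qext _ (LinearMap.ext fun c => ?_)
        change (F N).mkQ ((r • a) * c) = r • (F N).mkQ (a * c)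
        rw [smul_mul_assoc, map_smul] }
    (by
      refine Submodule.linearMap_qext _ (LinearMap.ext fun c => ?_)
      simp)
    (fun a b => by
      refine Submodule.linearMap_qext _ (LinearMap.ext fun c => ?_)
      change Submodule.Quotient.mk ((a * b) * c) = Submodule.Quotient.mk (a * (b * c))
      rw [mul_assoc])

lemma univAct_mk {B : Type} [Ring B] [Algebra ℝ B] {F : ℕ → Submodule ℝ B} (hF : IsFil F)
    (N : ℕ) (a c : B) :
    univAct hF N a (Submodule.Quotient.mk c) = Submodule.Quotient.mk (a * c) := rfl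

lemma univAct_eq_zero {B : Type} [Ring B] [Algebra ℝ B] {F : ℕ → Submodule ℝ B} (hF : IsFil F)
    (N : ℕ) (a : B) : univAct hF N a = 0 ↔ a ∈ F N := by
  constructor
  · intro h
    have := univAct_mk hF N a 1
    rw [h, mul_one] at this
    exact (Submodule.Quotient.mk_eq_zero _).1 this.symm
  · intro h
    refine Submodule.linearMap_qext _ (LinearMap.ext fun c => ?_)
    have : univAct hF N a (Submodule.Quotient.mk c) = 0 := by
      rw [univAct_mk]; exact (Submodule.Quotient.mk_eq_zero _).2 (hF.mul_right c h)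
    simpa using this

theorem exists_trunc {B : Type} [Ring B] [Algebra ℝ B] {F : ℕ → Submodule ℝ B} (hF : IsFil F)
    (N : ℕ) (hfin : Module.Finite ℝ (B ⧸ F N)) :
    ∃ (V : Type) (_ : NormedRing V) (_ : NormedAlgebra ℝ V) (_ : FiniteDimensional ℝ V)
      (q : B →ₐ[ℝ] V), Function.Surjective q ∧ ∀ a, q a = 0 ↔ a ∈ F N := by
  let d := Module.finrank ℝ (B ⧸ F N)
  let e : (B ⧸ F N) ≃ₗ[ℝ] (Fin d → ℝ) := (Module.finBasis ℝ (B ⧸ F N)).equivFun
  let e1 : Module.End ℝ (B ⧸ F N) ≃ₐ[ℝ] Module.End ℝ (Fin d → ℝ) := e.conjAlgEquiv ℝ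
  let e2 : Module.End ℝ (Fin d → ℝ) ≃ₐ[ℝ] ((Fin d → ℝ) →L[ℝ] (Fin d → ℝ)) :=
    Module.End.toContinuousLinearMap (Fin d → ℝ)
  let φ : B →ₐ[ℝ] ((Fin d → ℝ) →L[ℝ] (Fin d → ℝ)) :=
    ((e1.trans e2 : _ ≃ₐ[ℝ] _) : _ →ₐ[ℝ] _).comp (univAct hF N)
  refine ⟨φ.range, inferInstance, inferInstance,
    FiniteDimensional.finiteDimensional_subalgebra φ.range, φ.rangeRestrict,
    φ.rangeRestrict_surjective, fun a => ?_⟩
  rw [← univAct_eq_zero hF N, ← Subtype.coe_inj]
  exact map_eq_zero_iff (e1.trans e2) (e1.trans e2).injective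

end Vale.Agent.P029
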