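import Vale.Agent.P029.Univ
import Vale.Agent.P029.Can
import Vale.Agent.P029.Kappa

/-!
The universal truncated KZ associator as an element of `T ℝ (Fin 2)`.

Plan: `exists_trunc`: `B` acts on the finite dimensional space `B ⧸ F N ≃ (Fin d → ℝ)`, with kernel
`F N`; take `V` = range of `B →ₐ ((Fin d → ℝ) →L[ℝ] (Fin d → ℝ))` (a subalgebra of a normed algebra),
or the quotient by the two sided ideal `F N` with `NormedRing.induced`/`NormedAlgebra.induced`.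
`exists_univ`: `V0` = truncation of `T ℝ (Fin 2)` (`finite_quot_Fil`), filtration `IsFil.map`,
`exists_can`, `exists_assoc`; lift `Φ0 = q Φ`. For `a b ∈ F 1`, `ev ![a,b]` kills `Fil (n+1)`
(`ev_mem_fil`), so it factors through `q` (`AlgHom.liftOfSurjective`), continuous in finite dimension;
`IsAssoc.map`. The `Y` statement: `isAssoc_zero_right` + `IsAssoc.unique` in `V0` give
`ev ![x,0] Φ - 1 ∈ Fil (n+1)`, then `sub_ev_x0_mem`. `kap`: `kappa_neg` with `m = n - 1`,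
`mu (q u) = cf [] u`, `lam k (q u) = cf (replicate k 0 ++ [1]) u` for `k ≤ m` (`0` otherwise);
`cf_cons_lt_mul`, `cf_nil_lt_mul`, `cf_concat_mul_lt`.
`exists_Phi`: `V` = truncation of `A ℝ` (`A ⧸ JA (n+1)` is a quotient of `T ⧸ Fil (n+1)`),
`f i = q (ag i)`, `penta_prod` with `Φi = ev ![f i, f (i+2)] Φ`; `IsAssoc.shift` + `unique` give
`h2 f Φ = ev ![f 0, f 3] Φ`, `h3 f Φ = ev ![f 1, f 4] Φ`, `h5 f Φ = ev ![f 1, f 3] Φ`, and `mul_swap`
gives `ev ![f 0, f 3] Φ * Φ3 = 1`, `ev ![f 1, f 4] Φ * Φ4 = 1`.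
-/

namespace Vale.Agent.P029

lemma univb_lin {B V : Type} [AddCommGroup B] [Module ℝ B] [AddCommGroup V] [Module ℝ V]
    (q : B →ₗ[ℝ] V) (hq : Function.Surjective q) : ∃ g : V →ₗ[ℝ] B, ∀ u, q (g (q u) - u) = 0 := by
  obtain ⟨g, hg⟩ := q.exists_rightInverse_of_surjective (LinearMap.range_eq_top.2 hq)
  refine ⟨g, fun u => ?_⟩
  have h : q (g (q u)) = q u := DFunLike.congr_fun hg (q u)
  rw [map_sub, h, sub_self]

lemma univb_alg {B V W : Type} [Ring B] [Algebra ℝ B] [Ring V] [Algebra ℝ V] [Ring W]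
    [Algebra ℝ W] (q : B →ₐ[ℝ] V) (hq : Function.Surjective q) (ψ : B →ₐ[ℝ] W)
    (h : ∀ a, q a = 0 → ψ a = 0) : ∃ φ : V →ₐ[ℝ] W, ∀ u, φ (q u) = ψ u := by
  obtain ⟨g, hg⟩ := univb_lin q.toLinearMap hq
  have key : ∀ u, (ψ.toLinearMap ∘ₗ g) (q u) = ψ u := fun u => by
    have h1 := h _ (hg u)
    rwa [map_sub, sub_eq_zero] at h1
  refine ⟨AlgHom.ofLinearMap (ψ.toLinearMap ∘ₗ g) ?_ fun a b => ?_, key⟩
  · rw [← map_one q, key, map_one]
  · obtain ⟨a, rfl⟩ := hq a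
    obtain ⟨b, rfl⟩ := hq b
    rw [← map_mul q, key, key, key, map_mul]

lemma univb_kap {V : Type} [NormedRing V] [NormedAlgebra ℝ V] [FiniteDimensional ℝ V]
    [CompleteSpace V] {n : ℕ} (hn : 2 ≤ n) (q : T ℝ (Fin 2) →ₐ[ℝ] V) (hq : Function.Surjective q)
    (hker : ∀ a, q a = 0 → a ∈ Fil ℝ one (n + 1)) (hA : IsNilpotent (q (lt 0)))
    (hB : IsNilpotent (q (lt 1))) {Φ : T ℝ (Fin 2)} (h : IsAssoc (q (lt 0)) (q (lt 1)) (q Φ)) :
    kap n Φ < 0 := by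
  obtain ⟨g, hg⟩ := univb_lin q.toLinearMap hq
  let L : List (Fin 2) → V →L[ℝ] ℝ := fun w => LinearMap.toContinuousLinearMap (cf w ∘ₗ g)
  have hL : ∀ w : List (Fin 2), w.length ≤ n → ∀ u, L w (q u) = cf w u := fun w hw u => by
    have h1 := hker _ (hg u) w (by rw [wgt_one]; omega)
    rwa [map_sub, sub_eq_zero] at h1
  have h0 : ∀ u, L [] (q u) = cf [] u := hL [] (Nat.zero_le n)
  have hk : ∀ k ≤ n - 1, ∀ u, L (List.replicate k 0 ++ [1]) (q u) =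
      cf (List.replicate k 0 ++ [1]) u := fun k hk => hL _ (by simp; omega)
  have key := kappa_neg hA hB h (L []) (fun k => L (List.replicate k 0 ++ [1])) (m := n - 1)
    (by omega) (by rw [← map_one q, h0, cf_nil_one]) ?_ ?_ ?_ ?_ ?_ ?_ ?_ ?_
  · rwa [hk _ le_rfl] at key
  · intro v
    obtain ⟨u, rfl⟩ := hq v
    rw [← map_mul, h0, cf_nil_lt_mul]
  · intro v
    obtain ⟨u, rfl⟩ := hq v
    rw [← map_mul, h0, cf_nil_lt_mul]
  · intro v
    obtain ⟨u, rfl⟩ := hq v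
    rw [← map_mul, hk 0 (Nat.zero_le _)]
    exact (cf_cons_lt_mul 0 1 [] u).trans (if_neg (by decide))
  · intro v
    obtain ⟨u, rfl⟩ := hq v
    rw [← map_mul, hk 0 (Nat.zero_le _), h0]
    exact (cf_cons_lt_mul 1 1 [] u).trans (if_pos rfl)
  · intro k hk' v
    obtain ⟨u, rfl⟩ := hq v
    rw [← map_mul, hk _ hk', hk _ hk'.le]
    exact (cf_cons_lt_mul 0 0 _ u).trans (if_pos rfl)
  · intro k hk' v
    obtain ⟨u, rfl⟩ := hq v
    rw [← map_mul, hk _ hk']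
    exact (cf_cons_lt_mul 1 0 _ u).trans (if_neg (by decide))
  · intro k hk'
    rw [← map_one q, hk _ hk']
    exact cf_wd_ne (w := []) (by simp)
  · intro k hk' v
    obtain ⟨u, rfl⟩ := hq v
    rw [← map_mul, hk _ hk', cf_concat_mul_lt, if_neg (by decide)]

theorem exists_univ {n : ℕ} (hn : 2 ≤ n) : ∃ Φ : T ℝ (Fin 2),
    (∀ (V : Type) [NormedRing V] [NormedAlgebra ℝ V] [CompleteSpace V] (F : ℕ → Submodule ℝ V),
      IsFil F → F (n + 1) = ⊥ → ∀ a ∈ F 1, ∀ b ∈ F 1, IsAssoc a b (ev ![a, b] Φ)) ∧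
    Φ - 1 ∈ Fil ℝ wy 1 ⊔ Fil ℝ one (n + 1) ∧ kap n Φ ≠ 0 := by
  obtain ⟨V0, _, _, _, q, hq, hker⟩ :=
    exists_trunc (isFil_Fil (R := ℝ) (one : Fin 2 → ℕ)) (n + 1) (finite_quot_Fil (n + 1))
  have : CompleteSpace V0 := FiniteDimensional.complete ℝ V0
  have hF := (isFil_Fil (R := ℝ) (one : Fin 2 → ℕ)).map q hq
  have hN : (Fil ℝ (one : Fin 2 → ℕ) (n + 1)).map q.toLinearMap = ⊥ := by
    rw [eq_bot_iff]
    rintro _ ⟨a, ha, rfl⟩
    exact (hker a).2 ha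
  have hl : ∀ i, q (lt i) ∈ (Fil ℝ (one : Fin 2 → ℕ) 1).map q.toLinearMap := fun i =>
    ⟨lt i, lt_mem_Fil one i, rfl⟩
  obtain ⟨G0, hG0⟩ := exists_can hF hN (hl 0) (hl 1)
  obtain ⟨G1, hG1⟩ := exists_can hF hN (hl 1) (hl 0)
  obtain ⟨Φ0, hΦ⟩ := exists_assoc hG0 hG1
  obtain ⟨Φ, rfl⟩ := hq Φ0
  have huniv : ∀ (V : Type) [NormedRing V] [NormedAlgebra ℝ V] [CompleteSpace V]
      (F : ℕ → Submodule ℝ V), IsFil F → F (n + 1) = ⊥ → ∀ a ∈ F 1, ∀ b ∈ F 1,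
      IsAssoc a b (ev ![a, b] Φ) := by
    intro V _ _ _ F hF' hN' a ha b hb
    obtain ⟨φ, hφ⟩ := univb_alg q hq (ev ![a, b]) fun u hu => by
      have h1 := ev_mem_fil hF' (wt := one) (f := ![a, b])
        (fun i => by fin_cases i; exacts [ha, hb]) ((hker u).1 hu)
      rwa [hN', Submodule.mem_bot] at h1
    have h2 := hΦ.map φ φ.toLinearMap.continuous_of_finiteDimensional
    rwa [hφ, hφ, hφ, ev_lt, ev_lt] at h2
  refine ⟨Φ, huniv, ?_, (univb_kap hn q hq (fun a => (hker a).1) (hF.isNilpotent hN (hl 0))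
    (hF.isNilpotent hN (hl 1)) hΦ).ne⟩
  have h1 := (huniv V0 _ hF hN _ (hl 0) 0 (zero_mem _)).unique (isAssoc_zero_right _)
  have h2 : q (ev ![(lt 0 : T ℝ (Fin 2)), 0] Φ - 1) = 0 := by
    rw [map_sub, map_ev2, map_zero, h1, map_one, sub_self]
  rw [← sub_add_sub_cancel Φ (ev ![(lt 0 : T ℝ (Fin 2)), 0] Φ) 1]
  exact Submodule.add_mem_sup (sub_ev_x0_mem Φ) ((hker _).1 h2)

end Vale.Agent.P029
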